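import Mathlib
import Crest.Prelude.Def_ComplexSurface
import Crest.Agent.R266.SCV

/-!
R275 (S0418), helper284, block SMP1: local geometry of a curve `C = {s = 0}` of a complex surface
whose conormal sections have exactly one simple zero.
-/

set_option autoImplicit false
set_option linter.unusedSectionVars false

open Set Filter Topology Metric Crest.AlgGeometry.Surface
open scoped Manifold ContDiff

noncomputable section

namespace Crest.Agent.R275.Smp284

variable {M : Type} [TopologicalSpace M] [ChartedSpace C2 M] [IsManifold 𝓘(ℂ, C2) 1 M]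

/-! ### Holomorphic functions in charts -/

variable {F : Type} [NormedAddCommGroup F] [NormedSpace ℂ F] [CompleteSpace F]

/-- holomorphic maps read in a chart -/
theorem analyticOnNhd_chart {f : M → F} {U : Set M} (hU : IsOpen U)
    (hf : ContMDiffOn 𝓘(ℂ, C2) 𝓘(ℂ, F) 1 f U) (p : M) :
    AnalyticOnNhd ℂ (f ∘ (chartAt C2 p).symm)
      ((chartAt C2 p).target ∩ (chartAt C2 p).symm ⁻¹' U) := by
  set e := chartAt C2 p with he
  have hopen : IsOpen (e.target ∩ e.symm ⁻¹' U) := e.isOpen_inter_preimage_symm hU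
  have h1 : ContMDiffOn 𝓘(ℂ, C2) 𝓘(ℂ, C2) 1 e.symm e.target :=
    contMDiffOn_chart_symm
  have h2 : ContMDiffOn 𝓘(ℂ, C2) 𝓘(ℂ, F) 1 (f ∘ e.symm) (e.target ∩ e.symm ⁻¹' U) :=
    hf.comp (h1.mono inter_subset_left) (fun z hz => hz.2)
  exact Crest.Agent.R266.SCV.analyticOnNhd_of_differentiableOn hopen
    ((contMDiffOn_iff_contDiffOn.1 h2).differentiableOn (by norm_num))

/-- a map which is analytic in the chart at `p` is holomorphic near `p` -/
theorem contMDiffAt_of_chart {f : M → F} {p : M}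
    (hf : AnalyticAt ℂ (f ∘ (chartAt C2 p).symm) (chartAt C2 p p)) :
    ContMDiffAt 𝓘(ℂ, C2) 𝓘(ℂ, F) 1 f p := by
  set e := chartAt C2 p with he
  have hp : p ∈ e.source := mem_chart_source C2 p
  have h1 : ContMDiffAt 𝓘(ℂ, C2) 𝓘(ℂ, C2) 1 e p := contMDiffAt_of_mem_maximalAtlas
    (IsManifold.chart_mem_maximalAtlas p) hp
  have h2 : ContMDiffAt 𝓘(ℂ, C2) 𝓘(ℂ, F) 1 (f ∘ e.symm) (e p) :=
    (hf.contDiffAt (n := 1)).contMDiffAt
  have h3 : ContMDiffAt 𝓘(ℂ, C2) 𝓘(ℂ, F) 1 ((f ∘ e.symm) ∘ e) p := h2.comp p h1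
  refine h3.congr_of_eventuallyEq ?_
  filter_upwards [e.open_source.mem_nhds hp] with q hq
  simp [e.left_inv hq]


/-! ### Generators of the maximal ideal have independent differentials -/

/-- `u` is a combination of `f` and `h` near `p`, with holomorphic coefficients -/
def InIdeal (f h u : M → ℂ) (p : M) : Prop :=
  ∃ α β : M → ℂ, ContMDiffAt 𝓘(ℂ, C2) 𝓘(ℂ, ℂ) 1 α p ∧ ContMDiffAt 𝓘(ℂ, C2) 𝓘(ℂ, ℂ) 1 β p ∧
    ∀ᶠ q in 𝓝 p, u q = α q * f q + β q * h q

/-- a holomorphic function is differentiable in the chart at `p` -/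
theorem differentiableAt_chart {f : M → F} {p : M}
    (hf : ContMDiffAt 𝓘(ℂ, C2) 𝓘(ℂ, F) 1 f p) :
    DifferentiableAt ℂ (f ∘ (chartAt C2 p).symm) (chartAt C2 p p) := by
  set e := chartAt C2 p with he
  have hp : p ∈ e.source := mem_chart_source C2 p
  have h1 : ContMDiffAt 𝓘(ℂ, C2) 𝓘(ℂ, C2) 1 e.symm (e p) :=
    (contMDiffOn_chart_symm (x := p)).contMDiffAt (e.open_target.mem_nhds (e.map_source hp))
  have h2 : ContMDiffAt 𝓘(ℂ, C2) 𝓘(ℂ, F) 1 f (e.symm (e p)) := by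
    rw [e.left_inv hp]; exact hf
  exact (h2.comp (e p) h1).contDiffAt.differentiableAt (by norm_num)

/-- the derivative of `f` at `p`, read in the preferred chart at `p` -/
def dch (f : M → ℂ) (p : M) : C2 →L[ℂ] ℂ :=
  fderiv ℂ (f ∘ (chartAt C2 p).symm) (chartAt C2 p p)

/-- the pair of differentials is injective -/
def Indep (f h : M → ℂ) (p : M) : Prop := ∀ v : C2, dch f p v = 0 → dch h p v = 0 → v = 0

theorem indep_of_inIdeal {f h : M → ℂ} {p : M}
    (hf : ContMDiffAt 𝓘(ℂ, C2) 𝓘(ℂ, ℂ) 1 f p) (hh : ContMDiffAt 𝓘(ℂ, C2) 𝓘(ℂ, ℂ) 1 h p)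
    (hf0 : f p = 0) (hh0 : h p = 0)
    (H : ∀ k : Fin 2, InIdeal f h (fun q => chartAt C2 p q k - chartAt C2 p p k) p) :
    Indep f h p := by
  intro v hv1 hv2
  set e := chartAt C2 p with he
  have hp : p ∈ e.source := mem_chart_source C2 p
  have hlp : e.symm (e p) = p := e.left_inv hp
  ext k
  obtain ⟨α, β, hα, hβ, hab⟩ := H k
  have hcs : ContinuousAt e.symm (e p) := e.continuousAt_symm (e.map_source hp)
  have h1 : (fun z : C2 => z k - e p k) =ᶠ[𝓝 (e p)]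
      fun z => (α ∘ e.symm) z * (f ∘ e.symm) z + (β ∘ e.symm) z * (h ∘ e.symm) z := by
    have h2 : ∀ᶠ z in 𝓝 (e p), z ∈ e.target := e.open_target.mem_nhds (e.map_source hp)
    have h3 : ∀ᶠ z in 𝓝 (e p), (e (e.symm z) k - e p k) =
        α (e.symm z) * f (e.symm z) + β (e.symm z) * h (e.symm z) := by
      have : Tendsto e.symm (𝓝 (e p)) (𝓝 p) := by
        have := hcs.tendsto
        rwa [hlp] at this
      exact this.eventually hab
    filter_upwards [h2, h3] with z hz2 hz3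
    rw [e.right_inv hz2] at hz3
    exact hz3
  have hdf := differentiableAt_chart hf
  have hdh := differentiableAt_chart hh
  have hda := differentiableAt_chart hα
  have hdb := differentiableAt_chart hβ
  rw [← he] at hdf hdh hda hdb
  have h4 : fderiv ℂ (fun z : C2 => z k - e p k) (e p) v = v k := by
    have : HasFDerivAt (fun z : C2 => z k - e p k)
        (EuclideanSpace.proj k : C2 →L[ℂ] ℂ) (e p) := by
      exact (EuclideanSpace.proj k : C2 →L[ℂ] ℂ).hasFDerivAt.sub_const _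
    rw [this.fderiv]
    rfl
  have hf0' : (f ∘ e.symm) (e p) = 0 := by simp [hlp, hf0]
  have hh0' : (h ∘ e.symm) (e p) = 0 := by simp [hlp, hh0]
  have h5 : fderiv ℂ (fun z => (α ∘ e.symm) z * (f ∘ e.symm) z + (β ∘ e.symm) z *
      (h ∘ e.symm) z) (e p) v = (α ∘ e.symm) (e p) * dch f p v + (β ∘ e.symm) (e p) * dch h p v := by
    have : HasFDerivAt (fun z => (α ∘ e.symm) z * (f ∘ e.symm) z + (β ∘ e.symm) z *
      (h ∘ e.symm) z) _ (e p) := (hda.hasFDerivAt.mul hdf.hasFDerivAt).add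
        (hdb.hasFDerivAt.mul hdh.hasFDerivAt)
    rw [this.fderiv, hf0', hh0']
    simp [dch, ← he]
  rw [← h4, h1.fderiv_eq, h5, hv1, hv2]
  simp

/-! ### Local coordinates from two independent functions -/

theorem exists_local_inverse {T W : M → ℂ} {U : Set M} (hU : IsOpen U) {p : M} (hp : p ∈ U)
    (hT : ContMDiffOn 𝓘(ℂ, C2) 𝓘(ℂ, ℂ) 1 T U) (hW : ContMDiffOn 𝓘(ℂ, C2) 𝓘(ℂ, ℂ) 1 W U)
    (hJ : Indep T W p) :
    ∃ r : ℝ, 0 < r ∧ ∃ Ψ : ℂ × ℂ → M,
      ContMDiffOn 𝓘(ℂ, ℂ × ℂ) 𝓘(ℂ, C2) 1 Ψ (ball (T p) r ×ˢ ball (W p) r) ∧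
      (∀ x ∈ ball (T p) r ×ˢ ball (W p) r, Ψ x ∈ U ∧ T (Ψ x) = x.1 ∧ W (Ψ x) = x.2) ∧
      IsOpen (Ψ '' (ball (T p) r ×ˢ ball (W p) r)) ∧ Ψ (T p, W p) = p := by
  set e := chartAt C2 p with he
  have hpe : p ∈ e.source := mem_chart_source C2 p
  have hlp : e.symm (e p) = p := e.left_inv hpe
  have hTa := analyticOnNhd_chart hU hT p
  have hWa := analyticOnNhd_chart hU hW p
  rw [← he] at hTa hWa
  have hmem : e p ∈ e.target ∩ e.symm ⁻¹' U := ⟨e.map_source hpe, by simpa [hlp] using hp⟩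
  have hopen : IsOpen (e.target ∩ e.symm ⁻¹' U) := e.isOpen_inter_preimage_symm hU
  set f : C2 → ℂ × ℂ := fun z => ((T ∘ e.symm) z, (W ∘ e.symm) z) with hf
  have hfa : AnalyticAt ℂ f (e p) := (hTa _ hmem).prod (hWa _ hmem)
  have hfd : HasFDerivAt f ((dch T p).prod (dch W p)) (e p) :=
    (hTa _ hmem).differentiableAt.hasFDerivAt.prodMk (hWa _ hmem).differentiableAt.hasFDerivAt
  have hinj : Function.Injective ((dch T p).prod (dch W p)) := by
    rw [injective_iff_map_eq_zero]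
    intro v hv
    have h1 : dch T p v = 0 := congrArg Prod.fst hv
    have h2 : dch W p v = 0 := congrArg Prod.snd hv
    exact hJ v h1 h2
  have hfin : Module.finrank ℂ C2 = Module.finrank ℂ (ℂ × ℂ) := by simp
  let L : C2 ≃ₗ[ℂ] ℂ × ℂ := LinearMap.linearEquivOfInjective
    (((dch T p).prod (dch W p) : C2 →L[ℂ] ℂ × ℂ) : C2 →ₗ[ℂ] ℂ × ℂ) hinj hfin
  let L' : C2 ≃L[ℂ] ℂ × ℂ := L.toContinuousLinearEquiv
  have hL' : (L' : C2 →L[ℂ] ℂ × ℂ) = (dch T p).prod (dch W p) := by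
    ext v <;> rfl
  obtain ⟨E, hE1, hE2, hE3, hE4, hE5⟩ :=
    Crest.Agent.R266.SCV.exists_analytic_openPartialHomeomorph hfa L' (by rw [hL']; exact hfd)
      (hopen.mem_nhds hmem)
  have hfp : E (e p) = (T p, W p) := by
    rw [hE3]
    simp [hf, hlp]
  have htgt : (T p, W p) ∈ E.target := by
    rw [← hfp]; exact E.map_source hE1
  obtain ⟨r, hr, hrs⟩ : ∃ r > 0, ball (T p) r ×ˢ ball (W p) r ⊆ E.target := by
    obtain ⟨r, hr, h⟩ := Metric.mem_nhds_iff.1 (E.open_target.mem_nhds htgt)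
    refine ⟨r, hr, ?_⟩
    rw [ball_prod_same]
    exact h
  refine ⟨r, hr, fun x => e.symm (E.symm x), ?_, ?_, ?_, ?_⟩
  · have h1 : ContMDiffOn 𝓘(ℂ, C2) 𝓘(ℂ, C2) 1 e.symm e.target := contMDiffOn_chart_symm
    have h2 : ContMDiffOn 𝓘(ℂ, ℂ × ℂ) 𝓘(ℂ, C2) 1 E.symm (ball (T p) r ×ˢ ball (W p) r) := by
      rw [contMDiffOn_iff_contDiffOn]
      exact (hE5.mono hrs).contDiffOn (by
        exact (isOpen_ball.prod isOpen_ball).uniqueDiffOn)
    refine h1.comp h2 (fun x hx => ?_)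
    exact (hE2 (E.map_target (hrs hx))).1
  · intro x hx
    have h1 := hE2 (E.map_target (hrs hx))
    refine ⟨h1.2, ?_⟩
    have h2 : E (E.symm x) = x := E.right_inv (hrs hx)
    rw [hE3] at h2
    simp only [hf, Function.comp_apply] at h2
    exact ⟨congrArg Prod.fst h2, congrArg Prod.snd h2⟩
  · have h1 : (fun x => e.symm (E.symm x)) '' (ball (T p) r ×ˢ ball (W p) r) =
        e.symm '' (E.symm '' (ball (T p) r ×ˢ ball (W p) r)) := by
      rw [image_image]
    rw [h1]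
    have h2 : IsOpen (E.symm '' (ball (T p) r ×ˢ ball (W p) r)) :=
      E.symm.isOpen_image_of_subset_source (isOpen_ball.prod isOpen_ball) hrs
    refine e.symm.isOpen_image_of_subset_source h2 ?_
    rintro _ ⟨x, hx, rfl⟩
    exact (hE2 (E.map_target (hrs hx))).1
  · show e.symm (E.symm (T p, W p)) = p
    rw [← hfp, E.left_inv hE1, hlp]

end Crest.Agent.R275.Smp284
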