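import Crest.Agent.R275.Lam2B_130
import Crest.Agent.R275.SupD_912
import Crest.Agent.R275.BdcB_96

/-!
# R275, block D (helper861): the SOL BRIDGE

From exactness of the weighted complex of a line bundle at the rates `(c, d)`
(`WEx`, sections of `tw (lam2 A) (LV hg)` in `InW P (wj H c d)`) to solvability of
`∂̄ f = α`, `∂̄ β = η` for raw families in pointwise classes `BDp a b` with a loss of rates.

* `SupCl H E BDp` : the class `BDp a b` of functions is related to `InW P (wj H a b)` by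
  (S1) and (S2)
* `WEx H E q a b` : `H^{q+1} = 0` at the rates `(a, b)`
* `solZ1`, `solZ2`
* `solZ1_of`, `solZ2_of` : `SolZ1`, `SolZ2` of helper96 for the classes `BD A K h`
-/

set_option autoImplicit false
set_option linter.unusedSectionVars false

open Set Filter Topology Complex
open scoped ContDiff Matrix ComplexConjugate

namespace Crest.Agent.R275.SolB861

open Geo Fm96 Q74 Lam2130 Sup912 Core144

noncomputable section

variable {M : Type} [TopologicalSpace M] {A : Atl 2 M} {P : Part A} {h : M → ℝ}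
  {g : A.ι → A.ι → M → ℂ}

/-- membership in the weighted space at the rates `(a, b)` -/
def IW (H : HD P h) (E : VBun A) (a b : ℝ) (u : A.ι → M → (Fin 4 × E.ρ) → ℂ) : Prop :=
  InW P (B := tw (lam2 A) E) (wj H a b) u

theorem IW.mono {H : HD P h} {E : VBun A} {a b a' b' : ℝ} (ha : a ≤ a') (hb : b ≤ b')
    {u : A.ι → M → (Fin 4 × E.ρ) → ℂ} (hu : IW H E a b u) : IW H E a' b' u :=
  InW.mono_wj H ha hb hu

/-- `H^{q+1} = 0` at the rates `(a, b)` -/
def WEx (H : HD P h) (E : VBun A) (q : ℕ) (a b : ℝ) : Prop :=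
  ∀ u ∈ SecL E, DegL E (q + 1) u → nabE E u = 0 → IW H E a b u →
    ∃ v ∈ SecL E, DegL E q v ∧ IW H E a b v ∧ nabE E v = u

/-- a pointwise class of functions compatible with the weighted spaces up to a loss of rates -/
structure SupCl (H : HD P h) (E : VBun A) (BDp : ℝ → ℝ → (A.ι → M → ℂ) → Prop) : Prop where
  zero : ∀ a b, BDp a b 0
  mono : ∀ a b a' b', a ≤ a' → b ≤ b' → ∀ u, BDp a b u → BDp a' b' u
  s1 : ∀ a b, ∀ u ∈ SecL E, IW H E a b u → ∀ k, BDp a b (fun i x => u i x k)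
  s2 : ∀ a b a' b', a < a' → b < b' → ∀ u ∈ SecL E, (∀ k, BDp a b (fun i x => u i x k)) →
    IW H E a' b' u

variable {BDp : ℝ → ℝ → (A.ι → M → ℂ) → Prop}

/-- **degree 1**: `H¹ = 0` at `(c, d)` solves `∂̄ f = α` from rates `< (c, d)` into rates
`≥ (c, d)` -/
theorem solZ1 {H : HD P h} (hg : IsLC A g) (S : SupCl H (LV hg) BDp) {a b c d a' b' : ℝ}
    (hex : WEx H (LV hg) 0 c d) (hac : a < c) (hbd : b < d) (hca : c ≤ a') (hdb : d ≤ b')
    {α : A.ι → M → Fin 2 → ℂ} (hα : IsZ1 A g univ α)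
    (hαb : ∀ k, BDp a b (fun i x => α i x k)) (hd : ∀ i x, d1 A α i x = 0) :
    ∃ f, IsZ0 A g univ f ∧ BDp a' b' f ∧ ∀ i x, d0 A f i x = α i x := by
  set u : A.ι → M → (Fin 4 × Unit) → ℂ := mk3 0 α 0 with hu
  have hmem : u ∈ SecL (LV hg) := by
    refine (mem_iff hg u).2 ⟨?_, ?_, ?_⟩
    · rw [hu, p0_mk3]; exact IsZ0.zero
    · rw [hu, p1_mk3]; exact hα
    · rw [hu, p2_mk3]; exact IsZ2.zero
  have hdeg : DegL (LV hg) (0 + 1) u := by
    refine (isDeg1_iff (E := LV hg)).2 fun i x r => ⟨?_, ?_⟩ <;> rfl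
  have hnab : nabE (LV hg) u = 0 := by
    rw [nab_eq hg hmem, hu, p0_mk3, p1_mk3]
    funext i x ⟨k, r⟩
    have h0 : d0 A (0 : A.ι → M → ℂ) i x = 0 := by
      funext b
      by_cases hx : x ∈ (A.e i).source
      · rw [d0_of_mem hx]
        exact db_constP _ _
      · rw [d0_of_not_mem hx]
    fin_cases k
    · rfl
    · exact congrFun h0 0
    · exact congrFun h0 1
    · exact hd i x
  have hW : IW H (LV hg) c d u := by
    refine S.s2 a b c d hac hbd u hmem ?_
    rintro ⟨k, r⟩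
    fin_cases k
    · exact S.zero a b
    · exact hαb 0
    · exact hαb 1
    · exact S.zero a b
  obtain ⟨v, hv, hvd, hvW, hvu⟩ := hex u hmem hdeg hnab hW
  refine ⟨p0 v, ((mem_iff hg v).1 hv).1, ?_, fun i x => ?_⟩
  · exact S.mono c d a' b' hca hdb _ (S.s1 c d v hv hvW (0, ()))
  · rw [nab_eq hg hv] at hvu
    have := congrArg (fun w => p1 w i x) hvu
    simpa [hu] using this

/-- **degree 2**: `H² = 0` at `(c, d)` solves `∂̄ β = η` -/
theorem solZ2 {H : HD P h} (hg : IsLC A g) (S : SupCl H (LV hg) BDp) {a b c d a' b' : ℝ}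
    (hex : WEx H (LV hg) 1 c d) (hac : a < c) (hbd : b < d) (hca : c ≤ a') (hdb : d ≤ b')
    {η : A.ι → M → ℂ} (hη : IsZ2 A g univ η) (hηb : BDp a b η) :
    ∃ β, IsZ1 A g univ β ∧ (∀ k, BDp a' b' (fun i x => β i x k)) ∧ ∀ i x, d1 A β i x = η i x := by
  set u : A.ι → M → (Fin 4 × Unit) → ℂ := mk3 0 0 η with hu
  have hmem : u ∈ SecL (LV hg) := by
    refine (mem_iff hg u).2 ⟨?_, ?_, ?_⟩
    · rw [hu, p0_mk3]; exact IsZ0.zero
    · rw [hu, p1_mk3]; exact IsZ1.zero
    · rw [hu, p2_mk3]; exact hη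
  have hdeg : DegL (LV hg) (1 + 1) u := by
    refine (isDeg2_iff (E := LV hg)).2 fun i x r => ⟨rfl, fun b => ?_⟩
    fin_cases b <;> rfl
  have hnab : nabE (LV hg) u = 0 := by
    rw [nab_eq hg hmem, hu, p0_mk3, p1_mk3]
    funext i x ⟨k, r⟩
    have h0 : d0 A (0 : A.ι → M → ℂ) i x = 0 := by
      funext b
      by_cases hx : x ∈ (A.e i).source
      · rw [d0_of_mem hx]
        exact db_constP _ _
      · rw [d0_of_not_mem hx]
    have h1 : d1 A (0 : A.ι → M → Fin 2 → ℂ) i x = 0 := by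
      by_cases hx : x ∈ (A.e i).source
      · rw [d1_of_mem hx]
        show A.db i 0 (fun _ => (0 : ℂ)) x - A.db i 1 (fun _ => (0 : ℂ)) x = 0
        rw [db_constP, db_constP, sub_zero]
      · exact d1_of_not_mem hx
    fin_cases k
    · rfl
    · exact congrFun h0 0
    · exact congrFun h0 1
    · exact h1
  have hW : IW H (LV hg) c d u := by
    refine S.s2 a b c d hac hbd u hmem ?_
    rintro ⟨k, r⟩
    fin_cases k
    · exact S.zero a b
    · exact S.zero a b
    · exact S.zero a b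
    · exact hηb
  obtain ⟨v, hv, hvd, hvW, hvu⟩ := hex u hmem hdeg hnab hW
  refine ⟨p1 v, ((mem_iff hg v).1 hv).2.1, fun k => ?_, fun i x => ?_⟩
  · exact S.mono c d a' b' hca hdb _ (S.s1 c d v hv hvW (ix1 k, ()))
  · rw [nab_eq hg hv] at hvu
    have := congrArg (fun w => p2 w i x) hvu
    simpa [hu] using this

/-! ### helper96's classes -/

/-- (S1), (S2) for the classes `BD A K h` -/
theorem supCl_bd {K : A.ι → Set M} {H : HD P h} {E : VBun A}
    (s1 : ∀ a b, ∀ u ∈ SecL E, IW H E a b u → ∀ k, BD A K h a b (fun i x => u i x k))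
    (s2 : ∀ a b a' b', a < a' → b < b' → ∀ u ∈ SecL E, (∀ k, BD A K h a b (fun i x => u i x k)) →
      IW H E a' b' u) : SupCl H E (BD A K h) where
  zero a b := WB.zero fun x => wgt_pos' a b (h x)
  mono a b a' b' ha hb u hu := hu.mono ha hb
  s1 := s1
  s2 := s2

variable {K : A.ι → Set M}

/-- **SOL BRIDGE, degree 1** -/
theorem solZ1_of {H : HD P h} (L : LB A) (hg : IsLC A L.g) (S : SupCl H (LV hg) (BD A K h))
    {a b c d a' b' : ℝ} (hex : WEx H (LV hg) 0 c d) (hac : a < c) (hbd : b < d) (hca : c ≤ a')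
    (hdb : d ≤ b') : SolZ1 A K h L a b a' b' :=
  fun _ hα hαb hd => solZ1 hg S hex hac hbd hca hdb hα hαb hd

/-- **SOL BRIDGE, degree 2** -/
theorem solZ2_of {H : HD P h} (L : LB A) (hg : IsLC A L.g) (S : SupCl H (LV hg) (BD A K h))
    {a b c d a' b' : ℝ} (hex : WEx H (LV hg) 1 c d) (hac : a < c) (hbd : b < d) (hca : c ≤ a')
    (hdb : d ≤ b') : SolZ2 A K h L a b a' b' :=
  fun _ hη hηb => solZ2 hg S hex hac hbd hca hdb hη hηb

end

end Crest.Agent.R275.SolB861
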