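import Mathlib
import Crest.Agent.R279.PSL806
import Crest.Agent.R275.NBa_690

/-!
R275 (S0418), block R, helper284: bounded additive Cousin splitting for two overlapping plane
domains (from helper806's `Crest.Agent.R279.PSL.exists_isSplit`), in the shape of
`NB690.exists_fixed_split`, and the nonlinear gluing statement.
-/

set_option autoImplicit false

open Set Filter Topology Metric

noncomputable section

namespace Crest.Agent.R275.Spl284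

universe u v

open Crest.Agent.R279.PSL in
/-- **Bounded additive Cousin splitting**, with parameters in an arbitrary open set of a normed
space, without loss of domain. -/
theorem exists_split {D₁ D₂ : Set ℂ} (h1 : IsOpen D₁) (h2 : IsOpen D₂)
    (hbd : Bornology.IsBounded (D₁ ∪ D₂))
    (hsep : ∃ δ > 0, ∀ a ∈ D₁ \ D₂, ∀ b ∈ D₂ \ D₁, δ ≤ dist a b) :
    ∃ C : ℝ, 0 < C ∧ ∀ (E : Type u) (F : Type v) [NormedAddCommGroup E] [NormedSpace ℂ E]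
      [NormedAddCommGroup F] [NormedSpace ℂ F] [CompleteSpace F],
      ∃ P Q : (ℂ × E → F) → (ℂ × E → F),
        (∀ T : Set E, IsOpen T → ∀ f : ℂ × E → F, DifferentiableOn ℂ f ((D₁ ∩ D₂) ×ˢ T) →
          ∀ m : ℝ, 0 ≤ m → (∀ p ∈ (D₁ ∩ D₂) ×ˢ T, ‖f p‖ ≤ m) →
          DifferentiableOn ℂ (P f) (D₁ ×ˢ T) ∧ (∀ p ∈ D₁ ×ˢ T, ‖P f p‖ ≤ C * m) ∧
          DifferentiableOn ℂ (Q f) (D₂ ×ˢ T) ∧ (∀ p ∈ D₂ ×ˢ T, ‖Q f p‖ ≤ C * m)) ∧
        (∀ T : Set E, IsOpen T → ∀ f g : ℂ × E → F, DifferentiableOn ℂ f ((D₁ ∩ D₂) ×ˢ T) →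
          DifferentiableOn ℂ g ((D₁ ∩ D₂) ×ˢ T) → ∀ m : ℝ,
          (∀ p ∈ (D₁ ∩ D₂) ×ˢ T, ‖f p‖ ≤ m) → (∀ p ∈ (D₁ ∩ D₂) ×ˢ T, ‖g p‖ ≤ m) →
          ∀ p : ℂ × E, p.2 ∈ T → P f p - P g p = P (f - g) p ∧ Q f p - Q g p = Q (f - g) p) ∧
        (∀ f p, P f p - Q f p = f p) := by
  obtain ⟨χ, K, hK⟩ := exists_isSplit.{u, v} h1 h2 hbd hsep
  have hKu := hK (PUnit.{u+1} → ℂ) (PUnit.{v+1} → ℂ)
  refine ⟨K, hKu.pos, ?_⟩
  intro E F _ _ _ _ _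
  have hI := hK E F
  let σ : ℂ × E → E × ℂ := Prod.swap
  let τ : E × ℂ → ℂ × E := Prod.swap
  have hσ : Differentiable ℂ σ := differentiable_snd.prodMk differentiable_fst
  have hτ : Differentiable ℂ τ := differentiable_snd.prodMk differentiable_fst
  have hd : ∀ (T : Set E) (f : ℂ × E → F), DifferentiableOn ℂ f ((D₁ ∩ D₂) ×ˢ T) →
      DifferentiableOn ℂ (fun y => f (τ y)) (T ×ˢ (D₁ ∩ D₂)) := by
    intro T f hf
    exact hf.comp hτ.differentiableOn (fun y hy => ⟨hy.2, hy.1⟩)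
  refine ⟨fun f p => SA χ (D₁ ∩ D₂) (fun y => f (τ y)) (σ p),
    fun f p => SB χ (D₁ ∩ D₂) (fun y => f (τ y)) (σ p), ?_, ?_, ?_⟩
  · intro T hT f hf m hm hfm
    have hb : ∀ y ∈ T ×ˢ (D₁ ∩ D₂), ‖f (τ y)‖ ≤ m := fun y hy => hfm _ ⟨hy.2, hy.1⟩
    refine ⟨?_, ?_, ?_, ?_⟩
    · exact (hI.diffA T _ m hT (hd T f hf) hb).comp hσ.differentiableOn
        (fun p hp => ⟨hp.2, hp.1⟩)
    · exact fun p hp => hI.boundA T _ m hT (hd T f hf) hb hm _ ⟨hp.2, hp.1⟩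
    · exact (hI.diffB T _ m hT (hd T f hf) hb).comp hσ.differentiableOn
        (fun p hp => ⟨hp.2, hp.1⟩)
    · exact fun p hp => hI.boundB T _ m hT (hd T f hf) hb hm _ ⟨hp.2, hp.1⟩
  · intro T hT f g hf hg m hfm hgm p hp
    have hb : ∀ y ∈ T ×ˢ (D₁ ∩ D₂), ‖f (τ y)‖ ≤ m := fun y hy => hfm _ ⟨hy.2, hy.1⟩
    have hb' : ∀ y ∈ T ×ˢ (D₁ ∩ D₂), ‖g (τ y)‖ ≤ m := fun y hy => hgm _ ⟨hy.2, hy.1⟩
    exact ⟨(hI.subA T _ _ m hT (hd T f hf) hb (hd T g hg) hb' (σ p) hp).symm,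
      (hI.subB T _ _ m hT (hd T f hf) hb (hd T g hg) hb' (σ p) hp).symm⟩
  · intro f p
    exact hI.split (fun y => f (τ y)) (σ p)

section Split

variable {G : Type v} [NormedAddCommGroup G] [NormedSpace ℂ G] [FiniteDimensional ℂ G]

/-- `NB690.exists_fixed_split` for operators which are additive on bounded functions only. -/
theorem exists_fixed_split {D A K : Set ℂ} (hD : IsOpen D) (hAD : A ⊆ D)
    (hAK : A ⊆ K) (hK : IsCompact K) {C : ℝ} (hC : 0 < C)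
    (P : (ℂ × ℂ → G) → (ℂ × ℂ → G))
    (hP1 : ∀ δ > 0, ∀ f : ℂ × ℂ → G, DifferentiableOn ℂ f (A ×ˢ ball 0 δ) → ∀ m : ℝ, 0 ≤ m →
      (∀ p ∈ A ×ˢ ball (0 : ℂ) δ, ‖f p‖ ≤ m) →
      DifferentiableOn ℂ (P f) (D ×ˢ ball 0 δ) ∧ ∀ p ∈ D ×ˢ ball (0 : ℂ) δ, ‖P f p‖ ≤ C * m)
    (hP2 : ∀ δ > 0, ∀ f g : ℂ × ℂ → G, DifferentiableOn ℂ f (A ×ˢ ball 0 δ) →
      DifferentiableOn ℂ g (A ×ˢ ball 0 δ) → ∀ m : ℝ,
      (∀ p ∈ A ×ˢ ball (0 : ℂ) δ, ‖f p‖ ≤ m) → (∀ p ∈ A ×ˢ ball (0 : ℂ) δ, ‖g p‖ ≤ m) →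
      ∀ p ∈ D ×ˢ ball (0 : ℂ) δ, P f p - P g p = P (f - g) p)
    (H : (ℂ × ℂ) × G → G) (hH : ∀ z ∈ K, ∀ x, AnalyticAt ℂ H ((z, 0), x))
    (h0 : ∀ z ∈ K, ∀ x, H ((z, 0), x) = H ((z, 0), 0)) :
    ∃ δ > 0, ∃ u : ℂ × ℂ → G, ∃ M : ℝ, DifferentiableOn ℂ u (D ×ˢ ball 0 δ) ∧
      (∀ p ∈ D ×ˢ ball (0 : ℂ) δ, ‖u p‖ ≤ M) ∧
      DifferentiableOn ℂ (fun q => H (q, u q)) (A ×ˢ ball 0 δ) ∧
      (∀ p ∈ A ×ˢ ball (0 : ℂ) δ, ‖H (p, u p)‖ ≤ M) ∧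
      ∀ p ∈ D ×ˢ ball (0 : ℂ) δ, P (fun q => H (q, u q)) p = u p := by
  classical
  -- bound for `c = 0`
  obtain ⟨m, hm⟩ : ∃ m : ℝ, 0 ≤ m ∧ ∀ z ∈ K, ‖H ((z, 0), 0)‖ ≤ m := by
    have hc : ContinuousOn (fun z : ℂ => H ((z, 0), 0)) K := by
      intro z hz
      refine ContinuousAt.continuousWithinAt ?_
      exact (hH z hz 0).continuousAt.comp (f := fun z : ℂ => (((z, 0), 0) : (ℂ × ℂ) × G))
        (by fun_prop)
    obtain ⟨m, hm⟩ := hK.exists_bound_of_continuousOn hc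
    exact ⟨max m 0, le_max_right _ _, fun z hz => (hm z hz).trans (le_max_left _ _)⟩
  obtain ⟨hm0, hm⟩ := hm
  set M0 : ℝ := C * (m + 1) with hM0
  have hM0pos : 0 < M0 := by positivity
  set ε : ℝ := 1 / (2 * C) with hε
  have hεpos : 0 < ε := by positivity
  let In : G →L[ℂ] (ℂ × ℂ) × G := ContinuousLinearMap.inr ℂ (ℂ × ℂ) G
  have : ProperSpace G := FiniteDimensional.proper ℂ G
  have hcomp : IsCompact (K ×ˢ closedBall (0 : G) M0) := hK.prod (isCompact_closedBall _ _)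
  have htube : ∀ᶠ c in 𝓝 (0 : ℂ), ∀ y ∈ K ×ˢ closedBall (0 : G) M0,
      AnalyticAt ℂ H ((y.1, c), y.2) ∧ ‖(fderiv ℂ H ((y.1, c), y.2)).comp In‖ < ε ∧
        ‖H ((y.1, c), y.2)‖ < m + 1 := by
    refine hcomp.eventually_forall_of_forall_eventually (fun y hy => ?_)
    have hz := hy.1
    have hA := hH y.1 hz y.2
    have hcont : ContinuousAt (fun q : ℂ × (ℂ × G) => (((q.2.1, q.1), q.2.2) : (ℂ × ℂ) × G))
        (0, y) := by fun_prop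
    have e1 : ∀ᶠ q in 𝓝 ((0 : ℂ), y), AnalyticAt ℂ H ((q.2.1, q.1), q.2.2) :=
      hcont.eventually hA.eventually_analyticAt
    have e2 : ∀ᶠ q in 𝓝 ((0 : ℂ), y),
        ‖(fderiv ℂ H ((q.2.1, q.1), q.2.2)).comp In‖ < ε := by
      have h3 : ContinuousAt (fun q : ℂ × (ℂ × G) =>
          ‖(fderiv ℂ H ((q.2.1, q.1), q.2.2)).comp In‖) (0, y) := by
        have h4 : ContinuousAt (fderiv ℂ H) ((y.1, 0), y.2) := hA.fderiv.continuousAt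
        have h5 : ContinuousAt (fun q : ℂ × (ℂ × G) => fderiv ℂ H ((q.2.1, q.1), q.2.2))
            (0, y) := ContinuousAt.comp (g := fderiv ℂ H) h4 hcont
        exact (h5.clm_comp continuousAt_const).norm
      have h6 : (fderiv ℂ H ((y.1, 0), y.2)).comp In = 0 := by
        have h7 : HasFDerivAt (fun x : G => H ((y.1, 0), x))
            ((fderiv ℂ H ((y.1, 0), y.2)).comp In) y.2 := by
          have h8 : HasFDerivAt (fun x : G => (((y.1, 0), x) : (ℂ × ℂ) × G)) In y.2 :=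
            hasFDerivAt_prodMk_right _ _
          exact hA.differentiableAt.hasFDerivAt.comp y.2 h8
        have h9 : (fun x : G => H ((y.1, 0), x)) = fun _ => H ((y.1, 0), 0) :=
          funext (fun x => h0 y.1 hz x)
        rw [h9] at h7
        exact h7.unique (hasFDerivAt_const _ _)
      refine h3.eventually (gt_mem_nhds ?_)
      simp only [h6, norm_zero]
      exact hεpos
    have e3 : ∀ᶠ q in 𝓝 ((0 : ℂ), y), ‖H ((q.2.1, q.1), q.2.2)‖ < m + 1 := by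
      have h3 : ContinuousAt H ((y.1, 0), y.2) := hA.continuousAt
      have h4 : ContinuousAt (fun q : ℂ × (ℂ × G) => H ((q.2.1, q.1), q.2.2)) (0, y) :=
        ContinuousAt.comp (g := H) h3 hcont
      refine h4.norm.eventually (gt_mem_nhds ?_)
      simp only [h0 y.1 hz y.2]
      exact (hm y.1 hz).trans_lt (lt_add_one m)
    filter_upwards [e1, e2, e3] with q h1 h2 h3
    exact ⟨h1, h2, h3⟩
  obtain ⟨δ, hδ, hδt⟩ := Metric.eventually_nhds_iff_ball.1 htube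
  have hδ' : ∀ p ∈ A ×ˢ ball (0 : ℂ) δ, ∀ x ∈ closedBall (0 : G) M0,
      AnalyticAt ℂ H (p, x) ∧ ‖(fderiv ℂ H (p, x)).comp In‖ < ε ∧ ‖H (p, x)‖ < m + 1 := by
    rintro ⟨z, c⟩ hp x hx
    exact hδt c hp.2 (z, x) ⟨hAK hp.1, hx⟩
  -- the composed function
  have hcompd : ∀ u : ℂ × ℂ → G, DifferentiableOn ℂ u (D ×ˢ ball 0 δ) →
      (∀ p ∈ D ×ˢ ball (0 : ℂ) δ, ‖u p‖ ≤ M0) →
      DifferentiableOn ℂ (fun q => H (q, u q)) (A ×ˢ ball 0 δ) ∧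
      ∀ p ∈ A ×ˢ ball (0 : ℂ) δ, ‖H (p, u p)‖ ≤ m + 1 := by
    intro u hu huM
    have hsub : A ×ˢ ball (0 : ℂ) δ ⊆ D ×ˢ ball (0 : ℂ) δ := prod_mono hAD le_rfl
    constructor
    · intro p hp
      have h3 := (hδ' p hp (u p) (mem_closedBall_zero_iff.2 (huM p (hsub hp)))).1
      have h4 : DifferentiableWithinAt ℂ (fun q => (q, u q)) (A ×ˢ ball (0 : ℂ) δ) p :=
        differentiableWithinAt_id.prodMk ((hu p (hsub hp)).mono hsub)
      exact h3.differentiableAt.comp_differentiableWithinAt p h4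
    · intro p hp
      exact (hδ' p hp (u p) (mem_closedBall_zero_iff.2 (huM p (hsub hp)))).2.2.le
  have hlip : ∀ p ∈ A ×ˢ ball (0 : ℂ) δ, ∀ x ∈ closedBall (0 : G) M0,
      ∀ y ∈ closedBall (0 : G) M0, ‖H (p, x) - H (p, y)‖ ≤ ε * ‖x - y‖ := by
    intro p hp x hx y hy
    refine (convex_closedBall (0 : G) M0).norm_image_sub_le_of_norm_hasFDerivWithin_le
      (f := fun x => H (p, x)) (f' := fun x => (fderiv ℂ H (p, x)).comp In) (𝕜 := ℂ)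
      (fun t ht => ?_) (fun t ht => (hδ' p hp t ht).2.1.le) hy hx
    have h8 : HasFDerivAt (fun x : G => ((p, x) : (ℂ × ℂ) × G)) In t :=
      hasFDerivAt_prodMk_right _ _
    exact ((hδ' p hp t ht).1.differentiableAt.hasFDerivAt.comp t h8).hasFDerivWithinAt
  obtain ⟨u, hu1, hu2, hu3⟩ := NB690.exists_fixed_holo (U := D ×ˢ ball (0 : ℂ) δ)
    (hD.prod isOpen_ball) (fun u => P (fun q => H (q, u q))) hM0pos.le
    (fun u hu huM => by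
      obtain ⟨h3, h4⟩ := hcompd u hu huM
      exact hP1 δ hδ _ h3 (m + 1) (by positivity) h4)
    (fun u v hu hv huM hvM d hd0 hd p hp => by
      obtain ⟨h3, h4⟩ := hcompd u hu huM
      obtain ⟨h5, h6⟩ := hcompd v hv hvM
      change ‖P (fun q => H (q, u q)) p - P (fun q => H (q, v q)) p‖ ≤ d / 2
      rw [hP2 δ hδ _ _ h3 h5 (m + 1) h4 h6 p hp]
      have hsub : A ×ˢ ball (0 : ℂ) δ ⊆ D ×ˢ ball (0 : ℂ) δ := prod_mono hAD le_rfl
      refine ((hP1 δ hδ _ (h3.sub h5) (ε * d) (by positivity) (fun q hq => ?_)).2 p hp).trans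
        (le_of_eq ?_)
      · refine (hlip q hq (u q) (mem_closedBall_zero_iff.2 (huM q (hsub hq))) (v q)
          (mem_closedBall_zero_iff.2 (hvM q (hsub hq)))).trans ?_
        exact mul_le_mul_of_nonneg_left (hd q (hsub hq)) hεpos.le
      · rw [hε]
        field_simp)
  refine ⟨δ, hδ, u, max M0 (m + 1), hu1, fun p hp => (hu2 p hp).trans (le_max_left _ _), ?_, ?_,
    hu3⟩
  · exact (hcompd u hu1 hu2).1
  · exact fun p hp => ((hcompd u hu1 hu2).2 p hp).trans (le_max_right _ _)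

/-- **Nonlinear gluing over two overlapping plane domains.** `H ((z, c), x)` is defined near
`K × {0} × G`, `K` compact containing the overlap, and independent of `x` for `c = 0`. Then
`u - v = H (·, u)` has a bounded holomorphic solution `u` on `D₁ × V`, `v` on `D₂ × V`, `V` a small
disc of parameters. -/
theorem exists_glue {D₁ D₂ K : Set ℂ} (h1 : IsOpen D₁) (h2 : IsOpen D₂)
    (hbd : Bornology.IsBounded (D₁ ∪ D₂))
    (hsep : ∃ δ > 0, ∀ a ∈ D₁ \ D₂, ∀ b ∈ D₂ \ D₁, δ ≤ dist a b)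
    (hAK : D₁ ∩ D₂ ⊆ K) (hK : IsCompact K)
    (H : (ℂ × ℂ) × G → G) (hH : ∀ z ∈ K, ∀ x, AnalyticAt ℂ H ((z, 0), x))
    (h0 : ∀ z ∈ K, ∀ x, H ((z, 0), x) = H ((z, 0), 0)) :
    ∃ δ > 0, ∃ u v : ℂ × ℂ → G, ∃ M : ℝ,
      DifferentiableOn ℂ u (D₁ ×ˢ ball 0 δ) ∧ (∀ p ∈ D₁ ×ˢ ball (0 : ℂ) δ, ‖u p‖ ≤ M) ∧
      DifferentiableOn ℂ v (D₂ ×ˢ ball 0 δ) ∧ (∀ p ∈ D₂ ×ˢ ball (0 : ℂ) δ, ‖v p‖ ≤ M) ∧
      ∀ p ∈ (D₁ ∩ D₂) ×ˢ ball (0 : ℂ) δ, u p - v p = H (p, u p) := by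
  obtain ⟨C, hC, hsp⟩ := exists_split.{0, v} h1 h2 hbd hsep
  have : CompleteSpace G := FiniteDimensional.complete ℂ G
  obtain ⟨P, Q, hPQ, hsub, hdiff⟩ := hsp ℂ G
  obtain ⟨δ, hδ, u, M, hu, huM, hHd, hHM, hfix⟩ := exists_fixed_split (D := D₁) (A := D₁ ∩ D₂) h1
    inter_subset_left hAK hK hC P
    (fun δ hδ f hf m hm hfm => by
      have := hPQ (ball 0 δ) isOpen_ball f hf m hm hfm
      exact ⟨this.1, this.2.1⟩)
    (fun δ hδ f g hf hg m hfm hgm p hp =>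
      (hsub (ball 0 δ) isOpen_ball f g hf hg m hfm hgm p hp.2).1) H hH h0
  have hHM' : ∀ p ∈ (D₁ ∩ D₂) ×ˢ ball (0 : ℂ) δ, ‖H (p, u p)‖ ≤ max M 0 :=
    fun p hp => (hHM p hp).trans (le_max_left _ _)
  have hQ := hPQ (ball 0 δ) isOpen_ball _ hHd (max M 0) (le_max_right _ _) hHM'
  refine ⟨δ, hδ, u, Q (fun q => H (q, u q)), max M (C * max M 0), hu,
    fun p hp => (huM p hp).trans (le_max_left _ _), hQ.2.2.1,
    fun p hp => (hQ.2.2.2 p hp).trans (le_max_right _ _), ?_⟩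
  intro p hp
  rw [← hfix p ⟨hp.1.1, hp.2⟩]
  exact hdiff _ p |>.trans (by rw [hfix p ⟨hp.1.1, hp.2⟩])

end Split

end Crest.Agent.R275.Spl284
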