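import Mathlib.Algebra.MonoidAlgebra.Basic
import Mathlib.Algebra.Polynomial.AlgebraMap
import Mathlib.Algebra.Order.Chebyshev
import Mathlib.Analysis.Complex.Basic
import Mathlib.RingTheory.RootsOfUnity.Complex
import Mathlib.Tactic

/-!
# R275, block D (helper617): Wiener patching of local homotopies, finite propagation form

`Lau A` Laurent polynomials over a complex algebra `A`, `W` the Wiener norm for a submultiplicative
seminorm `ν` of `A`. Main result: `wiener_patch`.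
-/

set_option autoImplicit false

namespace Crest.Agent.R275.Sq617

open Finset

noncomputable section

/-- submultiplicative seminorm on a complex algebra -/
structure SN (A : Type*) [Ring A] [Algebra ℂ A] where
  N : A → ℝ
  nonneg : ∀ a, 0 ≤ N a
  zero : N 0 = 0
  add_le : ∀ a b, N (a + b) ≤ N a + N b
  smul_le : ∀ (c : ℂ) a, N (c • a) ≤ ‖c‖ * N a
  mul_le : ∀ a b, N (a * b) ≤ N a * N b
  one_le : N 1 ≤ 1

/-- Laurent polynomials -/
abbrev Lau (A : Type*) [Ring A] := AddMonoidAlgebra A ℤ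

variable {A : Type*} [Ring A] [Algebra ℂ A]

/-- Wiener norm -/
def W (ν : SN A) (f : Lau A) : ℝ := f.coeff.sum fun _ a => ν.N a

variable (ν : SN A)

theorem W_eq {f : Lau A} {s : Finset ℤ} (h : f.coeff.support ⊆ s) :
    W ν f = ∑ m ∈ s, ν.N (f.coeff m) :=
  Finsupp.sum_of_support_subset _ h _ fun _ _ => ν.zero

theorem W_nonneg (f : Lau A) : 0 ≤ W ν f := Finset.sum_nonneg fun _ _ => ν.nonneg _

theorem W_zero : W ν (0 : Lau A) = 0 := by simp [W]

theorem W_single (m : ℤ) (a : A) : W ν (AddMonoidAlgebra.single m a) = ν.N a := by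
  simp only [W, AddMonoidAlgebra.coeff_single]
  exact Finsupp.sum_single_index ν.zero

theorem W_add_le (f g : Lau A) : W ν (f + g) ≤ W ν f + W ν g := by
  classical
  let s := f.coeff.support ∪ g.coeff.support ∪ (f + g).coeff.support
  rw [W_eq ν (f := f) (s := s) (by intro x hx; simp only [s, mem_union]; exact Or.inl (Or.inl hx)),
    W_eq ν (f := g) (s := s) (by intro x hx; simp only [s, mem_union]; exact Or.inl (Or.inr hx)),
    W_eq ν (f := f + g) (s := s) (by intro x hx; simp only [s, mem_union]; exact Or.inr hx),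
    ← Finset.sum_add_distrib]
  refine Finset.sum_le_sum fun m _ => ?_
  exact ν.add_le _ _

theorem W_smul_le (c : ℂ) (f : Lau A) : W ν (c • f) ≤ ‖c‖ * W ν f := by
  classical
  let s := f.coeff.support ∪ (c • f).coeff.support
  rw [W_eq ν (f := f) (s := s) (by intro x hx; simp only [s, mem_union]; exact Or.inl hx),
    W_eq ν (f := c • f) (s := s) (by intro x hx; simp only [s, mem_union]; exact Or.inr hx),
    Finset.mul_sum]
  refine Finset.sum_le_sum fun m _ => ?_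
  exact ν.smul_le _ _

theorem W_neg_le (f : Lau A) : W ν (-f) ≤ W ν f := by
  have h := W_smul_le ν (-1) f
  rw [neg_smul, one_smul] at h
  simpa using h

theorem W_sub_le (f g : Lau A) : W ν (f - g) ≤ W ν f + W ν g := by
  rw [sub_eq_add_neg]
  exact (W_add_le ν _ _).trans (by gcongr; exact W_neg_le ν g)

theorem W_sum_le {ι : Type*} (s : Finset ι) (f : ι → Lau A) :
    W ν (∑ i ∈ s, f i) ≤ ∑ i ∈ s, W ν (f i) := by
  classical
  induction s using Finset.induction_on with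
  | empty => simp [W_zero]
  | insert i s hi ih =>
    rw [Finset.sum_insert hi, Finset.sum_insert hi]
    exact (W_add_le ν _ _).trans (by gcongr)

theorem W_mul_le (f g : Lau A) : W ν (f * g) ≤ W ν f * W ν g := by
  rw [AddMonoidAlgebra.mul_def]
  unfold Finsupp.sum
  refine (W_sum_le ν _ _).trans ?_
  rw [show W ν f * W ν g = ∑ m ∈ f.coeff.support, ν.N (f.coeff m) * W ν g by
    rw [← Finset.sum_mul]; rfl]
  refine Finset.sum_le_sum fun m _ => ?_
  refine (W_sum_le ν _ _).trans ?_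
  rw [show W ν g = ∑ n ∈ g.coeff.support, ν.N (g.coeff n) from rfl, Finset.mul_sum]
  refine Finset.sum_le_sum fun n _ => ?_
  rw [W_single]
  exact ν.mul_le _ _

theorem W_pow_le {f : Lau A} {c : ℝ} (hc : W ν f ≤ c) (p : ℕ) : W ν (f ^ p) ≤ c ^ p := by
  have hc0 : 0 ≤ c := (W_nonneg ν f).trans hc
  induction p with
  | zero =>
    rw [pow_zero, pow_zero, AddMonoidAlgebra.one_def, W_single]
    exact ν.one_le
  | succ p ih =>
    rw [pow_succ, pow_succ]
    exact (W_mul_le ν _ _).trans (mul_le_mul ih hc (W_nonneg ν _) (pow_nonneg hc0 _))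

/-! ### evaluation -/

/-- evaluation at `t` -/
def ev (t : ℂˣ) : Lau A →+* A :=
  AddMonoidAlgebra.liftNCRingHom (RingHom.id A)
    (((algebraMap ℂ A : ℂ →+* A) : ℂ →* A).comp ((Units.coeHom ℂ).comp (zpowersHom ℂˣ t)))
    (fun _ _ => (Algebra.commutes _ _).symm)

theorem ev_single (t : ℂˣ) (m : ℤ) (a : A) :
    ev t (AddMonoidAlgebra.single m a) = ((t : ℂ) ^ m) • a := by
  have h : ev t (AddMonoidAlgebra.single m a) = a * algebraMap ℂ A ((t : ℂ) ^ m) := by
    refine (AddMonoidAlgebra.liftNC_single _ _ _ _).trans ?_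
    show a * algebraMap ℂ A (((t ^ m : ℂˣ) : ℂ)) = _
    rw [Units.val_zpow_eq_zpow_val]
  rw [h, ← Algebra.commutes, ← Algebra.smul_def]

theorem ev_eq (t : ℂˣ) (f : Lau A) : ev t f = f.coeff.sum fun m a => ((t : ℂ) ^ m) • a := by
  conv_lhs => rw [← AddMonoidAlgebra.sum_coeff_single f]
  unfold Finsupp.sum
  rw [map_sum]
  exact Finset.sum_congr rfl fun m _ => ev_single t m _

/-! ### monomials -/

/-- `(T / t)^m` -/
def X (A : Type*) [Ring A] [Algebra ℂ A] (t : ℂ) (m : ℤ) : Lau A :=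
  AddMonoidAlgebra.single m (algebraMap ℂ A (t ^ (-m)))

theorem X_mul {t : ℂ} (ht : t ≠ 0) (m n : ℤ) : X A t m * X A t n = X A t (m + n) := by
  rw [X, X, X, AddMonoidAlgebra.single_mul_single, ← map_mul, ← zpow_add₀ ht, neg_add]

theorem X_zero (t : ℂ) : X A t 0 = 1 := by
  rw [X, neg_zero, zpow_zero, map_one, AddMonoidAlgebra.one_def]

theorem X_comm (t : ℂ) (m : ℤ) (f : Lau A) : X A t m * f = f * X A t m :=
  AddMonoidAlgebra.single_commute (fun _ => AddCommute.all _ _)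
    (fun _ => Algebra.commutes _ _) f

theorem W_X_le {t : ℂ} (ht : ‖t‖ = 1) (m : ℤ) : W ν (X A t m) ≤ 1 := by
  rw [X, W_single, Algebra.algebraMap_eq_smul_one]
  refine (ν.smul_le _ _).trans ?_
  rw [norm_zpow, ht, one_zpow, one_mul]
  exact ν.one_le

theorem X_pow {t : ℂ} (ht : t ≠ 0) (m : ℤ) (k : ℕ) : X A t m ^ k = X A t (m * k) := by
  induction k with
  | zero => rw [pow_zero, Nat.cast_zero, mul_zero, X_zero]
  | succ k ih =>
    rw [pow_succ, ih, X_mul ht]
    congr 1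
    push_cast
    ring

/-! ### the averaging kernel -/

/-- `(1/n) ∑_{k<n} (T/t)^k` -/
def bk (A : Type*) [Ring A] [Algebra ℂ A] (t : ℂ) (n : ℕ) : Lau A :=
  ((n : ℂ)⁻¹) • ∑ k ∈ range n, X A t k

/-- `(1/n) ∑_{k<n} (t/T)^k` -/
def bk' (A : Type*) [Ring A] [Algebra ℂ A] (t : ℂ) (n : ℕ) : Lau A :=
  ((n : ℂ)⁻¹) • ∑ k ∈ range n, X A t (-(k : ℤ))

theorem bk_comm (t : ℂ) (n : ℕ) (f : Lau A) : bk A t n * f = f * bk A t n := by
  rw [bk, smul_mul_assoc, mul_smul_comm, Finset.sum_mul, Finset.mul_sum]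
  congr 1
  exact Finset.sum_congr rfl fun k _ => X_comm t _ f

theorem bk'_comm (t : ℂ) (n : ℕ) (f : Lau A) : bk' A t n * f = f * bk' A t n := by
  rw [bk', smul_mul_assoc, mul_smul_comm, Finset.sum_mul, Finset.mul_sum]
  congr 1
  exact Finset.sum_congr rfl fun _ _ => X_comm t _ f

theorem W_avg_le {n : ℕ} (hn : 0 < n) {f : ℕ → Lau A} (hf : ∀ k, W ν (f k) ≤ 1) :
    W ν (((n : ℂ)⁻¹) • ∑ k ∈ range n, f k) ≤ 1 := by
  refine (W_smul_le ν _ _).trans ?_
  have h1 : W ν (∑ k ∈ range n, f k) ≤ n := by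
    refine (W_sum_le ν _ _).trans ?_
    calc ∑ k ∈ range n, W ν (f k) ≤ ∑ _k ∈ range n, (1 : ℝ) := Finset.sum_le_sum fun _ _ => hf _
      _ = n := by simp
  have h2 : ‖((n : ℂ)⁻¹)‖ = (n : ℝ)⁻¹ := by simp
  rw [h2]
  have h3 : (0 : ℝ) < n := by exact_mod_cast hn
  calc (n : ℝ)⁻¹ * W ν (∑ k ∈ range n, f k) ≤ (n : ℝ)⁻¹ * n := by gcongr
    _ = 1 := inv_mul_cancel₀ h3.ne'

theorem W_bk_le {t : ℂ} (ht : ‖t‖ = 1) {n : ℕ} (hn : 0 < n) : W ν (bk A t n) ≤ 1 :=
  W_avg_le ν hn fun k => W_X_le ν ht k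

theorem W_bk'_le {t : ℂ} (ht : ‖t‖ = 1) {n : ℕ} (hn : 0 < n) : W ν (bk' A t n) ≤ 1 :=
  W_avg_le ν hn fun k => W_X_le ν ht _

theorem bk_mul {t : ℂ} (ht : t ≠ 0) (n : ℕ) :
    bk A t n * (X A t 1 - 1) = ((n : ℂ)⁻¹) • (X A t n - 1) := by
  rw [bk, smul_mul_assoc]
  congr 1
  have h : ∀ k : ℕ, X A t (k : ℤ) = X A t 1 ^ k := fun k => by
    rw [X_pow ht, one_mul]
  rw [h n, Finset.sum_congr rfl fun k _ => h k]
  exact geom_sum_mul _ _

theorem W_bk_X_nat {t : ℂ} (ht : ‖t‖ = 1) {n : ℕ} (hn : 0 < n) (m : ℕ) :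
    W ν (bk A t n * (X A t m - 1)) ≤ m * (2 / n) := by
  have ht0 : t ≠ 0 := by
    rintro rfl
    simp at ht
  have h1 : W ν (bk A t n * (X A t 1 - 1)) ≤ 2 / n := by
    rw [bk_mul ht0]
    refine (W_smul_le ν _ _).trans ?_
    have h2 : ‖((n : ℂ)⁻¹)‖ = (n : ℝ)⁻¹ := by simp
    have h3 : W ν (X A t n - 1) ≤ 2 := by
      refine (W_sub_le ν _ _).trans ?_
      have := W_X_le ν (A := A) ht n
      have h4 := W_X_le ν (A := A) ht 0
      rw [X_zero] at h4
      linarith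
    rw [h2, div_eq_mul_inv, mul_comm]
    gcongr
  induction m with
  | zero =>
    rw [Nat.cast_zero, X_zero, sub_self, mul_zero, W_zero]
    simp
  | succ m ih =>
    have h2 : bk A t n * (X A t ((m + 1 : ℕ) : ℤ) - 1) =
        X A t m * (bk A t n * (X A t 1 - 1)) + bk A t n * (X A t m - 1) := by
      have h3 : X A t ((m + 1 : ℕ) : ℤ) = X A t m * X A t 1 := by
        rw [X_mul ht0]; push_cast; rfl
      rw [h3, ← mul_assoc, X_comm t (m : ℤ) (bk A t n), mul_assoc, ← mul_add]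
      congr 1
      rw [mul_sub, mul_one, sub_add_sub_cancel]
    rw [h2]
    refine (W_add_le ν _ _).trans ?_
    have h4 : W ν (X A t m * (bk A t n * (X A t 1 - 1))) ≤ 1 * (2 / n) :=
      (W_mul_le ν _ _).trans (mul_le_mul (W_X_le ν ht m) h1 (W_nonneg ν _) zero_le_one)
    push_cast
    linarith

theorem W_bk_X {t : ℂ} (ht : ‖t‖ = 1) {n : ℕ} (hn : 0 < n) (m : ℤ) :
    W ν (bk A t n * (X A t m - 1)) ≤ |(m : ℝ)| * (2 / n) := by
  have ht0 : t ≠ 0 := by
    rintro rfl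
    simp at ht
  obtain ⟨k, rfl | rfl⟩ := Int.eq_nat_or_neg m
  · have := W_bk_X_nat ν ht hn k
    simpa using this
  · have h1 := W_bk_X_nat ν ht hn k
    have h2 : bk A t n * (X A t (-(k : ℤ)) - 1) =
        -(X A t (-(k : ℤ)) * (bk A t n * (X A t k - 1))) := by
      rw [← mul_assoc, X_comm, mul_assoc, ← mul_neg]
      congr 1
      rw [mul_sub, X_mul ht0, mul_one, neg_add_cancel, X_zero, neg_sub]
    rw [h2]
    refine (W_neg_le ν _).trans ((W_mul_le ν _ _).trans ?_)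
    have h3 := W_X_le ν (A := A) ht (-(k : ℤ))
    calc W ν (X A t (-(k : ℤ))) * W ν (bk A t n * (X A t k - 1)) ≤ 1 * (k * (2 / n)) :=
          mul_le_mul h3 h1 (W_nonneg ν _) zero_le_one
      _ = |((-(k : ℤ) : ℤ) : ℝ)| * (2 / n) := by
        rw [one_mul]
        congr 1
        simp

/-- localisation: `E(t₀) = 0` makes `b_{t,n} E` small for `t` near `t₀` and `n` large -/
theorem W_bk_E {t : ℂ} (ht : ‖t‖ = 1) {n : ℕ} (hn : 0 < n) {t₀ : ℂˣ} {E : Lau A}
    (hE : ev t₀ E = 0) :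
    W ν (bk A t n * E) ≤
      ∑ m ∈ E.coeff.support, (ν.N (E.coeff m) * (|(m : ℝ)| * (2 / n)) +
        ‖t ^ m - (t₀ : ℂ) ^ m‖ * ν.N (E.coeff m)) := by
  have ht0 : t ≠ 0 := by
    rintro rfl
    simp at ht
  have h1 : E = ∑ m ∈ E.coeff.support,
      ((AddMonoidAlgebra.single 0 (t ^ m • E.coeff m) : Lau A) * (X A t m - 1) +
        AddMonoidAlgebra.single 0 ((t ^ m - (t₀ : ℂ) ^ m) • E.coeff m)) := by
    have h2 : (AddMonoidAlgebra.single 0 (ev t₀ E) : Lau A) = 0 := by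
      rw [hE, AddMonoidAlgebra.single_zero]
    have h3 : ∀ m, ((AddMonoidAlgebra.single 0 (t ^ m • E.coeff m) : Lau A) * (X A t m - 1) +
        AddMonoidAlgebra.single 0 ((t ^ m - (t₀ : ℂ) ^ m) • E.coeff m)) =
        AddMonoidAlgebra.single m (E.coeff m) -
          AddMonoidAlgebra.single 0 ((t₀ : ℂ) ^ m • E.coeff m) := by
      intro m
      rw [mul_sub, mul_one, X, AddMonoidAlgebra.single_mul_single, zero_add, sub_smul,
        AddMonoidAlgebra.single_sub]
      have h4 : (t ^ m • E.coeff m) * algebraMap ℂ A (t ^ (-m)) = E.coeff m := by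
        rw [← Algebra.commutes, ← Algebra.smul_def, smul_smul, ← zpow_add₀ ht0, neg_add_cancel,
          zpow_zero, one_smul]
      rw [h4]
      abel
    rw [Finset.sum_congr rfl fun m _ => h3 m, Finset.sum_sub_distrib]
    have h5 : ∑ m ∈ E.coeff.support,
        (AddMonoidAlgebra.single 0 ((t₀ : ℂ) ^ m • E.coeff m) : Lau A) = 0 := by
      have h6 : (AddMonoidAlgebra.single 0 (ev t₀ E) : Lau A) =
          ∑ m ∈ E.coeff.support, AddMonoidAlgebra.single 0 ((t₀ : ℂ) ^ m • E.coeff m) := by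
        rw [ev_eq]
        unfold Finsupp.sum
        exact map_sum (AddMonoidAlgebra.singleAddHom (R := A) (0 : ℤ)) _ _
      rw [← h6, h2]
    rw [h5, sub_zero]
    conv_lhs => rw [← AddMonoidAlgebra.sum_coeff_single E]
    rfl
  conv_lhs => rw [h1]
  rw [Finset.mul_sum]
  refine (W_sum_le ν _ _).trans (Finset.sum_le_sum fun m _ => ?_)
  rw [mul_add]
  refine (W_add_le ν _ _).trans (add_le_add ?_ ?_)
  · rw [← mul_assoc, bk_comm, mul_assoc]
    refine (W_mul_le ν _ _).trans ?_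
    rw [W_single]
    refine mul_le_mul ?_ (W_bk_X ν ht hn m) (W_nonneg ν _) (ν.nonneg _)
    refine (ν.smul_le _ _).trans (le_of_eq ?_)
    rw [norm_zpow, ht, one_zpow, one_mul]
  · refine (W_mul_le ν _ _).trans ?_
    rw [W_single]
    calc W ν (bk A t n) * ν.N ((t ^ m - (t₀ : ℂ) ^ m) • E.coeff m)
        ≤ 1 * (‖t ^ m - (t₀ : ℂ) ^ m‖ * ν.N (E.coeff m)) :=
          mul_le_mul (W_bk_le ν ht hn) (ν.smul_le _ _) (ν.nonneg _) zero_le_one
      _ = _ := one_mul _

end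

end Crest.Agent.R275.Sq617
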