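import Crest.Agent.R275.SqA_617

/-!
# R275, block D (helper617): exact partition of unity by trigonometric polynomials and patching
-/

set_option autoImplicit false

namespace Crest.Agent.R275.Sq617

open Finset Polynomial

noncomputable section

variable {A : Type*} [Ring A] [Algebra ℂ A] (ν : SN A)

/-- `((1/n) ∑_{k<n} x^k)^p` -/
def pl (n p : ℕ) : ℝ[X] := (C ((n : ℝ)⁻¹) * ∑ k ∈ range n, Polynomial.X ^ k) ^ p

theorem pl_eval {n : ℕ} (hn : 0 < n) (p : ℕ) : (pl n p).eval 1 = 1 := by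
  have h3 : (n : ℝ) ≠ 0 := by exact_mod_cast hn.ne'
  simp [pl, eval_finsetSum, h3]

theorem pl_natDegree_lt (n p : ℕ) : (pl n p).natDegree < p * n + 1 := by
  have h1 : (C ((n : ℝ)⁻¹) * ∑ k ∈ range n, (Polynomial.X : ℝ[X]) ^ k).natDegree ≤ n := by
    refine (natDegree_C_mul_le _ _).trans ?_
    refine (natDegree_sum_le _ _).trans ?_
    rw [Finset.fold_max_le]
    refine ⟨Nat.zero_le _, fun k hk => ?_⟩
    simp only [Function.comp_apply, natDegree_X_pow]
    exact (mem_range.mp hk).le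
  have h2 : (pl n p).natDegree ≤ p * n := (natDegree_pow_le).trans (Nat.mul_le_mul_left p h1)
  omega

/-- lower bound of the sum of squares of the coefficients -/
theorem pl_sq {n : ℕ} (hn : 0 < n) (p : ℕ) :
    1 ≤ ((p * n + 1 : ℕ) : ℝ) * ∑ k ∈ range (p * n + 1), ((pl n p).coeff k) ^ 2 := by
  have h1 : ∑ k ∈ range (p * n + 1), (pl n p).coeff k = 1 := by
    have h2 := eval_eq_sum_range' (pl_natDegree_lt n p) (1 : ℝ)
    rw [pl_eval hn] at h2
    rw [h2]
    exact Finset.sum_congr rfl fun k _ => by simp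
  have h3 := sq_sum_le_card_mul_sum_sq (s := range (p * n + 1)) (f := fun k => (pl n p).coeff k)
  rw [h1, card_range] at h3
  simpa using h3

/-- sum over roots of unity of powers -/
theorem root_sum {M : ℕ} (hM : 0 < M) {k l : ℕ} (hk : k < M) (hl : l < M) :
    ∑ j ∈ range M, (Complex.exp (2 * Real.pi * Complex.I / M) ^ j) ^ ((l : ℤ) - k) =
      if k = l then (M : ℂ) else 0 := by
  set ζ := Complex.exp (2 * Real.pi * Complex.I / M) with hζ
  have hprim : IsPrimitiveRoot ζ M := Complex.isPrimitiveRoot_exp M hM.ne'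
  have h1 : ∀ j : ℕ, (ζ ^ j) ^ ((l : ℤ) - k) = (ζ ^ ((l : ℤ) - k)) ^ j := by
    intro j
    rw [← zpow_natCast ζ j, ← zpow_mul, mul_comm, zpow_mul, zpow_natCast]
  rw [Finset.sum_congr rfl fun j _ => h1 j]
  split_ifs with h
  · subst h
    simp
  · have hne : ζ ^ ((l : ℤ) - k) ≠ 1 := by
      intro h2
      rw [hprim.zpow_eq_one_iff_dvd] at h2
      obtain ⟨c, hc⟩ := h2
      rcases lt_trichotomy c 0 with h3 | h3 | h3
      · have : (M : ℤ) * c ≤ -(M : ℤ) := by nlinarith
        omega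
      · subst h3
        omega
      · have : (M : ℤ) ≤ (M : ℤ) * c := by nlinarith
        omega
    have h2 := geom_sum_mul (ζ ^ ((l : ℤ) - k)) M
    have h3 : (ζ ^ ((l : ℤ) - k)) ^ M = 1 := by
      rw [← zpow_natCast, ← zpow_mul, mul_comm, zpow_mul, zpow_natCast, hprim.pow_eq_one, one_zpow]
    rw [h3, sub_self] at h2
    rcases mul_eq_zero.mp h2 with h4 | h4
    · exact h4
    · exact absurd (sub_eq_zero.mp h4) hne

theorem bk_pow {t : ℂ} (ht : t ≠ 0) {n : ℕ} (hn : 0 < n) (p : ℕ) :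
    bk A t n ^ p = ∑ k ∈ range (p * n + 1), (((pl n p).coeff k : ℝ) : ℂ) • X A t k := by
  have h1 : bk A t n ^ p = aeval (X A t 1) ((pl n p).map Complex.ofRealHom) := by
    rw [pl, Polynomial.map_pow, map_pow]
    congr 1
    rw [Polynomial.map_mul, map_mul, Polynomial.map_C, aeval_C, Polynomial.map_sum, map_sum, bk,
      Algebra.smul_def]
    congr 1
    · simp
    · refine Finset.sum_congr rfl fun k _ => ?_
      rw [Polynomial.map_pow, map_pow, Polynomial.map_X, aeval_X, X_pow ht, one_mul]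
  rw [h1, aeval_eq_sum_range' (n := p * n + 1)]
  · refine Finset.sum_congr rfl fun k _ => ?_
    rw [X_pow ht, one_mul, coeff_map]
    rfl
  · exact (natDegree_map_le).trans_lt (pl_natDegree_lt n p)

theorem bk'_pow {t : ℂ} (ht : t ≠ 0) {n : ℕ} (hn : 0 < n) (p : ℕ) :
    bk' A t n ^ p = ∑ k ∈ range (p * n + 1), (((pl n p).coeff k : ℝ) : ℂ) • X A t (-(k : ℤ)) := by
  have h1 : bk' A t n ^ p = aeval (X A t (-1)) ((pl n p).map Complex.ofRealHom) := by
    rw [pl, Polynomial.map_pow, map_pow]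
    congr 1
    rw [Polynomial.map_mul, map_mul, Polynomial.map_C, aeval_C, Polynomial.map_sum, map_sum, bk',
      Algebra.smul_def]
    congr 1
    · simp
    · refine Finset.sum_congr rfl fun k _ => ?_
      rw [Polynomial.map_pow, map_pow, Polynomial.map_X, aeval_X, X_pow ht, neg_one_mul]
  rw [h1, aeval_eq_sum_range' (n := p * n + 1)]
  · refine Finset.sum_congr rfl fun k _ => ?_
    rw [X_pow ht, neg_one_mul, coeff_map]
    rfl
  · exact (natDegree_map_le).trans_lt (pl_natDegree_lt n p)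

/-- exact partition of unity -/
theorem partition {n : ℕ} (hn : 0 < n) (p : ℕ) :
    ∑ j ∈ range (p * n + 1),
      bk A (Complex.exp (2 * Real.pi * Complex.I / (p * n + 1 : ℕ)) ^ j) n ^ p *
        bk' A (Complex.exp (2 * Real.pi * Complex.I / (p * n + 1 : ℕ)) ^ j) n ^ p =
      ((((p * n + 1 : ℕ) : ℝ) * ∑ k ∈ range (p * n + 1), ((pl n p).coeff k) ^ 2 : ℝ) : ℂ) •
        (1 : Lau A) := by
  set M := p * n + 1 with hM
  have hM0 : 0 < M := Nat.succ_pos _
  set ζ := Complex.exp (2 * Real.pi * Complex.I / M) with hζ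
  have hζ0 : ζ ≠ 0 := Complex.exp_ne_zero _
  set β : ℕ → ℂ := fun k => (((pl n p).coeff k : ℝ) : ℂ) with hβ
  have h1 : ∀ j ∈ range M, bk A (ζ ^ j) n ^ p * bk' A (ζ ^ j) n ^ p =
      ∑ k ∈ range M, ∑ l ∈ range M, (β k * β l) •
        (AddMonoidAlgebra.single ((k : ℤ) - l) (algebraMap ℂ A ((ζ ^ j) ^ ((l : ℤ) - k))) : Lau A) := by
    intro j _
    have hj : ζ ^ j ≠ 0 := pow_ne_zero _ hζ0
    rw [bk_pow hj hn, bk'_pow hj hn, Finset.sum_mul_sum]
    refine Finset.sum_congr rfl fun k _ => Finset.sum_congr rfl fun l _ => ?_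
    rw [smul_mul_assoc, mul_smul_comm, smul_smul, X_mul hj, X]
    congr 3
    ring_nf
  rw [Finset.sum_congr rfl h1, Finset.sum_comm]
  have h2 : ∀ k ∈ range M, ∑ j ∈ range M, ∑ l ∈ range M, (β k * β l) •
        (AddMonoidAlgebra.single ((k : ℤ) - l) (algebraMap ℂ A ((ζ ^ j) ^ ((l : ℤ) - k))) : Lau A) =
      (β k * β k * M) • (1 : Lau A) := by
    intro k hk
    rw [Finset.sum_comm]
    have h3 : ∀ l ∈ range M, ∑ j ∈ range M, (β k * β l) •
        (AddMonoidAlgebra.single ((k : ℤ) - l) (algebraMap ℂ A ((ζ ^ j) ^ ((l : ℤ) - k))) : Lau A) =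
        if k = l then (β k * β k * M) • (1 : Lau A) else 0 := by
      intro l hl
      rw [← Finset.smul_sum]
      have h4 : ∑ j ∈ range M,
          (AddMonoidAlgebra.single ((k : ℤ) - l) (algebraMap ℂ A ((ζ ^ j) ^ ((l : ℤ) - k))) : Lau A) =
          AddMonoidAlgebra.single ((k : ℤ) - l)
            (algebraMap ℂ A (∑ j ∈ range M, (ζ ^ j) ^ ((l : ℤ) - k))) := by
        rw [map_sum]
        exact (map_sum (AddMonoidAlgebra.singleAddHom (R := A) ((k : ℤ) - l)) _ _).symm
      rw [h4, root_sum hM0 (mem_range.mp hk) (mem_range.mp hl)]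
      split_ifs with h
      · subst h
        rw [sub_self, mul_smul, mul_smul, mul_smul, AddMonoidAlgebra.one_def,
          Algebra.algebraMap_eq_smul_one, AddMonoidAlgebra.smul_single (M : ℂ)]
      · simp
    rw [Finset.sum_congr rfl h3, Finset.sum_ite_eq, if_pos hk]
  rw [Finset.sum_congr rfl h2, ← Finset.sum_smul]
  congr 1
  push_cast
  rw [Finset.mul_sum]
  refine Finset.sum_congr rfl fun k _ => ?_
  rw [hβ]
  ring

end

end Crest.Agent.R275.Sq617
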