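import Crest.Agent.R275.SqB_617
import Mathlib.Topology.Algebra.Field
import Mathlib.Analysis.SpecificLimits.Normed
import Mathlib.Analysis.SpecialFunctions.Complex.Circle

/-!
# R275, block D (helper617): patching local homotopies over the circle

`wiener_patch`: if for every `t` on the unit circle the constant correction `s` makes
`K + P s P` an exact homotopy at `t`, then there is a Laurent polynomial `S` such that `K + S` is a
homotopy up to an error of arbitrarily small Wiener norm.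
-/

set_option autoImplicit false

namespace Crest.Agent.R275.Sq617

open Finset

noncomputable section

variable {A : Type*} [Ring A] [Algebra ℂ A]

/-- the error of the homotopy `L` -/
def err {Λ : Type*} [Ring Λ] (P D L : Λ) : Λ := P - D * L - L * D

/-- algebra: `err` of the improved homotopy `L * (1 + E + ... + E^p)` is `E^(p+1)` -/
theorem err_improve {Λ : Type*} [Ring Λ] {P D L : Λ} (hPP : P * P = P) (hDP : D * P = D)
    (hPD : P * D = D) (hPL : P * L = L) (hDD : D * D = 0) (p : ℕ) :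
    err P D (L * ∑ k ∈ range (p + 1), (err P D L) ^ k) = (err P D L) ^ (p + 1) := by
  unfold err
  set E := P - D * L - L * D with hE
  have hPE : P * E = E := by
    rw [hE, mul_sub, mul_sub, hPP, ← mul_assoc, hPD, ← mul_assoc, hPL]
  have hED : E * D = D * E := by
    rw [hE]
    have h1 : (P - D * L - L * D) * D = D - D * L * D := by
      rw [sub_mul, sub_mul, hPD, mul_assoc L D D, hDD, mul_zero, sub_zero]
    have h2 : D * (P - D * L - L * D) = D - D * L * D := by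
      rw [mul_sub, mul_sub, hDP, ← mul_assoc D D L, hDD, zero_mul, sub_zero, ← mul_assoc]
    rw [h1, h2]
  set G := ∑ k ∈ range (p + 1), E ^ k with hG
  have hGD : G * D = D * G := by
    rw [hG, Finset.sum_mul, Finset.mul_sum]
    refine Finset.sum_congr rfl fun k _ => ?_
    have hc : Commute E D := hED
    exact (hc.pow_left k).eq
  have h4 : L * G * D = L * D * G := by
    rw [mul_assoc, hGD, mul_assoc]
  rw [h4, ← mul_assoc D L G]
  have h5 : D * L + L * D = P - E := by rw [hE]; abel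
  have h6 : P - D * L * G - L * D * G = P - (P - E) * G := by
    rw [← h5, add_mul]; abel
  rw [h6]
  have h7 : (P - E) * G = P - E ^ (p + 1) := by
    rw [sub_mul, hG, Finset.mul_sum, Finset.mul_sum, ← Finset.sum_sub_distrib]
    let f : ℕ → Λ := fun k => if k = 0 then P else E ^ k
    have h8 : ∀ k ∈ range (p + 1), P * E ^ k - E * E ^ k = f k - f (k + 1) := by
      intro k _
      simp only [f, Nat.succ_ne_zero, if_false]
      split_ifs with h
      · subst h; simp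
      · obtain ⟨j, rfl⟩ := Nat.exists_eq_succ_of_ne_zero h
        rw [pow_succ' E j, ← mul_assoc P, hPE, pow_succ' E (j + 1), pow_succ' E j]
    rw [Finset.sum_congr rfl h8, Finset.sum_range_sub']
    simp [f]
  rw [h7]
  abel

/-- Laurent polynomials with coefficients in a subspace -/
def LS (J : Submodule ℂ A) : Submodule ℂ (Lau A) where
  carrier := {f | ∀ m, f.coeff m ∈ J}
  add_mem' := fun hf hg m => J.add_mem (hf m) (hg m)
  zero_mem' := fun _ => J.zero_mem
  smul_mem' := fun c _ hf m => J.smul_mem c (hf m)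

theorem single_mem_LS {J : Submodule ℂ A} {m : ℤ} {a : A} (ha : a ∈ J) :
    (AddMonoidAlgebra.single m a : Lau A) ∈ LS J := by
  intro n
  rw [AddMonoidAlgebra.coeff_single, Finsupp.single_apply]
  split_ifs
  · exact ha
  · exact J.zero_mem

theorem mul_mem_LS {J₁ J₂ J₃ : Submodule ℂ A} (h : ∀ a ∈ J₁, ∀ b ∈ J₂, a * b ∈ J₃) {f g : Lau A}
    (hf : f ∈ LS J₁) (hg : g ∈ LS J₂) : f * g ∈ LS J₃ := by
  rw [AddMonoidAlgebra.mul_def]
  unfold Finsupp.sum
  exact Submodule.sum_mem _ fun m _ => Submodule.sum_mem _ fun n _ =>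
    single_mem_LS (h _ (hf m) _ (hg n))

theorem top_mem_LS (f : Lau A) : f ∈ LS (⊤ : Submodule ℂ A) := fun _ => Submodule.mem_top

theorem X_mem_LS {J : Submodule ℂ A} (h1 : (1 : A) ∈ J) (t : ℂ) (m : ℤ) : X A t m ∈ LS J := by
  apply single_mem_LS
  rw [Algebra.algebraMap_eq_smul_one]
  exact J.smul_mem _ h1

theorem bk_mem_LS {J : Submodule ℂ A} (h1 : (1 : A) ∈ J) (t : ℂ) (n : ℕ) : bk A t n ∈ LS J :=
  Submodule.smul_mem _ _ (Submodule.sum_mem _ fun _ _ => X_mem_LS h1 _ _)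

theorem bk'_mem_LS {J : Submodule ℂ A} (h1 : (1 : A) ∈ J) (t : ℂ) (n : ℕ) : bk' A t n ∈ LS J :=
  Submodule.smul_mem _ _ (Submodule.sum_mem _ fun _ _ => X_mem_LS h1 _ _)

/-- data for the patching theorem -/
structure PData (A : Type*) [Ring A] [Algebra ℂ A] where
  ν : SN A
  I : Submodule ℂ A
  Il : ∀ a, ∀ s ∈ I, a * s ∈ I
  Ir : ∀ a, ∀ s ∈ I, s * a ∈ I
  G : ℤ → Submodule ℂ A
  Gone : (1 : A) ∈ G 0
  Gmul : ∀ i j, ∀ a ∈ G i, ∀ b ∈ G j, a * b ∈ G (i + j)
  P : Lau A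
  D : Lau A
  K : Lau A
  PP : P * P = P
  DP : D * P = D
  PD : P * D = D
  PK : P * K = K
  KP : K * P = K
  DD : D * D = 0
  gP : P ∈ LS (G 0)
  gD : D ∈ LS (G 1)
  gK : K ∈ LS (G (-1))
  hR : err P D K ∈ LS I
  loc : ∀ z : Circle, ∃ s ∈ I, s ∈ G (-1) ∧
    ev (Circle.toUnits z) (err P D (K + P * AddMonoidAlgebra.single 0 s * P)) = 0

namespace PData

variable (Q : PData A)

theorem Il' {f g : Lau A} (hg : g ∈ LS Q.I) : f * g ∈ LS Q.I :=
  mul_mem_LS (J₁ := ⊤) (fun a _ s hs => Q.Il a s hs) (top_mem_LS f) hg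

theorem Ir' {f g : Lau A} (hf : f ∈ LS Q.I) : f * g ∈ LS Q.I :=
  mul_mem_LS (J₂ := ⊤) (fun s hs a _ => Q.Ir a s hs) hf (top_mem_LS g)

theorem G' {i j k : ℤ} (hk : i + j = k) {f g : Lau A} (hf : f ∈ LS (Q.G i)) (hg : g ∈ LS (Q.G j)) :
    f * g ∈ LS (Q.G k) :=
  mul_mem_LS (fun a ha b hb => hk ▸ Q.Gmul i j a ha b hb) hf hg

theorem one_mem : (1 : Lau A) ∈ LS (Q.G 0) := by
  rw [AddMonoidAlgebra.one_def]
  exact single_mem_LS Q.Gone

theorem pow_mem {f : Lau A} (hf : f ∈ LS (Q.G 0)) (k : ℕ) : f ^ k ∈ LS (Q.G 0) := by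
  induction k with
  | zero => rw [pow_zero]; exact Q.one_mem
  | succ k ih => rw [pow_succ]; exact Q.G' (by norm_num) ih hf

/-- A good correction `S`. -/
def Good (S : Lau A) : Prop :=
  S ∈ LS Q.I ∧ S ∈ LS (Q.G (-1)) ∧ Q.P * S = S ∧ S * Q.P = S

theorem err_mem {S : Lau A} (hS : S ∈ LS Q.I) : err Q.P Q.D (Q.K + S) ∈ LS Q.I := by
  have h : err Q.P Q.D (Q.K + S) = err Q.P Q.D Q.K - Q.D * S - S * Q.D := by
    unfold err; rw [mul_add, add_mul]; abel
  rw [h]
  exact Submodule.sub_mem _ (Submodule.sub_mem _ Q.hR (Q.Il' hS)) (Q.Ir' hS)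

theorem err_mem0 {L : Lau A} (hL : L ∈ LS (Q.G (-1))) : err Q.P Q.D L ∈ LS (Q.G 0) :=
  Submodule.sub_mem _ (Submodule.sub_mem _ Q.gP (Q.G' (by norm_num) Q.gD hL))
    (Q.G' (by norm_num) hL Q.gD)

theorem good_base {s : A} (hs : s ∈ Q.I) (hs' : s ∈ Q.G (-1)) :
    Q.Good (Q.P * AddMonoidAlgebra.single 0 s * Q.P) := by
  refine ⟨Q.Ir' (Q.Il' (single_mem_LS hs)), ?_, ?_, ?_⟩
  · exact Q.G' (i := -1) (j := 0) (by norm_num)
      (Q.G' (i := 0) (j := -1) (k := -1) (by norm_num) Q.gP (single_mem_LS hs')) Q.gP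
  · rw [← mul_assoc, ← mul_assoc, Q.PP]
  · rw [mul_assoc _ Q.P Q.P, Q.PP]

/-- improvement of a correction -/
def imp (S : Lau A) (p : ℕ) : Lau A :=
  (Q.K + S) * ∑ k ∈ range (p + 1), (err Q.P Q.D (Q.K + S)) ^ k - Q.K

theorem good_imp {S : Lau A} (hS : Q.Good S) (p : ℕ) :
    Q.Good (Q.imp S p) ∧
      err Q.P Q.D (Q.K + Q.imp S p) = (err Q.P Q.D (Q.K + S)) ^ (p + 1) := by
  obtain ⟨h1, h2, h3, h4⟩ := hS
  have hPL : Q.P * (Q.K + S) = Q.K + S := by rw [mul_add, Q.PK, h3]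
  have hLP : (Q.K + S) * Q.P = Q.K + S := by rw [add_mul, Q.KP, h4]
  have hL : Q.K + S ∈ LS (Q.G (-1)) := Submodule.add_mem _ Q.gK h2
  set E := err Q.P Q.D (Q.K + S) with hE
  have hE1 : E ∈ LS Q.I := Q.err_mem h1
  have hE0 : E ∈ LS (Q.G 0) := Q.err_mem0 hL
  have hPE : E * Q.P = E := by
    rw [hE]
    unfold err
    rw [sub_mul, sub_mul, Q.PP, mul_assoc Q.D, hLP, mul_assoc _ Q.D, Q.DP]
  have hP' : Q.P * E = E := by
    rw [hE]
    unfold err
    rw [mul_sub, mul_sub, Q.PP, ← mul_assoc Q.P, Q.PD, ← mul_assoc Q.P, hPL]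
  have hsum : ∑ k ∈ range (p + 1), E ^ k = 1 + E * ∑ k ∈ range p, E ^ k := by
    rw [Finset.sum_range_succ', pow_zero, add_comm, Finset.mul_sum]
    congr 1
    exact Finset.sum_congr rfl fun k _ => pow_succ' E k
  have himp : Q.imp S p = S + (Q.K + S) * (E * ∑ k ∈ range p, E ^ k) := by
    unfold imp
    rw [← hE, hsum, mul_add, mul_one]
    abel
  refine ⟨⟨?_, ?_, ?_, ?_⟩, ?_⟩
  · rw [himp]
    exact Submodule.add_mem _ h1 (Q.Il' (Q.Ir' hE1))
  · unfold imp
    refine Submodule.sub_mem _ (Q.G' (j := 0) (by norm_num) hL ?_) Q.gK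
    exact Submodule.sum_mem _ fun k _ => Q.pow_mem hE0 k
  · rw [himp, mul_add, h3, ← mul_assoc Q.P, hPL]
  · rw [himp, add_mul, h4, mul_assoc (Q.K + S)]
    congr 2
    have hc : Commute E Q.P := hPE.trans hP'.symm
    have h5 : (∑ k ∈ range p, E ^ k) * Q.P = Q.P * ∑ k ∈ range p, E ^ k := by
      rw [Finset.sum_mul, Finset.mul_sum]
      exact Finset.sum_congr rfl fun k _ => (hc.pow_left k).eq
    rw [mul_assoc, h5, ← mul_assoc, hPE]
  · have h6 : Q.K + Q.imp S p = (Q.K + S) * ∑ k ∈ range (p + 1), E ^ k := by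
      unfold imp; rw [← hE]; abel
    rw [h6]
    exact err_improve Q.PP Q.DP Q.PD hPL Q.DD p

/-- WIENER PATCH. -/
theorem wiener_patch {δ : ℝ} (hδ : 0 < δ) :
    ∃ S : Lau A, Q.Good S ∧ W Q.ν (err Q.P Q.D (Q.K + S)) < δ := by
  classical
  choose s hsI hsG hs0 using Q.loc
  let S₀ : Circle → Lau A := fun z => Q.P * AddMonoidAlgebra.single 0 (s z) * Q.P
  have hS₀ : ∀ z, Q.Good (S₀ z) := fun z => Q.good_base (hsI z) (hsG z)
  let E : Circle → Lau A := fun z => err Q.P Q.D (Q.K + S₀ z)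
  -- neighbourhoods
  let f : Circle → Circle → ℝ := fun z w => ∑ m ∈ (E z).coeff.support,
    ‖(w : ℂ) ^ m - (z : ℂ) ^ m‖ * Q.ν.N ((E z).coeff m)
  have hfc : ∀ z, Continuous (f z) := by
    intro z
    refine continuous_finsetSum _ fun m _ => ?_
    refine Continuous.mul ?_ continuous_const
    refine Continuous.norm (Continuous.sub ?_ continuous_const)
    have h1 : (fun w : Circle => (w : ℂ) ^ m) = fun w : Circle => ((w ^ m : Circle) : ℂ) := by
      funext w; rw [Circle.coe_zpow]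
    rw [h1]
    exact Continuous.comp (g := fun w : Circle => (w : ℂ)) (by fun_prop) (continuous_zpow m)
  have hfz : ∀ z, f z z = 0 := by
    intro z
    simp [f]
  obtain ⟨F, hF⟩ := CompactSpace.elim_nhds_subcover (fun z => {w | f z w < 1 / 4}) (fun z => by
    have h1 : f z z < 1 / 4 := by rw [hfz]; norm_num
    exact (hfc z).continuousAt.eventually (gt_mem_nhds h1))
  -- choice of n
  let C : ℝ := ∑ z ∈ F, ∑ m ∈ (E z).coeff.support, Q.ν.N ((E z).coeff m) * |(m : ℝ)|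
  have hC0 : ∀ z, 0 ≤ ∑ m ∈ (E z).coeff.support, Q.ν.N ((E z).coeff m) * |(m : ℝ)| := fun z =>
    Finset.sum_nonneg fun m _ => mul_nonneg (Q.ν.nonneg _) (abs_nonneg _)
  obtain ⟨n, hn⟩ := exists_nat_gt (8 * C)
  have hC : 0 ≤ C := Finset.sum_nonneg fun z _ => hC0 z
  have hn0 : 0 < n := by
    have : (0 : ℝ) < n := lt_of_le_of_lt (by positivity) hn
    exact_mod_cast this
  have key : ∀ w : Circle, ∃ z, W Q.ν (bk A (w : ℂ) n * E z) ≤ 1 / 2 := by
    intro w
    have hw : w ∈ ⋃ z ∈ F, {w | f z w < 1 / 4} := by rw [hF]; trivial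
    simp only [Set.mem_iUnion, Set.mem_ofPred_eq] at hw
    obtain ⟨z, hzF, hz⟩ := hw
    refine ⟨z, (W_bk_E Q.ν (Circle.norm_coe w) hn0 (t₀ := Circle.toUnits z) (hs0 z)).trans ?_⟩
    rw [Finset.sum_add_distrib]
    have h1 : ∑ m ∈ (E z).coeff.support,
        Q.ν.N ((E z).coeff m) * (|(m : ℝ)| * (2 / n)) ≤ 1 / 4 := by
      have h2 : ∑ m ∈ (E z).coeff.support, Q.ν.N ((E z).coeff m) * (|(m : ℝ)| * (2 / n)) =
          (∑ m ∈ (E z).coeff.support, Q.ν.N ((E z).coeff m) * |(m : ℝ)|) * (2 / n) := by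
        rw [Finset.sum_mul]
        exact Finset.sum_congr rfl fun m _ => by ring
      rw [h2]
      have h3 : ∑ m ∈ (E z).coeff.support, Q.ν.N ((E z).coeff m) * |(m : ℝ)| ≤ C :=
        Finset.single_le_sum (f := fun z => ∑ m ∈ (E z).coeff.support,
          Q.ν.N ((E z).coeff m) * |(m : ℝ)|) (fun z _ => hC0 z) hzF
      have hn' : (0 : ℝ) < n := by exact_mod_cast hn0
      rw [mul_div_assoc', div_le_iff₀ hn']
      nlinarith
    have h4 : f z w < 1 / 4 := hz
    have h5 : ∑ m ∈ (E z).coeff.support,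
        ‖(w : ℂ) ^ m - ((Circle.toUnits z : ℂˣ) : ℂ) ^ m‖ * Q.ν.N ((E z).coeff m) = f z w := rfl
    show _ + ∑ m ∈ (E z).coeff.support,
        ‖(w : ℂ) ^ m - ((Circle.toUnits z : ℂˣ) : ℂ) ^ m‖ * Q.ν.N ((E z).coeff m) ≤ _
    rw [h5]
    linarith
  choose c hc using key
  -- choice of p
  obtain ⟨q, hq⟩ : ∃ q : ℕ, (((q + 1) * n + 1 : ℕ) : ℝ) * (1 / 2) ^ (q + 1) < δ := by
    have h1 : Filter.Tendsto (fun q : ℕ => (((q + 1 : ℕ) : ℝ) * (1 / 2 : ℝ) ^ (q + 1)) * n +
        (1 / 2 : ℝ) ^ (q + 1)) Filter.atTop (nhds (0 * n + 0)) := by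
      refine Filter.Tendsto.add (Filter.Tendsto.mul_const _ ?_) ?_
      · exact (tendsto_self_mul_const_pow_of_lt_one (by norm_num) (by norm_num)).comp
          (Filter.tendsto_add_atTop_nat 1)
      · exact (tendsto_pow_atTop_nhds_zero_of_lt_one (by norm_num) (by norm_num)).comp
          (Filter.tendsto_add_atTop_nat 1)
    rw [zero_mul, zero_add] at h1
    obtain ⟨q, hq⟩ := (h1.eventually (gt_mem_nhds hδ)).exists
    refine ⟨q, lt_of_le_of_lt (le_of_eq ?_) hq⟩
    push_cast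
    ring
  set p := q + 1 with hp
  set M := p * n + 1 with hM
  -- points
  let w : ℕ → Circle := fun j => (Circle.exp (2 * Real.pi / M)) ^ j
  have hw : ∀ j, ((w j : Circle) : ℂ) = Complex.exp (2 * Real.pi * Complex.I / M) ^ j := by
    intro j
    simp only [w, Circle.coe_pow, Circle.coe_exp]
    congr 2
    push_cast
    ring
  set κ : ℝ := ((M : ℕ) : ℝ) * ∑ k ∈ range M, ((pl n p).coeff k) ^ 2 with hκ
  have hκ1 : 1 ≤ κ := pl_sq hn0 p
  have hκ0 : (κ : ℂ) ≠ 0 := by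
    have : κ ≠ 0 := by positivity
    exact_mod_cast this
  let φ : ℕ → Lau A := fun j => ((κ : ℂ)⁻¹) • (bk A (w j : ℂ) n ^ p * bk' A (w j : ℂ) n ^ p)
  have hφ1 : ∑ j ∈ range M, φ j = 1 := by
    have h1 := partition (A := A) hn0 p
    rw [← hM, ← hκ] at h1
    simp only [φ]
    rw [← Finset.smul_sum, Finset.sum_congr rfl fun j _ => by rw [hw j], h1, smul_smul,
      inv_mul_cancel₀ hκ0, one_smul]
  have hφc : ∀ j (g : Lau A), φ j * g = g * φ j := by
    intro j g
    simp only [φ]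
    rw [smul_mul_assoc, mul_smul_comm]
    congr 1
    have h1 : Commute (bk A (w j : ℂ) n) g := bk_comm _ _ _
    have h2 : Commute (bk' A (w j : ℂ) n) g := bk'_comm _ _ _
    exact ((h1.pow_left p).mul_left (h2.pow_left p)).eq
  let S : Lau A := ∑ j ∈ range M, φ j * Q.imp (S₀ (c (w j))) q
  have himp := fun j => Q.good_imp (hS₀ (c (w j))) q
  refine ⟨S, ⟨?_, ?_, ?_, ?_⟩, ?_⟩
  · exact Submodule.sum_mem _ fun j _ => Q.Il' (himp j).1.1
  · refine Submodule.sum_mem _ fun j _ => Q.G' (i := 0) (by norm_num) ?_ (himp j).1.2.1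
    refine Submodule.smul_mem _ _ (Q.G' (i := 0) (j := 0) (by norm_num) ?_ ?_)
    · exact Q.pow_mem (bk_mem_LS Q.Gone _ _) p
    · exact Q.pow_mem (bk'_mem_LS Q.Gone _ _) p
  · simp only [S]
    rw [Finset.mul_sum]
    refine Finset.sum_congr rfl fun j _ => ?_
    rw [← mul_assoc, ← hφc, mul_assoc, (himp j).1.2.2.1]
  · simp only [S]
    rw [Finset.sum_mul]
    refine Finset.sum_congr rfl fun j _ => ?_
    rw [mul_assoc, (himp j).1.2.2.2]
  · have h1 : err Q.P Q.D (Q.K + S) = ∑ j ∈ range M, φ j * (E (c (w j))) ^ p := by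
      have h2 : ∀ j ∈ range M, φ j * (E (c (w j))) ^ p =
          φ j * (Q.P - Q.D * Q.K - Q.K * Q.D) -
            Q.D * (φ j * Q.imp (S₀ (c (w j))) q) - (φ j * Q.imp (S₀ (c (w j))) q) * Q.D := by
        intro j _
        rw [← (himp j).2]
        unfold err
        rw [← mul_assoc Q.D, ← hφc j Q.D]
        noncomm_ring
      rw [Finset.sum_congr rfl h2, Finset.sum_sub_distrib, Finset.sum_sub_distrib,
        ← Finset.sum_mul, hφ1, one_mul, ← Finset.mul_sum, ← Finset.sum_mul]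
      unfold err
      rw [mul_add, add_mul]
      abel
    rw [h1]
    refine (W_sum_le _ _ _).trans_lt ?_
    have h3 : ∀ j ∈ range M, W Q.ν (φ j * (E (c (w j))) ^ p) ≤ (1 / 2) ^ p := by
      intro j _
      have h4 : φ j * (E (c (w j))) ^ p =
          ((κ : ℂ)⁻¹) • ((bk A (w j : ℂ) n * E (c (w j))) ^ p * bk' A (w j : ℂ) n ^ p) := by
        simp only [φ]
        rw [smul_mul_assoc]
        congr 1
        have h5 : Commute (bk A (w j : ℂ) n) (E (c (w j))) := bk_comm _ _ _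
        have h6 : Commute (bk' A (w j : ℂ) n) (E (c (w j))) := bk'_comm _ _ _
        rw [h5.mul_pow, mul_assoc, mul_assoc]
        congr 1
        exact (h6.pow_pow p p).eq
      rw [h4]
      refine (W_smul_le _ _ _).trans ?_
      have h7 : ‖((κ : ℂ)⁻¹)‖ ≤ 1 := by
        rw [norm_inv, Complex.norm_real, Real.norm_of_nonneg (by positivity)]
        exact inv_le_one_of_one_le₀ hκ1
      have h8 : W Q.ν ((bk A (w j : ℂ) n * E (c (w j))) ^ p * bk' A (w j : ℂ) n ^ p) ≤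
          (1 / 2) ^ p * 1 := by
        refine (W_mul_le _ _ _).trans (mul_le_mul (W_pow_le _ (hc (w j)) p) ?_ (W_nonneg _ _)
          (by positivity))
        have h9 := W_pow_le Q.ν (W_bk'_le Q.ν (Circle.norm_coe (w j)) hn0) p
        rwa [one_pow] at h9
      calc ‖((κ : ℂ)⁻¹)‖ * W Q.ν ((bk A (w j : ℂ) n * E (c (w j))) ^ p * bk' A (w j : ℂ) n ^ p)
          ≤ 1 * ((1 / 2) ^ p * 1) := mul_le_mul h7 h8 (W_nonneg _ _) zero_le_one
        _ = (1 / 2) ^ p := by ring
    refine (Finset.sum_le_sum h3).trans_lt ?_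
    rw [Finset.sum_const, card_range, nsmul_eq_mul]
    exact hq

end PData

end

end Crest.Agent.R275.Sq617
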