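import Crest.Agent.R275.ScaleB_685
import Mathlib.Analysis.Normed.Module.FiniteDimension
import Mathlib.LinearAlgebra.Basis.VectorSpace

/-!
# R275, block D (helper617): exact homotopies on a scale

If `d` is exact on `range P` and `K` is a parametrix (`P - dK - Kd` negligible) then there is
`s` of order `-1` such that `K + P s P` is an exact homotopy.
-/

set_option autoImplicit false

namespace Crest.Agent.R275.Sq617

open Module LinearMap Submodule Fred685

section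

variable {𝕜 V W : Type*} [RCLike 𝕜] [AddCommGroup V] [Module 𝕜 V] [AddCommGroup W] [Module 𝕜 W]

/-- a linear map from a finite dimensional subspace is bounded -/
theorem bdd_of_finite (S : Scale 𝕜 V) (T : Scale 𝕜 W) (F : Submodule 𝕜 V) [FiniteDimensional 𝕜 F]
    (h : V →ₗ[𝕜] W) (s : ℕ) : ∃ C : ℝ, 0 ≤ C ∧ ∀ v ∈ F, T.nrm s (h v) ≤ C * S.nrm 0 v := by
  classical
  let _ : Norm F := ⟨fun v => S.nrm 0 (v : V)⟩
  have core : NormedSpace.Core 𝕜 F :=
    { norm_nonneg := fun v => apply_nonneg _ _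
      norm_smul := fun c v => map_smul_eq_mul (S.nrm 0) c (v : V)
      norm_triangle := fun v w => map_add_le_add (S.nrm 0) (v : V) w
      norm_eq_zero_iff := fun v => ⟨fun hv => Subtype.ext (S.eq_zero _ hv), fun hv => by
        rw [hv]; exact map_zero (S.nrm 0)⟩ }
  let _ : NormedAddCommGroup F := NormedAddCommGroup.ofCore core
  let _ : NormedSpace 𝕜 F := NormedSpace.ofCore core
  let b := Module.finBasis 𝕜 F
  have h1 : ∀ i, ∃ C : ℝ, 0 ≤ C ∧ ∀ v : F, ‖b.repr v i‖ ≤ C * S.nrm 0 (v : V) := by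
    intro i
    let f : F →L[𝕜] 𝕜 := LinearMap.toContinuousLinearMap (b.coord i)
    exact ⟨‖f‖, norm_nonneg _, fun v => f.le_opNorm v⟩
  choose C hC0 hC using h1
  refine ⟨∑ i, C i * T.nrm s (h (b i)), Finset.sum_nonneg fun i _ =>
    mul_nonneg (hC0 i) (apply_nonneg _ _), fun v hv => ?_⟩
  have h2 : (v : V) = ∑ i, b.repr ⟨v, hv⟩ i • (b i : V) := by
    have h3 := congrArg (F.subtype) (b.sum_repr ⟨v, hv⟩)
    rw [map_sum] at h3
    exact h3.symm
  conv_lhs => rw [h2]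
  rw [map_sum, Finset.sum_mul]
  refine (Finset.le_sum_of_subadditive (T.nrm s) (map_zero (T.nrm s)).le
    (map_add_le_add (T.nrm s)) _ _).trans (Finset.sum_le_sum fun i _ => ?_)
  rw [map_smul, map_smul_eq_mul]
  calc ‖b.repr ⟨v, hv⟩ i‖ * T.nrm s (h (b i)) ≤ (C i * S.nrm 0 v) * T.nrm s (h (b i)) :=
        mul_le_mul_of_nonneg_right (hC i ⟨v, hv⟩) (apply_nonneg _ _)
    _ = C i * T.nrm s (h (b i)) * S.nrm 0 v := by ring

/-- `F h F` is smoothing for any linear `h` -/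
theorem smFin_sandwich {S : Scale 𝕜 V} {F₁ F₂ h : V →ₗ[𝕜] V} (hF₁ : SmFin S S F₁)
    (hF₂ : SmFin S S F₂) : SmFin S S (F₁ ∘ₗ h ∘ₗ F₂) := by
  have h0 := hF₁.1
  refine ⟨Submodule.finiteDimensional_of_le (LinearMap.range_comp_le_range (h ∘ₗ F₂) F₁),
    fun s => ?_⟩
  have := hF₂.1
  obtain ⟨C, hC0, hC⟩ := bdd_of_finite S S (range F₂) (F₁ ∘ₗ h) s
  obtain ⟨D, hD⟩ := hF₂.2 0
  refine ⟨C * D, fun v => ?_⟩
  have h1 := hC (F₂ v) ⟨v, rfl⟩
  refine h1.trans ?_
  rw [mul_assoc]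
  exact mul_le_mul_of_nonneg_left (hD v) hC0

theorem SmFin.smul' {S : Scale 𝕜 V} {T : Scale 𝕜 W} {F : V →ₗ[𝕜] W} (c : 𝕜) (hF : SmFin S T F) :
    SmFin S T (c • F) := by
  have h : c • F = (c • LinearMap.id) ∘ₗ F := by ext; simp
  rw [h]
  exact hF.comp_left (Op0.id.smul c)

theorem SmFin.neg' {S : Scale 𝕜 V} {T : Scale 𝕜 W} {F : V →ₗ[𝕜] W} (hF : SmFin S T F) :
    SmFin S T (-F) := by
  have h := SmFin.smul' (-1 : 𝕜) hF
  rwa [neg_smul, one_smul] at h

theorem SmFin.sub' {S : Scale 𝕜 V} {T : Scale 𝕜 W} {F G : V →ₗ[𝕜] W} (hF : SmFin S T F)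
    (hG : SmFin S T G) : SmFin S T (F - G) := by
  rw [sub_eq_add_neg]; exact hF.add (SmFin.neg' hG)

theorem Opm.add' {S : Scale 𝕜 V} {T : Scale 𝕜 W} {A B : V →ₗ[𝕜] W} (hA : Opm S T A)
    (hB : Opm S T B) : Opm S T (A + B) := by
  intro s
  obtain ⟨C, hC⟩ := hA s
  obtain ⟨D, hD⟩ := hB s
  refine ⟨C + D, fun v => ?_⟩
  rw [LinearMap.add_apply, add_mul]
  exact (map_add_le_add _ _ _).trans (add_le_add (hC v) (hD v))

theorem Opm.smul' {S : Scale 𝕜 V} {T : Scale 𝕜 W} {A : V →ₗ[𝕜] W} (c : 𝕜) (hA : Opm S T A) :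
    Opm S T (c • A) := by
  intro s
  obtain ⟨C, hC⟩ := hA s
  refine ⟨‖c‖ * C, fun v => ?_⟩
  rw [LinearMap.smul_apply, map_smul_eq_mul, mul_assoc]
  exact mul_le_mul_of_nonneg_left (hC v) (norm_nonneg c)

theorem Opm.neg' {S : Scale 𝕜 V} {T : Scale 𝕜 W} {A : V →ₗ[𝕜] W} (hA : Opm S T A) :
    Opm S T (-A) := by
  have h := Opm.smul' (-1 : 𝕜) hA
  rwa [neg_smul, one_smul] at h

theorem Opm.sub' {S : Scale 𝕜 V} {T : Scale 𝕜 W} {A B : V →ₗ[𝕜] W} (hA : Opm S T A)
    (hB : Opm S T B) : Opm S T (A - B) := by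
  rw [sub_eq_add_neg]; exact Opm.add' hA (Opm.neg' hB)

theorem Opm.zero' {S : Scale 𝕜 V} {T : Scale 𝕜 W} : Opm S T (0 : V →ₗ[𝕜] W) := Neg.zero.1

theorem Opm.comp_left' {U : Type*} [AddCommGroup U] [Module 𝕜 U] {S : Scale 𝕜 V} {T : Scale 𝕜 W}
    {R : Scale 𝕜 U} {A : W →ₗ[𝕜] U} {N : V →ₗ[𝕜] W} (hA : Op0 T R A) (hN : Opm S T N) :
    Opm S R (A ∘ₗ N) := by
  intro s
  obtain ⟨C, hC0, hC⟩ := exists_nonneg_const (hA (s + 1))
  obtain ⟨D, hD⟩ := hN s
  refine ⟨C * D, fun v => ?_⟩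
  rw [LinearMap.comp_apply, mul_assoc]
  exact (hC _).trans (mul_le_mul_of_nonneg_left (hD v) hC0)

theorem Opm.comp_right' {U : Type*} [AddCommGroup U] [Module 𝕜 U] {S : Scale 𝕜 V} {T : Scale 𝕜 W}
    {R : Scale 𝕜 U} {N : W →ₗ[𝕜] U} {A : V →ₗ[𝕜] W} (hN : Opm T R N) (hA : Op0 S T A) :
    Opm S R (N ∘ₗ A) := by
  intro s
  obtain ⟨C, hC0, hC⟩ := exists_nonneg_const (hN s)
  obtain ⟨D, hD⟩ := hA s
  refine ⟨C * D, fun v => ?_⟩
  rw [LinearMap.comp_apply, mul_assoc]
  exact (hC _).trans (mul_le_mul_of_nonneg_left (hD v) hC0)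

/-- linear contraction of an exact complex -/
theorem exists_contraction {P d : Module.End 𝕜 V} (hPP : P * P = P) (hPd : P * d = d)
    (hdP : d * P = d) (hdd : d * d = 0)
    (hex : ∀ v, P v = v → d v = 0 → ∃ u, d u = v) :
    ∃ h : Module.End 𝕜 V, P * h = h ∧ h * P = h ∧ d * h + h * d = P := by
  -- `Z = ker d ∩ range P`
  let Z : Submodule 𝕜 V := ker d ⊓ range P
  have hPv : ∀ v, P (P v) = P v := fun v => congrArg (fun f : Module.End 𝕜 V => f v) hPP
  have hPd' : ∀ v, P (d v) = d v := fun v => congrArg (fun f : Module.End 𝕜 V => f v) hPd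
  have hdP' : ∀ v, d (P v) = d v := fun v => congrArg (fun f : Module.End 𝕜 V => f v) hdP
  have hdd' : ∀ v, d (d v) = 0 := fun v => congrArg (fun f : Module.End 𝕜 V => f v) hdd
  let d' : V →ₗ[𝕜] Z := d.codRestrict Z fun v =>
    ⟨hdd' v, ⟨d v, hPd' v⟩⟩
  have hsurj : range d' = ⊤ := by
    rw [eq_top_iff]
    rintro ⟨z, hz1, hz2⟩ -
    obtain ⟨y, rfl⟩ := hz2
    obtain ⟨u, hu⟩ := hex (P y) (hPv y) hz1
    exact ⟨u, Subtype.ext hu⟩
  obtain ⟨σ, hσ⟩ := LinearMap.exists_rightInverse_of_surjective d' hsurj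
  have hσ' : ∀ z : Z, d (σ z) = z := fun z =>
    congrArg Subtype.val (congrArg (fun f : Z →ₗ[𝕜] Z => f z) hσ)
  -- `τ = P σ`
  let τ : Z →ₗ[𝕜] V := P ∘ₗ σ
  have hτ : ∀ z : Z, d (τ z) = z := fun z => by
    show d (P (σ z)) = z
    rw [hdP', hσ']
  have hτP : ∀ z : Z, P (τ z) = τ z := fun z => hPv _
  -- `ρ v = P v - τ (d v) ∈ Z`
  let ρ₀ : V →ₗ[𝕜] V := P - τ ∘ₗ d'
  have hρ : ∀ v, ρ₀ v ∈ Z := by
    intro v
    refine ⟨?_, ?_⟩
    · show d (P v - τ (d' v)) = 0
      rw [map_sub, hdP', hτ]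
      exact sub_self _
    · refine ⟨P v - τ (d' v), ?_⟩
      rw [map_sub, hPv, hτP]
      rfl
  let ρ : V →ₗ[𝕜] Z := ρ₀.codRestrict Z hρ
  refine ⟨τ ∘ₗ ρ, ?_, ?_, ?_⟩
  · ext v
    exact hτP _
  · ext v
    show τ (ρ (P v)) = τ (ρ v)
    congr 1
    apply Subtype.ext
    show P (P v) - τ (d' (P v)) = P v - τ (d' v)
    rw [hPv]
    congr 2
    apply Subtype.ext
    exact hdP' v
  · ext v
    show d (τ (ρ v)) + τ (ρ (d v)) = P v
    rw [hτ]
    have h1 : ρ (d v) = d' v := by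
      apply Subtype.ext
      show P (d v) - τ (d' (d v)) = d v
      have h2 : d' (d v) = 0 := Subtype.ext (hdd' v)
      rw [h2, map_zero, sub_zero, hPd']
    rw [h1]
    show (P v - τ (d' v)) + τ (d' v) = P v
    abel

/-- EXACT HOMOTOPY ON A SCALE. -/
theorem exists_exact_homotopy {S : Scale 𝕜 V} {P d K : Module.End 𝕜 V} (hP : Op0 S S P)
    (hd : Op0 S S d) (hK : Op0 S S K) (hPP : P * P = P) (hPd : P * d = d) (hdP : d * P = d)
    (hPK : P * K = K) (hKP : K * P = K) (hdd : d * d = 0) (hR : Neg S S (P - d * K - K * d))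
    (hex : ∀ v, P v = v → d v = 0 → ∃ u, d u = v) :
    ∃ s : Module.End 𝕜 V, Opm S S s ∧ P - d * (K + P * s * P) - (K + P * s * P) * d = 0 := by
  set R : Module.End 𝕜 V := P - d * K - K * d with hRdef
  obtain ⟨F, hF, hF'⟩ := hR.2 (1 / 2) (by norm_num)
  set M : Module.End 𝕜 V := R - F with hM
  have hMm : Opm S S M := Opm.sub' hR.1 hF.neg_mem.1
  obtain ⟨e, he, he'⟩ := exists_inverse (S := S) (M := M) hMm (fun v => hF' v)
  set G : Module.End 𝕜 V := (e.symm : V →ₗ[𝕜] V) with hG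
  have hGl : G * (1 - M) = 1 := by
    ext v
    show e.symm (v - M v) = v
    rw [← he, e.symm_apply_apply]
  have hGr : (1 - M) * G = 1 := by
    ext v
    show e.symm v - M (e.symm v) = v
    rw [← he, e.apply_symm_apply]
  -- `U₁ = 1 - R` commutes with `d`
  have hRd : R * d = d * R := by
    rw [hRdef]
    have h1 : (P - d * K - K * d) * d = d - d * K * d := by
      rw [sub_mul, sub_mul, hPd, mul_assoc K d d, hdd, mul_zero, sub_zero]
    have h2 : d * (P - d * K - K * d) = d - d * K * d := by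
      rw [mul_sub, mul_sub, hdP, ← mul_assoc d d K, hdd, zero_mul, sub_zero, ← mul_assoc]
    rw [h1, h2]
  have hGU : G * (1 - R) = 1 - G * F := by
    have : (1 - R : Module.End 𝕜 V) = (1 - M) - F := by rw [hM]; abel
    rw [this, mul_sub, hGl]
  have hUG : (1 - R) * G = 1 - F * G := by
    have : (1 - R : Module.End 𝕜 V) = (1 - M) - F := by rw [hM]; abel
    rw [this, sub_mul, hGr]
  -- commutator of `G` and `d`
  have hcomm : G * d - d * G = G * d * F * G - G * F * d * G := by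
    have h1 : G * d * ((1 - R) * G) - G * (1 - R) * d * G = 0 := by
      have h2 : G * d * ((1 - R) * G) = G * (1 - R) * d * G := by
        have h3 : d * (1 - R) = (1 - R) * d := by rw [mul_sub, sub_mul, mul_one, one_mul, hRd]
        calc G * d * ((1 - R) * G) = G * (d * (1 - R)) * G := by simp only [mul_assoc]
          _ = G * (1 - R) * d * G := by rw [h3]; simp only [mul_assoc]
      rw [h2, sub_self]
    rw [hUG, hGU, mul_sub, mul_one, sub_mul, sub_mul, one_mul] at h1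
    have h4 : G * d * (F * G) = G * d * F * G := by simp only [mul_assoc]
    rw [h4] at h1
    have h5 : G * d - G * d * F * G - (d * G - G * F * d * G) =
      (G * d - d * G) - (G * d * F * G - G * F * d * G) := by abel
    rw [h5] at h1
    exact sub_eq_zero.mp h1
  have hGop : Op0 S S G := he'
  have hFop : Op0 S S F := hF.op0
  have hcommF : SmFin S S (G * d - d * G) := by
    rw [hcomm]
    refine SmFin.sub' ?_ ?_
    · exact ((hF.comp_left (hGop.comp hd)).comp_right hGop)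
    · exact (((hF.comp_left hGop).comp_right hd).comp_right hGop)
  -- `s₁ = K M G`
  set s₁ : Module.End 𝕜 V := K * M * G with hs₁
  have hs₁m : Opm S S s₁ := Opm.comp_right' (Opm.comp_left' hK hMm) hGop
  have hKG : K * G = K + s₁ := by
    have h1 : G = 1 + M * G := by
      have := hGr
      rw [sub_mul, one_mul] at this
      exact sub_eq_iff_eq_add.mp this
    conv_lhs => rw [h1]
    rw [mul_add, mul_one, hs₁, mul_assoc]
  set L : Module.End 𝕜 V := K + P * s₁ * P with hL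
  have hLeq : L = K * G * P := by
    rw [hKG, add_mul, hKP, hL, hs₁]
    congr 1
    rw [← mul_assoc, ← mul_assoc, hPK]
  have hPL : P * L = L := by rw [hLeq, ← mul_assoc, ← mul_assoc, hPK]
  have hLP : L * P = L := by rw [hLeq, mul_assoc, hPP]
  have hLop : Op0 S S L := by rw [hLeq]; exact (hK.comp hGop).comp hP
  clear_value L
  set R₁ : Module.End 𝕜 V := P - d * L - L * d with hR₁
  clear_value R₁
  have hPR : P * R = R := by
    rw [hRdef, mul_sub, mul_sub, hPP, ← mul_assoc, hPd, ← mul_assoc, hPK]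
  have hR₁F : SmFin S S R₁ := by
    have h1 : R₁ = (P * F * G - K * (G * d - d * G)) * P := by
      have h2 : R₁ = (P - d * (K * G) - K * G * d) * P := by
        have a1 : d * (K * G * P) = d * (K * G) * P := by simp only [mul_assoc]
        have a2 : K * G * P * d = K * G * d * P := by
          rw [mul_assoc (K * G) P d, hPd, mul_assoc (K * G) d P, hdP]
        rw [hR₁, hLeq, sub_mul, sub_mul, hPP, a1, a2]
      have h3 : d * K + K * d = P - R := by rw [hRdef]; abel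
      have h4 : P - d * (K * G) - K * G * d = P - (P - R) * G - K * (G * d - d * G) := by
        rw [← h3, add_mul, mul_sub]
        simp only [← mul_assoc]
        abel
      have h5 : P - (P - R) * G = P * F * G := by
        have h6 : (P - R) = P * (1 - R) := by rw [mul_sub, mul_one, hPR]
        rw [h6, mul_assoc, hUG, mul_sub, mul_one, ← mul_assoc]
        abel
      rw [h2, h4, h5]
    rw [h1]
    refine SmFin.comp_right (SmFin.sub' ?_ (hcommF.comp_left hK)) hP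
    exact (hF.comp_left hP).comp_right hGop
  obtain ⟨h, hPh, hhP, hh⟩ := exists_contraction hPP hPd hdP hdd hex
  have hR₁d : R₁ * d = d * R₁ := by
    rw [hR₁]
    have h1 : (P - d * L - L * d) * d = d - d * L * d := by
      rw [sub_mul, sub_mul, hPd, mul_assoc L d d, hdd, mul_zero, sub_zero]
    have h2 : d * (P - d * L - L * d) = d - d * L * d := by
      rw [mul_sub, mul_sub, hdP, ← mul_assoc d d L, hdd, zero_mul, sub_zero, ← mul_assoc]
    rw [h1, h2]
  have hPR₁ : P * R₁ = R₁ := by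
    rw [hR₁, mul_sub, mul_sub, hPP, ← mul_assoc, hPd, ← mul_assoc, hPL]
  have hR₁P : R₁ * P = R₁ := by
    rw [hR₁, sub_mul, sub_mul, hPP, mul_assoc, hLP, mul_assoc, hdP]
  set s₂ : Module.End 𝕜 V := R₁ * L + R₁ * (h * R₁) with hs₂
  have hs₂' : s₂ = R₁ * L + R₁ * (h * R₁) := hs₂
  have hs₂F : SmFin S S s₂ := (hR₁F.comp_right hLop).add (smFin_sandwich hR₁F hR₁F)
  refine ⟨s₁ + s₂, Opm.add' hs₁m hs₂F.neg_mem.1, ?_⟩
  have hPs₂ : P * s₂ * P = s₂ := by
    have h1 : P * (R₁ * L) * P = R₁ * L := by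
      rw [← mul_assoc, hPR₁, mul_assoc, hLP]
    have h2 : P * (R₁ * (h * R₁)) * P = R₁ * (h * R₁) := by
      rw [← mul_assoc, hPR₁, mul_assoc, mul_assoc, hR₁P]
    rw [hs₂, mul_add, add_mul, h1, h2]
  have hH : K + P * (s₁ + s₂) * P = L + s₂ := by
    rw [mul_add, add_mul, hPs₂, hL]; abel
  rw [hH]
  have h1 : d * (R₁ * L) + (R₁ * L) * d = R₁ - R₁ * R₁ := by
    have h2 : d * L + L * d = P - R₁ := by rw [hR₁]; abel
    calc d * (R₁ * L) + (R₁ * L) * d = R₁ * (d * L + L * d) := by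
          rw [← mul_assoc, ← hR₁d, mul_add, mul_assoc, mul_assoc]
      _ = R₁ - R₁ * R₁ := by rw [h2, mul_sub, hR₁P]
  have h3 : d * (R₁ * (h * R₁)) + (R₁ * (h * R₁)) * d = R₁ * R₁ := by
    calc d * (R₁ * (h * R₁)) + (R₁ * (h * R₁)) * d = R₁ * (d * h + h * d) * R₁ := by
          rw [← mul_assoc d R₁, ← hR₁d]
          have h4 : (R₁ * (h * R₁)) * d = R₁ * (h * (d * R₁)) := by
            rw [mul_assoc, mul_assoc, hR₁d]
          rw [h4]
          simp only [mul_add, add_mul, mul_assoc]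
      _ = R₁ * R₁ := by rw [hh, hR₁P]
  have h5 : P - d * (L + s₂) - (L + s₂) * d =
      R₁ - (d * (R₁ * L) + (R₁ * L) * d) - (d * (R₁ * (h * R₁)) + (R₁ * (h * R₁)) * d) := by
    rw [hs₂, mul_add, mul_add, add_mul, add_mul, hR₁]
    abel
  rw [h5, h1, h3]
  abel

end

end Crest.Agent.R275.Sq617
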