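import Crest.Agent.R275.SqC_617
import Crest.Agent.R275.SqD_617
import Crest.Agent.R275.ScaleD_685

/-!
# R275, block D (helper617): the Wiener patch on a graded scale

`LData S G` : Laurent polynomials `P, D, K` of operators of order zero on the scale `S`, graded,
`P - DK - KD` negligible. `LData.patch`: exactness at every point of the unit circle gives a
Laurent polynomial correction `T` of order `-1`, degree `-1`, with `P - D(K+T) - (K+T)D` of order
`-1` and arbitrarily small Wiener norm at level `0`.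
-/

set_option autoImplicit false

namespace Crest.Agent.R275.Sq617

open Module LinearMap Submodule Fred685

noncomputable section

variable {V : Type*} [AddCommGroup V] [Module ℂ V]

/-- the algebra of operators of order zero -/
def OpA (S : Scale ℂ V) : Subalgebra ℂ (Module.End ℂ V) where
  carrier := {A | Op0 S S A}
  mul_mem' := fun ha hb => Op0.comp ha hb
  one_mem' := Op0.id
  add_mem' := fun ha hb => Op0.add ha hb
  zero_mem' := Op0.zero
  algebraMap_mem' := fun c => by
    have h : (algebraMap ℂ (Module.End ℂ V) c) = c • LinearMap.id := by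
      rw [Algebra.algebraMap_eq_smul_one]; rfl
    show Op0 S S (algebraMap ℂ (Module.End ℂ V) c)
    rw [h]
    exact Op0.id.smul c

/-- operator norm at level `0` -/
def on (S : Scale ℂ V) (A : Module.End ℂ V) : ℝ :=
  sInf {C : ℝ | 0 ≤ C ∧ ∀ v, S.nrm 0 (A v) ≤ C * S.nrm 0 v}

theorem on_nonneg (S : Scale ℂ V) (A : Module.End ℂ V) : 0 ≤ on S A :=
  Real.sInf_nonneg fun _ h => h.1

theorem on_le {S : Scale ℂ V} {A : Module.End ℂ V} {C : ℝ} (hC : 0 ≤ C)
    (h : ∀ v, S.nrm 0 (A v) ≤ C * S.nrm 0 v) : on S A ≤ C :=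
  csInf_le ⟨0, fun _ h => h.1⟩ ⟨hC, h⟩

theorem le_on {S : Scale ℂ V} {A : Module.End ℂ V} (hA : Op0 S S A) (v : V) :
    S.nrm 0 (A v) ≤ on S A * S.nrm 0 v := by
  obtain ⟨C, hC0, hC⟩ := exists_nonneg_const (hA 0)
  have hne : {C : ℝ | 0 ≤ C ∧ ∀ v, S.nrm 0 (A v) ≤ C * S.nrm 0 v}.Nonempty := ⟨C, hC0, hC⟩
  by_cases hv : S.nrm 0 v = 0
  · have := hC v
    rw [hv, mul_zero] at this ⊢
    exact this
  · have hv' : 0 < S.nrm 0 v := lt_of_le_of_ne (apply_nonneg _ _) (Ne.symm hv)
    rw [← div_le_iff₀ hv']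
    refine le_csInf hne fun D hD => ?_
    rw [div_le_iff₀ hv']
    exact hD.2 v

/-- the submultiplicative seminorm -/
def snA (S : Scale ℂ V) : SN (OpA S) where
  N A := on S A.1
  nonneg A := on_nonneg S _
  zero := by
    apply le_antisymm _ (on_nonneg S _)
    apply on_le le_rfl
    intro v
    have : ((0 : OpA S) : Module.End ℂ V) v = 0 := rfl
    rw [this, map_zero, zero_mul]
  add_le A B := by
    apply on_le (add_nonneg (on_nonneg S _) (on_nonneg S _))
    intro v
    rw [add_mul]
    exact (map_add_le_add (S.nrm 0) _ _).trans (add_le_add (le_on A.2 v) (le_on B.2 v))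
  smul_le c A := by
    apply on_le (mul_nonneg (norm_nonneg _) (on_nonneg S _))
    intro v
    show S.nrm 0 (c • (A.1 v)) ≤ _
    rw [map_smul_eq_mul, mul_assoc]
    exact mul_le_mul_of_nonneg_left (le_on A.2 v) (norm_nonneg _)
  mul_le A B := by
    apply on_le (mul_nonneg (on_nonneg S _) (on_nonneg S _))
    intro v
    show S.nrm 0 (A.1 (B.1 v)) ≤ _
    refine (le_on A.2 _).trans ?_
    rw [mul_assoc]
    exact mul_le_mul_of_nonneg_left (le_on B.2 v) (on_nonneg S _)
  one_le := by
    apply on_le zero_le_one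
    intro v
    rw [one_mul]
    exact le_rfl

/-! ### lifting Laurent polynomials -/

/-- lift to the subalgebra -/
def lf (S : Scale ℂ V) (f : Lau (Module.End ℂ V)) (h : ∀ m, Op0 S S (f.coeff m)) : Lau (OpA S) :=
  ∑ m ∈ f.coeff.support, AddMonoidAlgebra.single m (⟨f.coeff m, h m⟩ : OpA S)

/-- back to all operators -/
def mp (S : Scale ℂ V) : Lau (OpA S) →+* Lau (Module.End ℂ V) :=
  AddMonoidAlgebra.mapRingHom ℤ (OpA S).val.toRingHom

theorem mp_coeff (S : Scale ℂ V) (f : Lau (OpA S)) (m : ℤ) :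
    (mp S f).coeff m = (f.coeff m : Module.End ℂ V) :=
  AddMonoidAlgebra.coeff_mapRingHom _ _ _

theorem mp_single (S : Scale ℂ V) (m : ℤ) (a : OpA S) :
    mp S (AddMonoidAlgebra.single m a) = AddMonoidAlgebra.single m (a : Module.End ℂ V) :=
  AddMonoidAlgebra.mapRingHom_single _ _ _

theorem mp_inj (S : Scale ℂ V) : Function.Injective (mp S) := by
  intro f g h
  ext m v
  have h1 := mp_coeff S f m
  have h2 := mp_coeff S g m
  rw [h] at h1
  rw [← h1, h2]

theorem mp_lf (S : Scale ℂ V) (f : Lau (Module.End ℂ V)) (h : ∀ m, Op0 S S (f.coeff m)) :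
    mp S (lf S f h) = f := by
  unfold lf
  rw [map_sum]
  conv_rhs => rw [← AddMonoidAlgebra.sum_coeff_single f]
  exact Finset.sum_congr rfl fun m _ => mp_single S _ _

theorem lf_coeff (S : Scale ℂ V) (f : Lau (Module.End ℂ V)) (h : ∀ m, Op0 S S (f.coeff m)) (m : ℤ) :
    ((lf S f h).coeff m : Module.End ℂ V) = f.coeff m := by
  rw [← mp_coeff, mp_lf]

theorem ev_mp (S : Scale ℂ V) (t : ℂˣ) (f : Lau (OpA S)) :
    ev t (mp S f) = ((ev t f : OpA S) : Module.End ℂ V) := by
  have h : (ev t).comp (mp S) = ((OpA S).val.toRingHom).comp (ev t) := by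
    apply AddMonoidAlgebra.ringHom_ext
    · intro a
      show ev t (mp S (AddMonoidAlgebra.single 0 a)) = ((ev t (AddMonoidAlgebra.single 0 a) : OpA S) :
        Module.End ℂ V)
      rw [mp_single, ev_single, ev_single]
      rfl
    · intro m
      show ev t (mp S (AddMonoidAlgebra.single m 1)) = ((ev t (AddMonoidAlgebra.single m 1) : OpA S) :
        Module.End ℂ V)
      rw [mp_single, ev_single, ev_single]
      rfl
  exact RingHom.congr_fun h f

/-! ### homogeneous components -/

section hom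

variable (G : Gr ℂ V)

/-- degree zero part -/
def c0 (T : Module.End ℂ V) : Module.End ℂ V :=
  ∑ q ∈ Finset.range (G.m + 1), G.π q ∘ₗ T ∘ₗ G.π q

/-- degree `-1` part -/
def c1 (T : Module.End ℂ V) : Module.End ℂ V :=
  ∑ q ∈ Finset.range (G.m + 1), G.π q ∘ₗ T ∘ₗ G.π (q + 1)

theorem c0_apply (T : Module.End ℂ V) (v : V) :
    c0 G T v = ∑ q ∈ Finset.range (G.m + 1), G.π q (T (G.π q v)) := by
  simp [c0, LinearMap.sum_apply]

theorem c1_apply (T : Module.End ℂ V) (v : V) :
    c1 G T v = ∑ q ∈ Finset.range (G.m + 1), G.π q (T (G.π (q + 1) v)) := by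
  simp [c1, LinearMap.sum_apply]

theorem c0_of_deg {T : Module.End ℂ V} (hT : Deg G G 0 T) : c0 G T = T := by
  ext v
  rw [c0_apply]
  have h : ∀ q ∈ Finset.range (G.m + 1), G.π q (T (G.π q v)) = G.π q (T v) := by
    intro q _
    rw [hT.comm, G.idem]
  rw [Finset.sum_congr rfl h, G.sum]

theorem c0_mul_left {d : Module.End ℂ V} (hd : Deg G G 1 d) (T : Module.End ℂ V) :
    c0 G (d * T) = d * c1 G T := by
  ext v
  show _ = d (c1 G T v)
  rw [c0_apply, c1_apply, map_sum, Finset.sum_range_succ']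
  have h0 : G.π 0 ((d * T) (G.π 0 v)) = 0 := hd.pi_apply_eq_zero (by norm_num) _
  rw [h0, add_zero, Finset.sum_range_succ]
  have h1 : d (G.π G.m (T (G.π (G.m + 1) v))) = 0 := by
    rw [G.top (G.m + 1) v (Nat.lt_succ_self _), map_zero, map_zero, map_zero]
  rw [h1, add_zero]
  refine Finset.sum_congr rfl fun q _ => ?_
  exact hd.pi_apply (by push_cast; ring) _

theorem c0_mul_right {d : Module.End ℂ V} (hd : Deg G G 1 d) (T : Module.End ℂ V) :
    c0 G (T * d) = c1 G T * d := by
  ext v
  show _ = c1 G T (d v)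
  rw [c0_apply, c1_apply]
  refine Finset.sum_congr rfl fun q _ => ?_
  show G.π q (T (d (G.π q v))) = _
  rw [← hd.pi_apply (q := q) (r := q + 1) (by push_cast; ring)]

theorem c1_sandwich {P : Module.End ℂ V} (hP : Deg G G 0 P) (T : Module.End ℂ V) :
    c1 G (P * T * P) = P * c1 G T * P := by
  ext v
  show _ = P (c1 G T (P v))
  rw [c1_apply, c1_apply, map_sum]
  refine Finset.sum_congr rfl fun q _ => ?_
  show G.π q (P (T (P (G.π (q + 1) v)))) = _
  rw [hP.comm, hP.comm]

theorem c0_sub (A B : Module.End ℂ V) : c0 G (A - B) = c0 G A - c0 G B := by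
  ext v
  simp only [c0_apply, LinearMap.sub_apply, map_sub, Finset.sum_sub_distrib]

theorem c1_add (A B : Module.End ℂ V) : c1 G (A + B) = c1 G A + c1 G B := by
  ext v
  simp only [c1_apply, LinearMap.add_apply, map_add, Finset.sum_add_distrib]

theorem deg_c1 (T : Module.End ℂ V) : Deg G G (-1) (c1 G T) := by
  intro q r hr v
  rw [c1_apply, map_sum]
  refine Finset.sum_eq_zero fun k _ => ?_
  by_cases h1 : k + 1 = q
  · by_cases h2 : r = k
    · exact absurd (by omega) hr
    · exact G.orth r k _ h2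
  · rw [G.orth (k + 1) q v h1, map_zero, map_zero, map_zero]

theorem c1_of_deg {T : Module.End ℂ V} (hT : Deg G G (-1) T) : c1 G T = T := by
  ext v
  rw [c1_apply]
  have h : ∀ q ∈ Finset.range (G.m + 1), G.π q (T (G.π (q + 1) v)) = G.π q (T v) := by
    intro q _
    rw [← hT.pi_apply (q := q + 1) (r := q) (by push_cast; ring), G.idem]
  rw [Finset.sum_congr rfl h, G.sum]

theorem opm_c1 {S : Scale ℂ V} (hG : ∀ q, Op0 S S (G.π q)) {T : Module.End ℂ V}
    (hT : Opm S S T) : Opm S S (c1 G T) := by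
  unfold c1
  refine Finset.sum_induction _ (Opm S S) (fun _ _ => Opm.add') Opm.zero' fun q _ => ?_
  exact Opm.comp_left' (hG q) (Opm.comp_right' hT (hG _))

theorem homogenise {P d K s : Module.End ℂ V} (hP : Deg G G 0 P) (hd : Deg G G 1 d)
    (hK : Deg G G (-1) K)
    (h : P - d * (K + P * s * P) - (K + P * s * P) * d = 0) :
    P - d * (K + P * c1 G s * P) - (K + P * c1 G s * P) * d = 0 := by
  have h1 : c0 G (P - d * (K + P * s * P) - (K + P * s * P) * d) =
      P - d * (K + P * c1 G s * P) - (K + P * c1 G s * P) * d := by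
    rw [c0_sub, c0_sub, c0_mul_left G hd, c0_mul_right G hd, c0_of_deg G hP, c1_add,
      c1_sandwich G hP, c1_of_deg G hK]
  rw [← h1, h]
  ext v
  simp [c0_apply]

end hom

end

end Crest.Agent.R275.Sq617
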