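import Crest.Agent.R275.ScaleA_685
import Mathlib.Analysis.MeanInequalities
import Mathlib.Analysis.SpecialFunctions.Pow.Real
import Mathlib.Topology.Algebra.InfiniteSum.Order
import Mathlib.Topology.Algebra.InfiniteSum.Real

/-!
# R275, block D (helper617): weighted `ℓ²` sequences in a scale

`N2 f` : the `ℓ²` norm of a real family. `sqS S w` : the scale of the sequences `u : ι → V` with
`∑ (w i * nrm s (u i))^2 < ∞` for all `s`.
-/

set_option autoImplicit false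

namespace Crest.Agent.R275.Sq617

open Module LinearMap Submodule Fred685 Filter Topology

noncomputable section

variable {ι : Type*}

/-- square summable -/
def Ss (f : ι → ℝ) : Prop := Summable fun i => f i ^ 2

/-- `ℓ²` norm -/
def N2 (f : ι → ℝ) : ℝ := Real.sqrt (∑' i, f i ^ 2)

theorem N2_nonneg (f : ι → ℝ) : 0 ≤ N2 f := Real.sqrt_nonneg _

theorem N2_sq (f : ι → ℝ) : N2 f ^ 2 = ∑' i, f i ^ 2 :=
  Real.sq_sqrt (tsum_nonneg fun _ => sq_nonneg _)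

theorem Ss.mono {f g : ι → ℝ} (hg : Ss g) (h0 : ∀ i, 0 ≤ f i) (h : ∀ i, f i ≤ g i) : Ss f :=
  Summable.of_nonneg_of_le (fun _ => sq_nonneg _) (fun i => pow_le_pow_left₀ (h0 i) (h i) 2) hg

theorem N2_mono {f g : ι → ℝ} (hg : Ss g) (h0 : ∀ i, 0 ≤ f i) (h : ∀ i, f i ≤ g i) :
    N2 f ≤ N2 g :=
  Real.sqrt_le_sqrt (Summable.tsum_le_tsum (fun i => pow_le_pow_left₀ (h0 i) (h i) 2)
    (hg.mono h0 h) hg)

theorem Ss.add_N2 {f g : ι → ℝ} (hf : Ss f) (hg : Ss g) (f0 : ∀ i, 0 ≤ f i) (g0 : ∀ i, 0 ≤ g i) :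
    Ss (fun i => f i + g i) ∧ N2 (fun i => f i + g i) ≤ N2 f + N2 g := by
  have h := Real.Lp_add_le_tsum_of_nonneg (p := 2) (by norm_num) f0 g0
    (by simpa [Ss] using hf) (by simpa [Ss] using hg)
  refine ⟨by simpa [Ss] using h.1, ?_⟩
  have h2 := h.2
  simp only [Real.rpow_ofNat] at h2
  simpa only [N2, Real.sqrt_eq_rpow] using h2

theorem Ss.const_mul {f : ι → ℝ} (hf : Ss f) (c : ℝ) : Ss (fun i => c * f i) := by
  unfold Ss at *
  simp only [mul_pow]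
  exact hf.mul_left _

theorem N2_const_mul {f : ι → ℝ} {c : ℝ} (hc : 0 ≤ c) : N2 (fun i => c * f i) = c * N2 f := by
  unfold N2
  simp only [mul_pow]
  rw [tsum_mul_left, Real.sqrt_mul (sq_nonneg _), Real.sqrt_sq hc]

theorem Ss.zero : Ss (fun _ : ι => (0 : ℝ)) := by
  unfold Ss
  simp

theorem N2_zero : N2 (fun _ : ι => (0 : ℝ)) = 0 := by simp [N2]

theorem Ss.sum {κ : Type*} (s : Finset κ) {f : κ → ι → ℝ} (hf : ∀ k ∈ s, Ss (f k))
    (f0 : ∀ k i, 0 ≤ f k i) :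
    Ss (fun i => ∑ k ∈ s, f k i) ∧ N2 (fun i => ∑ k ∈ s, f k i) ≤ ∑ k ∈ s, N2 (f k) := by
  classical
  induction s using Finset.induction_on with
  | empty => simp [Ss.zero, N2_zero]
  | insert k s hk ih =>
    obtain ⟨h1, h2⟩ := ih fun j hj => hf j (Finset.mem_insert_of_mem hj)
    obtain ⟨h3, h4⟩ := Ss.add_N2 (hf k (Finset.mem_insert_self _ _)) h1 (f0 k)
      (fun i => Finset.sum_nonneg fun j _ => f0 j i)
    simp only [Finset.sum_insert hk]
    exact ⟨h3, h4.trans (by gcongr)⟩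

theorem Ss.equiv {κ : Type*} (e : κ ≃ ι) {f : ι → ℝ} (hf : Ss f) : Ss (fun k => f (e k)) :=
  (e.summable_iff (f := fun i => f i ^ 2)).mpr hf

theorem N2_equiv {κ : Type*} (e : κ ≃ ι) (f : ι → ℝ) : N2 (fun k => f (e k)) = N2 f := by
  unfold N2
  rw [e.tsum_eq (fun i => f i ^ 2)]

theorem le_N2 {f : ι → ℝ} (hf : Ss f) (i : ι) : f i ≤ N2 f := by
  apply Real.le_sqrt_of_sq_le
  exact hf.le_tsum i fun _ _ => sq_nonneg _

theorem Ss.of_finset_le {f : ι → ℝ} {c : ℝ} (h : ∀ F : Finset ι, ∑ i ∈ F, f i ^ 2 ≤ c) : Ss f :=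
  summable_of_sum_le (fun _ => sq_nonneg _) h

theorem N2_le_of_finset {f : ι → ℝ} {c : ℝ} (hc : 0 ≤ c)
    (h : ∀ F : Finset ι, ∑ i ∈ F, f i ^ 2 ≤ c ^ 2) : N2 f ≤ c := by
  rw [N2, Real.sqrt_le_left hc]
  exact Real.tsum_le_of_sum_le (fun _ => sq_nonneg _) h

theorem sum_le_N2 {f : ι → ℝ} (hf : Ss f) (F : Finset ι) : ∑ i ∈ F, f i ^ 2 ≤ N2 f ^ 2 := by
  rw [N2_sq]
  exact hf.sum_le_tsum F fun _ _ => sq_nonneg _

/-! ### sequences in a scale -/

variable {𝕜 V : Type*} [RCLike 𝕜] [AddCommGroup V] [Module 𝕜 V]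

/-- positive weights -/
structure Wt (ι : Type*) where
  w : ι → ℝ
  pos : ∀ i, 0 < w i

/-- the weighted sequence of norms -/
def sf (S : Scale 𝕜 V) (w : Wt ι) (s : ℕ) (u : ι → V) : ι → ℝ := fun i => w.w i * S.nrm s (u i)

theorem sf_nonneg (S : Scale 𝕜 V) (w : Wt ι) (s : ℕ) (u : ι → V) (i : ι) : 0 ≤ sf S w s u i :=
  mul_nonneg (w.pos i).le (apply_nonneg _ _)

theorem sf_add_le (S : Scale 𝕜 V) (w : Wt ι) (s : ℕ) (u v : ι → V) (i : ι) :
    sf S w s (u + v) i ≤ sf S w s u i + sf S w s v i := by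
  unfold sf
  rw [← mul_add]
  exact mul_le_mul_of_nonneg_left (map_add_le_add _ _ _) (w.pos i).le

theorem sf_smul (S : Scale 𝕜 V) (w : Wt ι) (s : ℕ) (c : 𝕜) (u : ι → V) :
    sf S w s (c • u) = fun i => ‖c‖ * sf S w s u i := by
  funext i
  unfold sf
  rw [Pi.smul_apply, map_smul_eq_mul]
  ring

/-- weighted square summable sequences in the scale -/
def SqV (S : Scale 𝕜 V) (w : Wt ι) : Submodule 𝕜 (ι → V) where
  carrier := {u | ∀ s, Ss (sf S w s u)}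
  add_mem' := fun {u v} hu hv s =>
    (Ss.add_N2 (hu s) (hv s) (sf_nonneg S w s u) (sf_nonneg S w s v)).1.mono
      (sf_nonneg S w s _) (sf_add_le S w s u v)
  zero_mem' := fun s => by
    have : sf S w s (0 : ι → V) = fun _ => 0 := by funext i; simp [sf]
    rw [this]; exact Ss.zero
  smul_mem' := fun c u hu s => by
    rw [sf_smul]; exact (hu s).const_mul _

/-- norms of sequences -/
def sqN (S : Scale 𝕜 V) (w : Wt ι) (s : ℕ) : Seminorm 𝕜 (SqV S w) :=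
  Seminorm.of (fun u => N2 (sf S w s u.1))
    (fun u v => (N2_mono (Ss.add_N2 (u.2 s) (v.2 s) (sf_nonneg S w s u.1)
      (sf_nonneg S w s v.1)).1 (sf_nonneg S w s _) (sf_add_le S w s u.1 v.1)).trans
      (Ss.add_N2 (u.2 s) (v.2 s) (sf_nonneg S w s u.1) (sf_nonneg S w s v.1)).2)
    (fun c u => by
      show N2 (sf S w s (c • u.1)) = _
      rw [sf_smul, N2_const_mul (norm_nonneg c)])

theorem sqN_apply (S : Scale 𝕜 V) (w : Wt ι) (s : ℕ) (u : SqV S w) :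
    sqN S w s u = N2 (sf S w s u.1) := rfl

theorem coord_le_sqN (S : Scale 𝕜 V) (w : Wt ι) (s : ℕ) (u : SqV S w) (i : ι) :
    w.w i * S.nrm s (u.1 i) ≤ sqN S w s u :=
  le_N2 (u.2 s) i

/-- limits in a scale pass to the norms of differences -/
theorem tendsto_nrm (S : Scale 𝕜 V) (s : ℕ) {b : ℕ → V} {v : V} (a : V)
    (h : ∀ ε > 0, ∃ N, ∀ n ≥ N, S.nrm s (b n - v) < ε) :
    Tendsto (fun n => S.nrm s (a - b n)) atTop (𝓝 (S.nrm s (a - v))) := by
  rw [Metric.tendsto_atTop]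
  intro ε hε
  obtain ⟨N, hN⟩ := h ε hε
  refine ⟨N, fun n hn => ?_⟩
  rw [Real.dist_eq]
  refine lt_of_le_of_lt ?_ (hN n hn)
  rw [abs_sub_le_iff]
  constructor
  · have h1 : a - b n = (a - v) + (v - b n) := by abel
    have h2 : S.nrm s (a - b n) ≤ S.nrm s (a - v) + S.nrm s (v - b n) := by
      conv_lhs => rw [h1]
      exact map_add_le_add _ _ _
    rw [map_sub_rev (S.nrm s) v (b n)] at h2
    linarith
  · have h1 : a - v = (a - b n) + (b n - v) := by abel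
    have h2 : S.nrm s (a - v) ≤ S.nrm s (a - b n) + S.nrm s (b n - v) := by
      conv_lhs => rw [h1]
      exact map_add_le_add _ _ _
    linarith

theorem sq_complete (S : Scale 𝕜 V) (w : Wt ι) (u : ℕ → SqV S w)
    (hu : ∀ s, ∀ ε > 0, ∃ N, ∀ m ≥ N, ∀ n ≥ N, sqN S w s (u m - u n) < ε) :
    ∃ v, ∀ s, ∀ ε > 0, ∃ N, ∀ n ≥ N, sqN S w s (u n - v) < ε := by
  -- coordinates
  have hc : ∀ i, ∃ v, ∀ s, ∀ ε > 0, ∃ N, ∀ n ≥ N, S.nrm s ((u n).1 i - v) < ε := by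
    intro i
    apply S.complete
    intro s ε hε
    obtain ⟨N, hN⟩ := hu s (ε * w.w i) (mul_pos hε (w.pos i))
    refine ⟨N, fun m hm n hn => ?_⟩
    have h1 := coord_le_sqN S w s (u m - u n) i
    have h2 := hN m hm n hn
    have h3 : w.w i * S.nrm s ((u m).1 i - (u n).1 i) < w.w i * ε := by
      rw [mul_comm (w.w i) ε]; exact lt_of_le_of_lt h1 h2
    exact lt_of_mul_lt_mul_left h3 (w.pos i).le
  choose v hv using hc
  -- key estimate
  have key : ∀ s, ∀ ε > 0, ∃ N, ∀ n ≥ N, ∀ F : Finset ι,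
      ∑ i ∈ F, (sf S w s ((u n).1 - v) i) ^ 2 ≤ ε ^ 2 := by
    intro s ε hε
    obtain ⟨N, hN⟩ := hu s ε hε
    refine ⟨N, fun n hn F => ?_⟩
    have ht : Tendsto (fun l => ∑ i ∈ F, (w.w i * S.nrm s ((u n).1 i - (u l).1 i)) ^ 2) atTop
        (𝓝 (∑ i ∈ F, (w.w i * S.nrm s ((u n).1 i - v i)) ^ 2)) :=
      tendsto_finsetSum _ fun i _ => ((tendsto_nrm S s _ (hv i s)).const_mul _).pow 2
    refine le_of_tendsto ht (eventually_atTop.mpr ⟨N, fun l hl => ?_⟩)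
    have h1 := sum_le_N2 ((u n - u l).2 s) F
    have h2 := (hN n hn l hl).le
    have h3 : N2 (sf S w s (u n - u l).1) ^ 2 ≤ ε ^ 2 :=
      pow_le_pow_left₀ (N2_nonneg _) h2 2
    exact h1.trans h3
  have hmem : v ∈ SqV S w := by
    intro s
    obtain ⟨N, hN⟩ := key s 1 one_pos
    have h1 : Ss (sf S w s ((u N).1 - v)) := Ss.of_finset_le (hN N le_rfl)
    have h2 := (Ss.add_N2 ((u N).2 s) h1 (sf_nonneg S w s _) (sf_nonneg S w s _)).1
    refine h2.mono (sf_nonneg S w s _) fun i => ?_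
    unfold sf
    rw [← mul_add]
    refine mul_le_mul_of_nonneg_left ?_ (w.pos i).le
    have h3 : v i = (u N).1 i - ((u N).1 i - v i) := by abel
    conv_lhs => rw [h3]
    exact map_sub_le_add _ _ _
  refine ⟨⟨v, hmem⟩, fun s ε hε => ?_⟩
  obtain ⟨N, hN⟩ := key s (ε / 2) (half_pos hε)
  refine ⟨N, fun n hn => ?_⟩
  have h1 : sqN S w s (u n - ⟨v, hmem⟩) ≤ ε / 2 := N2_le_of_finset (half_pos hε).le (hN n hn)
  linarith

/-- THE SEQUENCE SCALE -/
def sqS (S : Scale 𝕜 V) (w : Wt ι) : Scale 𝕜 (SqV S w) where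
  nrm := sqN S w
  mono s v := by
    rw [sqN_apply, sqN_apply]
    refine N2_mono (v.2 (s + 1)) (sf_nonneg S w s _) fun i => ?_
    exact mul_le_mul_of_nonneg_left (S.mono s _) (w.pos i).le
  eq_zero v h := by
    apply Subtype.ext
    funext i
    have h1 := coord_le_sqN S w 0 v i
    rw [h] at h1
    have h2 : S.nrm 0 (v.1 i) = 0 := by
      have h3 := apply_nonneg (S.nrm 0) (v.1 i)
      have h4 := w.pos i
      nlinarith
    exact S.eq_zero _ h2
  complete := sq_complete S w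

theorem sqS_nrm (S : Scale 𝕜 V) (w : Wt ι) (s : ℕ) (u : SqV S w) :
    (sqS S w).nrm s u = N2 (sf S w s u.1) := rfl

end

end Crest.Agent.R275.Sq617
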