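import Crest.Agent.R275.SqF_617
import Crest.Agent.R275.SqG_617

/-!
# R275, block D (helper617): Laurent polynomials acting on weighted sequences

`actL : Lau (End V) →+* End (ℤ → V)`, `(T u)_n = ∑ m, T_m u_{n+m}`.
-/

set_option autoImplicit false

namespace Crest.Agent.R275.Sq617

open Module LinearMap Submodule Fred685

noncomputable section

variable {V : Type*} [AddCommGroup V] [Module ℂ V]

/-- constant operators -/
def constE (V : Type*) [AddCommGroup V] [Module ℂ V] :
    Module.End ℂ V →+* Module.End ℂ (ℤ → V) where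
  toFun a := { toFun := fun u n => a (u n)
               map_add' := fun u v => by funext n; simp
               map_smul' := fun c u => by funext n; simp }
  map_one' := rfl
  map_mul' _ _ := rfl
  map_zero' := rfl
  map_add' _ _ := rfl

/-- shifts -/
def shiftE (V : Type*) [AddCommGroup V] [Module ℂ V] :
    Multiplicative ℤ →* Module.End ℂ (ℤ → V) where
  toFun m := { toFun := fun u n => u (n + m.toAdd)
               map_add' := fun _ _ => rfl
               map_smul' := fun _ _ => rfl }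
  map_one' := by
    ext u n
    show u (n + 0) = u n
    rw [add_zero]
  map_mul' a b := by
    ext u n
    show u (n + (a.toAdd + b.toAdd)) = u (n + a.toAdd + b.toAdd)
    rw [add_assoc]

/-- action of Laurent polynomials -/
def actL (V : Type*) [AddCommGroup V] [Module ℂ V] :
    Lau (Module.End ℂ V) →+* Module.End ℂ (ℤ → V) :=
  AddMonoidAlgebra.liftNCRingHom (constE V) (shiftE V) (fun _ _ => rfl)

theorem actL_single (m : ℤ) (a : Module.End ℂ V) (u : ℤ → V) (n : ℤ) :
    actL V (AddMonoidAlgebra.single m a) u n = a (u (n + m)) := by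
  have h : actL V (AddMonoidAlgebra.single m a) = constE V a * shiftE V (Multiplicative.ofAdd m) :=
    AddMonoidAlgebra.liftNC_single _ _ _ _
  rw [h]
  rfl

theorem actL_apply (T : Lau (Module.End ℂ V)) (u : ℤ → V) (n : ℤ) :
    actL V T u n = ∑ m ∈ T.coeff.support, T.coeff m (u (n + m)) := by
  conv_lhs => rw [← AddMonoidAlgebra.sum_coeff_single T]
  unfold Finsupp.sum
  rw [map_sum, LinearMap.sum_apply, Finset.sum_apply]
  exact Finset.sum_congr rfl fun m _ => actL_single _ _ _ _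

variable {S : Scale ℂ V} {G : Gr ℂ V} {w : Wt ℤ}

/-- master bound -/
theorem act_bound (T : Lau (Module.End ℂ V)) {s t : ℕ} {c B : ℤ → ℝ} (hc0 : ∀ m, 0 ≤ c m)
    (hc : ∀ m v, S.nrm t (T.coeff m v) ≤ c m * S.nrm s v) (hB0 : ∀ m, 0 ≤ B m)
    (hB : ∀ m n, w.w n ≤ B m * w.w (n + m)) {u : ℤ → V} (hu : Ss (sf S w s u)) :
    Ss (sf S w t (actL V T u)) ∧
      N2 (sf S w t (actL V T u)) ≤ (∑ m ∈ T.coeff.support, B m * c m) * N2 (sf S w s u) := by
  have h1 : ∀ n, sf S w t (actL V T u) n ≤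
      ∑ m ∈ T.coeff.support, (B m * c m) * sf S w s u (n + m) := by
    intro n
    unfold sf
    rw [actL_apply]
    have h2 : S.nrm t (∑ m ∈ T.coeff.support, T.coeff m (u (n + m))) ≤
        ∑ m ∈ T.coeff.support, c m * S.nrm s (u (n + m)) :=
      (Finset.le_sum_of_subadditive (S.nrm t) (map_zero (S.nrm t)).le (map_add_le_add (S.nrm t))
        _ _).trans (Finset.sum_le_sum fun m _ => hc m _)
    refine (mul_le_mul_of_nonneg_left h2 (w.pos n).le).trans ?_
    rw [Finset.mul_sum]
    refine Finset.sum_le_sum fun m _ => ?_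
    have h3 : 0 ≤ c m * S.nrm s (u (n + m)) := mul_nonneg (hc0 m) (apply_nonneg _ _)
    calc w.w n * (c m * S.nrm s (u (n + m))) ≤ (B m * w.w (n + m)) * (c m * S.nrm s (u (n + m))) :=
          mul_le_mul_of_nonneg_right (hB m n) h3
      _ = (B m * c m) * (w.w (n + m) * S.nrm s (u (n + m))) := by ring
  have h4 : ∀ m ∈ T.coeff.support, Ss fun n => (B m * c m) * sf S w s u (n + m) := fun m _ =>
    (hu.equiv (Equiv.addRight m)).const_mul _
  have h5 : ∀ m n, 0 ≤ (B m * c m) * sf S w s u (n + m) := fun m n =>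
    mul_nonneg (mul_nonneg (hB0 m) (hc0 m)) (sf_nonneg S w s u _)
  obtain ⟨h6, h7⟩ := Ss.sum T.coeff.support h4 h5
  refine ⟨h6.mono (sf_nonneg S w t _) h1, (N2_mono h6 (sf_nonneg S w t _) h1).trans
    (h7.trans (le_of_eq ?_))⟩
  rw [Finset.sum_mul]
  refine Finset.sum_congr rfl fun m _ => ?_
  rw [N2_const_mul (mul_nonneg (hB0 m) (hc0 m))]
  congr 1
  exact N2_equiv (Equiv.addRight m) (sf S w s u)

/-- weights with bounded ratios -/
def Wt.Tame (w : Wt ℤ) : Prop := ∀ m : ℤ, ∃ B : ℝ, 0 ≤ B ∧ ∀ n, w.w n ≤ B * w.w (n + m)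

theorem act_mem (hw : w.Tame) {T : Lau (Module.End ℂ V)} (hT : ∀ m, Op0 S S (T.coeff m))
    {u : ℤ → V} (hu : u ∈ SqV S w) : actL V T u ∈ SqV S w := by
  intro s
  choose B hB0 hB using hw
  have h := fun m => exists_nonneg_const (hT m s)
  choose c hc0 hc using h
  exact (act_bound T hc0 hc hB0 hB (hu s)).1

/-- restricted action -/
def actS (hw : w.Tame) (T : Lau (Module.End ℂ V)) (hT : ∀ m, Op0 S S (T.coeff m)) :
    Module.End ℂ (SqV S w) :=
  (actL V T).restrict fun _ hu => act_mem hw hT hu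

@[simp] theorem actS_coe (hw : w.Tame) (T : Lau (Module.End ℂ V))
    (hT : ∀ m, Op0 S S (T.coeff m)) (u : SqV S w) :
    ((actS hw T hT u : SqV S w) : ℤ → V) = actL V T u := rfl

theorem actS_op0 (hw : w.Tame) (T : Lau (Module.End ℂ V)) (hT : ∀ m, Op0 S S (T.coeff m)) :
    Op0 (sqS S w) (sqS S w) (actS hw T hT) := by
  intro s
  have hw2 := hw
  choose B hB0 hB using hw2
  have h := fun m => exists_nonneg_const (hT m s)
  choose c hc0 hc using h
  exact ⟨_, fun u => (act_bound T hc0 hc hB0 hB (u.2 s)).2⟩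

theorem actS_opm (hw : w.Tame) (T : Lau (Module.End ℂ V)) (hT : ∀ m, Op0 S S (T.coeff m))
    (hT' : ∀ m, Opm S S (T.coeff m)) : Opm (sqS S w) (sqS S w) (actS hw T hT) := by
  intro s
  have hw2 := hw
  choose B hB0 hB using hw2
  have h := fun m => exists_nonneg_const (hT' m s)
  choose c hc0 hc using h
  exact ⟨_, fun u => (act_bound T hc0 hc hB0 hB (u.2 s)).2⟩

/-! ### grading of sequences -/

/-- the pointwise grading -/
def sqG (S : Scale ℂ V) (G : Gr ℂ V) (πop : ∀ q, Op0 S S (G.π q)) (w : Wt ℤ) :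
    Gr ℂ (SqV S w) where
  m := G.m
  π q := (constE V (G.π q)).restrict fun u hu => by
    intro s
    obtain ⟨C, hC0, hC⟩ := exists_nonneg_const (πop q s)
    refine ((hu s).const_mul C).mono (sf_nonneg S w s _) fun n => ?_
    unfold sf
    calc w.w n * S.nrm s (G.π q (u n)) ≤ w.w n * (C * S.nrm s (u n)) :=
          mul_le_mul_of_nonneg_left (hC _) (w.pos n).le
      _ = C * (w.w n * S.nrm s (u n)) := by ring
  idem q v := by
    apply Subtype.ext; funext n; exact G.idem q _
  orth q r v h := by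
    apply Subtype.ext; funext n; exact G.orth q r _ h
  top q v h := by
    apply Subtype.ext; funext n; exact G.top q _ h
  sum v := by
    apply Subtype.ext; funext n
    rw [AddSubmonoidClass.coe_finsetSum, Finset.sum_apply]
    exact G.sum (v.1 n)

theorem sqG_π (S : Scale ℂ V) (G : Gr ℂ V) (πop : ∀ q, Op0 S S (G.π q)) (w : Wt ℤ) (q : ℕ)
    (u : SqV S w) (n : ℤ) : ((sqG S G πop w).π q u : ℤ → V) n = G.π q (u.1 n) := rfl

theorem sqG_op0 (S : Scale ℂ V) (G : Gr ℂ V) (πop : ∀ q, Op0 S S (G.π q)) (w : Wt ℤ) (q : ℕ) :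
    Op0 (sqS S w) (sqS S w) ((sqG S G πop w).π q) := by
  intro s
  obtain ⟨C, hC0, hC⟩ := exists_nonneg_const (πop q s)
  refine ⟨C, fun u => ?_⟩
  rw [sqS_nrm, sqS_nrm, ← N2_const_mul hC0]
  refine N2_mono ((u.2 s).const_mul C) (sf_nonneg S w s _) fun n => ?_
  unfold sf
  calc w.w n * S.nrm s (G.π q (u.1 n)) ≤ w.w n * (C * S.nrm s (u.1 n)) :=
        mul_le_mul_of_nonneg_left (hC _) (w.pos n).le
    _ = C * (w.w n * S.nrm s (u.1 n)) := by ring

theorem actS_deg (πop : ∀ q, Op0 S S (G.π q)) (hw : w.Tame) (T : Lau (Module.End ℂ V))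
    (hT : ∀ m, Op0 S S (T.coeff m)) {j : ℤ} (hd : ∀ m, Deg G G j (T.coeff m)) :
    Deg (sqG S G πop w) (sqG S G πop w) j (actS hw T hT) := by
  intro q r hr u
  apply Subtype.ext
  funext n
  rw [sqG_π]
  show G.π r (actL V T _ n) = 0
  rw [actL_apply, map_sum]
  exact Finset.sum_eq_zero fun m _ => hd m q r hr _

/-! ### the exact homotopy -/

/-- coefficients of a product, order zero -/
theorem op0_mul {f g : Lau (Module.End ℂ V)} (hf : ∀ m, Op0 S S (f.coeff m))
    (hg : ∀ m, Op0 S S (g.coeff m)) : ∀ m, Op0 S S ((f * g).coeff m) := by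
  intro m
  have h : f * g = mp S (lf S f hf * lf S g hg) := by rw [map_mul, mp_lf, mp_lf]
  rw [h, mp_coeff]
  exact ((lf S f hf * lf S g hg).coeff m).2

theorem op0_add' {f g : Lau (Module.End ℂ V)} (hf : ∀ m, Op0 S S (f.coeff m))
    (hg : ∀ m, Op0 S S (g.coeff m)) : ∀ m, Op0 S S ((f + g).coeff m) := fun m =>
  (hf m).add (hg m)

end

end Crest.Agent.R275.Sq617
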