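import Crest.Agent.R275.SqH_617
import Crest.Agent.R275.LauH_635

/-!
# R275, block D (helper617): exact homotopies on weighted sequence scales

`LData.exists_homotopy`: if the Laurent complex `L` is exact (on smooth elements) at every point of
the circle `|t| = r`, then there is `η > 0` such that on the weighted sequences with any weight `w`
satisfying `w n ≤ exp (η |m|) * r ^ m * w (n + m)` there is an exact homotopy of order zero and
degree `-1`.
-/

set_option autoImplicit false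

namespace Crest.Agent.R275.Sq617

open Module LinearMap Submodule Fred685

noncomputable section

variable {V : Type*} [AddCommGroup V] [Module ℂ V]

/-! ### rescaling -/

section scaling

variable {A : Type*} [Ring A] [Algebra ℂ A]

/-- `f(r T)` -/
def sc (r : ℂˣ) : Lau A →+* Lau A :=
  AddMonoidAlgebra.liftNCRingHom (AddMonoidAlgebra.singleZeroRingHom : A →+* Lau A)
    { toFun := fun m => AddMonoidAlgebra.single m.toAdd (algebraMap ℂ A ((r : ℂ) ^ m.toAdd))
      map_one' := by
        show AddMonoidAlgebra.single 0 (algebraMap ℂ A ((r : ℂ) ^ (0 : ℤ))) = 1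
        rw [zpow_zero, map_one, AddMonoidAlgebra.one_def]
      map_mul' := fun a b => by
        rw [AddMonoidAlgebra.single_mul_single, ← map_mul, ← zpow_add₀ r.ne_zero]
        rfl }
    (fun a b => by
      show AddMonoidAlgebra.single 0 a * AddMonoidAlgebra.single _ _ =
        AddMonoidAlgebra.single _ _ * AddMonoidAlgebra.single 0 a
      rw [AddMonoidAlgebra.single_mul_single, AddMonoidAlgebra.single_mul_single, zero_add,
        add_zero, Algebra.commutes])

theorem sc_single (r : ℂˣ) (m : ℤ) (a : A) :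
    sc r (AddMonoidAlgebra.single m a) = AddMonoidAlgebra.single m ((r : ℂ) ^ m • a) := by
  refine (AddMonoidAlgebra.liftNC_single _ _ _ _).trans ?_
  show AddMonoidAlgebra.single 0 a * AddMonoidAlgebra.single m (algebraMap ℂ A ((r : ℂ) ^ m)) = _
  rw [AddMonoidAlgebra.single_mul_single, zero_add, ← Algebra.commutes, Algebra.smul_def]

theorem sc_eq (r : ℂˣ) (f : Lau A) : sc r f =
    ∑ m ∈ f.coeff.support, AddMonoidAlgebra.single m ((r : ℂ) ^ m • f.coeff m) := by
  conv_lhs => rw [← AddMonoidAlgebra.sum_coeff_single f]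
  unfold Finsupp.sum
  rw [map_sum]
  exact Finset.sum_congr rfl fun m _ => sc_single r m _

theorem sc_coeff (r : ℂˣ) (f : Lau A) (m : ℤ) : (sc r f).coeff m = (r : ℂ) ^ m • f.coeff m := by
  classical
  rw [sc_eq, AddMonoidAlgebra.coeff_sum, Finsupp.finsetSum_apply]
  simp only [AddMonoidAlgebra.coeff_single, Finsupp.single_apply]
  rw [Finset.sum_ite_eq']
  split_ifs with h
  · rfl
  · rw [Finsupp.notMem_support_iff.mp h, smul_zero]

theorem ev_sc (t r : ℂˣ) (f : Lau A) : ev t (sc r f) = ev (t * r) f := by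
  have h : ((ev t : Lau A →+* A).comp (sc r : Lau A →+* Lau A)) = (ev (t * r) : Lau A →+* A) := by
    apply AddMonoidAlgebra.ringHom_ext
    · intro a
      show ev t (sc r (AddMonoidAlgebra.single 0 a)) = ev (t * r) (AddMonoidAlgebra.single 0 a)
      rw [sc_single, ev_single, ev_single, smul_smul, zpow_zero, zpow_zero, zpow_zero, one_mul]
    · intro m
      show ev t (sc r (AddMonoidAlgebra.single m 1)) = ev (t * r) (AddMonoidAlgebra.single m 1)
      rw [sc_single, ev_single, ev_single, smul_smul, Units.val_mul, mul_zpow]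
  exact RingHom.congr_fun h f

theorem sc_sc (r : ℂˣ) (f : Lau A) : sc r⁻¹ (sc r f) = f := by
  ext m : 2
  rw [sc_coeff, sc_coeff, smul_smul, ← mul_zpow, Units.inv_mul, one_zpow, one_smul]

theorem sc_sc' (r : ℂˣ) (f : Lau A) : sc r (sc r⁻¹ f) = f := by
  ext m : 2
  rw [sc_coeff, sc_coeff, smul_smul, ← mul_zpow, Units.mul_inv, one_zpow, one_smul]

end scaling

variable {S : Scale ℂ V} {G : Gr ℂ V}

/-- rescaled Laurent data -/
def LData.scale (L : LData S G) (r : ℂˣ) : LData S G where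
  πop := L.πop
  P := sc r L.P
  D := sc r L.D
  K := sc r L.K
  opP m := by rw [sc_coeff]; exact (L.opP m).smul _
  opD m := by rw [sc_coeff]; exact (L.opD m).smul _
  opK m := by rw [sc_coeff]; exact (L.opK m).smul _
  dP m := by rw [sc_coeff]; exact (L.dP m).smul _
  dD m := by rw [sc_coeff]; exact (L.dD m).smul _
  dK m := by rw [sc_coeff]; exact (L.dK m).smul _
  PP := by rw [← map_mul, L.PP]
  DP := by rw [← map_mul, L.DP]
  PD := by rw [← map_mul, L.PD]
  PK := by rw [← map_mul, L.PK]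
  KP := by rw [← map_mul, L.KP]
  DD := by rw [← map_mul, L.DD, map_zero]
  neg m := by
    rw [← map_mul, ← map_mul, ← map_sub, ← map_sub, sc_coeff]
    exact (L.neg m).smul _

/-- exactness on smooth elements on the circle `|t| = r` -/
def LData.ExactOn (L : LData S G) (r : ℝ) : Prop :=
  ∀ t : ℂˣ, ‖(t : ℂ)‖ = r → ∀ v, ev t L.P v = v → ev t L.D v = 0 → ∃ u, ev t L.D u = v

/-- PATCH THEOREM on the circle of radius `r` -/
theorem LData.patchR (L : LData S G) {r : ℝ} (hr : 0 < r) (hex : L.ExactOn r) {δ : ℝ}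
    (hδ : 0 < δ) :
    ∃ T : Lau (Module.End ℂ V), (∀ m, Opm S S (T.coeff m)) ∧ (∀ m, Deg G G (-1) (T.coeff m)) ∧
      L.P * T = T ∧ T * L.P = T ∧
      (∀ m, Opm S S ((err L.P L.D (L.K + T)).coeff m)) ∧
      ∃ c : ℤ → ℝ, (∀ m, 0 ≤ c m) ∧
        (∀ m v, S.nrm 0 ((err L.P L.D (L.K + T)).coeff m v) ≤ c m * S.nrm 0 v) ∧
        ∑ m ∈ (err L.P L.D (L.K + T)).coeff.support, r ^ m * c m < δ := by
  have hr0 : (r : ℂ) ≠ 0 := by exact_mod_cast hr.ne'
  let ρ : ℂˣ := Units.mk0 (r : ℂ) hr0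
  have hρ : ((ρ : ℂˣ) : ℂ) = (r : ℂ) := rfl
  obtain ⟨T, h1, h2, h3, h4, h5, c, hc0, hc1, hc2, hc3⟩ := (L.scale ρ).patch (fun z v hv hdv => by
    have hv' : ev (Circle.toUnits z * ρ) L.P v = v := by rw [← ev_sc]; exact hv
    have hdv' : ev (Circle.toUnits z * ρ) L.D v = 0 := by rw [← ev_sc]; exact hdv
    obtain ⟨u, hu⟩ := hex (Circle.toUnits z * ρ) (by
      rw [Units.val_mul, norm_mul, hρ, Complex.norm_real, Real.norm_of_nonneg hr.le]
      have : ‖((Circle.toUnits z : ℂˣ) : ℂ)‖ = 1 := Circle.norm_coe z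
      rw [this, one_mul]) v hv' hdv'
    refine ⟨u, ?_⟩
    show ev (Circle.toUnits z) (sc ρ L.D) u = v
    rw [ev_sc]; exact hu) hδ
  have hE : sc ρ (err L.P L.D (L.K + sc ρ⁻¹ T)) = err (L.scale ρ).P (L.scale ρ).D ((L.scale ρ).K + T) := by
    unfold err
    rw [map_sub, map_sub, map_mul, map_mul, map_add, sc_sc']
    rfl
  have hE' : ∀ m, (err L.P L.D (L.K + sc ρ⁻¹ T)).coeff m =
      ((r : ℂ) ^ (-m)) • (err (L.scale ρ).P (L.scale ρ).D ((L.scale ρ).K + T)).coeff m := by
    intro m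
    rw [← hE, sc_coeff, smul_smul, hρ, ← zpow_add₀ hr0, neg_add_cancel, zpow_zero, one_smul]
  refine ⟨sc ρ⁻¹ T, fun m => ?_, fun m => ?_, ?_, ?_, fun m => ?_, fun m => r ^ (-m) * c m,
    fun m => mul_nonneg (zpow_nonneg hr.le _) (hc0 m), fun m v => ?_, ?_⟩
  · rw [sc_coeff]; exact Opm.smul' _ (h1 m)
  · rw [sc_coeff]; exact (h2 m).smul _
  · have h6 := congrArg (sc ρ⁻¹) h3
    rw [map_mul] at h6
    have h7 : sc ρ⁻¹ (L.scale ρ).P = L.P := sc_sc ρ _
    rwa [h7] at h6
  · have h6 := congrArg (sc ρ⁻¹) h4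
    rw [map_mul] at h6
    have h7 : sc ρ⁻¹ (L.scale ρ).P = L.P := sc_sc ρ _
    rwa [h7] at h6
  · rw [hE']; exact Opm.smul' _ (h5 m)
  · rw [hE', LinearMap.smul_apply, map_smul_eq_mul, norm_zpow, Complex.norm_real,
      Real.norm_of_nonneg hr.le, mul_assoc]
    exact mul_le_mul_of_nonneg_left (hc2 m v) (zpow_nonneg hr.le _)
  · have h8 : (err L.P L.D (L.K + sc ρ⁻¹ T)).coeff.support =
        (err (L.scale ρ).P (L.scale ρ).D ((L.scale ρ).K + T)).coeff.support := by
      ext m
      rw [Finsupp.mem_support_iff, Finsupp.mem_support_iff, hE', Ne, Ne, smul_eq_zero]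
      have : ((r : ℂ) ^ (-m)) ≠ 0 := zpow_ne_zero _ hr0
      tauto
    rw [h8]
    refine lt_of_le_of_lt (le_of_eq (Finset.sum_congr rfl fun m _ => ?_)) hc3
    rw [← mul_assoc, ← zpow_add₀ hr.ne', add_neg_cancel, zpow_zero, one_mul]

/-! ### the exact homotopy -/

/-- an exact homotopy on the range of `P` -/
structure IsHt (L : LData S G) {w : Wt ℤ} (hw : w.Tame) (H : Module.End ℂ (SqV S w)) : Prop where
  op : Op0 (sqS S w) (sqS S w) H
  deg : Deg (sqG S G L.πop w) (sqG S G L.πop w) (-1) H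
  PH : actS hw L.P L.opP * H = H
  HP : H * actS hw L.P L.opP = H
  htp : actS hw L.D L.opD * H + H * actS hw L.D L.opD = actS hw L.P L.opP

theorem actS_mul' {w : Wt ℤ} (hw : w.Tame) {f g h : Lau (Module.End ℂ V)}
    (hf : ∀ m, Op0 S S (f.coeff m)) (hg : ∀ m, Op0 S S (g.coeff m))
    (hh : ∀ m, Op0 S S (h.coeff m)) (e : f * g = h) : actS hw f hf * actS hw g hg = actS hw h hh := by
  subst e
  apply LinearMap.ext
  intro u
  apply Subtype.ext
  show actL V f (actL V g u) = actL V (f * g) u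
  rw [map_mul]
  rfl

/-- EXACT HOMOTOPIES ON WEIGHTED SEQUENCES. -/
theorem LData.exists_homotopy (L : LData S G) {r : ℝ} (hr : 0 < r) (hex : L.ExactOn r) :
    ∃ η > 0, ∀ (w : Wt ℤ) (hw : w.Tame),
      (∀ n m : ℤ, w.w n ≤ Real.exp (η * |(m : ℝ)|) * r ^ m * w.w (n + m)) →
      ∃ H : Module.End ℂ (SqV S w), IsHt L hw H := by
  obtain ⟨T, h1, h2, h3, h4, h5, c, hc0, hc2, hc3⟩ := L.patchR hr hex (δ := 1 / 4) (by norm_num)
  set E := err L.P L.D (L.K + T) with hE
  -- choice of `η`
  obtain ⟨M, hM⟩ : ∃ M : ℝ, 0 < M ∧ ∀ m ∈ E.coeff.support, |(m : ℝ)| ≤ M := by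
    refine ⟨1 + ∑ m ∈ E.coeff.support, |(m : ℝ)|, by positivity, fun m hm => ?_⟩
    have := Finset.single_le_sum (f := fun m : ℤ => |(m : ℝ)|) (fun _ _ => abs_nonneg _) hm
    linarith
  refine ⟨Real.log 2 / M, div_pos (Real.log_pos (by norm_num)) hM.1, fun w hw hwr => ?_⟩
  set η := Real.log 2 / M with hη
  have hη0 : 0 < η := div_pos (Real.log_pos (by norm_num)) hM.1
  have hopT : ∀ m, Op0 S S (T.coeff m) := fun m => (h1 m).op0
  have hopL : ∀ m, Op0 S S ((L.K + T).coeff m) := op0_add' L.opK hopT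
  have hopE : ∀ m, Op0 S S (E.coeff m) := fun m => (h5 m).op0
  set 𝔓 := actS hw L.P L.opP with h𝔓
  set 𝔇 := actS hw L.D L.opD with h𝔇
  set 𝔎 := actS hw (L.K + T) hopL with h𝔎
  set 𝔈 := actS hw E hopE with h𝔈
  have hEeq : 𝔈 = 𝔓 - (𝔇 * 𝔎 + 𝔎 * 𝔇) := by
    apply LinearMap.ext
    intro u
    apply Subtype.ext
    show actL V E u = actL V L.P u - (actL V L.D (actL V (L.K + T) u) +
      actL V (L.K + T) (actL V L.D u))
    rw [hE]
    unfold err
    rw [map_sub, map_sub, map_mul, map_mul]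
    show actL V L.P u - actL V L.D (actL V (L.K + T) u) - actL V (L.K + T) (actL V L.D u) = _
    abel
  have hsmall : ∀ u, (sqS S w).nrm 0 (𝔈 u) ≤ (1 / 2) * (sqS S w).nrm 0 u := by
    intro u
    have hb := (act_bound E (s := 0) (t := 0) hc0 hc2
      (B := fun m => Real.exp (η * |(m : ℝ)|) * r ^ m)
      (fun m => mul_nonneg (Real.exp_nonneg _) (zpow_nonneg hr.le _))
      (fun m n => hwr n m) (u.2 0)).2
    refine hb.trans (mul_le_mul_of_nonneg_right ?_ (N2_nonneg _))
    have h6 : ∀ m ∈ E.coeff.support,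
        Real.exp (η * |(m : ℝ)|) * r ^ m * c m ≤ 2 * (r ^ m * c m) := by
      intro m hm
      rw [mul_assoc]
      refine mul_le_mul_of_nonneg_right ?_ (mul_nonneg (zpow_nonneg hr.le _) (hc0 m))
      have h7 : η * |(m : ℝ)| ≤ Real.log 2 := by
        calc η * |(m : ℝ)| ≤ η * M := mul_le_mul_of_nonneg_left (hM.2 m hm) hη0.le
          _ = Real.log 2 := by rw [hη]; exact div_mul_cancel₀ _ hM.1.ne'
      calc Real.exp (η * |(m : ℝ)|) ≤ Real.exp (Real.log 2) := Real.exp_le_exp.mpr h7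
        _ = 2 := Real.exp_log (by norm_num)
    refine (Finset.sum_le_sum h6).trans ?_
    rw [← Finset.mul_sum]
    linarith
  obtain ⟨e, he, heop⟩ := exists_inverse (S := sqS S w) (M := 𝔈) (actS_opm hw E hopE h5) hsmall
  set Wi : Module.End ℂ (SqV S w) := (e.symm : SqV S w →ₗ[ℂ] SqV S w) with hWi
  have hW1 : (1 - (𝔓 - (𝔇 * 𝔎 + 𝔎 * 𝔇))) * Wi = 1 := by
    rw [← hEeq]
    apply LinearMap.ext
    intro v
    show e.symm v - 𝔈 (e.symm v) = v
    rw [← he, e.apply_symm_apply]
  have hW2 : Wi * (1 - (𝔓 - (𝔇 * 𝔎 + 𝔎 * 𝔇))) = 1 := by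
    rw [← hEeq]
    apply LinearMap.ext
    intro v
    show e.symm (v - 𝔈 v) = v
    rw [← he, e.symm_apply_apply]
  have hPL : L.P * (L.K + T) = L.K + T := by rw [mul_add, L.PK, h3]
  have hLP : (L.K + T) * L.P = L.K + T := by rw [add_mul, L.KP, h4]
  have hDD : 𝔇 * 𝔇 = 0 := by
    apply LinearMap.ext
    intro u
    apply Subtype.ext
    show actL V L.D (actL V L.D u) = 0
    have := congrArg (fun f => actL V f (u : ℤ → V)) L.DD
    simp only [map_mul, map_zero] at this
    exact this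
  obtain ⟨k1, k2, k3⟩ := Lau635.correct_homotopy_ring (P := 𝔓) (D := 𝔇) (Kt := 𝔎) (W := Wi)
    (actS_mul' hw _ _ _ L.PP) (actS_mul' hw _ _ _ L.DP) (actS_mul' hw _ _ _ L.PD) hDD
    (actS_mul' hw _ _ _ hPL) (actS_mul' hw _ _ _ hLP) hW1 hW2
  refine ⟨Wi * 𝔎, ?_, ?_, k2, k3, k1⟩
  · exact heop.comp (actS_op0 hw _ _)
  · have hdE : ∀ m, Deg G G 0 (E.coeff m) := by
      intro m
      have hd : Deg G G 0 ((err L.P L.D (L.K + T)).coeff m) := by
        have e1 : ∀ m, Deg G G 0 ((L.D * (L.K + T)).coeff m) := fun m => by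
          have h := mul_mem_LS (J₁ := GD S G 1) (J₂ := GD S G (-1)) (J₃ := GD S G 0)
            (fun a ha b hb => Deg.comp' ha hb (by norm_num))
            (f := lf S L.D L.opD) (g := lf S (L.K + T) hopL)
            (fun m => by
              show Deg G G 1 ((lf S L.D L.opD).coeff m : Module.End ℂ V)
              rw [lf_coeff]; exact L.dD m)
            (fun m => by
              show Deg G G (-1) ((lf S (L.K + T) hopL).coeff m : Module.End ℂ V)
              rw [lf_coeff]; exact (L.dK m).add (h2 m)) m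
          have h' : Deg G G 0 ((mp S (lf S L.D L.opD * lf S (L.K + T) hopL)).coeff m) := by
            rw [mp_coeff]; exact h
          rwa [map_mul, mp_lf, mp_lf] at h'
        have e2 : ∀ m, Deg G G 0 (((L.K + T) * L.D).coeff m) := fun m => by
          have h := mul_mem_LS (J₁ := GD S G (-1)) (J₂ := GD S G 1) (J₃ := GD S G 0)
            (fun a ha b hb => Deg.comp' ha hb (by norm_num))
            (f := lf S (L.K + T) hopL) (g := lf S L.D L.opD)
            (fun m => by
              show Deg G G (-1) ((lf S (L.K + T) hopL).coeff m : Module.End ℂ V)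
              rw [lf_coeff]; exact (L.dK m).add (h2 m))
            (fun m => by
              show Deg G G 1 ((lf S L.D L.opD).coeff m : Module.End ℂ V)
              rw [lf_coeff]; exact L.dD m) m
          have h' : Deg G G 0 ((mp S (lf S (L.K + T) hopL * lf S L.D L.opD)).coeff m) := by
            rw [mp_coeff]; exact h
          rwa [map_mul, mp_lf, mp_lf] at h'
        exact ((L.dP m).sub (e1 m)).sub (e2 m)
      exact hd
    have hdW : Deg (sqG S G L.πop w) (sqG S G L.πop w) 0 Wi := by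
      apply deg_of_comm
      intro q v
      apply e.injective
      show e (e.symm _) = e _
      rw [e.apply_symm_apply, he]
      have h8 := (actS_deg L.πop hw E hopE hdE).comm q (e.symm v)
      show _ = (sqG S G L.πop w).π q (e.symm v) - 𝔈 ((sqG S G L.πop w).π q (e.symm v))
      rw [h8, ← map_sub, ← he, e.apply_symm_apply]
    exact Deg.comp' hdW (actS_deg L.πop hw (L.K + T) hopL fun m => (L.dK m).add (h2 m))
      (by norm_num)

end

end Crest.Agent.R275.Sq617
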