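import Crest.Agent.R275.SqJ_617
import Crest.Agent.R275.RetB_666

/-!
# R275, block D (helper617): weighted families of periodic functions as weighted sequences

`J ≃ ℤ × I` (`I` finite): `TS W` on `J` is `SqV (scT W0) w` for `W.om j ≍ w m * W0.om i`, with
equivalent norms.
-/

set_option autoImplicit false
set_option linter.unusedSectionVars false

namespace Crest.Agent.R275.Sq617

open Ret666 Tor812 Fred685

noncomputable section

variable {d : Type} [Fintype d] {I J : Type} [Finite I] {W0 : WS I} {W : WS J} {w : Wt ℤ}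
  (e : J ≃ ℤ × I)

/-- comparable weights, equal shifts -/
structure Cmp (W0 : WS I) (W : WS J) (w : Wt ℤ) (e : J ≃ ℤ × I) : Prop where
  sh : ∀ j, W.sh j = W0.sh (e j).2
  lo : ∃ c > 0, ∀ j, c * (w.w (e j).1 * W0.om (e j).2) ≤ W.om j
  up : ∃ c > 0, ∀ j, W.om j ≤ c * (w.w (e j).1 * W0.om (e j).2)

/-- the sequence of a family -/
def toSeq (e : J ≃ ℤ × I) (F : J → SPer d) (m : ℤ) : FT d W0 :=
  FT.mk (fun i => F (e.symm (m, i))) (mem_TS_of_finite _)

theorem toSeq_fn (F : J → SPer d) (m : ℤ) (i : I) :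
    (toSeq (W0 := W0) e F m).fn i = F (e.symm (m, i)) := rfl

/-- the term of the double sum -/
def term (W0 : WS I) (w : Wt ℤ) (s : ℕ) (e : J ≃ ℤ × I) (F : J → SPer d) (p : ℤ × I) : ℝ :=
  (w.w p.1 * W0.om p.2 * nrm (s + W0.sh p.2) (F (e.symm p))) ^ 2

theorem term_nonneg (s : ℕ) (F : J → SPer d) (p : ℤ × I) : 0 ≤ term W0 w s e F p := sq_nonneg _

theorem sf_sq (s : ℕ) (F : J → SPer d) (m : ℤ) :
    sf (scT W0) w s (toSeq (W0 := W0) e F) m ^ 2 = ∑' i, term W0 w s e F (m, i) := by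
  have h := (hasSum_nT s (toSeq (W0 := W0) e F m)).tsum_eq
  show (w.w m * (scT W0).nrm s (toSeq e F m)) ^ 2 = _
  rw [scT_nrm, mul_pow, ← h, ← tsum_mul_left]
  refine tsum_congr fun i => ?_
  show _ = (w.w m * W0.om i * nrm (s + W0.sh i) (F (e.symm (m, i)))) ^ 2
  rw [toSeq_fn]
  ring

theorem summable_term_iff (s : ℕ) (F : J → SPer d) :
    Summable (term W0 w s e F) ↔ Ss (sf (scT W0) w s (toSeq (W0 := W0) e F)) := by
  rw [summable_prod_of_nonneg (fun p => term_nonneg e s F p)]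
  unfold Ss
  have h1 : (fun m : ℤ => ∑' i, term W0 w s e F (m, i)) =
      fun m => sf (scT W0) w s (toSeq (W0 := W0) e F) m ^ 2 := by
    funext m
    rw [sf_sq]
  rw [h1]
  exact ⟨fun h => h.2, fun h => ⟨fun m => (Summable.of_finite), h⟩⟩

theorem tsum_term (s : ℕ) (F : J → SPer d) (h : Summable (term W0 w s e F)) :
    ∑' p, term W0 w s e F p = N2 (sf (scT W0) w s (toSeq (W0 := W0) e F)) ^ 2 := by
  rw [N2_sq, h.tsum_prod]
  refine tsum_congr fun m => ?_
  rw [sf_sq]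

variable {e}

theorem Cmp.term_le (h : Cmp W0 W w e) : ∃ c > 0, ∀ (s : ℕ) (F : J → SPer d) (j : J),
    c ^ 2 * term W0 w s e F (e j) ≤ (W.om j * nrm (s + W.sh j) (F j)) ^ 2 := by
  obtain ⟨c, hc, hl⟩ := h.lo
  refine ⟨c, hc, fun s F j => ?_⟩
  unfold term
  rw [← mul_pow, e.symm_apply_apply, h.sh]
  refine pow_le_pow_left₀ ?_ ?_ 2
  · exact mul_nonneg hc.le (mul_nonneg (mul_nonneg (w.pos _).le (W0.pos _).le) (nrm_nonneg _ _))
  · rw [← mul_assoc]
    exact mul_le_mul_of_nonneg_right (hl j) (nrm_nonneg _ _)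

theorem Cmp.le_term (h : Cmp W0 W w e) : ∃ c > 0, ∀ (s : ℕ) (F : J → SPer d) (j : J),
    (W.om j * nrm (s + W.sh j) (F j)) ^ 2 ≤ c ^ 2 * term W0 w s e F (e j) := by
  obtain ⟨c, hc, hl⟩ := h.up
  refine ⟨c, hc, fun s F j => ?_⟩
  unfold term
  rw [← mul_pow, e.symm_apply_apply, h.sh]
  refine pow_le_pow_left₀ (mul_nonneg (W.pos _).le (nrm_nonneg _ _)) ?_ 2
  rw [← mul_assoc]
  exact mul_le_mul_of_nonneg_right (hl j) (nrm_nonneg _ _)

/-- **membership** -/
theorem Cmp.mem_iff (h : Cmp W0 W w e) (F : J → SPer d) :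
    F ∈ TS W ↔ toSeq (W0 := W0) e F ∈ SqV (scT W0) w := by
  obtain ⟨c, hc, h1⟩ := h.term_le (d := d)
  obtain ⟨c', hc', h2⟩ := h.le_term (d := d)
  rw [mem_TS]
  refine forall_congr' fun s => ?_
  rw [← summable_term_iff, ← e.summable_iff (f := term W0 w s e F)]
  constructor
  · intro hs
    have h3 : Summable fun j => c ^ 2 * term W0 w s e F (e j) :=
      Summable.of_nonneg_of_le (fun j => mul_nonneg (sq_nonneg _) (term_nonneg e s F _))
        (fun j => h1 s F j) hs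
    exact (summable_mul_left_iff (pow_ne_zero 2 hc.ne')).1 h3
  · intro hs
    exact Summable.of_nonneg_of_le (fun j => sq_nonneg _) (fun j => h2 s F j) (hs.mul_left _)

/-- **norms** -/
theorem Cmp.nT_le (h : Cmp W0 W w e) : ∃ c > 0, ∀ (s : ℕ) (f : FT d W),
    nT s f ≤ c * N2 (sf (scT W0) w s (toSeq (W0 := W0) e f.fn)) := by
  obtain ⟨c, hc, h2⟩ := h.le_term (d := d)
  refine ⟨c, hc, fun s f => ?_⟩
  have hm := (h.mem_iff f.fn).1 f.mem
  have hs := (summable_term_iff e s f.fn).2 (hm s)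
  have hs' := (e.summable_iff (f := term W0 w s e f.fn)).2 hs
  rw [← pow_le_pow_iff_left₀ (nT_nonneg _ _) (mul_nonneg hc.le (N2_nonneg _)) two_ne_zero, mul_pow,
    ← tsum_term e s f.fn hs, ← e.tsum_eq, ← tsum_mul_left, ← (hasSum_nT s f).tsum_eq]
  exact Summable.tsum_le_tsum (fun j => h2 s f.fn j) (hasSum_nT s f).summable (hs'.mul_left _)

theorem Cmp.le_nT (h : Cmp W0 W w e) : ∃ c > 0, ∀ (s : ℕ) (f : FT d W),
    N2 (sf (scT W0) w s (toSeq (W0 := W0) e f.fn)) ≤ c * nT s f := by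
  obtain ⟨c, hc, h2⟩ := h.term_le (d := d)
  refine ⟨c⁻¹, inv_pos.2 hc, fun s f => ?_⟩
  have hm := (h.mem_iff f.fn).1 f.mem
  have hs := (summable_term_iff e s f.fn).2 (hm s)
  have hs' := (e.summable_iff (f := term W0 w s e f.fn)).2 hs
  rw [← div_eq_inv_mul, le_div_iff₀ hc, mul_comm,
    ← pow_le_pow_iff_left₀ (mul_nonneg hc.le (N2_nonneg _)) (nT_nonneg _ _) two_ne_zero, mul_pow,
    ← tsum_term e s f.fn hs, ← e.tsum_eq, ← tsum_mul_left, ← (hasSum_nT s f).tsum_eq]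
  exact Summable.tsum_le_tsum (fun j => h2 s f.fn j) (hs'.mul_left _) (hasSum_nT s f).summable

end

end Crest.Agent.R275.Sq617
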