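import Crest.Agent.R275.C1f_509
import Crest.Agent.R275.C1c_193
import Crest.Agent.R275.C2_812
import Crest.Agent.R275.RetB_666
import Crest.Agent.R275.RetC_666

/-!
# R275, block D, WY1 (helper681): local estimates and weighted spaces of smooth sections

`PNb P`        : neighbour relation of the cut-offs with bounded degree.
`sh, locJ, lv`  : shifts, localised components, local norms.
`Slow Q c`     : slowly varying functions of the chart.
`LE Q e c T`   : local (weight free) estimates of order `-e` and local size `c`.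

-/

set_option autoImplicit false
set_option linter.unusedSectionVars false
set_option linter.unusedVariables false

open Set Filter Topology Complex
open scoped ContDiff Matrix ComplexConjugate

namespace Crest.Agent.R275.WY681

open Crest.Agent.R275.Geo Crest.Agent.R275.Tor812 Crest.Agent.R275.C1d194
open Crest.Agent.R275.Fred685

noncomputable section

variable {n : ℕ} {M : Type} [TopologicalSpace M] {A : Atl n M}

/-! ### neighbours -/

/-- neighbour relation of the charts -/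
structure PNb (P : Part A) where
  N : A.ι → Finset A.ι
  D : ℕ
  card_le : ∀ i, (N i).card ≤ D
  self : ∀ i, i ∈ N i
  symm : ∀ i j, j ∈ N i → i ∈ N j
  mem : ∀ i j, (tsupport (P.χ i) ∩ tsupport (P.χ j)).Nonempty → j ∈ N i

variable {P : Part A} (Q : PNb P)

open Classical in
/-- iterated neighbours -/
def PNb.Nr : ℕ → A.ι → Finset A.ι
  | 0, i => {i}
  | r + 1, i => (PNb.Nr r i).biUnion Q.N

namespace PNb

theorem mem_Nr_zero {i j : A.ι} : j ∈ Q.Nr 0 i ↔ j = i := by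
  simp [Nr]

theorem mem_Nr_succ {r : ℕ} {i j : A.ι} : j ∈ Q.Nr (r + 1) i ↔ ∃ k ∈ Q.Nr r i, j ∈ Q.N k := by
  simp [Nr]

theorem mem_Nr_add {r r' : ℕ} {i j k : A.ι} (h : k ∈ Q.Nr r i) (h' : j ∈ Q.Nr r' k) :
    j ∈ Q.Nr (r + r') i := by
  induction r' generalizing j with
  | zero => rw [(Q.mem_Nr_zero).1 h']; exact h
  | succ r' ih =>
    obtain ⟨l, hl, hj⟩ := (Q.mem_Nr_succ).1 h'
    exact (Q.mem_Nr_succ).2 ⟨l, ih hl, hj⟩

theorem mem_Nr_one {i j : A.ι} : j ∈ Q.Nr 1 i ↔ j ∈ Q.N i := by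
  rw [mem_Nr_succ]
  constructor
  · rintro ⟨k, hk, hj⟩
    rwa [← (Q.mem_Nr_zero).1 hk]
  · intro h
    exact ⟨i, (Q.mem_Nr_zero).2 rfl, h⟩

theorem Nr_mono {r r' : ℕ} (h : r ≤ r') (i : A.ι) : Q.Nr r i ⊆ Q.Nr r' i := by
  induction r', h using Nat.le_induction with
  | base => exact subset_rfl
  | succ r' _ ih => exact ih.trans fun j hj => (Q.mem_Nr_succ).2 ⟨j, hj, Q.self j⟩

theorem Nr_symm {r : ℕ} {i j : A.ι} (h : j ∈ Q.Nr r i) : i ∈ Q.Nr r j := by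
  induction r generalizing j with
  | zero => rw [(Q.mem_Nr_zero).1 h]; exact (Q.mem_Nr_zero).2 rfl
  | succ r ih =>
    obtain ⟨k, hk, hj⟩ := (Q.mem_Nr_succ).1 h
    have h1 : k ∈ Q.Nr 1 j := (Q.mem_Nr_one).2 (Q.symm _ _ hj)
    have h2 := Q.mem_Nr_add h1 (ih hk)
    rwa [add_comm] at h2

theorem card_Nr_le (r : ℕ) (i : A.ι) : (Q.Nr r i).card ≤ Q.D ^ r := by
  classical
  induction r with
  | zero => simp [Nr]
  | succ r ih =>
    show ((Q.Nr r i).biUnion Q.N).card ≤ _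
    refine Finset.card_biUnion_le.trans ?_
    refine (Finset.sum_le_card_nsmul _ _ Q.D fun j _ => Q.card_le j).trans ?_
    rw [smul_eq_mul, pow_succ]
    exact Nat.mul_le_mul_right _ ih

/-- the neighbour relation on the components -/
def nb (r : ℕ) (κ κ' : Type) [Fintype κ] [Fintype κ'] : Ret666.Nb (A.ι × κ') (A.ι × κ) where
  N p := Q.Nr r p.1 ×ˢ Finset.univ
  N' p := Q.Nr r p.1 ×ˢ Finset.univ
  D := Q.D ^ r * Fintype.card κ
  D' := Q.D ^ r * Fintype.card κ'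
  card_le p := by
    rw [Finset.card_product, Finset.card_univ]
    exact Nat.mul_le_mul_right _ (Q.card_Nr_le r _)
  card_le' p := by
    rw [Finset.card_product, Finset.card_univ]
    exact Nat.mul_le_mul_right _ (Q.card_Nr_le r _)
  mem' p q h := by
    rw [Finset.mem_product] at h ⊢
    exact ⟨Q.Nr_symm h.1, Finset.mem_univ _⟩

theorem sum_Nr_le (r r' : ℕ) (i : A.ι) (x : A.ι → ℝ) (hx : ∀ j, 0 ≤ x j) :
    ∑ j ∈ Q.Nr r i, ∑ m ∈ Q.Nr r' j, x m ≤ (Q.D ^ r : ℕ) * ∑ m ∈ Q.Nr (r + r') i, x m := by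
  have h1 : ∀ j ∈ Q.Nr r i, ∑ m ∈ Q.Nr r' j, x m ≤ ∑ m ∈ Q.Nr (r + r') i, x m := fun j hj =>
    Finset.sum_le_sum_of_subset_of_nonneg (fun m hm => Q.mem_Nr_add hj hm) fun m _ _ => hx m
  refine (Finset.sum_le_sum h1).trans ?_
  rw [Finset.sum_const, nsmul_eq_mul]
  refine mul_le_mul_of_nonneg_right ?_ (Finset.sum_nonneg fun m _ => hx m)
  exact_mod_cast Q.card_Nr_le r i

end PNb

/-! ### localised components and their norms -/

section lv

variable (P) (B : FBun A)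

/-- the shift of the norms in the component `k` -/
def sh (k : B.κ) : ℕ := n - B.deg k

/-- all localised components -/
def locJ : Sec B →ₗ[ℂ] (A.ι × B.κ → SPer (RI n)) where
  toFun u p := loc A p.1 (P.psi B.κ p.1) (u.1 p.1) p.2
  map_add' u v := by
    funext p
    have := congrFun (LocF_add B (P.amp_psi B.κ) u.2 v.2) p.1
    exact congrFun this p.2
  map_smul' c u := by
    funext p
    have := congrFun (LocF_smul B (P.amp_psi B.κ) c u.2) p.1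
    exact congrFun this p.2

theorem locJ_apply (u : Sec B) (i : A.ι) (k : B.κ) :
    locJ P B u (i, k) = LocF B (P.psi B.κ) u.1 i k := rfl

/-- the local norm of order `s` at the chart `i` -/
def lv (s : ℕ) (u : Sec B) (i : A.ι) : ℝ := ∑ k, nrm (s + sh B k) (locJ P B u (i, k))

variable {P B}

theorem lv_nonneg (s : ℕ) (u : Sec B) (i : A.ι) : 0 ≤ lv P B s u i :=
  Finset.sum_nonneg fun _ _ => nrm_nonneg _ _

theorem nrm_le_lv (s : ℕ) (u : Sec B) (i : A.ι) (k : B.κ) :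
    nrm (s + sh B k) (locJ P B u (i, k)) ≤ lv P B s u i :=
  Finset.single_le_sum (f := fun k => nrm (s + sh B k) (locJ P B u (i, k)))
    (fun _ _ => nrm_nonneg _ _) (Finset.mem_univ k)

theorem lv_mono {s t : ℕ} (h : s ≤ t) (u : Sec B) (i : A.ι) : lv P B s u i ≤ lv P B t u i :=
  Finset.sum_le_sum fun _ _ => nrm_mono (Nat.add_le_add_right h _) _

theorem lv_add_le (s : ℕ) (u v : Sec B) (i : A.ι) :
    lv P B s (u + v) i ≤ lv P B s u i + lv P B s v i := by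
  unfold lv
  rw [← Finset.sum_add_distrib]
  refine Finset.sum_le_sum fun k _ => ?_
  rw [map_add]
  exact nrm_add_le _ _ _

theorem lv_smul (s : ℕ) (c : ℂ) (u : Sec B) (i : A.ι) :
    lv P B s (c • u) i = ‖c‖ * lv P B s u i := by
  unfold lv
  rw [Finset.mul_sum]
  refine Finset.sum_congr rfl fun k _ => ?_
  rw [map_smul]
  exact nrm_smul _ _ _

theorem lv_neg (s : ℕ) (u : Sec B) (i : A.ι) : lv P B s (-u) i = lv P B s u i := by
  have h := lv_smul (P := P) (B := B) s (-1) u i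
  have h2 : (-1 : ℂ) • u = -u := neg_one_smul ℂ u
  rw [h2, norm_neg, norm_one, one_mul] at h
  exact h

theorem lv_sub_le (s : ℕ) (u v : Sec B) (i : A.ι) :
    lv P B s (u - v) i ≤ lv P B s u i + lv P B s v i := by
  have h := lv_add_le (P := P) s u (-v) i
  rw [lv_neg] at h
  have h2 : u + -v = u - v := (sub_eq_add_neg u v).symm
  rw [h2] at h
  exact h

theorem lv_zero (s : ℕ) (i : A.ι) : lv P B s (0 : Sec B) i = 0 := by
  have h := lv_smul (P := P) (B := B) s 0 0 i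
  have h2 : (0 : ℂ) • (0 : Sec B) = 0 := zero_smul ℂ _
  rw [h2, norm_zero, zero_mul] at h
  exact h

end lv

/-! ### local estimates -/

section LE

variable {B B' B'' : FBun A}

/-- `T` is a local operator of order `-e` (in the shifted norms) with local size `c` -/
def LE (Q : PNb P) (e : ℕ) (c : A.ι → ℝ) (T : Sec B →ₗ[ℂ] Sec B') : Prop :=
  ∃ r : ℕ, ∀ s : ℕ, ∃ C : ℝ, 0 ≤ C ∧ ∀ (u : Sec B) (i : A.ι),
    lv P B' (s + e) (T u) i ≤ C * c i * ∑ j ∈ Q.Nr r i, lv P B s u j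

theorem LE.mk' {Q : PNb P} {e : ℕ} {c : A.ι → ℝ} {T : Sec B →ₗ[ℂ] Sec B'} (r : ℕ)
    (h : ∀ s : ℕ, ∃ C : ℝ, 0 ≤ C ∧ ∀ (u : Sec B) (i : A.ι) (k : B'.κ),
      nrm (s + e + sh B' k) (locJ P B' (T u) (i, k)) ≤ C * c i * ∑ j ∈ Q.Nr r i, lv P B s u j) :
    LE Q e c T := by
  refine ⟨r, fun s => ?_⟩
  obtain ⟨C, hC, h1⟩ := h s
  refine ⟨Fintype.card B'.κ * C, by positivity, fun u i => ?_⟩
  unfold lv
  refine (Finset.sum_le_sum fun k _ => h1 u i k).trans ?_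
  rw [Finset.sum_const, Finset.card_univ, nsmul_eq_mul]
  simp only [← mul_assoc]
  exact le_rfl

/-- the neighbourhood may be enlarged -/
theorem LE.enlarge {Q : PNb P} {e : ℕ} {c : A.ι → ℝ} (hc : ∀ i, 0 ≤ c i)
    {T : Sec B →ₗ[ℂ] Sec B'} (h : LE Q e c T) :
    ∃ r₀, ∀ r ≥ r₀, ∀ s : ℕ, ∃ C : ℝ, 0 ≤ C ∧ ∀ (u : Sec B) (i : A.ι),
      lv P B' (s + e) (T u) i ≤ C * c i * ∑ j ∈ Q.Nr r i, lv P B s u j := by
  obtain ⟨r₀, h⟩ := h
  refine ⟨r₀, fun r hr s => ?_⟩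
  obtain ⟨C, hC, h1⟩ := h s
  refine ⟨C, hC, fun u i => (h1 u i).trans ?_⟩
  refine mul_le_mul_of_nonneg_left ?_ (mul_nonneg hC (hc i))
  exact Finset.sum_le_sum_of_subset_of_nonneg (Q.Nr_mono hr i) fun j _ _ => lv_nonneg _ _ _

theorem LE.congr {Q : PNb P} {e : ℕ} {c : A.ι → ℝ} {T T' : Sec B →ₗ[ℂ] Sec B'}
    (h : LE Q e c T) (hT : T = T') : LE Q e c T' := hT ▸ h

theorem LE.mono_size {Q : PNb P} {e : ℕ} {c c' : A.ι → ℝ} {T : Sec B →ₗ[ℂ] Sec B'}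
    (h : LE Q e c T) {L : ℝ} (hL : 0 ≤ L) (hcc : ∀ i, c i ≤ L * c' i) : LE Q e c' T := by
  obtain ⟨r, h⟩ := h
  refine ⟨r, fun s => ?_⟩
  obtain ⟨C, hC, h1⟩ := h s
  refine ⟨C * L, mul_nonneg hC hL, fun u i => (h1 u i).trans ?_⟩
  refine mul_le_mul_of_nonneg_right ?_ (Finset.sum_nonneg fun j _ => lv_nonneg _ _ _)
  rw [mul_assoc]
  exact mul_le_mul_of_nonneg_left (hcc i) hC

theorem LE.le_order {Q : PNb P} {e e' : ℕ} (he : e' ≤ e) {c : A.ι → ℝ}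
    {T : Sec B →ₗ[ℂ] Sec B'} (h : LE Q e c T) : LE Q e' c T := by
  obtain ⟨r, h⟩ := h
  refine ⟨r, fun s => ?_⟩
  obtain ⟨C, hC, h1⟩ := h s
  exact ⟨C, hC, fun u i => (lv_mono (Nat.add_le_add_left he s) _ _).trans (h1 u i)⟩

theorem LE.zero {Q : PNb P} {e : ℕ} {c : A.ι → ℝ} :
    LE Q e c (0 : Sec B →ₗ[ℂ] Sec B') := by
  refine ⟨0, fun s => ⟨0, le_rfl, fun u i => ?_⟩⟩
  have : lv P B' (s + e) ((0 : Sec B →ₗ[ℂ] Sec B') u) i = 0 := lv_zero _ _
  rw [this]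
  simp

theorem LE.id {Q : PNb P} : LE Q 0 (fun _ => 1) (LinearMap.id : Sec B →ₗ[ℂ] Sec B) := by
  refine ⟨0, fun s => ⟨1, zero_le_one, fun u i => ?_⟩⟩
  have : Q.Nr 0 i = {i} := by
    ext j
    rw [Q.mem_Nr_zero, Finset.mem_singleton]
  rw [this, Finset.sum_singleton, mul_one, one_mul]
  exact le_rfl

theorem LE.add {Q : PNb P} {e : ℕ} {c : A.ι → ℝ} (hc : ∀ i, 0 ≤ c i)
    {T T' : Sec B →ₗ[ℂ] Sec B'} (h : LE Q e c T) (h' : LE Q e c T') : LE Q e c (T + T') := by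
  obtain ⟨r, h⟩ := h.enlarge hc
  obtain ⟨r', h'⟩ := h'.enlarge hc
  refine ⟨max r r', fun s => ?_⟩
  obtain ⟨C, hC, h1⟩ := h _ (le_max_left r r') s
  obtain ⟨C', hC', h1'⟩ := h' _ (le_max_right r r') s
  refine ⟨C + C', add_nonneg hC hC', fun u i => ?_⟩
  rw [LinearMap.add_apply, add_mul, add_mul]
  exact (lv_add_le _ _ _ _).trans (add_le_add (h1 u i) (h1' u i))

theorem LE.smul {Q : PNb P} {e : ℕ} {c : A.ι → ℝ} (z : ℂ)
    {T : Sec B →ₗ[ℂ] Sec B'} (h : LE Q e c T) : LE Q e c (z • T) := by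
  obtain ⟨r, h⟩ := h
  refine ⟨r, fun s => ?_⟩
  obtain ⟨C, hC, h1⟩ := h s
  refine ⟨‖z‖ * C, by positivity, fun u i => ?_⟩
  rw [LinearMap.smul_apply, lv_smul, mul_assoc, mul_assoc]
  refine mul_le_mul_of_nonneg_left ?_ (norm_nonneg z)
  rw [← mul_assoc]
  exact h1 u i

theorem LE.neg {Q : PNb P} {e : ℕ} {c : A.ι → ℝ}
    {T : Sec B →ₗ[ℂ] Sec B'} (h : LE Q e c T) : LE Q e c (-T) := by
  obtain ⟨r, h⟩ := h
  refine ⟨r, fun s => ?_⟩
  obtain ⟨C, hC, h1⟩ := h s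
  refine ⟨C, hC, fun u i => ?_⟩
  rw [LinearMap.neg_apply, lv_neg]
  exact h1 u i

theorem LE.sub {Q : PNb P} {e : ℕ} {c : A.ι → ℝ} (hc : ∀ i, 0 ≤ c i)
    {T T' : Sec B →ₗ[ℂ] Sec B'} (h : LE Q e c T) (h' : LE Q e c T') : LE Q e c (T - T') := by
  refine (h.add hc h'.neg).congr ?_
  refine LinearMap.ext fun u => ?_
  exact (sub_eq_add_neg (T u) (T' u)).symm

/-- slowly varying functions of the chart -/
def Slow (Q : PNb P) (c : A.ι → ℝ) : Prop := ∃ L : ℝ, 0 ≤ L ∧ ∀ i, ∀ j ∈ Q.N i, c j ≤ L * c i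

theorem Slow.Nr {Q : PNb P} {c : A.ι → ℝ} (h : Slow Q c) (r : ℕ) :
    ∃ L : ℝ, 0 ≤ L ∧ ∀ i, ∀ j ∈ Q.Nr r i, c j ≤ L * c i := by
  obtain ⟨L, hL, h⟩ := h
  induction r with
  | zero =>
    refine ⟨1, zero_le_one, fun i j hj => ?_⟩
    rw [(Q.mem_Nr_zero).1 hj, one_mul]
  | succ r ih =>
    obtain ⟨L', hL', h'⟩ := ih
    refine ⟨L * L', mul_nonneg hL hL', fun i j hj => ?_⟩
    obtain ⟨k, hk, hj⟩ := (Q.mem_Nr_succ).1 hj
    rw [mul_assoc]
    exact (h k j hj).trans (mul_le_mul_of_nonneg_left (h' i k hk) hL)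

theorem Slow.one {Q : PNb P} : Slow Q fun _ => 1 := ⟨1, zero_le_one, fun _ _ _ => by simp⟩

theorem Slow.mul {Q : PNb P} {c c' : A.ι → ℝ} (hc : ∀ i, 0 ≤ c i) (hc' : ∀ i, 0 ≤ c' i)
    (h : Slow Q c) (h' : Slow Q c') : Slow Q fun i => c i * c' i := by
  obtain ⟨L, hL, h⟩ := h
  obtain ⟨L', hL', h'⟩ := h'
  refine ⟨L * L', mul_nonneg hL hL', fun i j hj => ?_⟩
  calc c j * c' j ≤ (L * c i) * (L' * c' i) :=
        mul_le_mul (h i j hj) (h' i j hj) (hc' j) (mul_nonneg hL (hc i))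
    _ = L * L' * (c i * c' i) := by ring

/-- composition of local operators -/
theorem LE.comp {Q : PNb P} {e e' : ℕ} {c c' : A.ι → ℝ} (hc : ∀ i, 0 ≤ c i)
    (hc' : ∀ i, 0 ≤ c' i) (hs : Slow Q c)
    {T' : Sec B' →ₗ[ℂ] Sec B''} {T : Sec B →ₗ[ℂ] Sec B'} (h' : LE Q e' c' T') (h : LE Q e c T) :
    LE Q (e + e') (fun i => c' i * c i) (T' ∘ₗ T) := by
  obtain ⟨r', h'⟩ := h'
  obtain ⟨r, h⟩ := h
  obtain ⟨L, hL, hs⟩ := hs.Nr r'
  refine ⟨r' + r, fun s => ?_⟩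
  obtain ⟨C', hC', h1'⟩ := h' (s + e)
  obtain ⟨C, hC, h1⟩ := h s
  refine ⟨C' * C * L * (Q.D ^ r' : ℕ), by positivity, fun u i => ?_⟩
  have h2 := h1' (T u) i
  rw [add_assoc] at h2
  refine h2.trans ?_
  have h3 : ∀ j ∈ Q.Nr r' i, lv P B' (s + e) (T u) j ≤ C * (L * c i) *
      ∑ m ∈ Q.Nr r j, lv P B s u m := by
    intro j hj
    refine (h1 u j).trans ?_
    refine mul_le_mul_of_nonneg_right ?_ (Finset.sum_nonneg fun m _ => lv_nonneg _ _ _)
    exact mul_le_mul_of_nonneg_left (hs i j hj) hC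
  have h4 := Finset.sum_le_sum h3
  rw [← Finset.mul_sum] at h4
  have h5 := Q.sum_Nr_le r' r i (fun m => lv P B s u m) fun m => lv_nonneg _ _ _
  have h6 : ∑ j ∈ Q.Nr r' i, lv P B' (s + e) (T u) j ≤
      C * (L * c i) * ((Q.D ^ r' : ℕ) * ∑ m ∈ Q.Nr (r' + r) i, lv P B s u m) :=
    h4.trans (mul_le_mul_of_nonneg_left h5 (mul_nonneg hC (mul_nonneg hL (hc i))))
  refine (mul_le_mul_of_nonneg_left h6 (mul_nonneg hC' (hc' i))).trans (le_of_eq ?_)
  ring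

end LE

end

end Crest.Agent.R275.WY681
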