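import Crest.Agent.R275.SqK_617
import Crest.Agent.R275.QPf_635
import Crest.Agent.R275.WY1_681

/-!
# R275, block D (helper617): the weighted spaces of sections over the infinite cyclic covering

* `perCx`  : the Laurent data of helper635 describe `∇` on `Sec (up C B)`.
* `RateW C a b om` : weights `om` on the lifted charts comparable with `wrate a b` on the sheets.
* `wfDesc_of` : a family `WF` of weighted spaces given by such weights is described by the retract.
* `eint_nab`, `eint_nab_of` : `EInt` for `∇` on the covering from exactness of `∇` on the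
  quasi-periodic sections.
-/

set_option autoImplicit false
set_option linter.unusedSectionVars false

namespace Crest.Agent.R275.Sq617

open Geo Tor812 TorS666 C1d194 XN194 Ret666 QP635 QPb635 C2812 Fred685 LauB681

noncomputable section

variable {n : ℕ} {M : Type} [TopologicalSpace M] {A : Atl n M}
variable {Z : Type} [TopologicalSpace Z] (C : KCov A Z ℤ) (P : Part A) (B : FBun A)

/-- sheets and boxes -/
def eJ : C.lift.ι × B.κ ≃ ℤ × (A.ι × B.κ) where
  toFun p := (p.1.2, (p.1.1, p.2))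
  invFun p := ((p.2.1, p.1), p.2.2)
  left_inv _ := rfl
  right_inv _ := rfl

/-- the weights `om` on the lifted charts, shifts `n - deg` -/
def wom (om : C.lift.ι → ℝ) (h : ∀ q, 0 < om q) : WS (C.lift.ι × B.κ) where
  om p := om p.1
  pos p := h p.1
  sh p := WY681.sh (up C B) p.2

/-- weights of rates `a` (small end), `b` (large end) -/
structure RateW (a b : ℝ) (om : C.lift.ι → ℝ) : Prop where
  pos : ∀ q, 0 < om q
  lo : ∃ c > 0, ∀ q, c * (wrate a b).w q.2 ≤ om q
  up : ∃ c > 0, ∀ q, om q ≤ c * (wrate a b).w q.2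

variable {C} in
theorem RateW.cmp {a b : ℝ} {om : C.lift.ι → ℝ} (h : RateW C a b om) :
    Cmp (W0 B) (wom C B om h.pos) (wrate a b) (eJ C B) where
  sh _ := rfl
  lo := by
    obtain ⟨c, hc, h1⟩ := h.lo
    refine ⟨c, hc, fun p => ?_⟩
    show c * ((wrate a b).w p.1.2 * 1) ≤ om p.1
    rw [mul_one]; exact h1 _
  up := by
    obtain ⟨c, hc, h1⟩ := h.up
    refine ⟨c, hc, fun p => ?_⟩
    show om p.1 ≤ c * ((wrate a b).w p.1.2 * 1)
    rw [mul_one]; exact h1 _

/-- weights from heights: `h (i,m) ≈ -m` -/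
theorem RateW.of_height {hc : C.lift.ι → ℝ} {W : ℝ} (hW : ∀ q, |hc q + (q.2 : ℝ)| ≤ W) (a b : ℝ)
    {om : C.lift.ι → ℝ}
    (hom : ∀ q, om q = Real.exp (a * max (-(hc q)) 0 - b * max (hc q) 0)) : RateW C a b om := by
  have key : ∀ q, |(a * max (-(hc q)) 0 - b * max (hc q) 0) -
      (a * max (q.2 : ℝ) 0 - b * max (-(q.2 : ℝ)) 0)| ≤ (|a| + |b|) * W := by
    intro q
    have e1 : |max (-(hc q)) 0 - max (q.2 : ℝ) 0| ≤ W := by
      refine (abs_max_sub_max_le_abs _ _ _).trans ?_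
      have : -(hc q) - (q.2 : ℝ) = -(hc q + q.2) := by ring
      rw [this, abs_neg]; exact hW q
    have e2 : |max (hc q) 0 - max (-(q.2 : ℝ)) 0| ≤ W := by
      refine (abs_max_sub_max_le_abs _ _ _).trans ?_
      rw [sub_neg_eq_add]; exact hW q
    have e3 : (a * max (-(hc q)) 0 - b * max (hc q) 0) -
        (a * max (q.2 : ℝ) 0 - b * max (-(q.2 : ℝ)) 0) =
        a * (max (-(hc q)) 0 - max (q.2 : ℝ) 0) - b * (max (hc q) 0 - max (-(q.2 : ℝ)) 0) := by ring
    rw [e3]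
    refine (abs_sub _ _).trans ?_
    rw [abs_mul, abs_mul, add_mul]
    exact add_le_add (mul_le_mul_of_nonneg_left e1 (abs_nonneg _))
      (mul_le_mul_of_nonneg_left e2 (abs_nonneg _))
  refine ⟨fun q => by rw [hom]; exact Real.exp_pos _,
    ⟨Real.exp (-((|a| + |b|) * W)), Real.exp_pos _, fun q => ?_⟩,
    ⟨Real.exp ((|a| + |b|) * W), Real.exp_pos _, fun q => ?_⟩⟩
  · rw [hom]
    show _ * Real.exp _ ≤ _
    rw [← Real.exp_add]
    apply Real.exp_le_exp.mpr
    have := (abs_le.1 (key q)).1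
    linarith
  · rw [hom]
    show _ ≤ _ * Real.exp _
    rw [← Real.exp_add]
    apply Real.exp_le_exp.mpr
    have := (abs_le.1 (key q)).2
    linarith

variable [Finite A.ι]

/-- the Laurent data of helper635 describe the periodic complex -/
theorem perCx (h : CoB C P B) (hdd : nabL (up C B) ∘ₗ nabL (up C B) = 0) :
    PerCx (pr C P B) (nabL (up C B)) (ldata h hdd) :=
  PerCx.of_co (fp_one (Rx_spec C P)) (fun m => PerRet.lau_coeff (fp_one (Rx_spec C P)) m)
    (inv_nabL C P B) (fp_nabL (Rx_spec C P))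
    (fun m => PerRet.lau_coeff (fp_nabL (Rx_spec C P)) m)

/-- localisation on the covering is the sequence of the localisations on the sheets -/
theorem toSeq_locJ (u : Sec (up C B)) :
    toSeq (W0 := W0 B) (eJ C B) (WY681.locJ (liftP C P) (up C B) u) = (pr C P B).Loc u := by
  funext m
  apply FT.ext
  intro p
  rw [toSeq_fn, pr_Loc]
  rfl

/-- membership in the weighted spaces -/
theorem mem_iff_Loc {a b : ℝ} {om : C.lift.ι → ℝ} (h : RateW C a b om) (u : Sec (up C B)) :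
    WY681.locJ (liftP C P) (up C B) u ∈ TS (wom C B om h.pos) ↔
      (pr C P B).Loc u ∈ SqV (scT (W0 B)) (wrate a b) := by
  rw [(h.cmp B).mem_iff, toSeq_locJ]

theorem nT_le_Loc {a b : ℝ} {om : C.lift.ι → ℝ} (h : RateW C a b om) : ∃ c > 0, ∀ (s : ℕ)
    (u : Sec (up C B)) (hu : WY681.locJ (liftP C P) (up C B) u ∈ TS (wom C B om h.pos)),
    nT s (FT.mk _ hu) ≤ c * N2 (sf (scT (W0 B)) (wrate a b) s ((pr C P B).Loc u)) := by
  obtain ⟨c, hc, h1⟩ := (h.cmp B).nT_le (d := RI n)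
  refine ⟨c, hc, fun s u hu => ?_⟩
  rw [← toSeq_locJ]
  exact h1 s (FT.mk _ hu)

theorem Loc_le_nT {a b : ℝ} {om : C.lift.ι → ℝ} (h : RateW C a b om) : ∃ c > 0, ∀ (s : ℕ)
    (u : Sec (up C B)) (hu : WY681.locJ (liftP C P) (up C B) u ∈ TS (wom C B om h.pos)),
    N2 (sf (scT (W0 B)) (wrate a b) s ((pr C P B).Loc u)) ≤ c * nT s (FT.mk _ hu) := by
  obtain ⟨c, hc, h1⟩ := (h.cmp B).le_nT (d := RI n)
  refine ⟨c, hc, fun s u hu => ?_⟩
  rw [← toSeq_locJ]
  exact h1 s (FT.mk _ hu)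

/-- the hypotheses on a family of weighted spaces over the covering -/
structure WFOn (om : ℝ → ℝ → C.lift.ι → ℝ) (hom : ∀ a b, RateW C a b (om a b))
    (F : WF ℂ (Sec (up C B))) : Prop where
  mem : ∀ x y u, u ∈ F.V x y ↔
    WY681.locJ (liftP C P) (up C B) u ∈ TS (wom C B (om x y) (hom x y).pos)
  nrm : ∀ x y s (u : F.V x y), (F.S x y).nrm s u = nT s (FT.mk _ ((mem x y u).1 u.2))
  deg : ∀ (q : ℤ) u, F.π q u = if 0 ≤ q then pqL (up C B) q.toNat u else 0

theorem Loc_pqL (q : ℕ) (u : Sec (up C B)) (m : ℤ) :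
    (pr C P B).Loc (pqL (up C B) q u) m = (grV B).π q ((pr C P B).Loc u m) := by
  have h1 : (pr C P B).Loc (pqL (up C B) q u) m =
      L0 C P B (((pr C P B).γ ^ m) (pqL (up C B) q u)) := rfl
  have h2 : (pr C P B).Loc u m = L0 C P B (((pr C P B).γ ^ m) u) := rfl
  rw [h1, h2, ← (inv_pqL C P B q).zpow, L0_pqL]
  rfl

theorem wfDesc_of {om : ℝ → ℝ → C.lift.ι → ℝ} {hom : ∀ a b, RateW C a b (om a b)}
    {F : WF ℂ (Sec (up C B))} (hF : WFOn C P B om hom F) :
    WFDesc (pr C P B) (scT (W0 B)) (grV B) F where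
  mem x y u := (hF.mem x y u).trans (mem_iff_Loc C P B (hom x y) u)
  le x y s := by
    obtain ⟨c, hc, h1⟩ := Loc_le_nT C P B (hom x y)
    refine ⟨c, fun u => ?_⟩
    rw [hF.nrm]
    exact h1 s _ _
  ge x y s := by
    obtain ⟨c, hc, h1⟩ := nT_le_Loc C P B (hom x y)
    refine ⟨c, fun u => ?_⟩
    rw [hF.nrm]
    exact h1 s _ _
  deg q u m := by
    rw [hF.deg]
    unfold gz
    split_ifs with h
    · exact Loc_pqL C P B q.toNat u m
    · rw [map_zero]; rfl

/-- **`EInt` near an acyclic circle for `∇` on the covering** -/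
theorem eint_nab (hdeg : ∀ k, B.deg k ≤ n) (hdd : nabL (up C B) ∘ₗ nabL (up C B) = 0)
    {om : ℝ → ℝ → C.lift.ι → ℝ} {hom : ∀ a b, RateW C a b (om a b)} {F : WF ℂ (Sec (up C B))}
    (hF : WFOn C P B om hom F) (X : Cx F) (hX : ∀ u, X.D u = nabL (up C B) u) {ρ : ℝ}
    (hq : ∀ t : ℂ, ‖t‖ = Real.exp (-ρ) → t ≠ 0 → ∀ u : Sec (up C B), deckS C B 1 u = t • u →
      nabL (up C B) u = 0 → ∃ w : Sec (up C B), deckS C B 1 w = t • w ∧ nabL (up C B) w = u) :
    ∃ η > 0, EInt X (ρ - η) (ρ + η) :=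
  (perCx C P B (cob C P B hdeg) hdd).eint (wfDesc_of C P B hF) X hX
    ((perCx C P B (cob C P B hdeg) hdd).exactOn (inv_nabL C P B) hq)

/-- **all mixed weights between acyclic circles, for `∇` on the covering** -/
theorem eint_nab_of (hdeg : ∀ k, B.deg k ≤ n) (hdd : nabL (up C B) ∘ₗ nabL (up C B) = 0)
    {om : ℝ → ℝ → C.lift.ι → ℝ} {hom : ∀ a b, RateW C a b (om a b)} {F : WF ℂ (Sec (up C B))}
    (hF : WFOn C P B om hom F) (X : Cx F) (hX : ∀ u, X.D u = nabL (up C B) u) (c : Cut X)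
    {a b : ℝ} (hab : a ≤ b)
    (hq : ∀ ρ ∈ Set.Icc a b, ∀ t : ℂ, ‖t‖ = Real.exp (-ρ) → t ≠ 0 → ∀ u : Sec (up C B),
      deckS C B 1 u = t • u → nabL (up C B) u = 0 →
      ∃ w : Sec (up C B), deckS C B 1 w = t • w ∧ nabL (up C B) w = u) :
    EInt X a b :=
  EInt.of_local c hab fun ρ hρ => eint_nab C P B hdeg hdd hF X hX (hq ρ hρ)

end

end Crest.Agent.R275.Sq617
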