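import Crest.Agent.R275.SqL_617
import Crest.Agent.R275.WYd_681

/-!
# R275, block D (helper617): `EInt` for the weighted spaces of helper681

`wfOn` : `wf h H` (helper681) over the covering is described by the retract of helper635, as soon as
the heights of the charts `(i, m)` are `-m + O(1)`.
`eint_cx`, `eint_cx_of` : `EInt (cx h H hdd)` from exactness of `∇` on the quasi-periodic sections.
-/

set_option autoImplicit false
set_option linter.unusedSectionVars false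

namespace Crest.Agent.R275.Sq617

open Geo Tor812 TorS666 C1d194 XN194 Ret666 QP635 QPb635 C2812 Fred685 LauB681 WY681 Core144

noncomputable section

variable {n : ℕ} {M : Type} [TopologicalSpace M] {A : Atl n M}
variable {Z : Type} [TopologicalSpace Z] (C : KCov A Z ℤ) (P : Part A) (B : FBun A)
variable {Q : PNb (liftP C P)} (H : Hts Q)

/-- heights of the charts `(i, m)` are `-m + O(1)` -/
def HtsOK : Prop := ∃ W : ℝ, ∀ q : C.lift.ι, |H.ht q + (q.2 : ℝ)| ≤ W

variable {C P H}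

/-- exact equivariance of the heights -/
theorem HtsOK.of_shift [Finite A.ι]
    (h : ∀ (i : A.ι) (m : ℤ), H.ht ((i, m) : A.ι × ℤ) = H.ht ((i, 0) : A.ι × ℤ) - m) :
    HtsOK C P H := by
  have := Fintype.ofFinite A.ι
  refine ⟨∑ i : A.ι, |H.ht ((i, 0) : A.ι × ℤ)|, fun q => ?_⟩
  obtain ⟨i, m⟩ := q
  have h1 : H.ht ((i, m) : A.ι × ℤ) + ((m : ℤ) : ℝ) = H.ht ((i, 0) : A.ι × ℤ) := by
    rw [h]; ring
  show |H.ht ((i, m) : A.ι × ℤ) + ((m : ℤ) : ℝ)| ≤ _
  rw [h1]
  exact Finset.single_le_sum (f := fun i : A.ι => |H.ht ((i, 0) : A.ι × ℤ)|)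
    (fun i _ => abs_nonneg _) (Finset.mem_univ i)

/-- heights coming from a function `h` on the covering with `h (act m z) = h z - m` -/
theorem HtsOK.of_fun [Finite A.ι] {h : Z → ℝ} (heq : ∀ (m : ℤ) z, h (C.act m z) = h z - m)
    {R : ℝ} (hR : ∀ q, ∃ z ∈ (C.lift.e q).source, |H.ht q - h z| ≤ R)
    {R' : ℝ} (hR' : ∀ i, ∀ x ∈ (A.e i).source, |h (C.s i x)| ≤ R') : HtsOK C P H := by
  refine ⟨R + R', fun q => ?_⟩
  obtain ⟨z, hz, h1⟩ := hR q
  obtain ⟨i, m⟩ := q
  have hz' : z ∈ C.sheet i m := hz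
  obtain ⟨hx, hzx⟩ := hz'
  set x := C.p z with hxdef
  have h2 : h z = h (C.s i x) - m := by rw [← heq, hzx]
  have h3 := hR' i x hx
  have h4 : |H.ht ((i, m) : A.ι × ℤ) - (h (C.s i x) - m)| ≤ R := by rw [← h2]; exact h1
  have h5 : H.ht ((i, m) : A.ι × ℤ) + ((m : ℤ) : ℝ) =
      (H.ht ((i, m) : A.ι × ℤ) - (h (C.s i x) - m)) + h (C.s i x) := by ring
  show |H.ht ((i, m) : A.ι × ℤ) + ((m : ℤ) : ℝ)| ≤ _
  rw [h5]
  exact (abs_add_le _ _).trans (add_le_add h4 h3)

theorem rateW_wt (hW : HtsOK C P H) (a b : ℝ) : RateW C a b (H.wt (-a) b).w := by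
  obtain ⟨W, hW⟩ := hW
  refine RateW.of_height C hW a b fun q => ?_
  show (wgt (-a) b (H.ht q))⁻¹ = _
  unfold wgt
  rw [← Real.exp_neg]
  congr 1
  ring

variable [Finite A.ι] {B}

/-- the weighted spaces of helper681 over the covering -/
theorem wfOn (h : BGeo (liftP C P) (up C B)) (hW : HtsOK C P H) :
    WFOn C P B (fun a b => (H.wt (-a) b).w) (fun a b => rateW_wt hW a b) (wf h H) where
  mem _ _ _ := Iff.rfl
  nrm _ _ _ _ := rfl
  deg q u := by
    show piZ (up C B) q u = _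
    unfold piZ
    by_cases hq : q < 0
    · rw [if_pos hq, if_neg (not_le.2 hq), LinearMap.zero_apply]
    · rw [if_neg hq, if_pos (not_lt.1 hq)]

/-- **`EInt` near an acyclic circle** -/
theorem eint_cx (h : BGeo (liftP C P) (up C B)) (hW : HtsOK C P H)
    (hdd : ∀ u, nabL (up C B) (nabL (up C B) u) = 0) {ρ : ℝ}
    (hq : ∀ t : ℂ, ‖t‖ = Real.exp (-ρ) → t ≠ 0 → ∀ u : Sec (up C B), deckS C B 1 u = t • u →
      nabL (up C B) u = 0 → ∃ w : Sec (up C B), deckS C B 1 w = t • w ∧ nabL (up C B) w = u) :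
    ∃ η > 0, EInt (cx h H hdd) (ρ - η) (ρ + η) :=
  eint_nab C P B h.deg_le (LinearMap.ext hdd) (wfOn h hW) (cx h H hdd) (fun _ => rfl) hq

/-- **all mixed weights between acyclic circles** -/
theorem eint_cx_of (h : BGeo (liftP C P) (up C B)) (hW : HtsOK C P H)
    (hdd : ∀ u, nabL (up C B) (nabL (up C B) u) = 0) (c : Cut (cx h H hdd)) {a b : ℝ} (hab : a ≤ b)
    (hq : ∀ ρ ∈ Set.Icc a b, ∀ t : ℂ, ‖t‖ = Real.exp (-ρ) → t ≠ 0 → ∀ u : Sec (up C B),
      deckS C B 1 u = t • u → nabL (up C B) u = 0 →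
      ∃ w : Sec (up C B), deckS C B 1 w = t • w ∧ nabL (up C B) w = u) :
    EInt (cx h H hdd) a b :=
  eint_nab_of C P B h.deg_le (LinearMap.ext hdd) (wfOn h hW) (cx h H hdd) (fun _ => rfl) c hab hq

end

end Crest.Agent.R275.Sq617
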