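import Crest.Agent.R275.St3C_686
import Crest.Agent.R275.Sol_352
import Crest.Agent.R275.LemD_96
import Crest.Agent.R275.LemWB_861
import Crest.Agent.R275.Sec1A_197
import Crest.Agent.R275.Sec1B_197
import Crest.Agent.R275.Cls_672

/-!
R275 (S0418), Part IV, helper686: section 3, part D: the inputs of section 3 from the analysis.
* `bd_of_core`  : sup bounds on the cores give sup bounds on the whole charts
* `bd_decay`    : a section of `V_L` with limit `0` at the small end (explicit rate)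
* `solv_of`     : `Solv` from `Sol` (helper352)
* `FrAt`        : logarithms whose cochain vanishes over `{h < T}`; `frameS_of`, `frameW_of`
-/

set_option autoImplicit false
set_option linter.unusedSectionVars false
set_option linter.unusedVariables false

open Set Filter Topology Complex
open scoped ContDiff Manifold

noncomputable section

namespace Crest.Agent.R275.St3686

open Crest.AlgGeometry.Surface
open Geo Fm96 Core144 FmExt861 Dv69
open Crest.Agent.R275.NAtl938 (IsLog Dec2 HasCls)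
open Crest.Agent.R275.Wy5197 (UG fr fri con lam)
open Crest.Agent.R275.Sol352 (Sol)
open Crest.Agent.R275.Sec1197 (SecIn bd_sec)
open Crest.Agent.R275.BR4672 (BdG)

variable {Y : Type} [TopologicalSpace Y] {A : Atl 2 Y} {h : Y → ℝ} {K : A.ι → Set Y}

/-! ### bounds -/

/-- sup bounds on the cores give sup bounds on the whole charts -/
theorem bd_of_core (cov : ∀ x, ∃ i, x ∈ K i) (hK : ∀ i, K i ⊆ (A.e i).source) {L : LB A}
    (hL : BdG L) {f : A.ι → Y → ℂ} (hf : IsZ0 A L.g univ f) {w : ℝ → ℝ} (hw : ∀ t, 0 ≤ w t)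
    {C : ℝ} (hb : ∀ i, ∀ x ∈ K i, ‖f i x‖ ≤ C * w (h x)) : Bd A h w f := by
  obtain ⟨D, hD⟩ := hL
  refine ⟨max D 0 * max C 0, fun i x hx => ?_⟩
  obtain ⟨j, hj⟩ := cov x
  have h1 := hf.tr i j x ⟨hx, hK j hj⟩ trivial
  rw [h1, norm_mul, mul_assoc]
  refine mul_le_mul ((hD i j x).trans (le_max_left _ _)) ?_ (norm_nonneg _) (le_max_right _ _)
  exact (hb j x hj).trans (mul_le_mul_of_nonneg_right (le_max_left _ _) (hw _))

/-- weights of a section decaying at the small end -/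
theorem bd_decay {L : LB A} {s : A.ι → Y → ℂ} (hs : s ∈ VL h L) {C ρ : ℝ} (hρ : 0 ≤ ρ)
    (hc : ∀ i, ∀ x ∈ (A.e i).source, h x ≤ 0 → ‖s i x‖ ≤ C * Real.exp (ρ * h x)) {e : ℝ}
    (he : 0 < e) : Bd A h (wgt (-ρ) e) s := by
  obtain ⟨D, hD0, hD⟩ := (hs.2 e he).exists_nonneg fun t => (wgt_pos _ _ t).le
  refine ⟨max C D, fun i x hx => ?_⟩
  rcases le_total (h x) 0 with h0 | h0
  · have h1 : wgt (-ρ) e (h x) = Real.exp (ρ * h x) := by
      unfold wgt
      rw [max_eq_left (by linarith), max_eq_right h0]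
      congr 1; ring
    rw [h1]
    exact (hc i x hx h0).trans (mul_le_mul_of_nonneg_right (le_max_left _ _) (Real.exp_pos _).le)
  · have h1 : wgt (-ρ) e (h x) = wgt e e (h x) := by
      unfold wgt
      rw [max_eq_right (by linarith), max_eq_left h0]
      congr 1; ring
    rw [h1]
    exact (hD i x hx).trans (mul_le_mul_of_nonneg_right (le_max_right _ _) (wgt_pos _ _ _).le)

/-- compactly supported forms have all rates -/
theorem bd1_of_csupp (C : Cor A h K) {g : A.ι → A.ι → Y → ℂ} {om : A.ι → Y → Fin 2 → ℂ}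
    (ho : IsZ1 A g univ om) (hc : CSupp om) (a b : ℝ) : BD1 A K h a b om := by
  obtain ⟨Q, hQ, hQu⟩ := hc
  intro c
  exact LemWB861.slab_of_csupp C hQ (fun i x hx => by rw [hQu i x hx]; rfl)
    (fun i x hx => ho.sm i c x (C.sub i hx) (mem_univ x)) _ _

theorem bd0_of_csupp (C : Cor A h K) {g : A.ι → A.ι → Y → ℂ} {F : A.ι → Y → ℂ}
    (ho : IsZ2 A g univ F) (hc : CSupp F) (a b : ℝ) : BD A K h a b F := by
  obtain ⟨Q, hQ, hQu⟩ := hc
  exact LemWB861.slab_of_csupp C hQ (fun i x hx => hQu i x hx)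
    (fun i x hx => ho.sm i x (C.sub i hx) (mem_univ x)) _ _

/-! ### `Solv` -/

theorem d1_eq_funext {om om' : A.ι → Y → ℂ} (H : ∀ i x, om i x = om' i x) : om = om' := by
  funext i x; exact H i x

/-- **`Solv` from the solution theorems** -/
theorem solv_of {Pt : Part A} (U : UG Pt h K) (C : Cor A h K) {P : Subgroup (LB A)}
    {q : LB A → ℤ} {d₀ : ℝ} (S : Sol A K h P q d₀) (hbdg : ∀ L ∈ P, BdG L) {Lβ L0 : LB A}
    (hβ : Lβ ∈ P) (h0 : L0 ∈ P) (hq : q L0⁻¹ = -1) (hV : VL h L0⁻¹ = ⊥) {sβ : A.ι → Y → ℂ}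
    (hs : sβ ∈ VL h Lβ) {d : ℝ} (hd : 0 < d) : Solv A h Lβ L0 sβ d := by
  set e : ℝ := min (d / 2) (d₀ / 4) with he
  have hd0 := S.pos
  have he0 : 0 < e := lt_min (by linarith) (by linarith)
  have he1 : 2 * e ≤ d := by have := min_le_left (d / 2) (d₀ / 4); linarith
  have he2 : 2 * e < d₀ := by have := min_le_right (d / 2) (d₀ / 4); linarith
  refine ⟨BD1 A K h e e, ?_, ?_, ?_, ?_⟩
  · intro F hF hFc
    obtain ⟨b, hb, hbb, hbe⟩ := S.ex₂ (Lβ⁻¹ * L0⁻¹)
      (P.mul_mem (P.inv_mem hβ) (P.inv_mem h0)) (a := 0) (b := 0) (a' := e / 2) (b' := e / 2)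
      (by linarith) (by linarith) F hF (bd0_of_csupp C hF hFc _ _)
    refine ⟨b, hb, d1_eq_funext hbe, ?_⟩
    have h1 : BD A K h (e / 2) (e / 2) sβ := bd_sec U hs.1 (hs.2 _ (by linarith))
    exact (h1.mul1 hbb).mono (by linarith) (by linarith)
  · intro om hom hg hcl
    obtain ⟨f, hf, hfb, hfe⟩ := S.ex₁_gg L0⁻¹ (P.inv_mem h0) hq hV (a := e) (b := e)
      (a' := 2 * e) (b' := 2 * e) (by linarith) he2 (by linarith) he2 (by linarith) (by linarith)
      om hom hg (fun i x => by rw [hcl]; rfl)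
    refine ⟨f, hf, by funext i x; exact hfe i x, ?_⟩
    obtain ⟨D, hD, hDb⟩ := hfb.sup C.sub
    refine bd_of_core C.cov C.sub (hbdg _ (P.inv_mem h0)) hf (fun t => (wgt_pos _ _ t).le)
      (C := D) fun i x hx => (hDb i x hx).trans ?_
    exact mul_le_mul_of_nonneg_left (wgt_mono he1 he1 _) hD
  · exact fun om hom hc => bd1_of_csupp C hom hc _ _
  · exact fun om om' h1 h2 => h1.sub h2

/-! ### frames near the small end -/

/-- logarithms (decaying at both ends) with a cochain vanishing over `{h < T}` -/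
def FrAt (A : Atl 2 Y) (h : Y → ℝ) (L : LB A) (T : ℝ) : Prop :=
  ∃ (θ : A.ι → A.ι → Y → ℂ) (c : A.ι → A.ι → A.ι → ℤ) (C ρ : ℝ), IsLog A L.g θ c ∧ 0 < ρ ∧
    Dec2 A h θ C ρ ∧ ∀ i j k x, x ∈ (A.e i).source → x ∈ (A.e j).source → x ∈ (A.e k).source →
      h x < T → c i j k = 0

theorem FrAt.mono {L : LB A} {T T' : ℝ} (H : FrAt A h L T) (hT : T' ≤ T) : FrAt A h L T' := by
  obtain ⟨θ, c, C, ρ, h1, h2, h3, h4⟩ := H
  exact ⟨θ, c, C, ρ, h1, h2, h3, fun i j k x hi hj hk hx => h4 i j k x hi hj hk (hx.trans_le hT)⟩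

/-- a finitely supported class gives `FrAt` -/
theorem frAt_of_cls {Pt : Part A} (U : UG Pt h K) {L : LB A} {c : A.ι → A.ι → A.ι → ℤ}
    (hc : NAtl938.Fin3 c) (H : HasCls A h L.g c) : ∃ T, FrAt A h L T := by
  classical
  obtain ⟨θ, h1, C, ρ, hρ, h2⟩ := H
  obtain ⟨W, hW, hosc⟩ := U.osc
  -- lower bound of `h` on a chart
  have hlow : ∀ i, ∃ t : ℝ, ∀ x ∈ (A.e i).source, t ≤ h x := by
    intro i
    by_cases hne : ((A.e i).source).Nonempty
    · obtain ⟨y, hy⟩ := hne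
      refine ⟨h y - W, fun x hx => ?_⟩
      have := (abs_le.1 (hosc i x hx y hy)).1
      linarith
    · exact ⟨0, fun x hx => absurd ⟨x, hx⟩ hne⟩
  choose t ht using hlow
  have hf : ((fun p : A.ι × A.ι × A.ι => t p.1) '' {p | c p.1 p.2.1 p.2.2 ≠ 0}).Finite :=
    Set.Finite.image _ hc
  obtain ⟨T, hT⟩ := hf.bddBelow
  refine ⟨T, θ, c, C, ρ, h1, hρ, h2, fun i j k x hi hj hk hx => ?_⟩
  by_contra hne
  have h3 : T ≤ t i := hT ⟨(i, j, k), hne, rfl⟩
  have h4 := ht i x hi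
  linarith

/-- transport of `FrAt` -/
theorem FrAt.tw {σ : Equiv.Perm A.ι} {φ : Y ≃ₜ Y} (S : BR4672.Sy A σ φ) {c₀ : ℝ}
    (hφ : ∀ y, h (φ y) = h y - c₀) {L : LB A} {T : ℝ} (H : FrAt A h L T) :
    FrAt A h (BR4672.twL S L) (T + c₀) := by
  obtain ⟨θ, c, C, ρ, h1, h2, h3, h4⟩ := H
  refine ⟨Cls672.tw2 σ φ θ, Cls672.twc σ c, _, ρ, Cls672.IsLog.tw S h1, h2,
    Cls672.Dec2.tw S hφ h2.le h3, fun i j k x hi hj hk hx => ?_⟩
  exact h4 (σ i) (σ j) (σ k) (φ x) ((S.src i x).2 hi) ((S.src j x).2 hj) ((S.src k x).2 hk)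
    (by rw [hφ]; linarith)

section frames

variable {Pt : Part A} (U : UG Pt h K) (C : Cor A h K)
include U C

theorem wb_low {w : Y → ℝ} {u : A.ι → Y → ℂ} (hu : WB A K w u) (T : ℝ) {a b : ℝ}
    (hw : ∀ x, w x ≤ wgt a b (h x)) : BD A (Kl K h T) h a b u :=
  (WB.sub_core hu (kl_sub T)).mono zero_le_one fun i x _ => by rw [one_mul]; exact hw x

/-- the connection form of the frame -/
theorem sdv1_fr {L : LB A} {θ : A.ι → A.ι → Y → ℂ} {c : A.ι → A.ι → A.ι → ℤ}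
    (hθ : IsLog A L.g θ c) (i : A.ι) {x : Y} (hx : x ∈ (A.e i).source) (b : Fin 2) :
    sdv1 (fr Pt θ) (d0 A (fr Pt θ)) i x b = con Pt θ i x b := by
  show (fr Pt θ i x)⁻¹ * d0 A (fr Pt θ) i x b = _
  rw [Wy5197.d0_fr hθ, ← mul_assoc, inv_mul_cancel₀ (Wy5197.fr_ne hx), one_mul]

theorem abd_fr {L : LB A} {θ : A.ι → A.ι → Y → ℂ} {c : A.ι → A.ι → A.ι → ℤ} {C₀ ρ : ℝ}
    (hθ : IsLog A L.g θ c) (hρ : 0 < ρ) (hd : Dec2 A h θ C₀ ρ) (T : ℝ) {d1 : ℝ} (h1 : d1 ≤ ρ)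
    {b0 : ℝ} (hb0 : 0 ≤ b0) :
    BD1 A (Kl K h T) h (-d1) b0 (sdv1 (fr Pt θ) (d0 A (fr Pt θ))) := by
  intro b
  have h2 : WB A K (fun x => wgt (-ρ) (-ρ) (h x)) (fun i x => con Pt θ i x b) :=
    Wy5197.wb_con U hθ hd b
  have h3 : BD A (Kl K h T) h (-d1) b0 (fun i x => con Pt θ i x b) :=
    wb_low U C h2 T fun x => wgt_mono (by linarith) (by linarith) _
  refine WB.congr h3 (Kl.sub C.sub T) fun i x hx => ?_
  filter_upwards [src_nhds (C.sub i hx.1)] with y hy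
  exact sdv1_fr U C hθ i hy b

/-- helper96's frame -/
theorem frameS_of {L : LB A} {T : ℝ} (H : FrAt A h L T) : ∃ (lam : A.ι → Y → ℂ) (ρ0 : ℝ),
    FrameS A K h L lam T ρ0 := by
  obtain ⟨θ, c, C₀, ρ, hθ, hρ, hd, hc⟩ := H
  refine ⟨fr Pt θ, ρ, hρ, ?_, fun i x hx _ => Wy5197.fr_ne hx, ?_, ?_, ?_⟩
  · exact Wy5197.isZ0_fr hθ fun i j k x hxN hi hj hk => hc i j k x hi hj hk hxN
  · have h1 : WB A K (fun _ => 1) (fr Pt θ) := Wy5197.wb_fr U hθ hρ.le hd
    exact wb_low U C h1 T fun x => by rw [wgt_zero]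
  · have h1 : WB A K (fun _ => 1) (fri Pt θ) := Wy5197.wb_fri U hθ hρ.le hd
    have h2 : (fun i x => (fr Pt θ i x)⁻¹) = fri Pt θ := by
      funext i x; rw [Wy5197.fri_eq_inv]
    rw [h2]
    exact wb_low U C h1 T fun x => by rw [wgt_zero]
  · exact abd_fr U C hθ hρ hd T le_rfl le_rfl

/-- **`FrameW` from Lemma W** (helper861) -/
theorem frameW_of [T2Space Y] (hslab : ∀ a b : ℝ, IsCompact {x | a ≤ h x ∧ h x ≤ b})
    {P : Subgroup (LB A)} {q : LB A → ℤ} {d₀ : ℝ} (S : Sol A K h P q d₀)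
    {Lβ L : LB A} (hβ : Lβ ∈ P) (hbd : BdG L) {T : ℝ} (H : FrAt A h L T) {s : A.ι → Y → ℂ}
    (hs : s ∈ VL h Lβ) (hsd : DenseNZ A univ s) {C₁ ρ : ℝ} (hρ : 0 < ρ)
    (hdec : ∀ i, ∀ x ∈ (A.e i).source, h x ≤ 0 → ‖s i x‖ ≤ C₁ * Real.exp (ρ * h x)) :
    FrameW A h Lβ L s := by
  obtain ⟨θ, c, C₀, ρ₀, hθ, hρ₀, hd, hc⟩ := H
  have hd0 := S.pos
  set r : ℝ := min (min (ρ / 2) (ρ₀ / 2)) (d₀ / 8) with hr
  have hr0 : 0 < r := lt_min (lt_min (by linarith) (by linarith)) (by linarith)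
  have hr1 : 2 * r ≤ ρ := by
    have : r ≤ ρ / 2 := (min_le_left _ _).trans (min_le_left _ _)
    linarith
  have hr2 : 2 * r ≤ ρ₀ := by
    have : r ≤ ρ₀ / 2 := (min_le_left _ _).trans (min_le_right _ _)
    linarith
  have hr3 : 8 * r ≤ d₀ := by
    have : r ≤ d₀ / 8 := min_le_right _ _
    linarith
  -- the frame of helper197
  have hτz : IsZ0 A L.g {x | h x < T} (fr Pt θ) :=
    Wy5197.isZ0_fr hθ fun i j k x hxN hi hj hk => hc i j k x hi hj hk hxN
  have hsb : BD A K h (-ρ) r s := bd_sec U hs.1 (bd_decay hs hρ.le hdec hr0)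
  obtain ⟨τ, f, b, T', hT', W⟩ := LemWB861.lemWB Pt C hslab hs.1 hsd (d := r) (d' := r)
    (d1 := 2 * r) (d2 := 3 * r) (d3 := r) (d3' := 4 * r) (r1 := -(2 * r)) (r2 := 0) (b0 := 0)
    hsb (S.ex₂ _ (P.inv_mem hβ) (by linarith) (by linarith))
    (S.dg (by linarith) (by linarith) (by linarith) (by linarith) (by linarith) (by linarith))
    (by linarith) (by linarith) hτz (fun i x hx _ => Wy5197.fr_ne hx)
    (abd_fr U C hθ hρ₀ hd T hr2 le_rfl)
  obtain ⟨D, hD, hfr, -⟩ := Wy5197.fr_sub_le U hρ₀.le hd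
  obtain ⟨C2, hC2, hnear⟩ := W.near_one C.sub hr0.le (C0 := D) fun i x hx hxT => by
    refine (hfr i x (C.sub i hx)).trans (mul_le_mul_of_nonneg_left ?_ hD)
    rw [wgt_gg]
    apply Real.exp_le_exp.2
    have := abs_nonneg (h x)
    nlinarith
  -- `f` decays on the whole charts, hence `τ → 1`
  have hfdec : ∀ i, ∀ x ∈ (A.e i).source, h x < T' → ‖f i x‖ ≤ C2 * Real.exp (-r * |h x|) := by
    intro i x hx hxT
    obtain ⟨j, hj⟩ := C.cov x
    have h1 := W.zf.tr i j x ⟨hx, C.sub j hj⟩ trivial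
    rw [h1]
    simpa using (hnear j x hj hxT).2
  refine ⟨T', τ, sm1 τ b, W.zτ, W.nτ, ?_, ?_, ?_⟩
  · exact W.zτ.sm1' (W.zb.mono (subset_univ _))
  · intro i x hx c'
    exact W.dτ i x hx c'
  · -- the limit
    intro ε hε
    have hE : Tendsto (fun t : ℝ => Real.exp (r * t)) atBot (𝓝 0) :=
      Real.tendsto_exp_atBot.comp (tendsto_id.const_mul_atBot hr0)
    have h3 : Tendsto (fun t : ℝ => D * Real.exp C2 * Real.exp (r * t) +
        C2 * Real.exp C2 * Real.exp (r * t)) atBot (𝓝 0) := by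
      simpa using (hE.const_mul (D * Real.exp C2)).add (hE.const_mul (C2 * Real.exp C2))
    obtain ⟨T1, hT1⟩ := eventually_atBot.1 (h3.eventually (gt_mem_nhds hε))
    refine ⟨min (min T1 T') 0, fun i x hx hxT => ?_⟩
    have hx1 : h x ≤ T1 := (hxT.trans_le ((min_le_left _ _).trans (min_le_left _ _))).le
    have hx2 : h x < T' := hxT.trans_le ((min_le_left _ _).trans (min_le_right _ _))
    have hx3 : h x < 0 := hxT.trans_le (min_le_right _ _)
    set Ex : ℝ := Real.exp (r * h x) with hEx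
    have hEx0 : 0 < Ex := Real.exp_pos _
    have hEx1 : Ex ≤ 1 := by
      rw [hEx, Real.exp_le_one_iff]; nlinarith
    have hexp : Real.exp (-r * |h x|) = Ex := by
      rw [abs_of_neg hx3, hEx]; congr 1; ring
    have e1 : ‖f i x‖ ≤ C2 * Ex := by rw [← hexp]; exact hfdec i x hx hx2
    have e2 : ‖f i x‖ ≤ C2 := e1.trans (mul_le_of_le_one_right hC2 hEx1)
    have e3 : ‖Complex.exp (-(f i x)) - 1‖ ≤ C2 * Real.exp C2 * Ex := by
      refine (LemWB861.norm_exp_neg_sub_one_le _).trans ?_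
      calc ‖f i x‖ * Real.exp ‖f i x‖ ≤ (C2 * Ex) * Real.exp C2 :=
            mul_le_mul e1 (Real.exp_le_exp.2 e2) (Real.exp_pos _).le (by positivity)
        _ = _ := by ring
    have e4 : ‖Complex.exp (-(f i x))‖ ≤ Real.exp C2 := by
      rw [Complex.norm_exp]
      apply Real.exp_le_exp.2
      refine le_trans ?_ e2
      have := (Complex.abs_re_le_norm (-(f i x)))
      rw [norm_neg] at this
      exact (le_abs_self _).trans this
    have e5 : ‖fr Pt θ i x - 1‖ ≤ D * Ex := by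
      refine (hfr i x hx).trans (mul_le_mul_of_nonneg_left ?_ hD)
      rw [wgt_gg, ← hexp]
      apply Real.exp_le_exp.2
      have := abs_nonneg (h x)
      nlinarith
    have e6 : τ i x - 1 = (fr Pt θ i x - 1) * Complex.exp (-(f i x)) +
        (Complex.exp (-(f i x)) - 1) := by
      rw [W.eτ]
      simp only [sm, ex_of_mem hx, Pi.neg_apply]
      ring
    rw [e6]
    refine (norm_add_le _ _).trans_lt ?_
    rw [norm_mul]
    have e7 : ‖fr Pt θ i x - 1‖ * ‖Complex.exp (-(f i x))‖ ≤ D * Ex * Real.exp C2 :=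
      mul_le_mul e5 e4 (norm_nonneg _) (by positivity)
    have e8 := hT1 (h x) hx1
    rw [← hEx] at e8
    nlinarith

end frames

end Crest.Agent.R275.St3686
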