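import Crest.Agent.R275.Start2_595
import Crest.Agent.R275.NormK_195
import Crest.Agent.R275.MulZ_658
import Crest.Agent.R275.SupE_912
import Crest.Agent.R275.CnD_812

/-!
# R275, block SEC5-ITER (helper595): START, part 3: the start is in the class of the norm package

* `inW_of_bd1` : (S2) for `(0,1)`-forms: `BD1` with strictly better rates implies `InW`;
* `wb_psi`     : the bound of the `ψ_i` from helper812's `PB P`;
* `z0_fs`      : a section over `G` times a cut-off with support in `G` is a global section;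
* `bd_fs`      : `Ψ τ` is in `BD A K h 0 b` for every `b`;
* `Out.c1`     : `N.c1 (fm Ψ b0)` for `N = npAdd (npW ..)`.
-/

set_option autoImplicit false
set_option linter.unusedSectionVars false

open Set Filter Topology Complex
open scoped ContDiff ComplexConjugate

namespace Crest.Agent.R275.StartP595

open Geo Core144 Fm96 Dol967 It160 AtlAdd539 Lam2130 Q74 WY681 BndZ323 Norm195 MulZ658

noncomputable section

variable {M : Type} [TopologicalSpace M] [T2Space M] {A : Atl 2 M} {P : Part A}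
  {K : A.ι → Set M} {h : M → ℝ} {g : A.ι → A.ι → M → ℂ}

/-- **(S2)** for `(0,1)`-forms -/
theorem inW_of_bd1 (D : Sup912.HD P h) (hn : ∃ D, ∀ i, (RetC666.nb P i).card ≤ D)
    (hg : IsLC A g)
    (hψ : Fm96.WB A (fun i => tsupport (P.ψ i)) (fun _ => 1) (fun i x => (P.ψ i x : ℂ)))
    (hK : ∀ i, tsupport (P.ψ i) ⊆ K i) {a b a' b' : ℝ} (ha : a < a') (hb : b < b')
    {u : A.ι → M → Fin 2 → ℂ} (hu : IsZ1 A g univ u) (hbd : BD1 A K h a b u) :
    InW ((Hts.of_HD D hn).wt a' b') hg (mk3 0 u 0) := by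
  have hm : mk3 0 u 0 ∈ SecL (LV hg) := mk3_mem1 hg hu
  refine ⟨hm, ?_⟩
  refine (Sup912.inW_iff_TS (P := P) (B := BL hg) (u := mk3 0 u 0)
    (fun j => Sup912.wj_pos D a' b' j) (WY681.sh (BL hg))).1 ?_
  refine Sup912.inW_of_WB_wgt D hm ha hb hψ ?_
  have h0 : BD A (fun i => tsupport (P.ψ i)) h a b (0 : A.ι → M → ℂ) :=
    Fm96.WB.zero fun x => wgt_pos' _ _ _
  have h1 : ∀ e, BD A (fun i => tsupport (P.ψ i)) h a b (fun i x => u i x e) := fun e =>
    Fm96.WB.sub_core (hbd e) hK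
  rintro ⟨k, r⟩
  fin_cases k
  · exact h0
  · exact h1 0
  · exact h1 1
  · exact h0

/-- the bound of the `ψ_i` -/
theorem wb_psi (hP : CnD812.JC P (fun _ => 1) P.ψ) :
    Fm96.WB A (fun i => tsupport (P.ψ i)) (fun _ => 1) (fun i x => (P.ψ i x : ℂ)) := by
  have h1 := (JB658.JB.clm Complex.ofRealCLM hP).reindex
    (fun t : Co (fun i => tsupport (P.ψ i)) => (⟨(t.1.1, t.1.2), P.ψ_sub _ t.2⟩ : CnD812.T1 P))
  exact h1

/-- extension by zero -/
theorem z0_fs {G : Set M} {φ : M → ℂ} {t : A.ι → M → ℂ} (hφ : SmOn A univ φ)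
    (hG : tsupport φ ⊆ G) (ht : IsZ0 A g G t) : IsZ0 A g univ (fs φ t) where
  sm j q hq _ := by
    by_cases h1 : q ∈ tsupport φ
    · exact (hφ j q hq trivial).mul (ht.sm j q hq (hG h1))
    · refine smP_of_ev hq (c := 0) ?_
      filter_upwards [notMem_tsupport_iff_eventuallyEq.1 h1] with y hy
      have : φ y = 0 := hy
      simp [fs, this]
  off j q hq := by simp [fs, ht.off j q hq]
  tr j k q hq _ := by
    by_cases h1 : q ∈ tsupport φ
    · simp only [fs, ht.tr j k q hq (hG h1)]; ring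
    · have : φ q = 0 := (notMem_tsupport_iff_eventuallyEq.1 h1).self_of_nhds
      simp [fs, this]

/-- a cut-off (`1` at the small end, `0` at the large end) times a section which is holomorphic
and bounded at the small end -/
theorem bd_fs (C : Cor A h K) (R : Rm A h K) {φ : M → ℂ} {t : A.ι → M → ℂ}
    (hz : IsZ0 A g univ (fs φ t)) {T H D : ℝ} (hlow : ∀ q, h q < T → φ q = 1)
    (htop : ∀ q, H < h q → φ q = 0)
    (hol : ∀ i, ∀ q ∈ (A.e i).source, h q < T → HolP A i (t i) q)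
    (hb : ∀ i, ∀ q ∈ (A.e i).source, h q < T → ‖t i q‖ ≤ D) (b : ℝ) :
    BD A K h 0 b (fs φ t) := by
  obtain ⟨T', hT', h1⟩ := R.low_hol C.sub hol hb b
  refine bd_of_ends (T := T') (b := b) C (fun i x hx => hz.sm i x (C.sub i hx) trivial)
    ?_ (S := H) (fun i x hx => ?_) b
  · refine WB.congr h1 (Kl.sub C.sub T') fun i x hx => ?_
    filter_upwards [(isOpen_lt C.cont continuous_const).mem_nhds (lt_of_lt_of_le hx.2 hT')]
      with y hy
    simp [fs, hlow y hy]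
  · simp [fs, htop x hx]

namespace StA

variable {Φ : OpenPartialHomeomorph M (Cn 2)} {hc : Cmp A Φ} {i0 : A.ι}
  {S : Cfg (add A Φ hc)} {LC LZ : LB A} {sC sZ τ : A.ι → M → ℂ} {R' : ℝ}
  {H : StA A Φ hc i0 S LC LZ sC sZ τ R'} {Z : Set M} {a0 b0 a1 b1 : ℝ} {F : M → ℂ}
  {β : (add A Φ hc).ι → M → Fin 2 → ℂ} {κ : ℂ}

/-- the form of the start on the enlarged atlas -/
theorem Out.z1 (O : H.Out K h Z a0 b0 a1 b1 F β κ) :
    IsZ1 (add A Φ hc) 1 univ (fm S.Ψ (sm1 (aS hc (LC * LZ) H.P_i0 τ) β)) := by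
  have h1 := z0_fs S.Ψ_sm S.Ψ_N (isZ0_aS hc H.P_i0 S.N_open H.hτ)
  have h2 := one_of_mul (KerV631.isLC _) (h1.sm1' O.β_z1)
  have e : sm1 (fs S.Ψ (aS hc (LC * LZ) H.P_i0 τ)) β =
      fm S.Ψ (sm1 (aS hc (LC * LZ) H.P_i0 τ) β) := by
    funext i q e
    simp only [sm1, fs, fm]
    ring
  rwa [e] at h2

/-- the form of the start on `A`, with rates -/
theorem Out.bd (O : H.Out K h Z a0 b0 a1 b1 F β κ) (C : Cor A h K) (R : Rm A h K)
    {T T1 D : ℝ} (hlow : ∀ q, h q < T → S.Ψ q = 1) (htop : ∀ q, T1 < h q → S.Ψ q = 0)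
    (hol : ∀ i, ∀ q ∈ (A.e i).source, h q < T → HolP A i (τ i) q)
    (hb : ∀ i, ∀ q ∈ (A.e i).source, h q < T → ‖τ i q‖ ≤ D) (b : ℝ) :
    BD1 A K h a0 b fun i => fm S.Ψ (sm1 (aS hc (LC * LZ) H.P_i0 τ) β) (some i) := by
  have h0 : SmOn A univ S.Ψ := smOn_res hc S.Ψ_sm
  have h1 := bd_fs C R (z0_fs h0 S.Ψ_N H.hτ) hlow htop hol hb (b - b0)
  have h2 := h1.mul1 O.β_bd
  have e : (sm1 (fs S.Ψ τ) fun i => β (some i)) =
      fun i => fm S.Ψ (sm1 (aS hc (LC * LZ) H.P_i0 τ) β) (some i) := by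
    funext i q e
    simp only [sm1, fs, fm, aS_some]
    ring
  rw [e, zero_add, sub_add_cancel] at h2
  exact h2

/-- **the form of the start is in the class of the norm package** -/
theorem Out.c1 (O : H.Out K h Z a0 b0 a1 b1 F β κ) (C : Cor A h K) (R : Rm A h K)
    {T T1 D : ℝ} (hlow : ∀ q, h q < T → S.Ψ q = 1) (htop : ∀ q, T1 < h q → S.Ψ q = 0)
    (hol : ∀ i, ∀ q ∈ (A.e i).source, h q < T → HolP A i (τ i) q)
    (hb : ∀ i, ∀ q ∈ (A.e i).source, h q < T → ‖τ i q‖ ≤ D)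
    (HD : Sup912.HD P h) (hn : ∃ D, ∀ i, (RetC666.nb P i).card ≤ D)
    (hψ : Fm96.WB A (fun i => tsupport (P.ψ i)) (fun _ => 1) (fun i x => (P.ψ i x : ℂ)))
    (hK : ∀ i, tsupport (P.ψ i) ⊆ K i) (F' : Part A)
    (hB : BGeo P (BL (IsLC.one (A := A)))) {a b : ℝ} (ha : a0 < a) {s : ℕ} (hs : 3 ≤ s) :
    (npAdd hc F' (npW hB ((Hts.of_HD HD hn).wt a b) hs)).c1
      (fm S.Ψ (sm1 (aS hc (LC * LZ) H.P_i0 τ) β)) :=
  ⟨O.z1, inW_of_bd1 HD hn IsLC.one hψ hK ha (sub_one_lt b) (res1 hc O.z1)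
    (O.bd C R hlow htop hol hb (b - 1))⟩

end StA

end

end Crest.Agent.R275.StartP595
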