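import Crest.Agent.R275.ItC_160
import Crest.Agent.R275.BdcB_96
import Crest.Agent.R275.KerV_631

/-!
# R275, block SEC5-ITER (helper595): the START data

From the solution statements `H²(L⁻¹) = 0`, `H¹_dg(O) = 0` and a section `s` of `L` with
`s = x τ` over `N` and `s ≠ 0` on the chart off `{u v = 0}` we produce `It160.Start S ut F b0 R'`:
`ut` is the cut-off coordinate `u`, `F` decays at the small end and is constant on the curve `C`.
-/

set_option autoImplicit false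
set_option linter.unusedSectionVars false

open Set Filter Topology Complex
open scoped ContDiff ComplexConjugate

namespace Crest.Agent.R275.StartP595

open Geo Core144 Fm96 Dol967 It160

noncomputable section

/-! ### cut-off functions on polydiscs -/

/-- smooth function of `|z a - p a|`, `1` for `|z a - p a| ≤ r`, `0` for `|z a - p a| ≥ R` -/
def ctz (p : Cn 2) (r R : ℝ) (a : Fin 2) (z : Cn 2) : ℂ :=
  (ct (r ^ 2) (R ^ 2) (‖z a - p a‖ ^ 2) : ℂ)

theorem ctz_contDiff (p : Cn 2) (r R : ℝ) (a : Fin 2) : ContDiff ℝ ∞ (ctz p r R a) := by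
  unfold ctz
  have h1 : ContDiff ℝ ∞ fun z : Cn 2 => ‖z a - p a‖ ^ 2 := by
    have h2 : ContDiff ℝ ∞ fun z : Cn 2 => z a - p a := by fun_prop
    exact h2.norm_sq ℝ
  exact ofRealCLM.contDiff.comp ((ct_smooth _ _).comp h1)

theorem ctz_one {p : Cn 2} {r R : ℝ} (h0 : 0 ≤ r) (h : r < R) {a : Fin 2} {z : Cn 2}
    (hz : ‖z a - p a‖ ≤ r) : ctz p r R a z = 1 := by
  unfold ctz
  rw [ct_one (by nlinarith) (by nlinarith [norm_nonneg (z a - p a)])]
  simp

theorem ctz_zero {p : Cn 2} {r R : ℝ} (h0 : 0 ≤ r) (h : r < R) {a : Fin 2} {z : Cn 2}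
    (hz : R ≤ ‖z a - p a‖) : ctz p r R a z = 0 := by
  unfold ctz
  rw [ct_zero (by nlinarith) (by nlinarith)]
  simp

/-- cut-off function of a polydisc -/
def ctp (p : Cn 2) (r R : ℝ) (z : Cn 2) : ℂ := ctz p r R 0 z * ctz p r R 1 z

theorem ctp_contDiff (p : Cn 2) (r R : ℝ) : ContDiff ℝ ∞ (ctp p r R) :=
  (ctz_contDiff p r R 0).mul (ctz_contDiff p r R 1)

theorem ctp_one {p : Cn 2} {r R : ℝ} (h0 : 0 ≤ r) (h : r < R) {z : Cn 2}
    (hz : ∀ a, ‖z a - p a‖ ≤ r) : ctp p r R z = 1 := by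
  unfold ctp
  rw [ctz_one h0 h (hz 0), ctz_one h0 h (hz 1), one_mul]

theorem ctp_zero {p : Cn 2} {r R : ℝ} (h0 : 0 ≤ r) (h : r < R) {z : Cn 2}
    {a : Fin 2} (hz : R ≤ ‖z a - p a‖) : ctp p r R z = 0 := by
  unfold ctp
  fin_cases a
  · rw [ctz_zero (a := 0) h0 h hz, zero_mul]
  · rw [ctz_zero (a := 1) h0 h hz, mul_zero]

theorem ctp_tsupport {p : Cn 2} {r R : ℝ} (h0 : 0 ≤ r) (h : r < R) :
    tsupport (ctp p r R) ⊆ {z | ∀ a, ‖z a - p a‖ ≤ R} := by
  have hcl : IsClosed {z : Cn 2 | ∀ a, ‖z a - p a‖ ≤ R} := by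
    rw [ofPred_forall]
    exact isClosed_iInter fun a => isClosed_le (cont_nrm p a) continuous_const
  refine closure_minimal (fun z hz a => ?_) hcl
  by_contra hcon
  exact hz (ctp_zero h0 h (a := a) (not_le.1 hcon).le)

theorem isBounded_closedPD (p : Cn 2) (R : ℝ) :
    Bornology.IsBounded {z : Cn 2 | ∀ a, ‖z a - p a‖ ≤ R} := by
  rw [Metric.isBounded_iff_subset_closedBall p]
  refine ⟨Real.sqrt (R ^ 2 + R ^ 2), fun z hz => ?_⟩
  rw [Metric.mem_closedBall, dist_eq_norm, EuclideanSpace.norm_eq, Fin.sum_univ_two]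
  apply Real.sqrt_le_sqrt
  have h0 := hz 0
  have h1 := hz 1
  have e0 : ‖(z - p) 0‖ = ‖z 0 - p 0‖ := rfl
  have e1 : ‖(z - p) 1‖ = ‖z 1 - p 1‖ := rfl
  rw [e0, e1]
  have n0 := norm_nonneg (z 0 - p 0)
  have n1 := norm_nonneg (z 1 - p 1)
  nlinarith

theorem ctp_compact {p : Cn 2} {r R : ℝ} (h0 : 0 ≤ r) (h : r < R) :
    HasCompactSupport (ctp p r R) :=
  (Metric.isCompact_of_isClosed_isBounded (isClosed_tsupport _)
    ((isBounded_closedPD p R).subset (ctp_tsupport h0 h)))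

theorem ctp_supp_PD {p : Cn 2} {r R R3 : ℝ} (h0 : 0 ≤ r) (h : r < R) (h3 : R < R3) :
    tsupport (ctp p r R) ⊆ PD p R3 := fun z hz a => ((ctp_tsupport h0 h hz) a).trans_lt h3

variable {M : Type} [TopologicalSpace M] [T2Space M] {A : Atl 2 M}

/-! ### the data -/

/-- geometric input for the start -/
structure StIn (S : Cfg A) (L : LB A) (s τ : A.ι → M → ℂ) (R' : ℝ) : Prop where
  R'_R : R' < S.R
  R'_a : 16 * S.a3 ≤ R'
  R'_ρ : 16 * S.ρ ≤ R'
  Q_N : S.Q R' ⊆ S.N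
  hs : IsHS L univ s
  τ_z : IsZ0 A L.g S.N τ
  s_eq : ∀ i, ∀ q ∈ (A.e i).source, q ∈ S.N → s i q = S.x q * τ i q
  s_ne : ∀ q ∈ (A.e S.i).source, S.U q ≠ 0 → S.V q ≠ 0 → ∀ i, q ∈ (A.e i).source → s i q ≠ 0

namespace StIn

variable {S : Cfg A} {L : LB A} {s τ : A.ι → M → ℂ} {R' : ℝ}

theorem R'_pos (H : StIn S L s τ R') : 0 < R' := by
  have := S.ρ_pos
  linarith [H.R'_ρ]

theorem a0_lt (H : StIn S L s τ R') : S.a0 < R' := by
  have h1 := S.a01
  have h2 := S.a12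
  have h3 := S.a23
  have h4 := S.a0_pos
  linarith [H.R'_a]

end StIn

/-- radii `R1 < R2 < R3` between `R'` and `R` -/
def r1 (S : Cfg A) (R' : ℝ) : ℝ := R' + (S.R - R') / 4
def r2 (S : Cfg A) (R' : ℝ) : ℝ := R' + (S.R - R') / 2
def r3 (S : Cfg A) (R' : ℝ) : ℝ := R' + 3 * (S.R - R') / 4

/-- the cut-off coordinate `u` -/
def utφ (S : Cfg A) (R' : ℝ) (z : Cn 2) : ℂ := ctp S.p (r1 S R') (r2 S R') z * (z 0 - S.p 0)

def ut (S : Cfg A) (R' : ℝ) : M → ℂ := pl A S.i (utφ S R')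

/-- the cut-off function `ψ(u)`, with compact support -/
def ψφ (S : Cfg A) (R' : ℝ) (z : Cn 2) : ℂ :=
  ctz S.p S.a0 (r1 S R') 0 z * ctp S.p (r2 S R') (r3 S R') z

def ψm (S : Cfg A) (R' : ℝ) : M → ℂ := pl A S.i (ψφ S R')

/-- the form `ψ ∂̄ ut` -/
def φf (S : Cfg A) (R' : ℝ) : A.ι → M → Fin 2 → ℂ := fm (ψm S R') (d0 A (fn A (ut S R')))

section lemmas

variable {S : Cfg A} {L : LB A} {s τ : A.ι → M → ℂ} {R' : ℝ} (H : StIn S L s τ R')

include H

theorem r1_gt : R' < r1 S R' := by have := H.R'_R; unfold r1; linarith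
theorem r12 : r1 S R' < r2 S R' := by have := H.R'_R; unfold r1 r2; linarith
theorem r23 : r2 S R' < r3 S R' := by have := H.R'_R; unfold r2 r3; linarith
theorem r3_lt : r3 S R' < S.R := by have := H.R'_R; unfold r3; linarith
theorem r1_pos : 0 < r1 S R' := H.R'_pos.trans (r1_gt H)
theorem r2_pos : 0 < r2 S R' := (r1_pos H).trans (r12 H)

theorem utφ_sm : ContDiff ℝ ∞ (utφ S R') := by
  unfold utφ
  exact (ctp_contDiff _ _ _).mul (by fun_prop)

theorem utφ_cs : HasCompactSupport (utφ S R') :=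
  (ctp_compact (r1_pos H).le (r12 H)).mul_right

theorem utφ_tg : tsupport (utφ S R') ⊆ (A.e S.i).target := by
  rw [S.tgt]
  exact tsupport_mul_subset_left.trans (ctp_supp_PD (r1_pos H).le (r12 H) ((r23 H).trans (r3_lt H)))

theorem ut_sm : SmOn A univ (ut S R') := smOn_pl (utφ_sm H) (utφ_cs H) (utφ_tg H)

theorem ψφ_sm : ContDiff ℝ ∞ (ψφ S R') := (ctz_contDiff _ _ _ _).mul (ctp_contDiff _ _ _)

theorem ψφ_cs : HasCompactSupport (ψφ S R') :=
  (ctp_compact (r2_pos H).le (r23 H)).mul_left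

theorem ψφ_tg : tsupport (ψφ S R') ⊆ (A.e S.i).target := by
  rw [S.tgt]
  exact tsupport_mul_subset_right.trans (ctp_supp_PD (r2_pos H).le (r23 H) (r3_lt H))

theorem ψm_sm : SmOn A univ (ψm S R') := smOn_pl (ψφ_sm H) (ψφ_cs H) (ψφ_tg H)

theorem dut_z1 : IsZ1 A 1 univ (d0 A (fn A (ut S R'))) :=
  d0_mem IsLC.one isOpen_univ (isZ0_fn (ut_sm H))

theorem φf_z1 : IsZ1 A 1 univ (φf S R') := isZ1_fm (dut_z1 H) (ψm_sm H)

/-- near the points of the small polydisc `ut` is the coordinate -/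
theorem ut_eq {q : M} (hq : q ∈ (A.e S.i).source) (h : ∀ a, ‖A.e S.i q a - S.p a‖ ≤ r1 S R') :
    ut S R' q = S.U q := by
  rw [ut, pl_of_mem hq, utφ, ctp_one (r1_pos H).le (r12 H) h, one_mul, Cfg.U]

theorem isOpen_PDr (r : ℝ) : IsOpen (S.Q r) := S.isOpen_Q r

/-- the coordinate `u` is holomorphic -/
theorem holP_U {q : M} (hq : q ∈ (A.e S.i).source) : HolP A S.i S.U q := by
  have h0 : ∀ᶠ z in 𝓝 (A.e S.i q), z ∈ (A.e S.i).target :=
    (A.e S.i).open_target.mem_nhds ((A.e S.i).map_source hq)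
  filter_upwards [h0.eventually_nhds] with z hz
  have h1 : DifferentiableAt ℂ (fun z : Cn 2 => z 0 - S.p 0) z := by fun_prop
  refine h1.congr_of_eventuallyEq ?_
  filter_upwards [hz] with y hy
  simp only [Cfg.U, (A.e S.i).right_inv hy]

/-- `∂̄ ut = 0` on the small polydisc -/
theorem dut_zero {q : M} (hq : q ∈ S.Q (r1 S R')) (j : A.ι) : d0 A (fn A (ut S R')) j q = 0 := by
  by_cases hj : q ∈ (A.e j).source
  · funext e
    have h1 : fn A (ut S R') j =ᶠ[𝓝 q] S.U := by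
      filter_upwards [src_nhds hj, (S.isOpen_Q (r1 S R')).mem_nhds hq] with y hy hyQ
      rw [fn_of_mem hy, ut_eq H hyQ.1 fun a => (hyQ.2 a).le]
    rw [d0_of_mem hj, db_congr hj h1, ((holP_U H hq.1).change ⟨hj, hq.1⟩).db_eq e]
    rfl
  · exact d0_of_not_mem hj

/-- `∂̄ ut = 0` near the points outside the chart -/
theorem dut_off {q : M} (hq : q ∉ (A.e S.i).source) :
    ∀ᶠ y in 𝓝 q, ∀ j, d0 A (fn A (ut S R')) j y = 0 :=
  ev_d0_zero (pl_eventually_zero (utφ_cs H) (utφ_tg H) hq)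

/-- `∂̄ ut = 0` outside the big polydisc -/
theorem dut_far {q : M} (hq : q ∈ (A.e S.i).source) {a : Fin 2}
    (ha : r2 S R' < ‖A.e S.i q a - S.p a‖) (j : A.ι) : d0 A (fn A (ut S R')) j q = 0 := by
  refine d0_fn_eq_zero (c := 0) ?_
  have h1 : ∀ᶠ z in 𝓝 (A.e S.i q), r2 S R' < ‖z a - S.p a‖ :=
    (isOpen_lt continuous_const (cont_nrm S.p a)).mem_nhds ha
  filter_upwards [S.ev_chart hq h1, src_nhds hq] with y hy hys
  rw [ut, pl_of_mem hys, utφ, ctp_zero (r1_pos H).le (r12 H) hy.le, zero_mul]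

/-- `∂̄ ut = 0` wherever the chart cut-off is not one -/
theorem cut_dut {q : M} (hq : q ∈ (A.e S.i).source) (j : A.ι) (e : Fin 2) :
    ctp S.p (r2 S R') (r3 S R') (A.e S.i q) * d0 A (fn A (ut S R')) j q e =
      d0 A (fn A (ut S R')) j q e := by
  by_cases h : ∀ a, ‖A.e S.i q a - S.p a‖ ≤ r2 S R'
  · rw [ctp_one (r2_pos H).le (r23 H) h, one_mul]
  · push Not at h
    obtain ⟨a, ha⟩ := h
    rw [dut_far H hq ha]; simp

/-- where `|u| ≤ a0` the form `φ` is `∂̄ ut` -/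
theorem φf_eq {q : M} (hq : q ∈ (A.e S.i).source → ‖A.e S.i q 0 - S.p 0‖ ≤ S.a0) (j : A.ι)
    (e : Fin 2) : φf S R' j q e = d0 A (fn A (ut S R')) j q e := by
  by_cases hs : q ∈ (A.e S.i).source
  · rw [φf, fm, ψm, pl_of_mem hs, ψφ, ctz_one S.a0_pos.le (H.a0_lt.trans (r1_gt H)) (hq hs),
      one_mul, cut_dut H hs]
  · rw [φf, fm, (dut_off H hs).self_of_nhds j]; simp

/-- `φ = 0` where `|u| ≥ R1` or `|u|, |v| < R1` -/
theorem φf_zero {q : M} (h : q ∉ (A.e S.i).source ∨ r1 S R' ≤ ‖A.e S.i q 0 - S.p 0‖ ∨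
    ‖A.e S.i q 1 - S.p 1‖ < r1 S R') (j : A.ι) : φf S R' j q = 0 := by
  by_cases hs : q ∈ (A.e S.i).source
  · funext e
    rcases h with h | h | h
    · exact absurd hs h
    · rw [φf, fm, ψm, pl_of_mem hs, ψφ, ctz_zero S.a0_pos.le (H.a0_lt.trans (r1_gt H)) h]; simp
    · by_cases h0 : r1 S R' ≤ ‖A.e S.i q 0 - S.p 0‖
      · rw [φf, fm, ψm, pl_of_mem hs, ψφ, ctz_zero S.a0_pos.le (H.a0_lt.trans (r1_gt H)) h0]; simp
      · have hQ : q ∈ S.Q (r1 S R') := by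
          refine ⟨hs, fun a => ?_⟩
          fin_cases a
          · exact not_le.1 h0
          · exact h
        rw [φf, fm, dut_zero H hQ]; simp
  · funext e
    rw [φf, fm, (dut_off H hs).self_of_nhds j]; simp

/-- `φ = ∂̄ ut` on `K0 ∪ Q R'` -/
theorem φf_eq_K0 {q : M} (hq : q ∈ S.K0 ∪ S.Q R') (j : A.ι) (e : Fin 2) :
    φf S R' j q e = d0 A (fn A (ut S R')) j q e := by
  have hQQ : ∀ y ∈ S.Q R', y ∈ S.Q (r1 S R') := fun y hy =>
    ⟨hy.1, fun a => (hy.2 a).trans (r1_gt H)⟩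
  have hQ : ∀ y ∈ S.Q R', φf S R' j y e = d0 A (fn A (ut S R')) j y e := by
    intro y hy
    rw [φf_zero H (Or.inr (Or.inr ((hQQ y hy).2 1))), dut_zero H (hQQ y hy)]
  rcases hq with (hq | hq) | hq
  · exact φf_eq H (fun hs => (S.VZ_W q hq hs).le) j e
  · refine hQ q ⟨hq.1, fun a => ?_⟩
    have h1 := H.R'_pos
    have h2 := H.R'_a
    have h3 := H.R'_ρ
    have h4 := S.ρ_pos
    have h5 : 0 < S.a3 := S.a0_pos.trans (S.a01.trans (S.a12.trans S.a23))
    fin_cases a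
    · exact hq.2.1.trans (by linarith)
    · exact hq.2.2.trans (by linarith)
  · exact hQ q hq

/-- `φ = ∂̄ ut` or `φ = 0` near the zeros of `s` -/
theorem near_zero {i : A.ι} {x : M} (hx : x ∈ (A.e i).source) (h0 : s i x = 0) :
    (∀ᶠ y in 𝓝 x, ∀ j e, φf S R' j y e = d0 A (fn A (ut S R')) j y e) ∨
      (∀ᶠ y in 𝓝 x, ∀ j, φf S R' j y = 0) := by
  by_cases hs : x ∈ (A.e S.i).source
  · by_cases hU : S.U x = 0
    · left
      have h1 : ∀ᶠ z in 𝓝 (A.e S.i x), ‖z 0 - S.p 0‖ < S.a0 := by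
        refine (isOpen_lt (cont_nrm S.p 0) continuous_const).mem_nhds ?_
        have : A.e S.i x 0 - S.p 0 = 0 := hU
        simp only [mem_ofPred_eq, this, norm_zero]
        exact S.a0_pos
      filter_upwards [S.ev_chart hs h1] with y hy j e using φf_eq H (fun _ => hy.le) j e
    · have hV : S.V x = 0 := by
        by_contra hV
        exact H.s_ne x hs hU hV i hx h0
      right
      have h1 : ∀ᶠ z in 𝓝 (A.e S.i x), ‖z 1 - S.p 1‖ < r1 S R' := by
        refine (isOpen_lt (cont_nrm S.p 1) continuous_const).mem_nhds ?_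
        have : A.e S.i x 1 - S.p 1 = 0 := hV
        simp only [mem_ofPred_eq, this, norm_zero]
        exact r1_pos H
      filter_upwards [S.ev_chart hs h1] with y hy j using φf_zero H (Or.inr (Or.inr hy)) j
  · right
    filter_upwards [dut_off H hs] with y hy j
    funext e
    rw [φf, fm, hy j]; simp

theorem d1φ_zero {i : A.ι} {x : M} (hx : x ∈ (A.e i).source) (h0 : s i x = 0) :
    ∀ᶠ y in 𝓝 x, ∀ j, d1 A (φf S R') j y = 0 := by
  rcases near_zero H hx h0 with h | h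
  · filter_upwards [h.eventually_nhds] with y hy j
    have h1 : d1 A (φf S R') j y = d1 A (d0 A (fn A (ut S R'))) j y := by
      refine d1_congr ?_
      filter_upwards [hy] with w hw
      funext e
      exact hw j e
    rw [h1, d1_d0 (isZ0_fn (ut_sm H)) j trivial]
  · filter_upwards [h.eventually_nhds] with y hy j
    have h1 : d1 A (φf S R') j y = d1 A (0 : A.ι → M → Fin 2 → ℂ) j y := by
      refine d1_congr ?_
      filter_upwards [hy] with w hw using hw j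
    rw [h1, KerV631.d1_zero]; rfl

/-- `ut` has compact support -/
theorem exists_compact : ∃ Kc : Set M, IsCompact Kc ∧ ∀ q ∉ Kc, ∀ᶠ y in 𝓝 q, ut S R' y = 0 := by
  have hK : IsCompact ((A.e S.i).symm '' tsupport (utφ S R')) :=
    (utφ_cs H).isCompact.image_of_continuousOn
      ((A.e S.i).continuousOn_symm.mono (utφ_tg H))
  refine ⟨_, hK, fun q hq => ?_⟩
  filter_upwards [hK.isClosed.isOpen_compl.mem_nhds hq] with y hy
  by_cases hys : y ∈ (A.e S.i).source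
  · rw [ut, pl_of_mem hys]
    by_contra hne
    exact hy ⟨A.e S.i y, subset_tsupport _ hne, (A.e S.i).left_inv hys⟩
  · exact pl_of_not_mem hys

theorem exists_slab {h : M → ℝ} (hh : Continuous h) : ∃ T0 T1 : ℝ, ∀ q, h q < T0 ∨ T1 < h q →
    ∀ᶠ y in 𝓝 q, ut S R' y = 0 := by
  obtain ⟨Kc, hK, h0⟩ := exists_compact H
  obtain ⟨T0, hT0⟩ := (hK.image hh).bddBelow
  obtain ⟨T1, hT1⟩ := (hK.image hh).bddAbove
  refine ⟨T0, T1, fun q hq => h0 q fun hqK => ?_⟩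
  have h1 := hT0 ⟨q, hqK, rfl⟩
  have h2 := hT1 ⟨q, hqK, rfl⟩
  rcases hq with hq | hq <;> linarith

/-- the form `η = ∂̄ φ / s` -/
theorem η_z2 : IsZ2 A (L⁻¹).g univ (sdv s (d1 A (φf S R'))) := by
  have h1 := (KerV631.isHS_iff isOpen_univ).1 H.hs
  have h2 : IsZ2 A 1 univ (d1 A (φf S R')) := d1_mem IsLC.one isOpen_univ (φf_z1 H)
  have h3 := h1.z0.sdv2' h2 fun i x hx _ h0 => (d1φ_zero H hx h0).mono fun y hy => hy i
  have h4 : (L.g⁻¹ * 1 : A.ι → A.ι → M → ℂ) = (L⁻¹).g := by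
    funext i j x
    simp
  rwa [h4] at h3

theorem s_mul_η (i : A.ι) (x : M) :
    sm s (sdv s (d1 A (φf S R'))) i x = d1 A (φf S R') i x := by
  refine sm_sdv fun h0 => ?_
  by_cases hx : x ∈ (A.e i).source
  · exact (d1φ_zero H hx h0).self_of_nhds i
  · exact d1_of_not_mem hx

theorem φf_off {h : M → ℝ} {T0 T1 : ℝ}
    (hT : ∀ q, h q < T0 ∨ T1 < h q → ∀ᶠ y in 𝓝 q, ut S R' y = 0) (q : M)
    (hq : h q < T0 ∨ T1 < h q) : ∀ᶠ y in 𝓝 q, ∀ j, φf S R' j y = 0 := by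
  filter_upwards [ev_d0_zero (A := A) (hT q hq)] with y hy j
  funext e
  rw [φf, fm, hy j]; simp

theorem η_off {h : M → ℝ} {T0 T1 : ℝ}
    (hT : ∀ q, h q < T0 ∨ T1 < h q → ∀ᶠ y in 𝓝 q, ut S R' y = 0) (i : A.ι) (q : M)
    (hq : h q < T0 ∨ T1 < h q) : sdv s (d1 A (φf S R')) i q = 0 := by
  have h1 : d1 A (φf S R') i q = d1 A (0 : A.ι → M → Fin 2 → ℂ) i q := by
    refine d1_congr ?_
    filter_upwards [φf_off H hT q hq] with w hw using hw i
  rw [sdv, h1, KerV631.d1_zero]; simp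

variable {K : A.ι → Set M} {h : M → ℝ}

theorem φf_bd (C : Cor A h K) (a b : ℝ) : BD1 A K h a b (φf S R') := by
  obtain ⟨T0, T1, hT⟩ := exists_slab H C.cont
  intro c
  refine C.slab_supp (fun i x hx => (φf_z1 H).sm i c x (C.sub i hx) trivial)
    (S := T0) (T := T1) (fun i x hx => ?_) a b
  rw [(φf_off H hT x hx).self_of_nhds i]; rfl

theorem η_bd (C : Cor A h K) (a b : ℝ) : BD A K h a b (sdv s (d1 A (φf S R'))) := by
  obtain ⟨T0, T1, hT⟩ := exists_slab H C.cont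
  exact C.slab_supp (fun i x hx => (η_z2 H).sm i x (C.sub i hx) trivial)
    (S := T0) (T := T1) (fun i x hx => η_off H hT i x hx) a b

end lemmas

/-- decay at the small end -/
theorem bd_value {K : A.ι → Set M} {h : M → ℝ} (C : Cor A h K) {a b : ℝ} {F : M → ℂ}
    (hF : BD A K h a b (fn A F)) (ha : a < 0) :
    ∀ ε > 0, ∃ T : ℝ, ∀ q, h q < T → ‖F q‖ < ε := by
  obtain ⟨D, hD, h1⟩ := hF.sup C.sub
  intro ε hε
  have h2 : Tendsto (fun t : ℝ => D * Real.exp (-a * t)) atBot (𝓝 (D * 0)) := by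
    refine Tendsto.const_mul _ ?_
    exact Real.tendsto_exp_atBot.comp (tendsto_id.const_mul_atBot (neg_pos.2 ha))
  rw [mul_zero] at h2
  obtain ⟨T, hT⟩ := ((h2.eventually (gt_mem_nhds hε)).and (eventually_le_atBot 0)).exists
  refine ⟨T, fun q hq => ?_⟩
  obtain ⟨i, hi⟩ := C.cov q
  have h3 := h1 i q hi
  rw [fn_of_mem (C.sub i hi)] at h3
  have hq0 : h q < 0 := hq.trans_le hT.2
  have h4 : wgt a b (h q) = Real.exp (-a * h q) := by
    unfold wgt
    rw [max_eq_left (by linarith), max_eq_right (by linarith)]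
    congr 1
    ring
  rw [h4] at h3
  have h5 : Real.exp (-a * h q) ≤ Real.exp (-a * T) :=
    Real.exp_le_exp.2 (mul_le_mul_of_nonneg_left hq.le (by linarith))
  exact (h3.trans (mul_le_mul_of_nonneg_left h5 hD)).trans_lt hT.1

section main

variable {S : Cfg A} {L : LB A} {s τ : A.ι → M → ℂ} {R' : ℝ} {K : A.ι → Set M} {h : M → ℝ}

/-- output of the start (rates: `β` in `(a0, b0)`, `F` in `(a1, b1)`) -/
structure StOut (S : Cfg A) (L : LB A) (s τ : A.ι → M → ℂ) (R' : ℝ) (K : A.ι → Set M)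
    (h : M → ℝ) (a0 b0 a1 b1 : ℝ) (F : M → ℂ) (β : A.ι → M → Fin 2 → ℂ) : Prop where
  F_sm : SmOn A univ F
  F_bd : BD A K h a1 b1 (fn A F)
  β_z1 : IsZ1 A (L⁻¹).g univ β
  β_bd : BD1 A K h a0 b0 β
  eq : ∀ j q e, d0 A (fn A F) j q e = φf S R' j q e - s j q * β j q e
  start : Start S (ut S R') F (sm1 τ β) R'

/-- **START**: `∂̄ ut - ∂̄ F = x b0` on `K0 ∪ Q R'`, with prescribed rates -/
theorem StIn.exists_start_r (H : StIn S L s τ R') (C : Cor A h K) {e a0 b0 a1 b1 : ℝ}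
    (hsb : BD A K h e e s)
    (h2 : ∃ a b, SolZ2 A K h L⁻¹ a b a0 b0) (h1 : SolZ1 A K h 1 (e + a0) (e + b0) a1 b1) :
    ∃ (F : M → ℂ) (β : A.ι → M → Fin 2 → ℂ), StOut S L s τ R' K h a0 b0 a1 b1 F β := by
  have hsH := (KerV631.isHS_iff isOpen_univ).1 H.hs
  -- degree two
  obtain ⟨a2, b2, h2⟩ := h2
  obtain ⟨β, hβ, hβb, hβd⟩ := h2 _ (η_z2 H) (η_bd H C _ _)
  have hone : (L.g * (L⁻¹).g : A.ι → A.ι → M → ℂ) = 1 := by
    funext i j x
    simp [L.ne_zero i j x]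
  have hsβ : IsZ1 A 1 univ (sm1 s β) := by
    have := hsH.z0.sm1' hβ
    rwa [hone] at this
  -- degree one
  set α : A.ι → M → Fin 2 → ℂ := φf S R' - sm1 s β with hα
  have hα1 : IsZ1 A 1 univ α := (φf_z1 H).sub hsβ
  have hαd : ∀ i x, d1 A α i x = 0 := by
    intro i x
    rw [hα, d1_sub (φf_z1 H) hsβ i trivial, hsH.d1_sm1 hβ i trivial]
    have h3 : sm s (d1 A β) i x = sm s (sdv s (d1 A (φf S R'))) i x := by
      simp only [sm, hβd i x]
    rw [h3, s_mul_η H, sub_self]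
  have hαb : BD1 A K h (e + a0) (e + b0) α := (φf_bd H C _ _).sub (BD.mul1 hsb hβb)
  obtain ⟨f, hf, hfb, hfd⟩ := h1 α hα1 hαb hαd
  obtain ⟨F, hF, hfF, -⟩ := exists_fn isOpen_univ hf
  have hfF' : f = fn A F := by
    funext i x
    exact hfF i x trivial
  subst hfF'
  have heq : ∀ j q e, d0 A (fn A F) j q e = φf S R' j q e - s j q * β j q e := by
    intro j q e
    rw [hfd]
    rfl
  refine ⟨F, β, hF, hfb, hβ, hβb, heq, H.R'_R.le, H.R'_a, H.R'_ρ, ut_sm H, hF, ?_, H.Q_N, ?_⟩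
  · have := H.τ_z.sm1' (hβ.mono (subset_univ S.N))
    rwa [hone] at this
  · intro j q hq e
    rw [heq, φf_eq_K0 H hq]
    have hN : q ∈ S.N := by
      rcases hq with hq | hq
      · exact S.K0_N hq
      · exact H.Q_N hq
    by_cases hj : q ∈ (A.e j).source
    · rw [H.s_eq j q hj hN]
      simp only [sm1]
      ring
    · have hb : β j q e = 0 := by rw [hβ.off j q hj]; rfl
      simp only [sm1, hb]
      ring

/-- **START**: `∂̄ ut - ∂̄ F = x b0` on `K0 ∪ Q R'`, `F` decays at the small end -/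
theorem StIn.exists_start (H : StIn S L s τ R') (C : Cor A h K) {d : ℝ} (hd : 0 < d)
    (hsb : ∀ e > 0, BD A K h e e s)
    (h2 : ∀ {a b a' b' : ℝ}, a < a' → b < b' → SolZ2 A K h L⁻¹ a b a' b')
    (h1 : ∀ {a b a' b' : ℝ}, -d < a' → a' < 0 → 0 < b' → b' < d → a < a' → b < b' →
      SolZ1 A K h 1 a b a' b') :
    ∃ (F : M → ℂ) (β : A.ι → M → Fin 2 → ℂ),
      StOut S L s τ R' K h (-(d / 2)) (d / 4) (-(d / 4)) (d / 2) F β :=
  H.exists_start_r C (hsb (d / 8) (by linarith)) ⟨-d, 0, h2 (by linarith) (by linarith)⟩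
    (h1 (by linarith) (by linarith) (by linarith) (by linarith) (by linarith) (by linarith))

variable {a0 b0 a1 b1 : ℝ} {F : M → ℂ} {β : A.ι → M → Fin 2 → ℂ}

/-- `F → 0` at the small end -/
theorem StOut.lim (O : StOut S L s τ R' K h a0 b0 a1 b1 F β) (C : Cor A h K) (h1 : a1 < 0) :
    ∀ ε > 0, ∃ T : ℝ, ∀ q, h q < T → ‖F q‖ < ε := bd_value C O.F_bd h1

/-- the statement `H⁰(Q_C) = ℂ` -/
def R2 (A : Atl 2 M) (gs : A.ι → A.ι → M → ℂ) (s : A.ι → M → ℂ) (Z : Set M) : Prop :=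
  ∀ u, IsZ0 A 1 univ u → (∃ v, IsZ1 A gs⁻¹ univ v ∧ d0 A u = sm1 s v) →
    ∃ κ : ℂ, ∀ i, ∀ x ∈ (A.e i).source, x ∈ Z → u i x = κ

/-- **`F` is constant on the curve** -/
theorem StOut.const (O : StOut S L s τ R' K h a0 b0 a1 b1 F β) (H : StIn S L s τ R')
    {LC LZ : LB A} (hL : L = LC * LZ) {sC sZ : A.ι → M → ℂ} (hsC : IsHS LC univ sC)
    (hsZ : IsHS LZ univ sZ) (hss : ∀ i, ∀ x ∈ (A.e i).source, s i x = sC i x * sZ i x)
    (hC : ∀ i, ∀ x ∈ (A.e i).source, sC i x = 0 → x ∈ (A.e S.i).source → S.V x = 0)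
    {Z : Set M} (hR2 : R2 A LC.g sC Z) : ∃ κ : ℂ, ∀ q ∈ Z, F q = κ := by
  have hC0 := ((KerV631.isHS_iff isOpen_univ).1 hsC).z0
  have hZ0 := ((KerV631.isHS_iff isOpen_univ).1 hsZ).z0
  have hφ0 : ∀ i, ∀ x ∈ (A.e i).source, x ∈ (univ : Set M) → sC i x = 0 →
      ∀ᶠ y in 𝓝 x, φf S R' i y = 0 := by
    intro i x hx _ h0
    by_cases hs : x ∈ (A.e S.i).source
    · have h1 : ∀ᶠ z in 𝓝 (A.e S.i x), ‖z 1 - S.p 1‖ < r1 S R' := by
        refine (isOpen_lt (cont_nrm S.p 1) continuous_const).mem_nhds ?_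
        have : A.e S.i x 1 - S.p 1 = 0 := hC i x hx h0 hs
        simp only [mem_ofPred_eq, this, norm_zero]
        exact r1_pos H
      filter_upwards [S.ev_chart hs h1] with y hy using φf_zero H (Or.inr (Or.inr hy)) i
    · filter_upwards [dut_off H hs] with y hy
      funext e
      rw [φf, fm, hy i]; simp
  have h1 : IsZ1 A LC.g⁻¹ univ (sdv1 sC (φf S R')) := by
    have := hC0.sdv1' (φf_z1 H) hφ0
    rwa [mul_one] at this
  have h2 : IsZ1 A LC.g⁻¹ univ (sm1 sZ β) := by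
    have h3 := hZ0.sm1' O.β_z1
    have h4 : (LZ.g * (L⁻¹).g : A.ι → A.ι → M → ℂ) = LC.g⁻¹ := by
      funext i j x
      rw [hL]
      simp only [Pi.mul_apply, LB.inv_g, LB.mul_g, Pi.inv_apply, mul_inv]
      have := LZ.ne_zero i j x
      field_simp
    rwa [h4] at h3
  obtain ⟨κ, hκ⟩ := hR2 (fn A F) (isZ0_fn O.F_sm) ⟨_, h1.sub h2, by
    funext i x e
    rw [O.eq]
    have h3 : sm1 sC (sdv1 sC (φf S R')) i x = φf S R' i x := by
      refine sm1_sdv1 fun h0 => ?_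
      by_cases hx : x ∈ (A.e i).source
      · exact (hφ0 i x hx trivial h0).self_of_nhds
      · exact (φf_z1 H).off i x hx
    have h4 := congrFun h3 e
    simp only [sm1, Pi.sub_apply, mul_sub] at h4 ⊢
    rw [h4]
    by_cases hx : x ∈ (A.e i).source
    · rw [hss i x hx]; ring
    · have hb : β i x e = 0 := by rw [O.β_z1.off i x hx]; rfl
      rw [hb]; ring⟩
  refine ⟨κ, fun q hq => ?_⟩
  obtain ⟨i, hi⟩ := A.cover q
  have := hκ i q hi hq
  rwa [fn_of_mem hi] at this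

/-- `ut` is the coordinate on the polydisc of radius `R'` -/
theorem ut_eq_U (H : StIn S L s τ R') {q : M} (hq : q ∈ S.Q R') : ut S R' q = S.U q :=
  ut_eq H hq.1 fun a => ((hq.2 a).trans (r1_gt H)).le

/-- `ut` vanishes at the small end -/
theorem ut_low (H : StIn S L s τ R') (hh : Continuous h) :
    ∃ T : ℝ, ∀ q, h q < T → ut S R' q = 0 := by
  obtain ⟨T0, T1, hT⟩ := exists_slab H hh
  exact ⟨T0, fun q hq => (hT q (Or.inl hq)).self_of_nhds⟩

end main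

end

end Crest.Agent.R275.StartP595
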