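import Mathlib

/-!
# R275 (helper912): Schur-type summation and bootstrapping of local estimates with weights

`N s j` is the norm of level `s` of the `j`-th localisation; `nb j` the (finite) set of neighbours.
-/

set_option autoImplicit false

open Finset

namespace Crest.Agent.R275.Sup912

noncomputable section

variable {J : Type*}

/-- a finite-range relation with uniformly bounded degrees in both directions -/
structure Nbh (nb : J → Finset J) (m : ℕ) : Prop where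
  card : ∀ j, (nb j).card ≤ m
  card' : ∀ k, ∀ T : Finset J, (∀ j ∈ T, k ∈ nb j) → T.card ≤ m

/-- **Schur step**, finite version -/
theorem schur_finset {nb : J → Finset J} {m : ℕ} (hm : Nbh nb m) {ω a b : J → ℝ} {c C : ℝ}
    (hω : ∀ j, 0 ≤ ω j) (hc0 : 0 ≤ c) (hC : 0 ≤ C) (hc : ∀ j, ∀ k ∈ nb j, ω j ≤ c * ω k)
    (ha : ∀ j, 0 ≤ a j) (hb : ∀ j, 0 ≤ b j) (h : ∀ j, a j ≤ C * ∑ k ∈ nb j, b k)
    (hs : Summable fun k => (ω k * b k) ^ 2) (T : Finset J) :
    ∑ j ∈ T, (ω j * a j) ^ 2 ≤ (C * c * m) ^ 2 * ∑' k, (ω k * b k) ^ 2 := by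
  classical
  -- pointwise
  have h1 : ∀ j, (ω j * a j) ^ 2 ≤ (C * c) ^ 2 * (m * ∑ k ∈ nb j, (ω k * b k) ^ 2) := by
    intro j
    have e1 : ω j * a j ≤ (C * c) * ∑ k ∈ nb j, ω k * b k := by
      calc ω j * a j ≤ ω j * (C * ∑ k ∈ nb j, b k) := mul_le_mul_of_nonneg_left (h j) (hω j)
        _ = C * ∑ k ∈ nb j, ω j * b k := by
            simp only [Finset.mul_sum]
            exact Finset.sum_congr rfl fun k _ => by ring
        _ ≤ C * ∑ k ∈ nb j, (c * ω k) * b k := by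
            refine mul_le_mul_of_nonneg_left (Finset.sum_le_sum fun k hk => ?_) hC
            exact mul_le_mul_of_nonneg_right (hc j k hk) (hb k)
        _ = (C * c) * ∑ k ∈ nb j, ω k * b k := by
            simp only [Finset.mul_sum]
            exact Finset.sum_congr rfl fun k _ => by ring
    have e2 : 0 ≤ ω j * a j := mul_nonneg (hω j) (ha j)
    calc (ω j * a j) ^ 2 ≤ ((C * c) * ∑ k ∈ nb j, ω k * b k) ^ 2 := pow_le_pow_left₀ e2 e1 2
      _ = (C * c) ^ 2 * (∑ k ∈ nb j, ω k * b k) ^ 2 := by ring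
      _ ≤ (C * c) ^ 2 * ((nb j).card * ∑ k ∈ nb j, (ω k * b k) ^ 2) :=
          mul_le_mul_of_nonneg_left sq_sum_le_card_mul_sum_sq (sq_nonneg _)
      _ ≤ (C * c) ^ 2 * (m * ∑ k ∈ nb j, (ω k * b k) ^ 2) := by
          refine mul_le_mul_of_nonneg_left (mul_le_mul_of_nonneg_right ?_
            (Finset.sum_nonneg fun _ _ => sq_nonneg _)) (sq_nonneg _)
          exact_mod_cast hm.card j
  -- sum over `T`
  have h2 : ∑ j ∈ T, ∑ k ∈ nb j, (ω k * b k) ^ 2 ≤ m * ∑' k, (ω k * b k) ^ 2 := by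
    have e1 : ∑ j ∈ T, ∑ k ∈ nb j, (ω k * b k) ^ 2 =
        ∑ k ∈ T.biUnion nb, ∑ j ∈ T.filter (fun j => k ∈ nb j), (ω k * b k) ^ 2 := by
      rw [Finset.sum_comm' (t' := T.biUnion nb) (s' := fun k => T.filter (fun j => k ∈ nb j))]
      intro j k
      simp only [Finset.mem_filter, Finset.mem_biUnion]
      constructor
      · rintro ⟨hj, hk⟩; exact ⟨⟨hj, hk⟩, j, hj, hk⟩
      · rintro ⟨⟨hj, hk⟩, -⟩; exact ⟨hj, hk⟩
    rw [e1]
    calc ∑ k ∈ T.biUnion nb, ∑ _j ∈ T.filter (fun j => k ∈ nb j), (ω k * b k) ^ 2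
        ≤ ∑ k ∈ T.biUnion nb, m * (ω k * b k) ^ 2 := by
          refine Finset.sum_le_sum fun k _ => ?_
          rw [Finset.sum_const, nsmul_eq_mul]
          refine mul_le_mul_of_nonneg_right ?_ (sq_nonneg _)
          exact_mod_cast hm.card' k _ fun j hj => (Finset.mem_filter.1 hj).2
      _ = m * ∑ k ∈ T.biUnion nb, (ω k * b k) ^ 2 := by rw [Finset.mul_sum]
      _ ≤ m * ∑' k, (ω k * b k) ^ 2 :=
          mul_le_mul_of_nonneg_left (hs.sum_le_tsum _ fun _ _ => sq_nonneg _) (Nat.cast_nonneg _)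
  calc ∑ j ∈ T, (ω j * a j) ^ 2
      ≤ ∑ j ∈ T, (C * c) ^ 2 * (m * ∑ k ∈ nb j, (ω k * b k) ^ 2) :=
        Finset.sum_le_sum fun j _ => h1 j
    _ = (C * c) ^ 2 * m * ∑ j ∈ T, ∑ k ∈ nb j, (ω k * b k) ^ 2 := by
        simp only [Finset.mul_sum]
        exact Finset.sum_congr rfl fun j _ => Finset.sum_congr rfl fun k _ => by ring
    _ ≤ (C * c) ^ 2 * m * (m * ∑' k, (ω k * b k) ^ 2) :=
        mul_le_mul_of_nonneg_left h2 (by positivity)
    _ = _ := by ring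

/-- **Schur step** -/
theorem schur {nb : J → Finset J} {m : ℕ} (hm : Nbh nb m) {ω a b : J → ℝ} {c C : ℝ}
    (hω : ∀ j, 0 ≤ ω j) (hc0 : 0 ≤ c) (hC : 0 ≤ C) (hc : ∀ j, ∀ k ∈ nb j, ω j ≤ c * ω k)
    (ha : ∀ j, 0 ≤ a j) (hb : ∀ j, 0 ≤ b j) (h : ∀ j, a j ≤ C * ∑ k ∈ nb j, b k)
    (hs : Summable fun k => (ω k * b k) ^ 2) :
    (Summable fun j => (ω j * a j) ^ 2) ∧
      ∑' j, (ω j * a j) ^ 2 ≤ (C * c * m) ^ 2 * ∑' k, (ω k * b k) ^ 2 := by
  have h1 := schur_finset hm hω hc0 hC hc ha hb h hs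
  have h2 : Summable fun j => (ω j * a j) ^ 2 :=
    summable_of_sum_le (fun _ => sq_nonneg _) h1
  exact ⟨h2, Real.tsum_le_of_sum_le (fun _ => sq_nonneg _) h1⟩

/-- **bootstrapping with weights**: local estimates `N (s+1) j ≤ C ∑_{nb j} N s k` propagate
weighted square summability from level `0` to all levels -/
theorem boot {nb : J → Finset J} {m : ℕ} (hm : Nbh nb m) {ω : J → ℝ} {c : ℝ}
    (hω : ∀ j, 0 ≤ ω j) (hc0 : 0 ≤ c) (hc : ∀ j, ∀ k ∈ nb j, ω j ≤ c * ω k)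
    {N : ℕ → J → ℝ} (h0 : ∀ s j, 0 ≤ N s j)
    {D : ℕ → ℝ} (hD : ∀ s, 0 ≤ D s) (h : ∀ s j, N (s + 1) j ≤ D s * ∑ k ∈ nb j, N s k)
    (hs : Summable fun k => (ω k * N 0 k) ^ 2) (s : ℕ) :
    (Summable fun j => (ω j * N s j) ^ 2) ∧
      ∑' j, (ω j * N s j) ^ 2 ≤
        (∏ t ∈ Finset.range s, (D t * c * m) ^ 2) * ∑' k, (ω k * N 0 k) ^ 2 := by
  induction s with
  | zero => exact ⟨hs, by simp⟩
  | succ s ih =>
    have h1 := schur hm hω hc0 (hD s) hc (h0 (s + 1)) (h0 s) (h s) ih.1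
    refine ⟨h1.1, h1.2.trans ?_⟩
    rw [Finset.prod_range_succ]
    calc (D s * c * m) ^ 2 * ∑' k, (ω k * N s k) ^ 2
        ≤ (D s * c * m) ^ 2 * ((∏ t ∈ Finset.range s, (D t * c * m) ^ 2) *
          ∑' k, (ω k * N 0 k) ^ 2) := mul_le_mul_of_nonneg_left ih.2 (sq_nonneg _)
      _ = _ := by ring

/-- pointwise version of the bootstrapping: weighted sup bounds -/
theorem boot_sup {nb : J → Finset J} {m : ℕ} (hm : ∀ j, (nb j).card ≤ m) {ω : J → ℝ} {c : ℝ}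
    (hω : ∀ j, 0 ≤ ω j) (hc0 : 0 ≤ c) (hc : ∀ j, ∀ k ∈ nb j, ω j ≤ c * ω k)
    {N : ℕ → J → ℝ}
    {D : ℕ → ℝ} (hD : ∀ s, 0 ≤ D s) (h : ∀ s j, N (s + 1) j ≤ D s * ∑ k ∈ nb j, N s k)
    {E : ℝ} (hE : 0 ≤ E) (hs : ∀ k, ω k * N 0 k ≤ E) (h0 : ∀ s j, 0 ≤ N s j) (s : ℕ) (j : J) :
    ω j * N s j ≤ (∏ t ∈ Finset.range s, (D t * c * m)) * E := by
  induction s generalizing j with
  | zero => simpa using hs j
  | succ s ih =>
    calc ω j * N (s + 1) j ≤ ω j * (D s * ∑ k ∈ nb j, N s k) :=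
          mul_le_mul_of_nonneg_left (h s j) (hω j)
      _ = D s * ∑ k ∈ nb j, ω j * N s k := by
          simp only [Finset.mul_sum]
          exact Finset.sum_congr rfl fun k _ => by ring
      _ ≤ D s * ∑ _k ∈ nb j, c * ((∏ t ∈ Finset.range s, (D t * c * m)) * E) := by
          refine mul_le_mul_of_nonneg_left (Finset.sum_le_sum fun k hk => ?_) (hD s)
          calc ω j * N s k ≤ (c * ω k) * N s k := mul_le_mul_of_nonneg_right (hc j k hk) (h0 s k)
            _ = c * (ω k * N s k) := by ring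
            _ ≤ _ := mul_le_mul_of_nonneg_left (ih k) hc0
      _ = D s * ((nb j).card * (c * ((∏ t ∈ Finset.range s, (D t * c * m)) * E))) := by
          rw [Finset.sum_const, nsmul_eq_mul]
      _ ≤ D s * (m * (c * ((∏ t ∈ Finset.range s, (D t * c * m)) * E))) := by
          have hP : 0 ≤ ∏ t ∈ Finset.range s, (D t * c * m) :=
            Finset.prod_nonneg fun t _ => mul_nonneg (mul_nonneg (hD t) hc0) (Nat.cast_nonneg _)
          refine mul_le_mul_of_nonneg_left (mul_le_mul_of_nonneg_right ?_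
            (mul_nonneg hc0 (mul_nonneg hP hE))) (hD s)
          exact_mod_cast hm j
      _ = _ := by rw [Finset.prod_range_succ]; ring

end

end Crest.Agent.R275.Sup912
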