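import Crest.Agent.R275.SupA_912
import Crest.Agent.R275.SupBoot_912

/-!
# R275, W4 part 2 (helper912): any localisation of a section in terms of the standard ones
-/

set_option autoImplicit false
set_option linter.unusedSectionVars false

open Set Filter Topology Complex
open scoped ContDiff Matrix ComplexConjugate

namespace Crest.Agent.R275.Sup912

open Geo Tor812 C1d194 TorS666

noncomputable section

variable {n : ℕ} {M : Type} [TopologicalSpace M] {A : Atl n M} (P : Part A) {B : FBun A}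
  {u : A.ι → M → B.κ → ℂ}

theorem chi_mul_psi (k : A.ι) (x : M) : (P.χ k x : ℂ) * (P.ψ k x : ℂ) = (P.ψ k x : ℂ) := by
  by_cases hx : x ∈ tsupport (P.ψ k)
  · rw [(P.χ_one k x hx).self_of_nhds]; simp
  · rw [image_eq_zero_of_notMem_tsupport hx]; simp

/-- `ext_k(χ_k) loc_k(ψ_k) u = ψ_k u` -/
theorem ext_loc_psi (hu : u ∈ Sec B) (k : A.ι) :
    ext B k (sca B.κ (P.χ k)) (loc A k (sca B.κ (P.ψ k)) (u k)) =
      fun i x => (P.ψ k x : ℂ) • u i x := by
  refine ext_loc_scalar B (isAmp_psi P B.κ k) (ψ := fun x => (P.ψ k x : ℂ)) (fun x => ?_) hu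
    fun x hx => ?_
  · simp only [sca, Matrix.mul_smul, mul_one, smul_smul]
    rw [mul_comm, chi_mul_psi]
  · have h1 : x ∉ tsupport (P.ψ k) := fun h => hx (psi_sub P k h)
    rw [image_eq_zero_of_notMem_tsupport h1]; simp

/-- any localisation of `u` through the standard ones -/
theorem loc_eq_sum (hu : u ∈ Sec B) {κ' : Type} {j : A.ι} {a : M → Matrix κ' B.κ ℂ}
    (ha : IsAmp A j a) {T : Finset A.ι}
    (hT : ∀ x ∈ tsupport a, ∀ k, x ∈ tsupport (P.χ k) → k ∈ T) :
    loc A j a (u j) = ∑ k ∈ T, loc A j a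
      (ext B k (sca B.κ (P.χ k)) (loc A k (sca B.κ (P.ψ k)) (u k)) j) := by
  classical
  funext l
  rw [Finset.sum_apply]
  apply SPer.ext
  intro x
  rw [sper_sum_apply]
  have hv : ∀ l, A.SmAt j (fun x => u j x l) := fun l => hu.1 j l
  have hv' : ∀ k, ∀ l, A.SmAt j (fun x =>
      ext B k (sca B.κ (P.χ k)) (loc A k (sca B.κ (P.ψ k)) (u k)) j x l) := fun k l =>
    ext_smAt B k (isAmp_chi P B.κ k) _ j l
  by_cases hx : fr x ∈ Ui A j
  · rw [SPer_fr, loc_apply_mem ha hv l hx]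
    have h1 : ∀ k ∈ T, loc A j a
        (ext B k (sca B.κ (P.χ k)) (loc A k (sca B.κ (P.ψ k)) (u k)) j) l x =
        (a ((A.e j).symm (cc (fr x))) *ᵥ ((P.ψ k ((A.e j).symm (cc (fr x))) : ℂ) •
          u j ((A.e j).symm (cc (fr x))))) l := by
      intro k _
      rw [SPer_fr, loc_apply_mem ha (hv' k) l hx, ext_loc_psi P hu k]
    rw [Finset.sum_congr rfl h1]
    set y := (A.e j).symm (cc (fr x)) with hy
    by_cases hya : y ∈ tsupport a
    · have h2 : ∑ k ∈ T, (P.ψ k y : ℂ) = 1 := by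
        rw [← Complex.ofReal_sum, ← Complex.ofReal_one, ← sum_act P y]
        congr 1
        refine (Finset.sum_subset (fun k hk => hT y hya k ((mem_act P).1 hk)) fun k _ hk => ?_).symm
        have h3 : y ∉ tsupport (P.ψ k) := fun h => hk ((mem_act P).2 (tsupport_psi_subset P k h))
        exact image_eq_zero_of_notMem_tsupport h3
      simp only [Matrix.mulVec_smul, Pi.smul_apply, smul_eq_mul]
      rw [← Finset.sum_mul, h2, one_mul]
    · simp [amp_zero hya]
  · rw [loc_apply_off ha hv l hx]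
    refine (Finset.sum_eq_zero fun k _ => ?_).symm
    rw [loc_apply_off ha (hv' k) l hx]

/-- norm estimate of any localisation through the standard ones -/
theorem nrmv_loc_le (hu : u ∈ Sec B) {κ' : Type} [Fintype κ'] {j : A.ι}
    {a : M → Matrix κ' B.κ ℂ} (ha : IsAmp A j a) {T : Finset A.ι}
    (hT : ∀ x ∈ tsupport a, ∀ k, x ∈ tsupport (P.χ k) → k ∈ T) {s : ℕ} {C : ℝ}
    (hC : ∀ k ∈ T, ∀ f : B.κ → SPer (RI n),
      nrmv s (loc A j a (ext B k (sca B.κ (P.χ k)) f j)) ≤ C * nrmv s f) :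
    nrmv s (loc A j a (u j)) ≤ C * ∑ k ∈ T, nrmv s (loc A k (sca B.κ (P.ψ k)) (u k)) := by
  rw [loc_eq_sum P hu ha hT, Finset.mul_sum]
  exact (nrmv_sum_le _ _ _).trans (Finset.sum_le_sum fun k hk => hC k hk _)

end

end Crest.Agent.R275.Sup912
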