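import Crest.Agent.R275.SupB_912
import Crest.Agent.R275.C1c_193

/-!
# R275, W4 part 3 (helper912): the local elliptic estimate in degree `0`

`w_j := loc_j(ψ_j)(u_j)`; if `u` has degree `0`, then
`w_j = G w_j + K (loc_j(bamp j) u_j + loc_j(ψ_j) (nab u)_j)`, hence
`|w_j|_{s+1} ≤ |w_j|_s + C (|loc_j(bamp j) u_j|_s + |loc_j(ψ_j)(nab u)_j|_s)`.
-/

set_option autoImplicit false
set_option linter.unusedSectionVars false

open Set Filter Topology Complex
open scoped ContDiff Matrix ComplexConjugate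

namespace Crest.Agent.R275.Sup912

open Geo Tor812 C1d194 TorS666 C1c193

noncomputable section

variable {n : ℕ} {M : Type} [TopologicalSpace M] {A : Atl n M} (P : Part A) {B : FBun A}
  {u : A.ι → M → B.κ → ℂ}

/-- the commutator amplitude `c(∂̄ψ_j) - ψ_j α_j` -/
def bamp (B : FBun A) (j : A.ι) : M → Matrix B.κ B.κ ℂ := fun x =>
  (∑ b, B.e b * dbA' A j b (sca B.κ (P.ψ j)) x) + (-(P.ψ j x : ℂ)) • B.α j x

theorem isAmp_cdb (B : FBun A) (j : A.ι) :
    IsAmp A j (fun x => ∑ b, B.e b * dbA' A j b (sca B.κ (P.ψ j)) x) :=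
  amp_sum _ fun b _ => amp_const_mul (B.e b) (isAmp_dbA' (isAmp_psi P B.κ j) b)

theorem tsupport_neg_psi (j : A.ι) :
    tsupport (fun x => (-(P.ψ j x : ℂ))) ⊆ tsupport (P.ψ j) :=
  closure_mono fun x hx hx' => hx (by simp [hx'])

theorem isAmp_neg_psi_alpha (B : FBun A) (j : A.ι) :
    IsAmp A j (fun x => (-(P.ψ j x : ℂ)) • B.α j x) := by
  refine amp_of_fun ?_ ((psi_cpt P j).of_isClosed_subset (isClosed_tsupport _)
    (tsupport_neg_psi P j)) ((tsupport_neg_psi P j).trans (psi_sub P j)) fun k l => B.α_smooth j k l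
  exact (Complex.ofRealCLM.contDiff.comp_contDiffOn (P.ψ_sm j j)).neg

theorem isAmp_bamp (B : FBun A) (j : A.ι) : IsAmp A j (bamp P B j) :=
  amp_add (isAmp_cdb P B j) (isAmp_neg_psi_alpha P B j)

theorem tsupport_bamp_subset (B : FBun A) (j : A.ι) : tsupport (bamp P B j) ⊆ tsupport (P.ψ j) := by
  refine closure_minimal (fun x hx => ?_) (isClosed_tsupport _)
  by_contra h
  have h0 : (P.ψ j x : ℂ) = 0 := by
    rw [image_eq_zero_of_notMem_tsupport h]; simp
  have h1 : ∀ b, dbA' A j b (sca B.κ (P.ψ j)) x = 0 := by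
    intro b
    by_cases hxs : x ∈ (A.e j).source
    · rw [dbA'_of_mem hxs]
      ext k l
      have hev : (fun y => sca B.κ (P.ψ j) y k l) =ᶠ[𝓝 x] fun _ => (0 : ℂ) := by
        filter_upwards [(isClosed_tsupport (P.ψ j)).isOpen_compl.mem_nhds h] with y hy
        have : P.ψ j y = 0 := image_eq_zero_of_notMem_tsupport hy
        simp [sca, this]
      show A.db j b (fun y => sca B.κ (P.ψ j) y k l) x = 0
      rw [Atl.db_congr hxs hev b]
      exact dbj_const _ _ _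
    · simp [dbA', hxs]
  apply hx
  simp [bamp, h0, h1]

/-- **the local equation** -/
theorem DT_loc_psi (hu : u ∈ Sec B) (j : A.ι) :
    DT B.e (loc A j (sca B.κ (P.ψ j)) (u j)) =
      loc A j (bamp P B j) (u j) + loc A j (sca B.κ (P.ψ j)) (nab B u j) := by
  have hv : ∀ l, A.SmAt j (fun x => u j x l) := fun l => hu.1 j l
  have hdv : ∀ b, ∀ l, A.SmAt j (fun x => A.db j b (u j) x l) := fun b l =>
    ContDiffOn.congr ((hv l).db b) fun z hz => Atl.db_pi hv ((A.e j).map_target hz) b l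
  have hn : ∀ l, A.SmAt j (fun x => nab B u j x l) := fun l => (nab_mem B hu).1 j l
  have ha := isAmp_psi P B.κ j
  rw [DT_loc B.e ha hv]
  have h1 : loc A j (bamp P B j) (u j) =
      loc A j (fun x => ∑ b, B.e b * dbA' A j b (sca B.κ (P.ψ j)) x) (u j) +
        loc A j (fun x => (-(P.ψ j x : ℂ)) • B.α j x) (u j) :=
    loc_amp_add (isAmp_cdb P B j) (isAmp_neg_psi_alpha P B j) hv
  rw [h1, add_assoc]
  congr 1
  funext k
  refine eq_of_values (A := A) (i := j) (fun x hx => ?_) (fun x hx hx' => ?_)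
    (fun x hx hx' => ?_)
  · have hxs : (A.e j).symm (cc x) ∈ (A.e j).source := (A.e j).map_target hx
    have hxx : x = rc (A.e j ((A.e j).symm (cc x))) := by
      rw [(A.e j).right_inv hx, rc_cc]
    rw [Finset.sum_apply, coe_sum, Pi.add_apply, SPer.add_apply, hxx]
    simp only [loc_rc (amp_const_mul _ ha) (hdv _) k hxs]
    rw [loc_rc (isAmp_neg_psi_alpha P B j) hv k hxs, loc_rc ha hn k hxs, nab_apply B hxs]
    simp only [sca, Matrix.mul_smul, mul_one, Matrix.smul_mulVec, Matrix.one_mulVec,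
      Pi.smul_apply, Pi.add_apply, Finset.sum_apply, smul_eq_mul, neg_mul, mul_add,
      Finset.mul_sum]
    ring
  · rw [Finset.sum_apply, coe_sum]
    exact Finset.sum_eq_zero fun b _ => loc_off (amp_const_mul _ ha) (hdv b) k hx hx'
  · rw [Pi.add_apply, SPer.add_apply, loc_off (isAmp_neg_psi_alpha P B j) hv k hx hx',
      loc_off ha hn k hx hx', add_zero]

theorem isDegT_loc_psi (hu : u ∈ Sec B) {q : ℕ} (hq : IsDeg B q u) (j : A.ι) :
    IsDegT B.deg q (loc A j (sca B.κ (P.ψ j)) (u j)) := by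
  intro k hk
  by_contra h
  refine hk ?_
  have hv : ∀ l, A.SmAt j (fun x => u j x l) := fun l => hu.1 j l
  apply SPer.ext
  intro x
  rw [SPer.zero_apply]
  by_cases hx : fr x ∈ Ui A j
  · rw [SPer_fr, loc_apply_mem (isAmp_psi P B.κ j) hv k hx]
    have h0 : u j ((A.e j).symm (cc (fr x))) k = 0 := by
      by_contra h1
      exact h (hq _ _ _ h1)
    simp [sca, Matrix.smul_mulVec, h0]
  · rw [loc_apply_off (isAmp_psi P B.κ j) hv k hx]

/-- the constant of the parametrix of `B` -/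
def cK (B : FBun A) : ℝ := (∑ k, ∑ a, ∑ l, ‖B.io a k l‖) * (2 * Real.pi)

theorem cK_nonneg (B : FBun A) : 0 ≤ cK B := by
  unfold cK; positivity

/-- **the local elliptic estimate in degree `0`** -/
theorem nrmv_loc_psi_succ_le (hu : u ∈ Sec B) (h0 : IsDeg B 0 u) (s : ℕ) (j : A.ι) :
    nrmv (s + 1) (loc A j (sca B.κ (P.ψ j)) (u j)) ≤
      nrmv s (loc A j (sca B.κ (P.ψ j)) (u j)) +
        cK B * (nrmv s (loc A j (bamp P B j) (u j)) +
          nrmv s (loc A j (sca B.κ (P.ψ j)) (nab B u j))) := by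
  set w := loc A j (sca B.κ (P.ψ j)) (u j) with hw
  have h1 := DT_KT (κ := B.κ) (e := B.e) (io := B.io) B.ei w
  rw [isDegT_KT_zero B.io_deg (isDegT_loc_psi P hu h0 j)] at h1
  have hz : DT B.e (0 : B.κ → SPer (RI n)) = 0 := by rw [DT_eq, map_zero]
  rw [hz, zero_add] at h1
  have h2 : w = Gv w + KT B.io (DT B.e w) := by rw [h1]; abel
  have h3 : nrmv (s + 1) w ≤ nrmv (s + 1) (Gv w) + nrmv (s + 1) (KT B.io (DT B.e w)) := by
    conv_lhs => rw [h2]
    exact nrmv_add_le _ _ _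
  refine h3.trans (add_le_add ?_ ?_)
  · exact (nrmv_mono (Nat.le_succ (s + 1)) _).trans (nrmv_Gv_le s w)
  · refine (nrmv_KT_le B.io s _).trans ?_
    rw [hw, DT_loc_psi P hu j]
    exact mul_le_mul_of_nonneg_left (nrmv_add_le _ _ _) (cK_nonneg B)

/-! ### uniformly bounded geometry -/

/-- uniform data: neighbours and uniform constants in the localisation estimates.
`A` locally finite with bounded degrees; the standard change-of-chart operators with the
commutator amplitudes are uniformly bounded on every level; bounded transition matrices. -/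
structure UB (P : Part A) (B : FBun A) where
  nb : A.ι → Finset A.ι
  m : ℕ
  nbh : Nbh nb m
  self_mem : ∀ j, j ∈ nb j
  mem_nb : ∀ j k, ∀ x ∈ tsupport (P.χ j), x ∈ tsupport (P.χ k) → k ∈ nb j
  cb : ℕ → ℝ
  cb_nonneg : ∀ s, 0 ≤ cb s
  psi_bd : ∀ s j k, k ∈ nb j → ∀ f : B.κ → SPer (RI n),
    nrmv s (loc A j (bamp P B j) (ext B k (sca B.κ (P.χ k)) f j)) ≤ cb s * nrmv s f
  ct : ℝ
  ct_nonneg : 0 ≤ ct
  tau_bd : ∀ i j, ∀ x ∈ (A.e i).source, x ∈ tsupport (P.χ j) → msz (B.τ i j x) ≤ ct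

variable {P}

/-- the level `s` norm of the `j`-th standard localisation -/
def Nj (P : Part A) {B : FBun A} (u : A.ι → M → B.κ → ℂ) (s : ℕ) (j : A.ι) : ℝ :=
  nrmv s (loc A j (sca B.κ (P.ψ j)) (u j))

theorem Nj_nonneg (u : A.ι → M → B.κ → ℂ) (s : ℕ) (j : A.ι) : 0 ≤ Nj P u s j := nrmv_nonneg _ _

theorem Nj_mono (u : A.ι → M → B.κ → ℂ) {s t : ℕ} (h : s ≤ t) (j : A.ι) :
    Nj P u s j ≤ Nj P u t j := nrmv_mono h _

/-- **the bootstrapping inequality** for `u` in degree `0` with `nab u = 0` -/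
theorem UB.step (U : UB P B) (hu : u ∈ Sec B) (h0 : IsDeg B 0 u) (hn : nab B u = 0) (s : ℕ)
    (j : A.ι) : Nj P u (s + 1) j ≤ (1 + cK B * U.cb s) * ∑ k ∈ U.nb j, Nj P u s k := by
  have h1 := nrmv_loc_psi_succ_le P hu h0 s j
  have h2 : nrmv s (loc A j (sca B.κ (P.ψ j)) (nab B u j)) = 0 := by
    rw [hn]
    show nrmv s (loc A j (sca B.κ (P.ψ j)) (0 : M → B.κ → ℂ)) = 0
    rw [loc_zero (isAmp_psi P B.κ j), nrmv_zero]
  have h3 : nrmv s (loc A j (bamp P B j) (u j)) ≤ U.cb s * ∑ k ∈ U.nb j, Nj P u s k := by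
    refine nrmv_loc_le P hu (isAmp_bamp P B j) (fun x hx k hk => ?_)
      (fun k hk f => U.psi_bd s j k hk f)
    exact U.mem_nb j k x (tsupport_psi_subset P j (tsupport_bamp_subset P B j hx)) hk
  have h5 : Nj P u s j ≤ ∑ k ∈ U.nb j, Nj P u s k :=
    Finset.single_le_sum (f := fun k => Nj P u s k) (fun k _ => Nj_nonneg u s k) (U.self_mem j)
  calc Nj P u (s + 1) j ≤ Nj P u s j + cK B * (U.cb s * ∑ k ∈ U.nb j, Nj P u s k + 0) := by
        refine h1.trans (add_le_add le_rfl ?_)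
        rw [h2]
        exact mul_le_mul_of_nonneg_left (add_le_add h3 le_rfl) (cK_nonneg B)
    _ ≤ ∑ k ∈ U.nb j, Nj P u s k + cK B * (U.cb s * ∑ k ∈ U.nb j, Nj P u s k + 0) :=
        add_le_add h5 le_rfl
    _ = _ := by ring

theorem UB.cD_nonneg (U : UB P B) (s : ℕ) : 0 ≤ 1 + cK B * U.cb s :=
  add_nonneg zero_le_one (mul_nonneg (cK_nonneg B) (U.cb_nonneg s))

theorem UB.card_act (U : UB P B) (x : M) : (act P x).card ≤ U.m := by
  rcases (act P x).eq_empty_or_nonempty with h | ⟨k, hk⟩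
  · rw [h]; simp
  · refine (Finset.card_le_card fun j hj => ?_).trans (U.nbh.card k)
    exact U.mem_nb k j x ((mem_act P).1 hk) ((mem_act P).1 hj)

/-- weighted square summability on all levels -/
def InW (P : Part A) {B : FBun A} (om : A.ι → ℝ) (u : A.ι → M → B.κ → ℂ) : Prop :=
  ∀ s, Summable fun j => (om j * Nj P u s j) ^ 2

/-- weighted boundedness on all levels -/
def InWs (P : Part A) {B : FBun A} (om : A.ι → ℝ) (u : A.ι → M → B.κ → ℂ) : Prop :=
  ∀ s, ∃ E, 0 ≤ E ∧ ∀ j, om j * Nj P u s j ≤ E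

theorem InW.inWs {om : A.ι → ℝ} {u : A.ι → M → B.κ → ℂ} (h : InW P om u) :
    InWs P om u := by
  intro s
  refine ⟨Real.sqrt (∑' j, (om j * Nj P u s j) ^ 2), Real.sqrt_nonneg _, fun j => ?_⟩
  refine Real.le_sqrt_of_sq_le ?_
  exact (h s).le_tsum j fun _ _ => sq_nonneg _

theorem InWs.inW {om om' : A.ι → ℝ} (hom : ∀ j, 0 ≤ om j) (hom' : ∀ j, 0 < om' j)
    (hs : Summable fun j => (om j / om' j) ^ 2) {u : A.ι → M → B.κ → ℂ} (h : InWs P om' u) :
    InW P om u := by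
  intro s
  obtain ⟨E, hE, h1⟩ := h s
  refine Summable.of_nonneg_of_le (fun j => sq_nonneg _) (fun j => ?_) (hs.mul_right (E ^ 2))
  rw [← mul_pow]
  refine pow_le_pow_left₀ (mul_nonneg (hom j) (Nj_nonneg u s j)) ?_ 2
  have h2 : om j * Nj P u s j = om j / om' j * (om' j * Nj P u s j) := by
    field_simp [(hom' j).ne']
  rw [h2]
  exact mul_le_mul_of_nonneg_left (h1 j) (div_nonneg (hom j) (hom' j).le)

theorem InW.mono {om om' : A.ι → ℝ} (hom : ∀ j, 0 ≤ om j) {c : ℝ} (h : ∀ j, om j ≤ c * om' j)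
    {u : A.ι → M → B.κ → ℂ} (hu : InW P om' u) : InW P om u := by
  intro s
  refine Summable.of_nonneg_of_le (fun j => sq_nonneg _) (fun j => ?_) ((hu s).mul_left (c ^ 2))
  rw [← mul_pow]
  refine pow_le_pow_left₀ (mul_nonneg (hom j) (Nj_nonneg u s j)) ?_ 2
  rw [← mul_assoc]
  exact mul_le_mul_of_nonneg_right (h j) (Nj_nonneg u s j)

/-- it suffices to know summability at level `0` -/
theorem UB.inW_of_zero (U : UB P B) (hu : u ∈ Sec B) (h0 : IsDeg B 0 u) (hn : nab B u = 0)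
    {om : A.ι → ℝ} (hom : ∀ j, 0 ≤ om j) {c : ℝ} (hc0 : 0 ≤ c)
    (hc : ∀ j, ∀ k ∈ U.nb j, om j ≤ c * om k) (hs : Summable fun j => (om j * Nj P u 0 j) ^ 2) :
    InW P om u := fun s =>
  (boot U.nbh hom hc0 hc (fun s j => Nj_nonneg u s j) U.cD_nonneg (U.step hu h0 hn) hs s).1

/-- **pointwise bounds imply weighted Sobolev bounds on all levels** -/
theorem UB.inWs_of_bound (U : UB P B) (hu : u ∈ Sec B) (h0 : IsDeg B 0 u) (hn : nab B u = 0)
    {om : A.ι → ℝ} (hom : ∀ j, 0 < om j) {c : ℝ} (hc0 : 0 ≤ c)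
    (hc : ∀ j, ∀ k ∈ U.nb j, om j ≤ c * om k) {E : ℝ} (hE : 0 ≤ E)
    (h : ∀ j, ∀ x ∈ tsupport (P.ψ j), om j * ‖(P.ψ j x : ℂ) • u j x‖ ≤ E) : InWs P om u := by
  intro s
  have hP : 0 ≤ ∏ t ∈ Finset.range s, ((1 + cK B * U.cb t) * c * U.m) :=
    Finset.prod_nonneg fun t _ => mul_nonneg (mul_nonneg (U.cD_nonneg t) hc0) (Nat.cast_nonneg _)
  refine ⟨(∏ t ∈ Finset.range s, ((1 + cK B * U.cb t) * c * U.m)) * (Fintype.card B.κ * E),
    mul_nonneg hP (mul_nonneg (Nat.cast_nonneg _) hE), fun j => ?_⟩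
  refine boot_sup (N := fun s j => Nj P u s j) U.nbh.card (fun j => (hom j).le) hc0 hc U.cD_nonneg
    (U.step hu h0 hn) (mul_nonneg (Nat.cast_nonneg _) hE) (fun k => ?_)
    (fun s j => Nj_nonneg u s j) s j
  have h1 : Nj P u 0 k ≤ Fintype.card B.κ * (E / om k) := by
    refine nrmv_zero_loc_psi_le P hu (div_nonneg hE (hom k).le) fun x hx => ?_
    rw [le_div_iff₀ (hom k), mul_comm]
    exact h k x hx
  calc om k * Nj P u 0 k ≤ om k * (Fintype.card B.κ * (E / om k)) :=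
        mul_le_mul_of_nonneg_left h1 (hom k).le
    _ = _ := by field_simp [(hom k).ne']

/-- **weighted Sobolev bounds imply pointwise bounds** -/
theorem UB.norm_le (U : UB P B) (hu : u ∈ Sec B) {om : A.ι → ℝ} (hom : ∀ j, 0 < om j) {E : ℝ}
    (hE : 0 ≤ E) (h : ∀ j, om j * Nj P u (n + 1) j ≤ E) {W : M → ℝ} {c : ℝ}
    (hW : ∀ j, ∀ x ∈ tsupport (P.χ j), (om j)⁻¹ ≤ c * W x) {i : A.ι} {x : M}
    (hx : x ∈ (A.e i).source) (hcW : 0 ≤ c * W x) :
    ‖u i x‖ ≤ cSob n * U.m * U.ct * E * c * W x := by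
  refine (norm_apply_le P hu hx).trans ?_
  have h1 : ∀ j ∈ act P x, msz (B.τ i j x) * nrmv (n + 1) (loc A j (sca B.κ (P.ψ j)) (u j)) ≤
      U.ct * (E * (c * W x)) := by
    intro j hj
    have hj' := (mem_act P).1 hj
    have h2 : Nj P u (n + 1) j ≤ E * (c * W x) := by
      calc Nj P u (n + 1) j = (om j * Nj P u (n + 1) j) * (om j)⁻¹ := by
            field_simp [(hom j).ne']
        _ ≤ E * (om j)⁻¹ := mul_le_mul_of_nonneg_right (h j) (inv_nonneg.2 (hom j).le)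
        _ ≤ E * (c * W x) := mul_le_mul_of_nonneg_left (hW j x hj') hE
    exact mul_le_mul (U.tau_bd i j x hx hj') h2 (nrmv_nonneg _ _) U.ct_nonneg
  have h3 : ∑ j ∈ act P x, msz (B.τ i j x) * nrmv (n + 1) (loc A j (sca B.κ (P.ψ j)) (u j)) ≤
      U.m * (U.ct * (E * (c * W x))) := by
    refine (Finset.sum_le_card_nsmul _ _ _ h1).trans ?_
    rw [nsmul_eq_mul]
    refine mul_le_mul_of_nonneg_right ?_ (mul_nonneg U.ct_nonneg (mul_nonneg hE hcW))
    exact_mod_cast U.card_act x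
  calc _ ≤ cSob n * (U.m * (U.ct * (E * (c * W x)))) :=
        mul_le_mul_of_nonneg_left h3 (cSob_nonneg n)
    _ = _ := by ring

end

end Crest.Agent.R275.Sup912
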