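import Crest.Agent.R275.TorB_812

/-!
R275 (helper763): reindexing of coordinates on smooth periodic functions is an isometry for every
Sobolev norm.
-/

set_option autoImplicit false
set_option linter.unusedSectionVars false

open Filter Topology Set Complex
open scoped ContDiff Real

namespace Crest.Agent.R275.SwTor763

open Crest.Agent.R275.Tor812

noncomputable section

variable {d : Type} [Fintype d]

/-- reindexing the coordinates -/
def reix (e : d ≃ d) : SPer d →ₗ[ℂ] SPer d where
  toFun f := ⟨fun x => f fun j => x (e j), (sm f).comp (contDiff_pi.2 fun j => contDiff_apply ℝ ℝ (e j)),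
    fun k x => per f (fun j => k (e j)) fun j => x (e j)⟩
  map_add' _ _ := rfl
  map_smul' _ _ := rfl

theorem reix_apply (e : d ≃ d) (f : SPer d) (x : d → ℝ) : reix e f x = f fun j => x (e j) := rfl

/-- the lattice automorphism -/
def lat (e : d ≃ d) : (d → ℤ) ≃ (d → ℤ) where
  toFun k j := k (e j)
  invFun k j := k (e.symm j)
  left_inv k := by funext j; simp
  right_inv k := by funext j; simp

theorem lat_apply (e : d ≃ d) (k : d → ℤ) (j : d) : lat e k j = k (e j) := rfl

theorem wt_lat (e : d ≃ d) (k : d → ℤ) : wt (lat e k) = wt k := by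
  unfold wt
  congr 1
  exact e.sum_comp fun i => (k i : ℝ) ^ 2

theorem ch_lat (e : d ≃ d) (k : d → ℤ) (x : d → ℝ) :
    ch (lat e k) (fun j => x (e j)) = ch k x := by
  unfold ch
  congr 2
  exact e.sum_comp fun i => (k i : ℂ) * (x i : ℂ)

theorem rapid_lat (e : d ≃ d) {a : (d → ℤ) → ℂ} (h : Rapid a) : Rapid fun k => a (lat e k) := by
  intro N
  obtain ⟨C, hC⟩ := h N
  exact ⟨C, fun k => by rw [← wt_lat e k]; exact hC _⟩

theorem fc_reix (e : d ≃ d) (f : SPer d) (k : d → ℤ) : fc (reix e f) k = fc f (lat e k) := by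
  have h : Rapid fun k => fc f (lat e k) := rapid_lat e (rapid_fc f)
  have h1 : reix e f = syn _ h := by
    refine SPer.ext fun x => ?_
    have h2 := syn_hasSum _ h x
    have h3 := hasSum_ch f fun j => x (e j)
    rw [← (lat e).hasSum_iff] at h3
    refine h3.unique ?_
    refine (funext fun k => ?_ : (fun k => fc f (lat e k) * ch k x) =
      (fun k => fc f k * ch k fun j => x (e j)) ∘ lat e) ▸ h2
    simp only [Function.comp]
    rw [ch_lat]
  rw [h1, fc_syn]

theorem nrm_reix (e : d ≃ d) (s : ℕ) (f : SPer d) : nrm s (reix e f) = nrm s f := by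
  have h := hasSum_nrm_sq s (reix e f)
  have h2 := hasSum_nrm_sq s f
  rw [← (lat e).hasSum_iff] at h2
  have h3 : nrm s (reix e f) ^ 2 = nrm s f ^ 2 := by
    refine h.unique ?_
    refine (funext fun k => ?_ : (fun k => wt k ^ s * ‖fc (reix e f) k‖ ^ 2) =
      (fun k => wt k ^ s * ‖fc f k‖ ^ 2) ∘ lat e) ▸ h2
    simp only [Function.comp]
    rw [wt_lat, fc_reix]
  exact (pow_left_inj₀ (nrm_nonneg _ _) (nrm_nonneg _ _) two_ne_zero).1 h3

end

end Crest.Agent.R275.SwTor763
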