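import Crest.Agent.R275.SBun2_798
import Crest.Agent.R275.NA5_861
import Crest.Agent.R275.SymBun_585

/-!
# R275, block I NOETHER, leaf NA12 (helper585): Clebsch–Gordan as an isomorphism of smooth bundles

`symIso0 : Sym^0 Ω ≅ 1`, `symIso1 : Sym^1 Ω ≅ Ω`,
`cgIso m : Ω ⊗ Sym^(m+1) Ω ≅ Sym^(m+2) Ω ⊕ K ⊗ Sym^m Ω` (helper798's `SB`, `SB.Iso`).
-/

set_option autoImplicit false
set_option linter.unusedSectionVars false

open Set Filter Topology Complex
open scoped ContDiff Matrix ComplexConjugate Kronecker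

namespace Crest.Agent.R275.SymIso585

open Geo Sym585 SymBun585 SB798 Smf798 KR798

noncomputable section

variable {n : ℕ} {M : Type} [TopologicalSpace M] {A : Atl n M}

/-- an isomorphism of cocycles given by constant matrices -/
def isoOfConst {E F : SB A} (a : Matrix F.ρ E.ρ ℂ) (b : Matrix E.ρ F.ρ ℂ)
    (hab : a * b = 1) (hba : b * a = 1)
    (h : ∀ i j, ∀ x ∈ (A.e i).source ∩ (A.e j).source, a * E.g i j x = F.g i j x * a) :
    SB.Iso E F where
  hom := ⟨fun _ _ => a, fun _ _ _ => contDiffOn_const, h⟩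
  inv := ⟨fun _ _ => b, fun _ _ _ => contDiffOn_const, fun i j x hx => by
    have h1 := congrArg (fun T => b * T * b) (h i j x hx)
    simp only [Matrix.mul_assoc] at h1
    rw [hab, Matrix.mul_one, ← Matrix.mul_assoc b a, hba, Matrix.one_mul] at h1
    exact h1.symm⟩
  hom_inv _ _ _ := hba
  inv_hom _ _ _ := hab

variable (G : Coc2 A)

/-- the rank two bundle itself as `SB` -/
def baseSB : SB A where
  ρ := Fin 2
  g := G.g
  g_smooth i j k l := G.sm i j k l
  g_self := G.self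
  g_mul := G.mul

def iso0 : SB.Iso (G.symV 0).sb (SB.one A) :=
  isoOfConst (E := (G.symV 0).sb) (F := SB.one A) (1 : Matrix (Fin 1) (Fin 1) ℂ)
    (1 : Matrix (Fin 1) (Fin 1) ℂ) (Matrix.one_mul _) (Matrix.one_mul _) fun i j x hx => by
    have h : (G.symV 0).sb.g i j x = (1 : Matrix (Fin 1) (Fin 1) ℂ) := G.symV_zero_g i j x
    rw [h]
    rfl

def iso1 : SB.Iso (G.symV 1).sb (baseSB G) :=
  isoOfConst (E := (G.symV 1).sb) (F := baseSB G) (1 : Matrix (Fin 2) (Fin 2) ℂ)
    (1 : Matrix (Fin 2) (Fin 2) ℂ) (Matrix.one_mul _) (Matrix.one_mul _) fun i j x hx => by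
    have h : (G.symV 1).sb.g i j x = G.g i j x := G.symV_one_g i j x
    rw [h]
    exact (Matrix.one_mul _).trans (Matrix.mul_one _).symm

/-- removing the factor `Unit` -/
def uE (m : ℕ) : Fin (m + 3) ⊕ (Unit × Fin (m + 1)) ≃ Fin (m + 3) ⊕ Fin (m + 1) :=
  Equiv.sumCongr (Equiv.refl _) (Equiv.punitProd _)

theorem c2 (m : ℕ) : (((m : ℂ) + 2)⁻¹) * ((m : ℂ) + 2) = 1 := by
  refine inv_mul_cancel₀ ?_
  have : ((m + 2 : ℕ) : ℂ) ≠ 0 := Nat.cast_ne_zero.2 (by omega)
  push_cast at this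
  exact this

theorem blocks_reindex (m : ℕ) (S : Matrix (Fin (m + 3)) (Fin (m + 3)) ℂ)
    (T : Matrix (Fin (m + 1)) (Fin (m + 1)) ℂ) (d : ℂ) :
    Matrix.fromBlocks S 0 0 ((Matrix.of fun _ _ : Unit => d) ⊗ₖ T)
      = (Matrix.fromBlocks S 0 0 (d • T)).submatrix (uE m) (uE m) := by
  ext (a | ⟨u, a⟩) (b | ⟨v, b⟩) <;> simp [uE, Matrix.kroneckerMap_apply]

/-- **Clebsch–Gordan** -/
def cgIso (m : ℕ) : SB.Iso ((baseSB G).mul (G.symV (m + 1)).sb)
    ((G.symV (m + 2)).sb.sum (G.detV.sb.mul (G.symV m).sb)) :=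
  isoOfConst (E := (baseSB G).mul (G.symV (m + 1)).sb)
    (F := (G.symV (m + 2)).sb.sum (G.detV.sb.mul (G.symV m).sb))
    ((cgA ℂ m).submatrix (uE m) id) ((cgB m (((m : ℂ) + 2)⁻¹)).submatrix id (uE m))
    (by
      have h := Matrix.submatrix_mul (cgA ℂ m) (cgB m (((m : ℂ) + 2)⁻¹)) (uE m) id (uE m)
        Function.bijective_id
      rw [cgA_mul_cgB m (c2 m), Matrix.submatrix_one_equiv] at h
      exact h.symm)
    (by
      have h := Matrix.submatrix_mul_equiv (cgB m (((m : ℂ) + 2)⁻¹)) (cgA ℂ m) id (uE m) id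
      rw [cgB_mul_cgA m (c2 m), Matrix.submatrix_id_id] at h
      exact h)
    fun i j x _ => by
      have h := cgA_mul_kron m (c2 m) (G.g i j x)
      have e1 : (((G.symV (m + 2)).sb.sum (G.detV.sb.mul (G.symV m).sb)).g i j x)
          = (Matrix.fromBlocks (sym (m + 2) (G.g i j x)) 0 0
            ((G.g i j x).det • sym m (G.g i j x))).submatrix (uE m) (uE m) :=
        blocks_reindex m _ _ _
      rw [e1]
      have e2 : (((baseSB G).mul (G.symV (m + 1)).sb).g i j x)
          = G.g i j x ⊗ₖ sym (m + 1) (G.g i j x) := rfl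
      rw [e2]
      have h1 := Matrix.submatrix_mul (cgA ℂ m) (G.g i j x ⊗ₖ sym (m + 1) (G.g i j x)) (uE m) id id
        Function.bijective_id
      have h2 := Matrix.submatrix_mul_equiv (Matrix.fromBlocks (sym (m + 2) (G.g i j x)) 0 0
            ((G.g i j x).det • sym m (G.g i j x))) (cgA ℂ m) (uE m) (uE m) id
      rw [Matrix.submatrix_id_id] at h1
      refine h1.symm.trans ?_
      rw [h]
      exact h2.symm

/-! ### classes in the ring of an index -/

section cls

variable [CompactSpace M] (P : Part A) (I : KIndex (smf A))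

theorem c_iso {E F : SB A} (φ : SB.Iso E F) :
    I.c (pr P E) (pr_idem P E) = I.c (pr P F) (pr_idem P F) :=
  I.c_congr _ _ (isoM_of_iso P φ)

theorem c_sum (E F : SB A) : I.c (pr P (E.sum F)) (pr_idem P _)
    = I.c (pr P E) (pr_idem P E) + I.c (pr P F) (pr_idem P F) :=
  (I.c_congr _ _ (isoM_sum P E F)).trans (I.c_blocks (pr_idem P E) (pr_idem P F))

theorem c_tensor (E F : SB A) : I.c (pr P (E.mul F)) (pr_idem P _)
    = I.c (pr P E) (pr_idem P E) * I.c (pr P F) (pr_idem P F) :=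
  (I.c_congr _ _ (isoM_mul P E F)).trans (I.c_mul (pr_idem P E) (pr_idem P F)).symm

theorem c_unit : I.c (pr P (SB.one A)) (pr_idem P _) = 1 :=
  (I.c_congr _ one_idem (isoM_one P)).trans I.c_one

/-- class of `Sym^m` -/
def S (m : ℕ) : I.Rg := I.c (pr P (G.symV m).sb) (pr_idem P _)

/-- class of the determinant -/
def K : I.Rg := I.c (pr P G.detV.sb) (pr_idem P _)

/-- class of the rank two bundle -/
def Om : I.Rg := I.c (pr P (baseSB G)) (pr_idem P _)

theorem S_zero : S G P I 0 = 1 := (c_iso P I (iso0 G)).trans (c_unit P I)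

theorem S_one : S G P I 1 = Om G P I := c_iso P I (iso1 G)

/-- hypothesis `hS` of helper861's `ind_sym` / helper798's `sym_formula` -/
theorem S_rec (m : ℕ) :
    S G P I (m + 2) + K G P I * S G P I m = Om G P I * S G P I (m + 1) := by
  unfold S K Om
  rw [← c_tensor, ← c_tensor, ← c_sum]
  exact (c_iso P I (cgIso G m)).symm

/-- the index of `Sym^m ⊗ y` (helper861's `ind_sym` for our classes) -/
theorem ind_S (h3 : (K G P I - 1) ^ 3 = 0)
    (hkP : (K G P I - 1) * (1 - Om G P I + K G P I) = 0)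
    (hP2 : (1 - Om G P I + K G P I) ^ 2 = 0) (y : I.Rg) (chi K2 e : ℤ)
    (hchi : I.data.indR y = chi) (hk : I.data.indR ((K G P I - 1) * y) = 0)
    (hk2 : I.data.indR ((K G P I - 1) ^ 2 * y) = K2)
    (hP : I.data.indR ((1 - Om G P I + K G P I) * y) = e) (m : ℕ) :
    I.data.indR (S G P I m * y)
      = (m + 1) * chi + K2 * ((m + 1).choose 3 : ℕ) - e * ((m + 2).choose 3 : ℕ) :=
  NA5861.ind_sym (Om G P I) (K G P I) y (S G P I) (S_zero G P I) (S_one G P I) (S_rec G P I)
    h3 hkP hP2 I.data.indR chi K2 e hchi hk hk2 hP m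

end cls

theorem om_sb (A : Atl 2 M) : (OmT75.Om1 A).sb = baseSB (coc A) := rfl

end

end Crest.Agent.R275.SymIso585
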