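import Crest.Agent.R275.Rk2_798
import Crest.Agent.R275.SymIso_585

/-!
# R275, block I NOETHER, NA12/NA5 (helper585): the index of `Sym^m Ω¹` on a compact surface

All relations of helper861's `ind_sym` hold in the ring of classes for every holomorphic rank two
cocycle `G : Coc2 A`, `A : Atl 2 M`, `M` compact: `ind_Sm`.
-/

set_option autoImplicit false
set_option linter.unusedSectionVars false

open Set Filter Topology Complex
open scoped ContDiff Matrix ComplexConjugate Kronecker

namespace Crest.Agent.R275.SymRel585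

open Geo Sym585 SymBun585 SymIso585 SB798 Smf798 KR798

noncomputable section

variable {n : ℕ} {M : Type} [TopologicalSpace M]

def u1 : Matrix (Fin 1) Unit ℂ := Matrix.of fun _ _ => 1
def u2 : Matrix Unit (Fin 1) ℂ := Matrix.of fun _ _ => 1

theorem u12 : u1 * u2 = 1 := by
  ext a b
  rw [Matrix.mul_apply, Subsingleton.elim a b, Matrix.one_apply_eq]
  simp [u1, u2]

theorem u21 : u2 * u1 = 1 := by
  ext a b
  rw [Matrix.mul_apply, Subsingleton.elim a b, Matrix.one_apply_eq]
  simp [u1, u2]

theorem u1c (d : ℂ) : u1 * (Matrix.of fun _ _ : Unit => d) = cM d * u1 := by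
  ext a b
  rw [Matrix.mul_apply, Matrix.mul_apply]
  simp [u1]

/-- our determinant bundle is helper798's -/
def isoDet {A : Atl n M} (G : Coc2 A) :
    SB.Iso G.detV.sb (detB (baseSB G) (Equiv.refl (Fin 2))) :=
  isoOfConst (E := G.detV.sb) (F := detB (baseSB G) (Equiv.refl (Fin 2))) u1 u2 u12 u21
    fun i j x _ => u1c (G.g i j x).det

variable [CompactSpace M]

theorem K_eq {A : Atl n M} (G : Coc2 A) (P : Part A) (I : KIndex (smf A)) :
    K G P I = cE P I (detB (baseSB G) (Equiv.refl (Fin 2))) := cE_congr (isoDet G)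

theorem K_eq' {A : Atl n M} (G : Coc2 A) (P : Part A) (I : KIndex (smf A)) :
    K G P I = cE P I G.detV.sb := rfl

theorem Om_eq {A : Atl n M} (G : Coc2 A) (P : Part A) (I : KIndex (smf A)) :
    Om G P I = cE P I (baseSB G) := rfl

theorem S_eq {A : Atl n M} (G : Coc2 A) (P : Part A) (I : KIndex (smf A)) (m : ℕ) :
    S G P I m = cE P I (G.symV m).sb := rfl

instance {A : Atl n M} (G : Coc2 A) : Unique G.detV.sb.ρ := inferInstanceAs (Unique Unit)

section surface

variable {A : Atl 2 M} (G : Coc2 A) (P : Part A) (I : KIndex (smf A))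

theorem rel1 : (K G P I - 1) ^ 3 = 0 := by
  have h := cubic_E (P := P) (I := I) G.detV.sb G.detV.sb G.detV.sb
  rw [← K_eq'] at h
  linear_combination -h

theorem rel2 : (K G P I - 1) * (1 - Om G P I + K G P I) = 0 := by
  have h := rel_rk2_line (P := P) (I := I) (baseSB G) (Equiv.refl (Fin 2)) G.detV.sb
  rw [← K_eq', ← K_eq, ← Om_eq] at h
  linear_combination -h

theorem rel3 : (1 - Om G P I + K G P I) ^ 2 = 0 := by
  have h := rel_rk2_rk2 (P := P) (I := I) (baseSB G) (Equiv.refl (Fin 2)) (baseSB G)
    (Equiv.refl (Fin 2))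
  rw [← K_eq, ← Om_eq] at h
  linear_combination h

/-- **index of `Sym^m Ω ⊗ y`** on a compact surface -/
theorem ind_Sm (y : I.Rg) (chi K2 e : ℤ)
    (hchi : I.data.indR y = chi) (hk : I.data.indR ((K G P I - 1) * y) = 0)
    (hk2 : I.data.indR ((K G P I - 1) ^ 2 * y) = K2)
    (hP : I.data.indR ((1 - Om G P I + K G P I) * y) = e) (m : ℕ) :
    I.data.indR (S G P I m * y)
      = (m + 1) * chi + K2 * ((m + 1).choose 3 : ℕ) - e * ((m + 2).choose 3 : ℕ) :=
  ind_S G P I (rel1 G P I) (rel2 G P I) (rel3 G P I) y chi K2 e hchi hk hk2 hP m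

/-- the same without twist, in terms of helper798's `indE` -/
theorem indE_symV (hk : indE P I G.detV.sb = indE P I (SB.one A)) (m : ℕ) :
    indE P I (G.symV m).sb
      = (m + 1) * indE P I (SB.one A)
        + (indE P I (G.detV.sb.mul G.detV.sb) - indE P I (SB.one A)) * ((m + 1).choose 3 : ℕ)
        - (2 * indE P I (SB.one A) - indE P I (baseSB G)) * ((m + 2).choose 3 : ℕ) := by
  have h1 : cE P I (SB.one A) = 1 := cE_one
  have h := ind_Sm G P I 1 (indE P I (SB.one A))
    (indE P I (G.detV.sb.mul G.detV.sb) - indE P I (SB.one A))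
    (2 * indE P I (SB.one A) - indE P I (baseSB G)) (by rw [indE, h1])
    (by
      rw [mul_one, map_sub]
      have : I.data.indR (K G P I) = indE P I G.detV.sb := rfl
      rw [this, hk, indE, h1, sub_self])
    (by
      have e1 : (K G P I - 1) ^ 2 * 1 = cE P I (G.detV.sb.mul G.detV.sb)
          - K G P I - K G P I + cE P I (SB.one A) := by
        rw [cE_mul, ← K_eq', h1]; ring
      rw [e1, map_add, map_sub, map_sub]
      have : I.data.indR (K G P I) = indE P I (SB.one A) := hk
      rw [this]
      unfold indE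
      ring)
    (by
      have e1 : (1 - Om G P I + K G P I) * 1 = cE P I (SB.one A) - Om G P I + K G P I := by
        rw [h1]; ring
      rw [e1, map_add, map_sub]
      have h2 : I.data.indR (K G P I) = indE P I (SB.one A) := hk
      rw [h2]
      unfold indE
      rw [Om_eq]
      ring) m
  rw [mul_one] at h
  exact h

end surface

end

end Crest.Agent.R275.SymRel585
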