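/-
R275 / S0418, block K (topology): normalisation of the orientation functional, pointwise part
(helper412).  For functions `h j` (`j < 4`) and a cut-off `κ` the partition
`rho (some s) = κ ∏_j (h_j or 1 - h_j)`, `rho none = 1 - κ`, and the label cochain `TL`:
* `sum_box` : where `κ = 1` the integrand is `det (dh_0, ..., dh_3)`;
* `sum_off` : where some `h j` is locally constant `0` or `1` the integrand vanishes.
-/
import Crest.Agent.R275.OAJ_627

set_option autoImplicit false
set_option linter.unusedSectionVars false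

open Set Filter Topology MeasureTheory
open scoped ContDiff

namespace Crest.Agent.R275.TauS412

open StkR627 OAt627 OAJ627 OAJ627.OA

noncomputable section

/-- the value of a sign -/
def bt (b : Bool) : ℝ := if b then 1 else 0

@[simp] theorem bt_true : bt true = 1 := rfl
@[simp] theorem bt_false : bt false = 0 := by simp [bt]

/-- the label cochain of the class of a point -/
def TL : List (Option (Fin 4 → Bool)) → ℝ
  | [some a, some b, some c, some d, some e] =>
    (bt (b 0) - bt (a 0)) * (bt (c 1) - bt (b 1)) * (bt (d 2) - bt (c 2)) * (bt (e 3) - bt (d 3))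
  | _ => 0

theorem TL_some (a b c d e : Fin 4 → Bool) : TL [some a, some b, some c, some d, some e] =
    (bt (b 0) - bt (a 0)) * (bt (c 1) - bt (b 1)) * (bt (d 2) - bt (c 2)) *
      (bt (e 3) - bt (d 3)) := rfl

theorem TL_none {l : List (Option (Fin 4 → Bool))} (h : none ∈ l) : TL l = 0 := by
  unfold TL
  split
  · simp at h
  · rfl

theorem TL_len {l : List (Option (Fin 4 → Bool))} (h : l.length ≠ 5) : TL l = 0 := by
  unfold TL
  split
  · simp at h
  · rfl

/-- the `i`-th factors -/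
theorem TL_eq_zero (v : Fin 5 → Option (Fin 4 → Bool)) (j : Fin 4) (c : Bool)
    (h : ∀ i s, v i = some s → s j = c) : TL (List.ofFn v) = 0 := by
  by_cases hn : ∀ i, v i ≠ none
  · choose s hs using fun i => Option.ne_none_iff_exists'.1 (hn i)
    have e : List.ofFn v = [some (s 0), some (s 1), some (s 2), some (s 3), some (s 4)] := by
      simp [List.ofFn_succ, hs]
    rw [e, TL_some]
    have hc : ∀ i, s i j = c := fun i => h i (s i) (hs i)
    fin_cases j <;> simp_all
  · push Not at hn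
    obtain ⟨i, hi⟩ := hn
    exact TL_none (List.mem_ofFn.2 ⟨i, hi⟩)

section sums

variable {T : Type} [Fintype T]

theorem sum_cons {n : ℕ} (f : (Fin (n + 1) → T) → ℝ) :
    ∑ v, f v = ∑ t, ∑ w : Fin n → T, f (Fin.cons t w) := by
  rw [← (Fin.consEquiv (fun _ => T)).sum_comp, Fintype.sum_prod_type]
  rfl

theorem sum_five (f : (Fin 5 → T) → ℝ) :
    ∑ v, f v = ∑ t0, ∑ t1, ∑ t2, ∑ t3, ∑ t4, f ![t0, t1, t2, t3, t4] := by
  rw [sum_cons]
  refine Finset.sum_congr rfl fun t0 _ => ?_
  rw [sum_cons]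
  refine Finset.sum_congr rfl fun t1 _ => ?_
  rw [sum_cons]
  refine Finset.sum_congr rfl fun t2 _ => ?_
  rw [sum_cons]
  refine Finset.sum_congr rfl fun t3 _ => ?_
  rw [sum_cons]
  refine Finset.sum_congr rfl fun t4 _ => ?_
  rw [Fintype.sum_unique]
  rfl

end sums

/-! ### the algebra of one point -/

section alg

variable (D : Rn 4 [⋀^Fin 4]→ₗ[ℝ] ℝ)

theorem D_sum {S : Type} [Fintype S] (w : Fin 4 → Rn 4) (i : Fin 4) (c : S → ℝ) (f : S → Rn 4) :
    ∑ s, c s * D (Function.update w i (f s)) = D (Function.update w i (∑ s, c s • f s)) := by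
  have h := D.toMultilinearMap.map_update_sum Finset.univ i (fun s => c s • f s) w
  have h' : D (Function.update w i (∑ s, c s • f s)) =
      ∑ s, D (Function.update w i (c s • f s)) := h
  rw [h']
  refine Finset.sum_congr rfl fun s _ => ?_
  rw [AlternatingMap.map_update_smul, smul_eq_mul]

variable {S : Type} [Fintype S] {d : S → Rn 4} {b : Fin 4 → S → ℝ} {dh : Fin 4 → Rn 4}

theorem slot (hd : ∑ s, d s = 0) (hb : ∀ j, ∑ s, b j s • d s = dh j) (w : Fin 4 → Rn 4)
    (i : Fin 4) (c : ℝ) :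
    ∑ s, (b i s - c) * D (Function.update w i (d s)) = D (Function.update w i (dh i)) := by
  rw [D_sum]
  congr 2
  simp_rw [sub_smul]
  rw [Finset.sum_sub_distrib, hb, ← Finset.smul_sum, hd, smul_zero, sub_zero]

theorem up0 (a0 a1 a2 a3 : Rn 4) :
    (![a0, a1, a2, a3] : Fin 4 → Rn 4) = Function.update ![0, a1, a2, a3] 0 a0 := by
  funext i; fin_cases i <;> simp [Function.update]

theorem up1 (a0 a1 a2 a3 : Rn 4) :
    (![a0, a1, a2, a3] : Fin 4 → Rn 4) = Function.update ![a0, 0, a2, a3] 1 a1 := by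
  funext i; fin_cases i <;> simp [Function.update]

theorem up2 (a0 a1 a2 a3 : Rn 4) :
    (![a0, a1, a2, a3] : Fin 4 → Rn 4) = Function.update ![a0, a1, 0, a3] 2 a2 := by
  funext i; fin_cases i <;> simp [Function.update]

theorem up3 (a0 a1 a2 a3 : Rn 4) :
    (![a0, a1, a2, a3] : Fin 4 → Rn 4) = Function.update ![a0, a1, a2, 0] 3 a3 := by
  funext i; fin_cases i <;> simp [Function.update]

theorem sum_alg {a : S → ℝ} (ha : ∑ s, a s = 1) (hd : ∑ s, d s = 0)
    (hb : ∀ j, ∑ s, b j s • d s = dh j) :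
    ∑ s0, ∑ s1, ∑ s2, ∑ s3, ∑ s4, (b 0 s1 - b 0 s0) * (b 1 s2 - b 1 s1) * (b 2 s3 - b 2 s2) *
      (b 3 s4 - b 3 s3) * (a s0 * D ![d s1, d s2, d s3, d s4]) = D ![dh 0, dh 1, dh 2, dh 3] := by
  have e3 : ∀ s0 s1 s2 s3, ∑ s4, (b 0 s1 - b 0 s0) * (b 1 s2 - b 1 s1) * (b 2 s3 - b 2 s2) *
      (b 3 s4 - b 3 s3) * (a s0 * D ![d s1, d s2, d s3, d s4]) =
      (b 0 s1 - b 0 s0) * (b 1 s2 - b 1 s1) * (b 2 s3 - b 2 s2) *
        (a s0 * D ![d s1, d s2, d s3, dh 3]) := by
    intro s0 s1 s2 s3
    rw [up3 _ _ _ (dh 3), ← slot D hd hb _ 3 (b 3 s3), Finset.mul_sum, Finset.mul_sum]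
    refine Finset.sum_congr rfl fun s4 _ => ?_
    rw [up3 _ _ _ (d s4)]
    ring
  have e2 : ∀ s0 s1 s2, ∑ s3, (b 0 s1 - b 0 s0) * (b 1 s2 - b 1 s1) * (b 2 s3 - b 2 s2) *
        (a s0 * D ![d s1, d s2, d s3, dh 3]) =
      (b 0 s1 - b 0 s0) * (b 1 s2 - b 1 s1) * (a s0 * D ![d s1, d s2, dh 2, dh 3]) := by
    intro s0 s1 s2
    rw [up2 _ _ (dh 2), ← slot D hd hb _ 2 (b 2 s2), Finset.mul_sum, Finset.mul_sum]
    refine Finset.sum_congr rfl fun s3 _ => ?_
    rw [up2 _ _ (d s3)]
    ring
  have e1 : ∀ s0 s1, ∑ s2, (b 0 s1 - b 0 s0) * (b 1 s2 - b 1 s1) *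
        (a s0 * D ![d s1, d s2, dh 2, dh 3]) =
      (b 0 s1 - b 0 s0) * (a s0 * D ![d s1, dh 1, dh 2, dh 3]) := by
    intro s0 s1
    rw [up1 _ (dh 1), ← slot D hd hb _ 1 (b 1 s1), Finset.mul_sum, Finset.mul_sum]
    refine Finset.sum_congr rfl fun s2 _ => ?_
    rw [up1 _ (d s2)]
    ring
  have e0 : ∀ s0, ∑ s1, (b 0 s1 - b 0 s0) * (a s0 * D ![d s1, dh 1, dh 2, dh 3]) =
      a s0 * D ![dh 0, dh 1, dh 2, dh 3] := by
    intro s0
    rw [up0 (dh 0), ← slot D hd hb _ 0 (b 0 s0), Finset.mul_sum]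
    refine Finset.sum_congr rfl fun s1 _ => ?_
    rw [up0 (d s1)]
    ring
  simp_rw [e3, e2, e1, e0]
  rw [← Finset.sum_mul, ha, one_mul]

end alg

/-! ### the partition -/

section part

variable {M : Type*} [TopologicalSpace M]

/-- products of `h j` and `1 - h j` -/
def us (h : Fin 4 → M → ℝ) (s : Fin 4 → Bool) (x : M) : ℝ :=
  ∏ j, if s j then h j x else 1 - h j x

/-- the partition -/
def rho (κ : M → ℝ) (h : Fin 4 → M → ℝ) : Option (Fin 4 → Bool) → M → ℝ
  | none => fun x => 1 - κ x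
  | some s => fun x => κ x * us h s x

theorem sum_prod (g : Fin 4 → Bool → ℝ) : ∑ s : Fin 4 → Bool, ∏ j, g j (s j) =
    ∏ j, (g j true + g j false) := by
  have h := Finset.prod_univ_sum (fun _ : Fin 4 => (Finset.univ : Finset Bool)) g
  rw [Fintype.piFinset_univ] at h
  rw [← h]
  refine Finset.prod_congr rfl fun j _ => ?_
  simp

theorem sum_us (h : Fin 4 → M → ℝ) (x : M) : ∑ s, us h s x = 1 := by
  unfold us
  have := sum_prod fun j b => if b then h j x else 1 - h j x
  rw [this]
  simp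

theorem sum_bt_us (h : Fin 4 → M → ℝ) (x : M) (k : Fin 4) :
    ∑ s : Fin 4 → Bool, bt (s k) * us h s x = h k x := by
  have e : ∀ s : Fin 4 → Bool, bt (s k) * us h s x =
      ∏ j, (if j = k then bt (s j) else 1) * (if s j then h j x else 1 - h j x) := by
    intro s
    rw [Finset.prod_mul_distrib, Finset.prod_ite_eq' Finset.univ k]
    simp [us]
  simp_rw [e]
  have := sum_prod fun j b => (if j = k then bt b else 1) * (if b then h j x else 1 - h j x)
  rw [this, ← Finset.mul_prod_erase _ _ (Finset.mem_univ k)]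
  rw [Finset.prod_eq_one fun j hj => ?_]
  · simp
  · rw [if_neg (Finset.ne_of_mem_erase hj), if_neg (Finset.ne_of_mem_erase hj)]
    simp

theorem sum_rho (κ : M → ℝ) (h : Fin 4 → M → ℝ) (x : M) : ∑ t, rho κ h t x = 1 := by
  rw [Fintype.sum_option]
  simp only [rho]
  rw [← Finset.mul_sum, sum_us]
  ring

theorem us_eq_zero {h : Fin 4 → M → ℝ} {s : Fin 4 → Bool} {x : M} {j : Fin 4} {c : Bool}
    (hc : h j x = bt c) (hs : s j ≠ c) : us h s x = 0 := by
  refine Finset.prod_eq_zero (Finset.mem_univ j) ?_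
  cases c
  · have : s j = true := by simpa using hs
    simp [this, hc]
  · have : s j = false := by simpa using hs
    simp [this, hc]

variable {e : Ch 4 M} {h : Fin 4 → M → ℝ} {κ : M → ℝ}

theorem smO_prod {e : Ch 4 M} {ι : Type*} (S : Finset ι) {f : ι → M → ℝ} (hf : ∀ i ∈ S, SmO e (f i)) :
    SmO e (fun x => ∏ i ∈ S, f i x) := by
  classical
  induction S using Finset.induction_on with
  | empty => simpa using smO_const e 1
  | insert a S ha ih =>
    simp only [Finset.prod_insert ha]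
    exact (hf a (Finset.mem_insert_self a S)).mul (ih fun i hi => hf i (Finset.mem_insert_of_mem hi))

theorem smO_us (hh : ∀ j, SmO e (h j)) (s : Fin 4 → Bool) : SmO e (us h s) := by
  refine smO_prod Finset.univ fun j _ => ?_
  by_cases hs : s j
  · simp only [hs, if_true]; exact hh j
  · simp only [hs]
    exact (smO_const e 1).sub (hh j)

theorem smO_rho (hh : ∀ j, SmO e (h j)) (hκ : SmO e κ) (t : Option (Fin 4 → Bool)) :
    SmO e (rho κ h t) := by
  cases t with
  | none => exact (smO_const e 1).sub hκ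
  | some s => exact hκ.mul (smO_us hh s)

/-- **the integrand where `κ = 1`** -/
theorem sum_box {y : Rn 4} (hy : y ∈ e.target) (hh : ∀ j, SmO e (h j))
    (hκ : ∀ᶠ x in 𝓝 (e.symm y), κ x = 1) :
    ∑ v : Fin 5 → Option (Fin 4 → Bool), TL (List.ofFn v) * W e (fun i => rho κ h (v i)) y =
      Dt e h y := by
  have hd : ∀ s, der e (rho κ h (some s)) y = der e (us h s) y := fun s => by
    refine der_congr hy ?_
    filter_upwards [hκ] with x hx
    simp [rho, hx]
  have h0 : ∀ s, rho κ h (some s) (e.symm y) = us h s (e.symm y) := fun s => by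
    simp [rho, hκ.self_of_nhds]
  have hD : ∑ s, der e (us h s) y = 0 := by
    rw [← der_sum _ (fun s _ => smO_us hh s) hy]
    have : (fun x => ∑ s, us h s x) = fun _ => (1 : ℝ) := funext fun x => sum_us h x
    rw [this, der_const]
  have hB : ∀ j, ∑ s : Fin 4 → Bool, bt (s j) • der e (us h s) y = der e (h j) y := by
    intro j
    have h1 : ∀ s : Fin 4 → Bool, bt (s j) • der e (us h s) y =
        der e (fun x => bt (s j) * us h s x) y := fun s => (der_const_mul _ (smO_us hh s) hy).symm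
    simp_rw [h1]
    rw [← der_sum _ (fun s _ => (smO_us hh s).const_mul _) hy]
    have : (fun x => ∑ s : Fin 4 → Bool, bt (s j) * us h s x) = h j :=
      funext fun x => sum_bt_us h x j
    rw [this]
  have hA : ∑ s, us h s (e.symm y) = 1 := sum_us h _
  have key := sum_alg (Matrix.detRowAlternating : Rn 4 [⋀^Fin 4]→ₗ[ℝ] ℝ)
    (b := fun j (s : Fin 4 → Bool) => bt (s j)) hA hD hB
  have hfin : Dt e h y = (Matrix.detRowAlternating : Rn 4 [⋀^Fin 4]→ₗ[ℝ] ℝ)
      ![der e (h 0) y, der e (h 1) y, der e (h 2) y, der e (h 3) y] := by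
    unfold Dt
    congr 1
    funext i
    fin_cases i <;> rfl
  rw [hfin, ← key, sum_five]
  have hW : ∀ s0 s1 s2 s3 s4 : Fin 4 → Bool,
      W e (fun i => rho κ h ((![some s0, some s1, some s2, some s3, some s4] :
        Fin 5 → Option (Fin 4 → Bool)) i)) y =
      us h s0 (e.symm y) * (Matrix.detRowAlternating : Rn 4 [⋀^Fin 4]→ₗ[ℝ] ℝ)
        ![der e (us h s1) y, der e (us h s2) y, der e (us h s3) y, der e (us h s4) y] := by
    intro s0 s1 s2 s3 s4
    unfold W Dt
    congr 1
    · exact h0 s0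
    · congr 1
      funext i
      fin_cases i
      · exact hd s1
      · exact hd s2
      · exact hd s3
      · exact hd s4
  have hz : ∀ v : Fin 5 → Option (Fin 4 → Bool), (∃ i, v i = none) →
      TL (List.ofFn v) * W e (fun i => rho κ h (v i)) y = 0 := by
    rintro v ⟨i, hi⟩
    rw [TL_none (List.mem_ofFn.2 ⟨i, hi⟩), zero_mul]
  rw [Fintype.sum_option]
  rw [Finset.sum_eq_zero fun t1 _ => Finset.sum_eq_zero fun t2 _ => Finset.sum_eq_zero fun t3 _ =>
    Finset.sum_eq_zero fun t4 _ => hz _ ⟨0, rfl⟩, zero_add]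
  refine Finset.sum_congr rfl fun s0 _ => ?_
  rw [Fintype.sum_option]
  rw [Finset.sum_eq_zero fun t2 _ => Finset.sum_eq_zero fun t3 _ =>
    Finset.sum_eq_zero fun t4 _ => hz _ ⟨1, rfl⟩, zero_add]
  refine Finset.sum_congr rfl fun s1 _ => ?_
  rw [Fintype.sum_option]
  rw [Finset.sum_eq_zero fun t3 _ => Finset.sum_eq_zero fun t4 _ => hz _ ⟨2, rfl⟩, zero_add]
  refine Finset.sum_congr rfl fun s2 _ => ?_
  rw [Fintype.sum_option]
  rw [Finset.sum_eq_zero fun t4 _ => hz _ ⟨3, rfl⟩, zero_add]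
  refine Finset.sum_congr rfl fun s3 _ => ?_
  rw [Fintype.sum_option, hz _ ⟨4, rfl⟩, zero_add]
  refine Finset.sum_congr rfl fun s4 _ => ?_
  rw [hW]
  rfl

/-- **the integrand where one of the functions `h j` is locally `0` or `1`** -/
theorem sum_off {y : Rn 4} (hy : y ∈ e.target) {j : Fin 4} {c : Bool}
    (hj : ∀ᶠ x in 𝓝 (e.symm y), h j x = bt c) :
    ∑ v : Fin 5 → Option (Fin 4 → Bool), TL (List.ofFn v) * W e (fun i => rho κ h (v i)) y =
      0 := by
  refine Finset.sum_eq_zero fun v _ => ?_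
  by_cases hv : ∀ i s, v i = some s → s j = c
  · rw [TL_eq_zero v j c hv, zero_mul]
  · push Not at hv
    obtain ⟨i, s, hi, hs⟩ := hv
    rw [W_eq_zero hy (k := i), mul_zero]
    rw [hi]
    refine notMem_tsupport_iff_eventuallyEq.2 ?_
    filter_upwards [hj] with x hx
    simp [rho, us_eq_zero hx hs]

/-- `κ = 0` near the point -/
theorem sum_kap {y : Rn 4} (hy : y ∈ e.target) (hκ : e.symm y ∉ tsupport κ) :
    ∑ v : Fin 5 → Option (Fin 4 → Bool), TL (List.ofFn v) * W e (fun i => rho κ h (v i)) y =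
      0 := by
  refine Finset.sum_eq_zero fun v _ => ?_
  by_cases hv : v 0 = none
  · rw [TL_none (List.mem_ofFn.2 ⟨0, hv⟩), zero_mul]
  · obtain ⟨s, hs⟩ := Option.ne_none_iff_exists'.1 hv
    rw [W_eq_zero hy (k := 0), mul_zero]
    rw [hs]
    refine notMem_tsupport_iff_eventuallyEq.2 ?_
    filter_upwards [notMem_tsupport_iff_eventuallyEq.1 hκ] with x hx
    simp [rho, hx]

end part

/-! ### product functions in a chart -/

section prodf

variable {M : Type*} [TopologicalSpace M] {e : Ch 4 M}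

/-- `h j x = st (e x j - c j)` near the point: the determinant is the product -/
theorem Dt_prod {st : ℝ → ℝ} (hst : Differentiable ℝ st) {c : Rn 4} {h : Fin 4 → M → ℝ}
    {y : Rn 4} (hy : y ∈ e.target)
    (hh : ∀ j, ∀ᶠ x in 𝓝 (e.symm y), h j x = st (e x j - c j)) :
    Dt e h y = ∏ j, deriv st (y j - c j) := by
  have hd : ∀ j, der e (h j) y = Pi.single j (deriv st (y j - c j)) := by
    intro j
    funext b
    have h1 : (fun z => h j (e.symm z)) =ᶠ[𝓝 y] fun z => st (z j - c j) := by
      filter_upwards [(e.continuousAt_symm hy).eventually (hh j), e.open_target.mem_nhds hy] with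
        z hz hz'
      rw [hz, e.right_inv hz']
    have h2 : HasFDerivAt (fun z : Rn 4 => st (z j - c j))
        ((ContinuousLinearMap.smulRight (1 : ℝ →L[ℝ] ℝ) (deriv st (y j - c j))).comp
          (ContinuousLinearMap.proj j : Rn 4 →L[ℝ] ℝ)) y := by
      have h3 : HasFDerivAt (fun z : Rn 4 => z j - c j)
          (ContinuousLinearMap.proj j : Rn 4 →L[ℝ] ℝ) y :=
        ((ContinuousLinearMap.proj j : Rn 4 →L[ℝ] ℝ).hasFDerivAt).sub_const _
      exact HasFDerivAt.comp (g := st) y (hst _).hasDerivAt.hasFDerivAt h3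
    unfold der
    rw [pd_congr h1]
    unfold pd
    rw [h2.fderiv]
    by_cases hb : b = j
    · subst hb; simp
    · simp [hb, Ne.symm hb]
  rw [Dt_eq]
  have : (Matrix.of fun a b => der e (h a) y b) =
      Matrix.diagonal fun j => deriv st (y j - c j) := by
    ext a b
    rw [Matrix.of_apply, hd, Matrix.diagonal_apply, Pi.single_apply]
    by_cases hab : a = b
    · subst hab; simp
    · rw [if_neg (Ne.symm hab), if_neg hab]
  rw [this, Matrix.det_diagonal]

/-- the integral of the product of the derivatives -/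
theorem integral_prod {st : ℝ → ℝ} (hst : ContDiff ℝ 1 st) {r : ℝ} (h0 : ∀ t ≤ -r, st t = 0)
    (h1 : ∀ t, r ≤ t → st t = 1) (hr : 0 < r) (c : Rn 4) :
    ∫ y : Rn 4, ∏ j, deriv st (y j - c j) = 1 := by
  rw [MeasureTheory.integral_fintype_prod_volume_eq_prod (fun j (t : ℝ) => deriv st (t - c j))]
  refine Finset.prod_eq_one fun j _ => ?_
  rw [integral_sub_right_eq_self (fun t => deriv st t) (c j)]
  have hd0 : ∀ t, t ∉ Ioc (-r) r → deriv st t = 0 := by
    intro t ht
    simp only [mem_Ioc, not_and_or, not_lt, not_le] at ht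
    have hc := (hst.continuous_deriv le_rfl)
    rcases ht with ht | ht
    · rcases ht.lt_or_eq with ht | ht
      · have : st =ᶠ[𝓝 t] fun _ => 0 := by
          filter_upwards [Iio_mem_nhds ht] with s hs
          exact h0 s hs.le
        rw [this.deriv_eq]; simp
      · have hcl : t ∈ closure (Iio t) := by simp
        refine (isClosed_singleton (x := (0:ℝ))).preimage hc |>.closure_subset_iff.2 ?_ hcl
        intro s hs
        have : st =ᶠ[𝓝 s] fun _ => 0 := by
          filter_upwards [Iio_mem_nhds (show s < t from hs)] with u hu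
          exact h0 u (by rw [← ht]; exact (show u < t from hu).le)
        simp only [mem_preimage, mem_singleton_iff]
        rw [this.deriv_eq]; simp
    · have : st =ᶠ[𝓝 t] fun _ => 1 := by
        filter_upwards [Ioi_mem_nhds ht] with s hs
        exact h1 s (show r < s from hs).le
      rw [this.deriv_eq]; simp
  rw [← setIntegral_eq_integral_of_forall_compl_eq_zero hd0,
    ← intervalIntegral.integral_of_le (by linarith),
    intervalIntegral.integral_deriv_eq_sub (fun t _ => (hst.differentiable one_ne_zero) t)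
      ((hst.continuous_deriv le_rfl).intervalIntegrable _ _), h1 r le_rfl, h0 (-r) le_rfl]
  ring

end prodf

end

end Crest.Agent.R275.TauS412
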