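import Mathlib

/-!
# R275, torus block B1 (helper812), part A

Smooth `ℤ^d`-periodic functions on `ℝ^d`, Fourier coefficients, Parseval, derivatives, rapid decay,
synthesis.
-/

set_option autoImplicit false
set_option linter.unusedSectionVars false
set_option linter.unusedSimpArgs false

open MeasureTheory Filter Topology Set Complex
open scoped ContDiff Real

namespace Crest.Agent.R275.Tor812

noncomputable section

attribute [local instance] instMeasureSpaceUnitAddCircle

local instance : Measure.IsAddHaarMeasure (volume : Measure UnitAddCircle) :=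
  inferInstanceAs (Measure.IsAddHaarMeasure AddCircle.haarAddCircle)

local instance : IsProbabilityMeasure (volume : Measure UnitAddCircle) :=
  inferInstanceAs (IsProbabilityMeasure AddCircle.haarAddCircle)

variable {d : Type} [Fintype d]

/-- smooth `ℤ^d`-periodic complex valued functions on `ℝ^d` -/
def SPer (d : Type) [Fintype d] : Subalgebra ℂ ((d → ℝ) → ℂ) where
  carrier := {f | ContDiff ℝ ∞ f ∧ ∀ (k : d → ℤ) (x : d → ℝ), f (x + fun i => (k i : ℝ)) = f x}
  mul_mem' := by
    rintro f g ⟨hf, hf'⟩ ⟨hg, hg'⟩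
    exact ⟨hf.mul hg, fun k x => by simp [hf' k x, hg' k x]⟩
  add_mem' := by
    rintro f g ⟨hf, hf'⟩ ⟨hg, hg'⟩
    exact ⟨hf.add hg, fun k x => by simp [hf' k x, hg' k x]⟩
  algebraMap_mem' c := ⟨contDiff_const, fun k x => rfl⟩

instance : CoeFun (SPer d) (fun _ => (d → ℝ) → ℂ) := ⟨fun f => f.1⟩

instance instCR : CommRing (SPer d) := inferInstance
instance instACG : AddCommGroup (SPer d) := inferInstance
instance instMod : Module ℂ (SPer d) := inferInstance

theorem sm (f : SPer d) : ContDiff ℝ ∞ (f : (d → ℝ) → ℂ) := f.2.1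

theorem per (f : SPer d) (k : d → ℤ) (x : d → ℝ) : f (x + fun i => (k i : ℝ)) = f x :=
  f.2.2 k x

theorem ct (f : SPer d) : Continuous (f : (d → ℝ) → ℂ) := (sm f).continuous

theorem SPer.ext {f g : SPer d} (h : ∀ x, f x = g x) : f = g := Subtype.ext (funext h)

@[simp] theorem SPer.add_apply (f g : SPer d) (x : d → ℝ) : (f + g) x = f x + g x := rfl
@[simp] theorem SPer.sub_apply (f g : SPer d) (x : d → ℝ) : (f - g) x = f x - g x := rfl
@[simp] theorem SPer.neg_apply (f : SPer d) (x : d → ℝ) : (-f) x = -f x := rfl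
@[simp] theorem SPer.mul_apply (f g : SPer d) (x : d → ℝ) : (f * g) x = f x * g x := rfl
@[simp] theorem SPer.smul_apply (c : ℂ) (f : SPer d) (x : d → ℝ) : (c • f) x = c * f x := rfl
@[simp] theorem SPer.zero_apply (x : d → ℝ) : (0 : SPer d) x = 0 := rfl
@[simp] theorem SPer.one_apply (x : d → ℝ) : (1 : SPer d) x = 1 := rfl

/-- the projection to the torus -/
def pr (x : d → ℝ) : UnitAddTorus d := fun i => (x i : UnitAddCircle)

theorem isOpenQuotientMap_pr : IsOpenQuotientMap (pr : (d → ℝ) → UnitAddTorus d) :=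
  IsOpenQuotientMap.piMap fun _ => QuotientAddGroup.isOpenQuotientMap_mk

theorem continuous_pr : Continuous (pr : (d → ℝ) → UnitAddTorus d) :=
  isOpenQuotientMap_pr.continuous

theorem pr_eq_iff {x y : d → ℝ} : pr x = pr y ↔ ∃ k : d → ℤ, y = x + fun i => (k i : ℝ) := by
  constructor
  · intro h
    have h1 : ∀ i, ∃ k : ℤ, y i = x i + k := by
      intro i
      have h2 : ((x i : ℝ) : UnitAddCircle) = ((y i : ℝ) : UnitAddCircle) := congrFun h i
      rw [QuotientAddGroup.eq] at h2
      obtain ⟨k, hk⟩ := AddSubgroup.mem_zmultiples_iff.1 h2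
      refine ⟨k, ?_⟩
      simp only [smul_eq_mul, mul_one, zsmul_eq_mul] at hk
      linarith
    choose k hk using h1
    exact ⟨k, funext hk⟩
  · rintro ⟨k, rfl⟩
    funext i
    show ((x i : ℝ) : UnitAddCircle) = ((x i + k i : ℝ) : UnitAddCircle)
    rw [QuotientAddGroup.eq]
    refine AddSubgroup.mem_zmultiples_iff.2 ⟨k i, ?_⟩
    simp

/-- descend a continuous periodic function to the torus -/
def desc (f : SPer d) : C(UnitAddTorus d, ℂ) where
  toFun t := f (fun i => ((AddCircle.equivIoc (1 : ℝ) 0 (t i)) : ℝ))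
  continuous_toFun := by
    rw [isOpenQuotientMap_pr.isQuotientMap.continuous_iff]
    have : ((fun t : UnitAddTorus d => f (fun i => ((AddCircle.equivIoc (1 : ℝ) 0 (t i)) : ℝ))) ∘ pr)
        = (f : (d → ℝ) → ℂ) := by
      funext x
      show f (fun i => ((AddCircle.equivIoc (1 : ℝ) 0 (pr x i)) : ℝ)) = f x
      have h1 : pr x = pr (fun i => ((AddCircle.equivIoc (1 : ℝ) 0 (pr x i)) : ℝ)) := by
        funext i
        exact (AddCircle.coe_equivIoc (p := (1 : ℝ)) (a := 0) (y := pr x i)).symm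
      obtain ⟨k, hk⟩ := pr_eq_iff.1 h1
      rw [hk, per f]
    rw [this]
    exact ct f

theorem desc_pr (f : SPer d) (x : d → ℝ) : desc f (pr x) = f x := by
  show f (fun i => ((AddCircle.equivIoc (1 : ℝ) 0 (pr x i)) : ℝ)) = f x
  have h1 : pr x = pr (fun i => ((AddCircle.equivIoc (1 : ℝ) 0 (pr x i)) : ℝ)) := by
    funext i
    exact (AddCircle.coe_equivIoc (p := (1 : ℝ)) (a := 0) (y := pr x i)).symm
  obtain ⟨k, hk⟩ := pr_eq_iff.1 h1
  rw [hk, per f]

/-- the unit box with lower corner `a` -/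
def box (a : d → ℝ) : Set (d → ℝ) := {x | ∀ i, x i ∈ Ioc (a i) (a i + 1)}

/-- characters -/
def ch (k : d → ℤ) (x : d → ℝ) : ℂ := exp (2 * π * I * ∑ i, (k i : ℂ) * (x i : ℂ))

theorem mFourier_pr (k : d → ℤ) (x : d → ℝ) : UnitAddTorus.mFourier k (pr x) = ch k x := by
  show ∏ i, fourier (k i) ((x i : ℝ) : UnitAddCircle) = ch k x
  unfold ch
  rw [Finset.mul_sum, Complex.exp_sum]
  refine Finset.prod_congr rfl fun i _ => ?_
  rw [fourier_coe_apply]
  congr 1
  simp only [ofReal_one, div_one]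
  ring

theorem norm_ch (k : d → ℤ) (x : d → ℝ) : ‖ch k x‖ = 1 := by
  unfold ch
  rw [Complex.norm_exp]
  have : (2 * π * I * ∑ i, (k i : ℂ) * (x i : ℂ)) =
      ((2 * π * ∑ i, (k i : ℝ) * x i : ℝ) : ℂ) * I := by
    push_cast; ring
  rw [this]
  simp

theorem ch_add (k : d → ℤ) (x y : d → ℝ) : ch k (x + y) = ch k x * ch k y := by
  unfold ch
  rw [← Complex.exp_add]
  congr 1
  simp only [Pi.add_apply, ofReal_add, mul_add, Finset.sum_add_distrib]

theorem ch_int (k m : d → ℤ) : ch k (fun i => (m i : ℝ)) = 1 := by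
  unfold ch
  rw [Complex.exp_eq_one_iff]
  refine ⟨∑ i, k i * m i, ?_⟩
  push_cast
  ring

theorem ch_neg (k : d → ℤ) (x : d → ℝ) : ch (-k) x = (ch k x)⁻¹ := by
  unfold ch
  rw [← Complex.exp_neg]
  congr 1
  simp [Finset.sum_neg_distrib]

theorem ch_smooth (k : d → ℤ) : ContDiff ℝ ∞ (ch k) := by
  unfold ch
  have h : ∀ i, ContDiff ℝ ∞ fun x : d → ℝ => ((x i : ℝ) : ℂ) := fun i =>
    ofRealCLM.contDiff.comp (contDiff_apply ℝ ℝ i)
  exact Complex.contDiff_exp.comp
    (contDiff_const.mul (ContDiff.sum fun i _ => contDiff_const.mul (h i)))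

/-- the character as an element of `SPer` -/
def chS (k : d → ℤ) : SPer d := ⟨ch k, ch_smooth k, fun m x => by
  rw [ch_add, ch_int, mul_one]⟩

/-- Fourier coefficients -/
def fc (f : SPer d) (k : d → ℤ) : ℂ := UnitAddTorus.mFourierCoeff (desc f) k

theorem fc_eq_integral (f : SPer d) (k : d → ℤ) (a : d → ℝ) :
    fc f k = ∫ x in box a, ch (-k) x * f x := by
  unfold fc
  rw [UnitAddTorus.mFourierCoeff_eq_integral _ _ a]
  refine integral_congr_ae (Eventually.of_forall fun x => ?_)
  simp only [smul_eq_mul]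
  have h1 := mFourier_pr (-k) x
  have h2 := desc_pr f x
  unfold pr at h1 h2
  rw [h1, h2]

theorem box_measurable (a : d → ℝ) : MeasurableSet (box a) :=
  MeasurableSet.univ_pi' fun _ => measurableSet_Ioc

theorem box_eq_pi (a : d → ℝ) : box a = Set.pi univ fun i => Ioc (a i) (a i + 1) := by
  ext x; simp [box]

theorem volume_box (a : d → ℝ) : volume (box a) = 1 := by
  rw [box_eq_pi, Real.volume_pi_Ioc]
  simp

instance (a : d → ℝ) : IsFiniteMeasure (volume.restrict (box a)) :=
  ⟨by rw [Measure.restrict_apply_univ, volume_box]; exact ENNReal.one_lt_top⟩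

theorem bdd (f : SPer d) (x : d → ℝ) : ‖f x‖ ≤ ‖desc f‖ := by
  rw [← desc_pr f x]
  exact (desc f).norm_coe_le_norm _

theorem integrable_mul_ch (f : SPer d) (k : d → ℤ) (a : d → ℝ) :
    Integrable (fun x => ch k x * f x) (volume.restrict (box a)) := by
  refine Integrable.of_bound ((ch_smooth k).continuous.mul (ct f)).aestronglyMeasurable ‖desc f‖
    (Eventually.of_forall fun x => ?_)
  rw [norm_mul, norm_ch, one_mul]
  exact bdd f x

theorem fc_add (f g : SPer d) (k : d → ℤ) : fc (f + g) k = fc f k + fc g k := by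
  rw [fc_eq_integral _ _ 0, fc_eq_integral _ _ 0, fc_eq_integral _ _ 0,
    ← integral_add (integrable_mul_ch f _ _) (integrable_mul_ch g _ _)]
  refine integral_congr_ae (Eventually.of_forall fun x => ?_)
  simp only [SPer.add_apply]; ring

theorem fc_smul (c : ℂ) (f : SPer d) (k : d → ℤ) : fc (c • f) k = c * fc f k := by
  rw [fc_eq_integral _ _ 0, fc_eq_integral _ _ 0, ← integral_const_mul]
  refine integral_congr_ae (Eventually.of_forall fun x => ?_)
  simp only [SPer.smul_apply]; ring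

/-- Fourier coefficient as a linear map -/
def fcL (k : d → ℤ) : SPer d →ₗ[ℂ] ℂ where
  toFun f := fc f k
  map_add' f g := fc_add f g k
  map_smul' c f := fc_smul c f k

theorem fc_sub (f g : SPer d) (k : d → ℤ) : fc (f - g) k = fc f k - fc g k :=
  (fcL k).map_sub f g

theorem fc_zero (k : d → ℤ) : fc (0 : SPer d) k = 0 := (fcL k).map_zero

theorem fc_neg (f : SPer d) (k : d → ℤ) : fc (-f) k = -fc f k := (fcL k).map_neg f

theorem fc_sum {ι : Type*} (s : Finset ι) (f : ι → SPer d) (k : d → ℤ) :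
    fc (∑ i ∈ s, f i) k = ∑ i ∈ s, fc (f i) k := map_sum (fcL k) f s

theorem norm_fc_le (f : SPer d) (k : d → ℤ) : ‖fc f k‖ ≤ ‖desc f‖ := by
  rw [fc_eq_integral _ _ 0]
  refine (norm_integral_le_of_norm_le_const (C := ‖desc f‖)
    (Eventually.of_forall fun x => ?_)).trans ?_
  · rw [norm_mul, norm_ch, one_mul]; exact bdd f x
  · simp [measureReal_def, volume_box]

/-- the `L²` norm squared -/
def l2 (f : SPer d) : ℝ := ∫ x in box (0 : d → ℝ), ‖f x‖ ^ 2

theorem parseval (f : SPer d) : HasSum (fun k : d → ℤ => ‖fc f k‖ ^ 2) (l2 f) := by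
  have h := UnitAddTorus.hasSum_sq_mFourierCoeff
    (ContinuousMap.toLp 2 (volume : Measure (UnitAddTorus d)) ℂ (desc f))
  have h1 : ∀ k, UnitAddTorus.mFourierCoeff
      (ContinuousMap.toLp 2 (volume : Measure (UnitAddTorus d)) ℂ (desc f)) k = fc f k := fun k =>
    UnitAddTorus.mFourierCoeff_toLp (desc f) k
  simp only [h1] at h
  convert h using 1
  have h2 : (∫ t, ‖(ContinuousMap.toLp 2 (volume : Measure (UnitAddTorus d)) ℂ (desc f)) t‖ ^ 2)
      = ∫ t : UnitAddTorus d, ‖desc f t‖ ^ 2 := by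
    refine integral_congr_ae ?_
    filter_upwards [(desc f).coeFn_toLp (p := 2) (𝕜 := ℂ)
      (volume : Measure (UnitAddTorus d))] with t ht
    rw [ht]
  rw [h2, UnitAddTorus.integral_preimage (fun t => ‖desc f t‖ ^ 2) 0]
  refine integral_congr_ae (Eventually.of_forall fun x => ?_)
  show ‖f x‖ ^ 2 = ‖desc f (pr x)‖ ^ 2
  rw [desc_pr]

theorem hasSum_fc (f : SPer d) (h : Summable (fc f)) (x : d → ℝ) :
    HasSum (fun k => fc f k * ch k x) (f x) := by
  have h1 := UnitAddTorus.hasSum_mFourier_series_apply_of_summable (f := desc f) h (pr x)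
  rw [desc_pr] at h1
  have h2 : (fun i => UnitAddTorus.mFourierCoeff (desc f) i • UnitAddTorus.mFourier i (pr x)) =
      fun k => fc f k * ch k x := by
    funext k
    rw [mFourier_pr, smul_eq_mul]
    rfl
  rwa [h2] at h1

theorem fc_inj {f g : SPer d} (h : ∀ k, fc f k = fc g k) : f = g := by
  have h0 : ∀ k, fc (f - g) k = 0 := fun k => by rw [fc_sub, h k, sub_self]
  refine SPer.ext fun x => ?_
  have h2 : Summable (fc (f - g)) := by
    rw [show fc (f - g) = fun _ => 0 from funext h0]; exact summable_zero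
  have h1 := hasSum_fc (f - g) h2 x
  simp only [h0, zero_mul] at h1
  have := h1.unique hasSum_zero
  exact sub_eq_zero.1 this

/-! ### partial derivatives -/

/-- the `j`-th unit vector -/
def ev (j : d) : d → ℝ := by classical exact Pi.single j 1

theorem ev_same (j : d) : (ev j : d → ℝ) j = 1 := by unfold ev; simp

theorem ev_ne {j i : d} (h : i ≠ j) : (ev j : d → ℝ) i = 0 := by unfold ev; simp [h]

theorem sum_mul_ev (c : d → ℂ) (j : d) : ∑ i, c i * (((ev j : d → ℝ) i : ℝ) : ℂ) = c j := by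
  classical
  rw [Finset.sum_eq_single j]
  · rw [ev_same]; simp
  · intro i _ hi; rw [ev_ne hi]; simp
  · simp

theorem sm_diff (f : SPer d) : Differentiable ℝ (f : (d → ℝ) → ℂ) :=
  (sm f).differentiable (by simp)

/-- partial derivative -/
def pd (j : d) : SPer d →ₗ[ℂ] SPer d where
  toFun f := ⟨fun x => fderiv ℝ f x (ev j), by
    refine ((sm f).fderiv_right (m := ∞) (by simp)).clm_apply contDiff_const, fun k x => by
    have h : (fun y => f (y + fun i => (k i : ℝ))) = f := funext fun y => per f k y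
    have h1 : fderiv ℝ (fun y => f (y + fun i => (k i : ℝ))) x =
        fderiv ℝ f (x + fun i => (k i : ℝ)) := fderiv_comp_add_right _
    show (fderiv ℝ f (x + fun i => (k i : ℝ))) (ev j) = (fderiv ℝ f x) (ev j)
    rw [← h1, h]⟩
  map_add' f g := by
    refine SPer.ext fun x => ?_
    show fderiv ℝ (fun y => f y + g y) x (ev j) = _
    rw [fderiv_fun_add (sm_diff f x) (sm_diff g x)]
    rfl
  map_smul' c f := by
    refine SPer.ext fun x => ?_
    show fderiv ℝ (fun y => c * f y) x (ev j) = _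
    rw [fderiv_const_mul (sm_diff f x)]
    rfl

theorem pd_apply (j : d) (f : SPer d) (x : d → ℝ) : pd j f x = fderiv ℝ f x (ev j) := rfl

theorem pd_mul (j : d) (f g : SPer d) : pd j (f * g) = pd j f * g + f * pd j g := by
  refine SPer.ext fun x => ?_
  show fderiv ℝ (fun y => f y * g y) x (ev j) = fderiv ℝ f x (ev j) * g x + f x * fderiv ℝ g x (ev j)
  rw [fderiv_fun_mul (sm_diff f x) (sm_diff g x)]
  simp only [_root_.add_apply, _root_.smul_apply, smul_eq_mul]
  ring

theorem hasDerivAt_pd (f : SPer d) (j : d) (x : d → ℝ) (h : ℝ) :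
    HasDerivAt (fun h : ℝ => f (x + h • ev j)) (pd j f (x + h • ev j)) h := by
  have h1 : HasDerivAt (fun h : ℝ => x + h • (ev j : d → ℝ)) (ev j) h := by
    simpa using ((hasDerivAt_id h).smul_const (ev j : d → ℝ)).const_add x
  exact ((sm_diff f _).hasFDerivAt.comp_hasDerivAt h h1)

theorem setIntegral_box_add (G : (d → ℝ) → ℂ) (c : d → ℝ) :
    ∫ x in box (0 : d → ℝ), G (x + c) = ∫ x in box c, G x := by
  have h1 : (fun x : d → ℝ => x + c) ⁻¹' (box c) = box 0 := by
    ext x
    simp only [box, mem_preimage, mem_ofPred_eq, Pi.add_apply, Pi.zero_apply, mem_Ioc]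
    refine forall_congr' fun i => ?_
    constructor
    · rintro ⟨h1, h2⟩; constructor <;> linarith
    · rintro ⟨h1, h2⟩; constructor <;> linarith
  rw [← h1]
  exact (measurePreserving_add_right volume c).setIntegral_preimage_emb
    (MeasurableEquiv.addRight c).measurableEmbedding G (box c)

theorem fc_pd (j : d) (f : SPer d) (k : d → ℤ) : fc (pd j f) k = 2 * π * I * (k j : ℂ) * fc f k := by
  -- `F h = ∫ ch (-k) x * f (x + h e_j)`
  have e1 : ∀ h : ℝ, (∫ x in box (0 : d → ℝ), ch (-k) x * f (x + h • ev j)) =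
      ch k (h • ev j) * fc f k := by
    intro h
    have : ∀ x, ch (-k) x * f (x + h • ev j) =
        ch k (h • ev j) * (ch (-k) (x + h • ev j) * f (x + h • ev j)) := by
      intro x
      rw [ch_add (-k), ch_neg k (h • ev j)]
      have h0 : ch k (h • ev j) ≠ 0 := by
        intro h0
        have := norm_ch k (h • ev j : d → ℝ)
        rw [h0, norm_zero] at this
        exact zero_ne_one this
      field_simp
    simp_rw [this]
    rw [integral_const_mul, setIntegral_box_add (fun x => ch (-k) x * f x) (h • ev j),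
      ← fc_eq_integral]
  have e2 : HasDerivAt (fun h : ℝ => ∫ x in box (0 : d → ℝ), ch (-k) x * f (x + h • ev j))
      (∫ x in box (0 : d → ℝ), ch (-k) x * pd j f (x + (0 : ℝ) • ev j)) 0 := by
    refine (hasDerivAt_integral_of_dominated_loc_of_deriv_le (bound := fun _ => ‖desc (pd j f)‖)
      (F' := fun h x => ch (-k) x * pd j f (x + h • ev j)) (Metric.ball_mem_nhds 0 one_pos)
      (Eventually.of_forall fun h => ?_) ?_ ?_ (Eventually.of_forall fun x h _ => ?_)
      (integrable_const _) (Eventually.of_forall fun x h _ => ?_)).2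
    · exact ((ch_smooth (-k)).continuous.mul
        ((ct f).comp (continuous_id.add continuous_const))).aestronglyMeasurable
    · refine Integrable.of_bound ((ch_smooth (-k)).continuous.mul
        ((ct f).comp (continuous_id.add continuous_const))).aestronglyMeasurable ‖desc f‖
        (Eventually.of_forall fun x => ?_)
      rw [norm_mul, norm_ch, one_mul]; exact bdd f _
    · exact ((ch_smooth (-k)).continuous.mul
        ((ct (pd j f)).comp (continuous_id.add continuous_const))).aestronglyMeasurable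
    · rw [norm_mul, norm_ch, one_mul]; exact bdd (pd j f) _
    · exact (hasDerivAt_pd f j x h).const_mul _
  have e3 : HasDerivAt (fun h : ℝ => ch k (h • ev j) * fc f k)
      (2 * π * I * (k j : ℂ) * fc f k) 0 := by
    have h1 : ∀ h : ℝ, ch k (h • ev j) = exp ((h : ℂ) * (2 * π * I * (k j : ℂ))) := by
      intro h
      unfold ch
      congr 1
      have : ∑ i, (k i : ℂ) * (((h • ev j : d → ℝ) i : ℝ) : ℂ) = h * k j := by
        have := sum_mul_ev (fun i => (h : ℂ) * (k i : ℂ)) j
        rw [← this]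
        refine Finset.sum_congr rfl fun i _ => ?_
        simp only [Pi.smul_apply, smul_eq_mul, ofReal_mul]; ring
      rw [this]; ring
    simp_rw [h1]
    have h2 : HasDerivAt (fun h : ℝ => ((h : ℂ) * (2 * π * I * (k j : ℂ))))
        (2 * π * I * (k j : ℂ)) 0 := by
      simpa using (ofRealCLM.hasDerivAt (x := (0 : ℝ))).mul_const (2 * π * I * (k j : ℂ))
    have h3 := (h2.cexp).mul_const (fc f k)
    simpa using h3
  have e4 : (fun h : ℝ => ∫ x in box (0 : d → ℝ), ch (-k) x * f (x + h • ev j)) =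
      fun h : ℝ => ch k (h • ev j) * fc f k := funext e1
  rw [e4] at e2
  rw [fc_eq_integral _ _ 0]
  have := e2.unique e3
  simpa using this

/-! ### the weight `1 + |k|²`, rapid decay -/

/-- `1 + |k|²` -/
def wt (k : d → ℤ) : ℝ := 1 + ∑ i, (k i : ℝ) ^ 2

theorem one_le_wt (k : d → ℤ) : 1 ≤ wt k := by
  unfold wt
  have : 0 ≤ ∑ i, (k i : ℝ) ^ 2 := Finset.sum_nonneg fun i _ => sq_nonneg _
  linarith

theorem wt_pos (k : d → ℤ) : 0 < wt k := lt_of_lt_of_le one_pos (one_le_wt k)

theorem sq_le_wt (k : d → ℤ) (j : d) : 1 + (k j : ℝ) ^ 2 ≤ wt k := by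
  unfold wt
  have := Finset.single_le_sum (f := fun i => (k i : ℝ) ^ 2) (fun i _ => sq_nonneg _)
    (Finset.mem_univ j)
  linarith

/-- `1 - Δ/(4π²)` -/
def lapl : SPer d →ₗ[ℂ] SPer d where
  toFun f := f - ((4 * π ^ 2 : ℝ) : ℂ)⁻¹ • ∑ j, pd j (pd j f)
  map_add' f g := by
    simp only [map_add, Finset.sum_add_distrib, smul_add]
    abel
  map_smul' c f := by
    simp only [map_smul, ← Finset.smul_sum, RingHom.id_apply, smul_sub]
    rw [smul_comm]

theorem lapl_apply (f : SPer d) :
    lapl f = f - ((4 * π ^ 2 : ℝ) : ℂ)⁻¹ • ∑ j, pd j (pd j f) := rfl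

theorem fc_lapl (f : SPer d) (k : d → ℤ) : fc (lapl f) k = (wt k : ℂ) * fc f k := by
  rw [lapl_apply, fc_sub, fc_smul, fc_sum]
  simp_rw [fc_pd]
  have hpi : (π : ℂ) ≠ 0 := by exact_mod_cast Real.pi_ne_zero
  unfold wt
  push_cast
  rw [add_mul, one_mul, sub_eq_add_neg]
  congr 1
  rw [Finset.sum_mul, Finset.mul_sum, ← Finset.sum_neg_distrib]
  refine Finset.sum_congr rfl fun i _ => ?_
  field_simp
  ring_nf
  rw [I_sq]
  ring

theorem fc_lapl_iterate (N : ℕ) (f : SPer d) (k : d → ℤ) :
    fc ((lapl^[N]) f) k = (wt k : ℂ) ^ N * fc f k := by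
  induction N with
  | zero => simp
  | succ n ih => rw [Function.iterate_succ_apply', fc_lapl, ih]; ring

theorem decay (f : SPer d) (N : ℕ) : ∃ C, 0 ≤ C ∧ ∀ k : d → ℤ, wt k ^ N * ‖fc f k‖ ≤ C := by
  refine ⟨‖desc ((lapl^[N]) f)‖, norm_nonneg _, fun k => ?_⟩
  have h := norm_fc_le ((lapl^[N]) f) k
  rw [fc_lapl_iterate, norm_mul, norm_pow, norm_real, Real.norm_of_nonneg (wt_pos k).le] at h
  exact h

theorem summable_prod_int {g : ℤ → ℝ} (hg : Summable g) (h0 : ∀ n, 0 ≤ g n) :
    Summable fun k : d → ℤ => ∏ i, g (k i) := by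
  classical
  refine summable_of_sum_le (c := (∑' n, g n) ^ Fintype.card d)
    (fun k => Finset.prod_nonneg fun i _ => h0 _) fun S => ?_
  let T : d → Finset ℤ := fun i => S.image fun k => k i
  have hS : S ⊆ Fintype.piFinset T := fun k hk => by
    rw [Fintype.mem_piFinset]
    exact fun i => Finset.mem_image_of_mem _ hk
  refine (Finset.sum_le_sum_of_subset_of_nonneg hS fun k _ _ =>
    Finset.prod_nonneg fun i _ => h0 _).trans ?_
  rw [← Finset.prod_univ_sum T fun _ n => g n]
  calc ∏ i, ∑ n ∈ T i, g n ≤ ∏ _i : d, ∑' n, g n :=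
        Finset.prod_le_prod (fun i _ => Finset.sum_nonneg fun n _ => h0 n)
          fun i _ => hg.sum_le_tsum _ fun n _ => h0 n
    _ = _ := by rw [Finset.prod_const, Finset.card_univ]

theorem summable_one_add_sq : Summable fun n : ℤ => (1 + (n : ℝ) ^ 2)⁻¹ := by
  have h : Summable fun n : ℤ => ((n : ℝ) ^ 2)⁻¹ := by
    have := (Real.summable_one_div_int_pow (p := 2)).2 (by norm_num)
    simpa only [one_div] using this
  refine Summable.of_norm_bounded_eventually h ?_
  have : ∀ᶠ n : ℤ in cofinite, n ≠ 0 := by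
    simpa using (Set.finite_singleton (0 : ℤ)).eventually_cofinite_notMem
  filter_upwards [this] with n hn
  have h2 : (0 : ℝ) < (n : ℝ) ^ 2 := by positivity
  rw [Real.norm_of_nonneg (by positivity)]
  exact inv_anti₀ h2 (by linarith)

theorem prod_le_wt (k : d → ℤ) : ∏ i, (1 + (k i : ℝ) ^ 2) ≤ wt k ^ Fintype.card d := by
  calc ∏ i, (1 + (k i : ℝ) ^ 2) ≤ ∏ _i : d, wt k :=
        Finset.prod_le_prod (fun i _ => by positivity) fun i _ => sq_le_wt k i
    _ = _ := by rw [Finset.prod_const, Finset.card_univ]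

/-- `∑ (1+|k|²)^{-card d} < ∞` -/
theorem summable_wt {N : ℕ} (hN : Fintype.card d ≤ N) :
    Summable fun k : d → ℤ => (wt k ^ N)⁻¹ := by
  refine Summable.of_nonneg_of_le (fun k => inv_nonneg.2 (pow_nonneg (wt_pos k).le _))
    (fun k => ?_) (summable_prod_int summable_one_add_sq fun n => by positivity)
  rw [Finset.prod_inv_distrib]
  refine inv_anti₀ (Finset.prod_pos fun i _ => by positivity) ((prod_le_wt k).trans ?_)
  exact pow_le_pow_right₀ (one_le_wt k) hN

theorem summable_fc (f : SPer d) (N : ℕ) : Summable fun k : d → ℤ => wt k ^ N * ‖fc f k‖ := by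
  obtain ⟨C, hC, h⟩ := decay f (N + Fintype.card d)
  refine Summable.of_nonneg_of_le (fun k => mul_nonneg (pow_nonneg (wt_pos k).le _) (norm_nonneg _))
    (fun k => ?_) ((summable_wt (d := d) le_rfl).mul_left C)
  have h1 := h k
  rw [pow_add] at h1
  have h2 := pow_pos (wt_pos k) (Fintype.card d)
  rw [← div_eq_mul_inv, le_div_iff₀ h2]
  linarith

theorem hasSum_ch (f : SPer d) (x : d → ℝ) : HasSum (fun k => fc f k * ch k x) (f x) := by
  refine hasSum_fc f ?_ x
  have := summable_fc f 0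
  simp only [pow_zero, one_mul] at this
  exact this.of_norm

/-! ### synthesis -/

/-- rapidly decreasing coefficients -/
def Rapid (a : (d → ℤ) → ℂ) : Prop := ∀ N : ℕ, ∃ C, ∀ k, wt k ^ N * ‖a k‖ ≤ C

theorem rapid_fc (f : SPer d) : Rapid (fc f) := fun N => by
  obtain ⟨C, _, h⟩ := decay f N
  exact ⟨C, h⟩

theorem Rapid.summable {a : (d → ℤ) → ℂ} (h : Rapid a) (N : ℕ) :
    Summable fun k : d → ℤ => wt k ^ N * ‖a k‖ := by
  obtain ⟨C, h⟩ := h (N + Fintype.card d)
  refine Summable.of_nonneg_of_le (fun k => mul_nonneg (pow_nonneg (wt_pos k).le _) (norm_nonneg _))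
    (fun k => ?_) ((summable_wt (d := d) le_rfl).mul_left C)
  have h1 := h k
  rw [pow_add] at h1
  have h2 := pow_pos (wt_pos k) (Fintype.card d)
  rw [← div_eq_mul_inv, le_div_iff₀ h2]
  linarith

theorem iteratedDeriv_cexp_real (m : ℕ) (c : ℂ) :
    iteratedDeriv m (fun t : ℝ => exp (c * t)) = fun t : ℝ => c ^ m * exp (c * t) := by
  induction m with
  | zero => simp
  | succ n ih =>
    rw [iteratedDeriv_succ, ih]
    funext t
    have h2 : HasDerivAt (fun t : ℝ => (c * (t : ℂ))) c t := by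
      simpa using (ofRealCLM.hasDerivAt (x := t)).const_mul c
    have h3 := (h2.cexp).const_mul (c ^ n)
    rw [h3.deriv]
    ring

/-- the linear functional `x ↦ ∑ k_i x_i` -/
def lin (k : d → ℤ) : (d → ℝ) →L[ℝ] ℝ :=
  ∑ i, (k i : ℝ) • ContinuousLinearMap.proj (R := ℝ) (φ := fun _ : d => ℝ) i

theorem lin_apply (k : d → ℤ) (x : d → ℝ) : lin k x = ∑ i, (k i : ℝ) * x i := by
  unfold lin
  simp

theorem norm_lin_le (k : d → ℤ) : ‖lin k‖ ≤ Fintype.card d * wt k := by
  refine ContinuousLinearMap.opNorm_le_bound _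
    (mul_nonneg (Nat.cast_nonneg _) (wt_pos k).le) fun x => ?_
  rw [lin_apply]
  calc ‖∑ i, (k i : ℝ) * x i‖ ≤ ∑ i, ‖(k i : ℝ) * x i‖ := norm_sum_le _ _
    _ ≤ ∑ _i : d, wt k * ‖x‖ := by
        refine Finset.sum_le_sum fun i _ => ?_
        rw [norm_mul]
        refine mul_le_mul ?_ (norm_le_pi_norm x i) (norm_nonneg _) (wt_pos k).le
        have h1 := sq_le_wt k i
        rw [Real.norm_eq_abs]
        nlinarith [sq_abs ((k i : ℝ)), sq_nonneg (|(k i : ℝ)| - 1), abs_nonneg (k i : ℝ)]
    _ = Fintype.card d * wt k * ‖x‖ := by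
        rw [Finset.sum_const, Finset.card_univ, nsmul_eq_mul]; ring

theorem ch_eq (k : d → ℤ) : ch k = (fun t : ℝ => exp ((2 * π * I) * t)) ∘ lin k := by
  funext x
  unfold ch
  simp only [Function.comp_apply, lin_apply]
  congr 2
  push_cast
  rfl

theorem norm_iteratedFDeriv_ch (k : d → ℤ) (m : ℕ) (x : d → ℝ) :
    ‖iteratedFDeriv ℝ m (ch k) x‖ ≤ (2 * π) ^ m * (Fintype.card d * wt k) ^ m := by
  have hs : ContDiff ℝ ∞ (fun t : ℝ => exp ((2 * π * I) * t)) :=
    Complex.contDiff_exp.comp (contDiff_const.mul ofRealCLM.contDiff)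
  rw [ch_eq, ContinuousLinearMap.iteratedFDeriv_comp_right (lin k) hs x (by exact_mod_cast le_top)]
  refine (ContinuousMultilinearMap.norm_compContinuousLinearMap_le _ _).trans ?_
  rw [norm_iteratedFDeriv_eq_norm_iteratedDeriv, iteratedDeriv_cexp_real]
  have h1 : ‖(2 * π * I : ℂ) ^ m * exp ((2 * π * I) * ((lin k x : ℝ) : ℂ))‖ = (2 * π) ^ m := by
    rw [norm_mul, norm_pow, Complex.norm_exp]
    have : ((2 * π * I) * ((lin k x : ℝ) : ℂ)) = ((2 * π * lin k x : ℝ) : ℂ) * I := by
      push_cast; ring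
    rw [this]
    simp [abs_of_pos Real.pi_pos]
  rw [h1, Finset.prod_const, Finset.card_univ, Fintype.card_fin]
  exact mul_le_mul_of_nonneg_left (pow_le_pow_left₀ (norm_nonneg _) (norm_lin_le k) m)
    (by positivity)

theorem Rapid.contDiff {a : (d → ℤ) → ℂ} (h : Rapid a) :
    ContDiff ℝ ∞ fun x : d → ℝ => ∑' k, a k * ch k x := by
  refine contDiff_tsum (v := fun m k => ((2 * π) ^ m * (Fintype.card d) ^ m) * (wt k ^ m * ‖a k‖))
    (fun k => contDiff_const.mul (ch_smooth k)) (fun m _ => (h.summable m).mul_left _)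
    fun m k x _ => ?_
  have h1 : (fun x => a k * ch k x) = fun x => a k • ch k x := rfl
  rw [h1, iteratedFDeriv_const_smul_apply' ((ch_smooth k).contDiffAt.of_le
    (by exact_mod_cast le_top)), norm_smul]
  calc ‖a k‖ * ‖iteratedFDeriv ℝ m (ch k) x‖
      ≤ ‖a k‖ * ((2 * π) ^ m * (Fintype.card d * wt k) ^ m) :=
        mul_le_mul_of_nonneg_left (norm_iteratedFDeriv_ch k m x) (norm_nonneg _)
    _ = _ := by rw [mul_pow]; ring

/-- synthesis of a smooth periodic function -/
def syn (a : (d → ℤ) → ℂ) (h : Rapid a) : SPer d :=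
  ⟨fun x => ∑' k, a k * ch k x, h.contDiff, fun m x => by
    refine tsum_congr fun k => ?_
    rw [ch_add, ch_int, mul_one]⟩

theorem Rapid.summable_norm {a : (d → ℤ) → ℂ} (h : Rapid a) : Summable fun k => ‖a k‖ := by
  simpa using h.summable 0

theorem syn_hasSum (a : (d → ℤ) → ℂ) (h : Rapid a) (x : d → ℝ) :
    HasSum (fun k => a k * ch k x) (syn a h x) := by
  refine Summable.hasSum (Summable.of_norm ?_)
  simpa only [norm_mul, norm_ch, mul_one] using h.summable_norm

theorem chS_apply (k : d → ℤ) (x : d → ℝ) : chS k x = ch k x := rfl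

theorem ch_smul_ev (k : d → ℤ) (j : d) (h : ℝ) :
    ch k (h • ev j) = exp ((h : ℂ) * (2 * π * I * (k j : ℂ))) := by
  unfold ch
  congr 1
  have : ∑ i, (k i : ℂ) * (((h • ev j : d → ℝ) i : ℝ) : ℂ) = h * k j := by
    have := sum_mul_ev (fun i => (h : ℂ) * (k i : ℂ)) j
    rw [← this]
    refine Finset.sum_congr rfl fun i _ => ?_
    simp only [Pi.smul_apply, smul_eq_mul, ofReal_mul]; ring
  rw [this]; ring

theorem pd_chS (j : d) (k : d → ℤ) : pd j (chS k) = (2 * π * I * (k j : ℂ)) • chS k := by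
  refine SPer.ext fun x => ?_
  have h1 := hasDerivAt_pd (chS k) j x 0
  have h2 : HasDerivAt (fun h : ℝ => ((h : ℂ) * (2 * π * I * (k j : ℂ))))
      (2 * π * I * (k j : ℂ)) 0 := by
    simpa using (ofRealCLM.hasDerivAt (x := (0 : ℝ))).mul_const (2 * π * I * (k j : ℂ))
  have h3 : HasDerivAt (fun h : ℝ => chS k (x + h • ev j)) (2 * π * I * (k j : ℂ) * ch k x) 0 := by
    have : (fun h : ℝ => chS k (x + h • ev j)) =
        fun h : ℝ => exp ((h : ℂ) * (2 * π * I * (k j : ℂ))) * ch k x := by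
      funext h
      rw [chS_apply, ch_add, ch_smul_ev, mul_comm]
    rw [this]
    simpa using (h2.cexp).mul_const (ch k x)
  have h4 := h1.unique h3
  simpa [chS_apply] using h4

theorem fc_chS (k j : d → ℤ) [Decidable (j = k)] : fc (chS k) j = if j = k then 1 else 0 := by
  split_ifs with h
  · subst h
    rw [fc_eq_integral _ _ 0]
    have : ∀ x : d → ℝ, ch (-j) x * chS j x = 1 := fun x => by
      rw [chS_apply, ch_neg]
      refine inv_mul_cancel₀ fun h0 => ?_
      have := norm_ch j x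
      rw [h0, norm_zero] at this
      exact zero_ne_one this
    simp_rw [this]
    simp [measureReal_def, volume_box]
  · obtain ⟨i, hi⟩ := Function.ne_iff.1 h
    have h1 := fc_pd i (chS k) j
    rw [pd_chS, fc_smul] at h1
    have hpi : (2 * π * I : ℂ) ≠ 0 := by
      simp [Real.pi_ne_zero, I_ne_zero]
    have h2 : (2 * π * I : ℂ) * (((k i : ℂ) - j i) * fc (chS k) j) = 0 := by
      linear_combination h1
    have h3 := (mul_eq_zero.1 h2).resolve_left hpi
    refine (mul_eq_zero.1 h3).resolve_left fun h4 => hi ?_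
    have h5 : ((k i : ℤ) : ℂ) = ((j i : ℤ) : ℂ) := sub_eq_zero.1 h4
    exact_mod_cast h5.symm

theorem fc_syn (a : (d → ℤ) → ℂ) (h : Rapid a) (j : d → ℤ) : fc (syn a h) j = a j := by
  classical
  rw [fc_eq_integral _ _ 0]
  have h1 : ∀ x : d → ℝ, ch (-j) x * syn a h x = ∑' k, a k * (ch (-j) x * chS k x) := by
    intro x
    rw [← (syn_hasSum a h x).tsum_eq, ← tsum_mul_left]
    refine tsum_congr fun k => ?_
    rw [chS_apply]; ring
  simp_rw [h1]
  rw [← integral_tsum_of_summable_integral_norm]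
  · have h2 : ∀ k, (∫ x in box (0 : d → ℝ), a k * (ch (-j) x * chS k x)) =
        if k = j then a j else 0 := by
      intro k
      rw [integral_const_mul, ← fc_eq_integral, fc_chS]
      by_cases hk : j = k
      · rw [if_pos hk, if_pos hk.symm, mul_one, hk]
      · rw [if_neg hk, if_neg (fun e => hk e.symm), mul_zero]
    simp_rw [h2]
    rw [tsum_ite_eq]
  · intro k
    exact (integrable_mul_ch (chS k) (-j) 0).const_mul (a k)
  · refine h.summable_norm.congr fun k => ?_
    have : ∀ x : d → ℝ, ‖a k * (ch (-j) x * chS k x)‖ = ‖a k‖ := fun x => by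
      rw [norm_mul, norm_mul, chS_apply, norm_ch, norm_ch, mul_one, mul_one]
    simp_rw [this]
    simp [measureReal_def, volume_box]

end

end Crest.Agent.R275.Tor812
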