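import Crest.Agent.R275.TorA_812

/-!
# R275, torus block B1 (helper812), part B

The Sobolev scale `nrm s f` (`s : ℕ`) on smooth periodic functions, as the norm of an embedding
`emb s` into `ℓ²(ℤ^d)`; recursion in `s`, multiplication, Rellich, Sobolev embedding.
-/

set_option autoImplicit false
set_option linter.unusedSectionVars false
set_option linter.unusedSimpArgs false

open MeasureTheory Filter Topology Set Complex
open scoped ContDiff Real ENNReal

namespace Crest.Agent.R275.Tor812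

noncomputable section

variable {d : Type} [Fintype d]

/-- the Japanese bracket `(1+|k|²)^{1/2}` -/
def br (k : d → ℤ) : ℝ := √(wt k)

theorem br_sq (k : d → ℤ) : br k ^ 2 = wt k := Real.sq_sqrt (wt_pos k).le

theorem one_le_br (k : d → ℤ) : 1 ≤ br k := Real.one_le_sqrt.2 (one_le_wt k)

theorem br_pos (k : d → ℤ) : 0 < br k := lt_of_lt_of_le one_pos (one_le_br k)

theorem br_le_wt (k : d → ℤ) : br k ≤ wt k := by
  rw [← br_sq, sq]
  exact le_mul_of_one_le_right (br_pos k).le (one_le_br k)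

theorem abs_le_br (k : d → ℤ) (j : d) : |(k j : ℝ)| ≤ br k := by
  refine Real.abs_le_sqrt ?_
  have := sq_le_wt k j
  linarith

/-- `ℓ²(ℤ^d)` -/
abbrev L2Z (d : Type) : Type := lp (fun _ : d → ℤ => ℂ) 2

theorem Rapid.mem_lp {a : (d → ℤ) → ℂ} (h : Rapid a) : Memℓp a 2 := by
  rw [memℓp_gen_iff (by norm_num)]
  obtain ⟨C, hC⟩ := h 0
  have h1 : Summable fun k => C * ‖a k‖ := h.summable_norm.mul_left C
  refine Summable.of_nonneg_of_le (fun k => by positivity) (fun k => ?_) h1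
  have h2 := hC k
  rw [pow_zero, one_mul] at h2
  simp only [ENNReal.toReal_ofNat, Real.rpow_ofNat]
  rw [sq]
  exact mul_le_mul_of_nonneg_right h2 (norm_nonneg _)

theorem Rapid.br_mul {a : (d → ℤ) → ℂ} (h : Rapid a) (s : ℕ) :
    Rapid fun k => ((br k ^ s : ℝ) : ℂ) * a k := fun N => by
  obtain ⟨C, hC⟩ := h (N + s)
  refine ⟨C, fun k => le_trans ?_ (hC k)⟩
  rw [norm_mul, norm_real, Real.norm_of_nonneg (pow_nonneg (br_pos k).le _), pow_add,
    ← mul_assoc]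
  refine mul_le_mul_of_nonneg_right (mul_le_mul_of_nonneg_left ?_ (pow_nonneg (wt_pos k).le _))
    (norm_nonneg _)
  exact pow_le_pow_left₀ (br_pos k).le (br_le_wt k) s

/-- the embedding defining the norm of order `s` -/
def emb (s : ℕ) : SPer d →ₗ[ℂ] L2Z d where
  toFun f := ⟨fun k => ((br k ^ s : ℝ) : ℂ) * fc f k, ((rapid_fc f).br_mul s).mem_lp⟩
  map_add' f g := by
    ext k
    show ((br k ^ s : ℝ) : ℂ) * fc (f + g) k = _ + _
    rw [fc_add, mul_add]
  map_smul' c f := by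
    ext k
    show ((br k ^ s : ℝ) : ℂ) * fc (c • f) k = c • _
    rw [fc_smul, smul_eq_mul]
    ring

theorem emb_apply (s : ℕ) (f : SPer d) (k : d → ℤ) :
    emb s f k = ((br k ^ s : ℝ) : ℂ) * fc f k := rfl

/-- the Sobolev norm of order `s` -/
def nrm (s : ℕ) (f : SPer d) : ℝ := ‖emb s f‖

theorem nrm_nonneg (s : ℕ) (f : SPer d) : 0 ≤ nrm s f := norm_nonneg _

theorem nrm_add_le (s : ℕ) (f g : SPer d) : nrm s (f + g) ≤ nrm s f + nrm s g := by
  unfold nrm; rw [map_add]; exact norm_add_le _ _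

theorem nrm_sub_le (s : ℕ) (f g : SPer d) : nrm s (f - g) ≤ nrm s f + nrm s g := by
  unfold nrm; rw [map_sub]; exact norm_sub_le _ _

theorem nrm_smul (s : ℕ) (c : ℂ) (f : SPer d) : nrm s (c • f) = ‖c‖ * nrm s f := by
  unfold nrm; rw [map_smul, norm_smul]

theorem nrm_neg (s : ℕ) (f : SPer d) : nrm s (-f) = nrm s f := by
  unfold nrm; rw [map_neg, norm_neg]

@[simp] theorem nrm_zero_fun (s : ℕ) : nrm s (0 : SPer d) = 0 := by
  unfold nrm; rw [map_zero, norm_zero]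

theorem nrm_sum_le {ι : Type*} (s : ℕ) (t : Finset ι) (f : ι → SPer d) :
    nrm s (∑ i ∈ t, f i) ≤ ∑ i ∈ t, nrm s (f i) := by
  unfold nrm; rw [map_sum]; exact norm_sum_le _ _

theorem hasSum_nrm_sq (s : ℕ) (f : SPer d) :
    HasSum (fun k : d → ℤ => wt k ^ s * ‖fc f k‖ ^ 2) (nrm s f ^ 2) := by
  have h := lp.hasSum_norm (p := 2) (by norm_num) (emb s f)
  simp only [ENNReal.toReal_ofNat, Real.rpow_ofNat] at h
  refine (funext fun k => ?_ : (fun k : d → ℤ => wt k ^ s * ‖fc f k‖ ^ 2) =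
    fun k => ‖emb s f k‖ ^ 2) ▸ h
  rw [emb_apply, norm_mul, norm_real, Real.norm_of_nonneg (pow_nonneg (br_pos k).le _), mul_pow,
    ← pow_mul, mul_comm s 2, pow_mul, br_sq]

theorem nrm_zero_sq (f : SPer d) : nrm 0 f ^ 2 = l2 f := by
  have h := hasSum_nrm_sq 0 f
  simp only [pow_zero, one_mul] at h
  exact h.unique (parseval f)

theorem nrm_le_of_coeff {s t : ℕ} {f g : SPer d} {C : ℝ} (hC : 0 ≤ C)
    (h : ∀ k, wt k ^ s * ‖fc f k‖ ^ 2 ≤ C ^ 2 * (wt k ^ t * ‖fc g k‖ ^ 2)) :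
    nrm s f ≤ C * nrm t g := by
  have h1 := hasSum_le h (hasSum_nrm_sq s f) ((hasSum_nrm_sq t g).mul_left (C ^ 2))
  rw [← mul_pow] at h1
  exact (pow_le_pow_iff_left₀ (nrm_nonneg _ _) (mul_nonneg hC (nrm_nonneg _ _)) two_ne_zero).1 h1

theorem nrm_mono {s t : ℕ} (h : s ≤ t) (f : SPer d) : nrm s f ≤ nrm t f := by
  have := nrm_le_of_coeff (s := s) (t := t) (f := f) (g := f) zero_le_one fun k => ?_
  · simpa using this
  · rw [one_pow, one_mul]
    exact mul_le_mul_of_nonneg_right (pow_le_pow_right₀ (one_le_wt k) h) (sq_nonneg _)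

theorem norm_fc_sq_le (s : ℕ) (f : SPer d) (k : d → ℤ) :
    wt k ^ s * ‖fc f k‖ ^ 2 ≤ nrm s f ^ 2 :=
  le_hasSum (hasSum_nrm_sq s f) k fun j _ => mul_nonneg (pow_nonneg (wt_pos j).le _) (sq_nonneg _)

theorem eq_zero_of_nrm {s : ℕ} {f : SPer d} (h : nrm s f = 0) : f = 0 := by
  refine fc_inj fun k => ?_
  have h1 := norm_fc_sq_le s f k
  rw [h, fc_zero] at *
  have h2 : 0 < wt k ^ s := pow_pos (wt_pos k) _
  have h3 : ‖fc f k‖ ^ 2 ≤ 0 := by
    by_contra h4
    push Not at h4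
    nlinarith [mul_pos h2 h4]
  have h4 : ‖fc f k‖ = 0 := by nlinarith [norm_nonneg (fc f k), sq_nonneg ‖fc f k‖]
  exact norm_eq_zero.1 h4

/-- **recursion**: `|f|²_{s+1} = |f|²_s + (2π)⁻² ∑ |∂_j f|²_s` -/
theorem nrm_succ_sq (s : ℕ) (f : SPer d) :
    nrm (s + 1) f ^ 2 = nrm s f ^ 2 + (4 * π ^ 2)⁻¹ * ∑ j, nrm s (pd j f) ^ 2 := by
  have h1 := hasSum_sum (s := Finset.univ) fun j (_ : j ∈ (Finset.univ : Finset d)) =>
    hasSum_nrm_sq s (pd j f)
  have h2 := (hasSum_nrm_sq s f).add (h1.mul_left (4 * π ^ 2)⁻¹)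
  refine (hasSum_nrm_sq (s + 1) f).unique ?_
  convert h2 using 1
  funext k
  have h3 : ∀ j, wt k ^ s * ‖fc (pd j f) k‖ ^ 2 =
      (4 * π ^ 2) * ((k j : ℝ) ^ 2 * (wt k ^ s * ‖fc f k‖ ^ 2)) := by
    intro j
    rw [fc_pd]
    have : ‖(2 * π * I * (k j : ℂ) * fc f k : ℂ)‖ = 2 * π * |(k j : ℝ)| * ‖fc f k‖ := by
      simp [abs_of_pos Real.pi_pos]
    rw [this, mul_pow, mul_pow, sq_abs]
    ring
  simp_rw [h3]
  rw [← Finset.mul_sum, ← mul_assoc, inv_mul_cancel₀ (by positivity), one_mul, ← Finset.sum_mul,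
    pow_succ]
  unfold wt
  ring

theorem nrm_pd_le (s : ℕ) (j : d) (f : SPer d) : nrm s (pd j f) ≤ 2 * π * nrm (s + 1) f := by
  refine nrm_le_of_coeff (by positivity) fun k => ?_
  rw [fc_pd]
  have : ‖(2 * π * I * (k j : ℂ) * fc f k : ℂ)‖ = 2 * π * |(k j : ℝ)| * ‖fc f k‖ := by
    simp [abs_of_pos Real.pi_pos]
  rw [this, mul_pow, mul_pow, sq_abs]
  have h1 := sq_le_wt k j
  have h2 : (0 : ℝ) ≤ wt k ^ s := pow_nonneg (wt_pos k).le _
  have h3 : (0 : ℝ) ≤ (2 * π) ^ 2 * (wt k ^ s * ‖fc f k‖ ^ 2) := by positivity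
  have h4 := mul_le_mul_of_nonneg_left (show (k j : ℝ) ^ 2 ≤ wt k by linarith) h3
  rw [pow_succ (wt k) s]
  linarith

theorem nrm_succ_le (s : ℕ) (f : SPer d) :
    nrm (s + 1) f ≤ nrm s f + ∑ j, nrm s (pd j f) := by
  have h0 : (0 : ℝ) ≤ ∑ j, nrm s (pd j f) := Finset.sum_nonneg fun j _ => nrm_nonneg _ _
  have h1 : ∑ j, nrm s (pd j f) ^ 2 ≤ (∑ j, nrm s (pd j f)) ^ 2 :=
    Finset.sum_sq_le_sq_sum_of_nonneg fun j _ => nrm_nonneg _ _
  have h2 : (4 * π ^ 2)⁻¹ ≤ 1 := by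
    apply inv_le_one_of_one_le₀
    nlinarith [Real.pi_gt_three]
  have h3 := nrm_succ_sq s f
  have h4 : (4 * π ^ 2)⁻¹ * ∑ j, nrm s (pd j f) ^ 2 ≤ 1 * (∑ j, nrm s (pd j f)) ^ 2 :=
    mul_le_mul h2 h1 (Finset.sum_nonneg fun j _ => sq_nonneg _) zero_le_one
  have h5 : nrm (s + 1) f ^ 2 ≤ (nrm s f + ∑ j, nrm s (pd j f)) ^ 2 := by
    nlinarith [nrm_nonneg s f]
  exact (pow_le_pow_iff_left₀ (nrm_nonneg _ _) (add_nonneg (nrm_nonneg _ _) h0) two_ne_zero).1 h5

theorem nrm_zero_mul_le (p f : SPer d) : nrm 0 (p * f) ≤ ‖desc p‖ * nrm 0 f := by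
  refine (pow_le_pow_iff_left₀ (nrm_nonneg _ _)
    (mul_nonneg (norm_nonneg _) (nrm_nonneg _ _)) two_ne_zero).1 ?_
  rw [mul_pow, nrm_zero_sq, nrm_zero_sq]
  unfold l2
  rw [← integral_const_mul]
  have hi : ∀ g : SPer d, Integrable (fun x => ‖g x‖ ^ 2) (volume.restrict (box (0 : d → ℝ))) := by
    intro g
    refine Integrable.of_bound ((ct g).norm.pow 2).aestronglyMeasurable (‖desc g‖ ^ 2)
      (Eventually.of_forall fun x => ?_)
    rw [Real.norm_of_nonneg (by positivity)]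
    exact pow_le_pow_left₀ (norm_nonneg _) (bdd g x) 2
  refine integral_mono (hi _) ((hi _).const_mul _) fun x => ?_
  show ‖p x * f x‖ ^ 2 ≤ ‖desc p‖ ^ 2 * ‖f x‖ ^ 2
  rw [norm_mul, mul_pow]
  exact mul_le_mul_of_nonneg_right (pow_le_pow_left₀ (norm_nonneg _) (bdd p x) 2) (sq_nonneg _)

/-- **multiplication** is bounded on every level of the scale -/
theorem nrm_mul_le (s : ℕ) : ∀ p : SPer d, ∃ C, 0 ≤ C ∧ ∀ f : SPer d, nrm s (p * f) ≤ C * nrm s f := by
  induction s with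
  | zero => exact fun p => ⟨‖desc p‖, norm_nonneg _, nrm_zero_mul_le p⟩
  | succ s ih =>
    intro p
    obtain ⟨C, hC, h⟩ := ih p
    choose D hD h' using fun j => ih (pd j p)
    refine ⟨C + ∑ j, (D j + C * (2 * π)), add_nonneg hC (Finset.sum_nonneg fun j _ =>
      add_nonneg (hD j) (mul_nonneg hC (by positivity))), fun f => ?_⟩
    refine (nrm_succ_le s (p * f)).trans ?_
    rw [add_mul, Finset.sum_mul]
    refine add_le_add ((h f).trans (mul_le_mul_of_nonneg_left (nrm_mono (Nat.le_succ s) f) hC))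
      (Finset.sum_le_sum fun j _ => ?_)
    rw [pd_mul, add_mul]
    refine (nrm_add_le _ _ _).trans (add_le_add ?_ ?_)
    · exact (h' j f).trans (mul_le_mul_of_nonneg_left (nrm_mono (Nat.le_succ s) f) (hD j))
    · refine (h (pd j f)).trans ?_
      rw [mul_assoc]
      exact mul_le_mul_of_nonneg_left (nrm_pd_le s j f) hC

/-! ### finite rank projections and Rellich -/

theorem finite_wt_le (R : ℝ) : {k : d → ℤ | wt k ≤ R}.Finite := by
  classical
  have h : {k : d → ℤ | wt k ≤ R} ⊆ Set.pi univ fun _ : d => Icc (-⌈|R|⌉) ⌈|R|⌉ := by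
    intro k hk i _
    have h1 : |(k i : ℝ)| ≤ |R| := by
      have := sq_le_wt k i
      have h2 : wt k ≤ |R| := le_trans hk (le_abs_self R)
      nlinarith [sq_abs (k i : ℝ), sq_nonneg (|(k i : ℝ)| - 1), abs_nonneg (k i : ℝ)]
    have h2 : |(k i : ℝ)| ≤ (⌈|R|⌉ : ℤ) := h1.trans (Int.le_ceil _)
    have h3 : |k i| ≤ ⌈|R|⌉ := by exact_mod_cast h2
    exact ⟨(abs_le.1 h3).1, (abs_le.1 h3).2⟩
  exact (Set.Finite.pi fun _ => Set.finite_Icc _ _).subset h

/-- spectral projection to a finite set of frequencies -/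
def proj (S : Finset (d → ℤ)) : SPer d →ₗ[ℂ] SPer d where
  toFun f := ∑ k ∈ S, fc f k • chS k
  map_add' f g := by simp only [fc_add, add_smul, Finset.sum_add_distrib]
  map_smul' c f := by simp only [fc_smul, mul_smul, Finset.smul_sum, RingHom.id_apply]

theorem fc_proj (S : Finset (d → ℤ)) (f : SPer d) (k : d → ℤ) [Decidable (k ∈ S)] :
    fc (proj S f) k = if k ∈ S then fc f k else 0 := by
  classical
  show fc (∑ j ∈ S, fc f j • chS j) k = _
  rw [fc_sum]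
  simp_rw [fc_smul, fc_chS]
  simp only [mul_ite, mul_one, mul_zero]
  rw [Finset.sum_ite_eq]
  split_ifs <;> rfl

theorem nrm_sub_proj_le (s : ℕ) {R : ℝ} (hR : 0 < R) {S : Finset (d → ℤ)}
    (hS : ∀ k, wt k ≤ R → k ∈ S) (f : SPer d) :
    nrm s (f - proj S f) ≤ (√R)⁻¹ * nrm (s + 1) f := by
  classical
  refine nrm_le_of_coeff (inv_nonneg.2 (Real.sqrt_nonneg _)) fun k => ?_
  rw [fc_sub, fc_proj]
  split_ifs with h
  · rw [sub_self, norm_zero]
    have : (0 : ℝ) ≤ wt k ^ (s + 1) * ‖fc f k‖ ^ 2 :=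
      mul_nonneg (pow_nonneg (wt_pos k).le _) (sq_nonneg _)
    simp only [ne_eq, OfNat.ofNat_ne_zero, not_false_eq_true, zero_pow, mul_zero]
    positivity
  · have h1 : R < wt k := lt_of_not_ge fun h1 => h (hS k h1)
    rw [sub_zero, inv_pow, Real.sq_sqrt hR.le, pow_succ (wt k) s, ← div_eq_inv_mul,
      le_div_iff₀ hR]
    have : (0 : ℝ) ≤ wt k ^ s * ‖fc f k‖ ^ 2 :=
      mul_nonneg (pow_nonneg (wt_pos k).le _) (sq_nonneg _)
    have h2 := mul_le_mul_of_nonneg_left h1.le this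
    linarith

/-- **Rellich**: the identity `H^{s+1} → H^s` is a norm limit of finite rank projections -/
theorem rellich (s : ℕ) {ε : ℝ} (hε : 0 < ε) :
    ∃ S : Finset (d → ℤ), ∀ f : SPer d, nrm s (f - proj S f) ≤ ε * nrm (s + 1) f := by
  have hR : 0 < (ε⁻¹) ^ 2 := by positivity
  refine ⟨(finite_wt_le ((ε⁻¹) ^ 2)).toFinset, fun f => ?_⟩
  have h := nrm_sub_proj_le (s := s) hR (S := (finite_wt_le ((ε⁻¹) ^ 2)).toFinset)
    (fun k hk => by rwa [Set.Finite.mem_toFinset]) f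
  rwa [Real.sqrt_sq (by positivity), inv_inv] at h

theorem nrm_proj_le (s : ℕ) (S : Finset (d → ℤ)) (f : SPer d) : nrm s (proj S f) ≤ nrm s f := by
  classical
  have := nrm_le_of_coeff (s := s) (t := s) (f := proj S f) (g := f) zero_le_one fun k => ?_
  · simpa using this
  · rw [fc_proj]
    split_ifs
    · simp
    · have : (0 : ℝ) ≤ wt k ^ s * ‖fc f k‖ ^ 2 :=
        mul_nonneg (pow_nonneg (wt_pos k).le _) (sq_nonneg _)
      simpa using this

/-- a finite rank projection is bounded from order `t` to order `s` for all `s, t` -/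
theorem nrm_proj_le' (s t : ℕ) (S : Finset (d → ℤ)) :
    ∃ C, 0 ≤ C ∧ ∀ f : SPer d, nrm s (proj S f) ≤ C * nrm t f := by
  classical
  refine ⟨∑ k ∈ S, br k ^ s, Finset.sum_nonneg fun k _ => pow_nonneg (br_pos k).le _, fun f => ?_⟩
  refine nrm_le_of_coeff (Finset.sum_nonneg fun k _ => pow_nonneg (br_pos k).le _) fun k => ?_
  rw [fc_proj]
  split_ifs with h
  · have h1 : br k ^ s ≤ ∑ k ∈ S, br k ^ s :=
      Finset.single_le_sum (f := fun k => br k ^ s) (fun k _ => pow_nonneg (br_pos k).le _) h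
    have h2 : wt k ^ s ≤ (∑ k ∈ S, br k ^ s) ^ 2 := by
      rw [← br_sq, ← pow_mul, mul_comm 2 s, pow_mul]
      exact pow_le_pow_left₀ (pow_nonneg (br_pos k).le _) h1 2
    refine mul_le_mul h2 ?_ (sq_nonneg _) (sq_nonneg _)
    exact le_mul_of_one_le_left (sq_nonneg _) (one_le_pow₀ (one_le_wt k))
  · have : (0 : ℝ) ≤ wt k ^ t * ‖fc f k‖ ^ 2 :=
      mul_nonneg (pow_nonneg (wt_pos k).le _) (sq_nonneg _)
    simp only [norm_zero, ne_eq, OfNat.ofNat_ne_zero, not_false_eq_true, zero_pow, mul_zero]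
    exact mul_nonneg (sq_nonneg _) this

/-! ### Sobolev embedding -/

theorem summable_one_add_sq_rpow {a : ℝ} (ha : 1 / 2 < a) :
    Summable fun n : ℤ => ((1 + (n : ℝ) ^ 2) ^ a)⁻¹ := by
  have h : Summable fun n : ℤ => |(n : ℝ)| ^ (-(2 * a)) :=
    Real.summable_abs_int_rpow (by linarith)
  refine Summable.of_norm_bounded_eventually h ?_
  have : ∀ᶠ n : ℤ in cofinite, n ≠ 0 := by
    simpa using (Set.finite_singleton (0 : ℤ)).eventually_cofinite_notMem
  filter_upwards [this] with n hn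
  have h1 : (0 : ℝ) < |(n : ℝ)| := abs_pos.2 (by exact_mod_cast hn)
  rw [Real.norm_of_nonneg (by positivity), Real.rpow_neg h1.le, Real.rpow_mul h1.le]
  refine inv_anti₀ (Real.rpow_pos_of_pos (by positivity) _)
    (Real.rpow_le_rpow (by positivity) ?_ (by linarith))
  rw [Real.rpow_two, sq_abs]
  linarith

theorem summable_wt' {s : ℕ} (hs : Fintype.card d < 2 * s) :
    Summable fun k : d → ℤ => (wt k ^ s)⁻¹ := by
  rcases isEmpty_or_nonempty d with hd | hd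
  · exact summable_of_hasFiniteSupport (Set.toFinite _)
  · have hc : (0 : ℝ) < Fintype.card d := by exact_mod_cast Fintype.card_pos
    have ha : (1 : ℝ) / 2 < s / Fintype.card d := by
      rw [div_lt_div_iff₀ two_pos hc]
      have : ((Fintype.card d : ℕ) : ℝ) < ((2 * s : ℕ) : ℝ) := by exact_mod_cast hs
      push_cast at this
      linarith
    refine Summable.of_nonneg_of_le (fun k => inv_nonneg.2 (pow_nonneg (wt_pos k).le _))
      (fun k => ?_) (summable_prod_int (summable_one_add_sq_rpow ha) fun n => by positivity)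
    rw [Finset.prod_inv_distrib]
    refine inv_anti₀ (Finset.prod_pos fun i _ => Real.rpow_pos_of_pos (by positivity) _) ?_
    calc ∏ i, (1 + (k i : ℝ) ^ 2) ^ ((s : ℝ) / Fintype.card d)
        ≤ ∏ _i : d, wt k ^ ((s : ℝ) / Fintype.card d) :=
          Finset.prod_le_prod (fun i _ => Real.rpow_nonneg (by positivity) _) fun i _ =>
            Real.rpow_le_rpow (by positivity) (sq_le_wt k i) (by positivity)
      _ = wt k ^ s := by
          rw [Finset.prod_const, Finset.card_univ, ← Real.rpow_natCast, ← Real.rpow_mul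
            (wt_pos k).le, div_mul_cancel₀ _ hc.ne', Real.rpow_natCast]

/-- **Sobolev embedding** -/
theorem sup_le {s : ℕ} (hs : Fintype.card d < 2 * s) :
    ∃ C, 0 ≤ C ∧ ∀ (f : SPer d) (x : d → ℝ), ‖f x‖ ≤ C * nrm s f := by
  refine ⟨√(∑' k : d → ℤ, (wt k ^ s)⁻¹), Real.sqrt_nonneg _, fun f x => ?_⟩
  have h1 : ‖f x‖ ≤ ∑' k, ‖fc f k‖ := by
    have h2 : Summable fun k => ‖fc f k‖ := (rapid_fc f).summable_norm
    rw [← (hasSum_ch f x).tsum_eq]
    refine (norm_tsum_le_tsum_norm ?_).trans (le_of_eq (tsum_congr fun k => ?_))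
    · simpa only [norm_mul, norm_ch, mul_one] using h2
    · rw [norm_mul, norm_ch, mul_one]
  refine h1.trans ?_
  refine Real.tsum_le_of_sum_le (fun k => norm_nonneg _) fun S => ?_
  have h3 : (∑ k ∈ S, ‖fc f k‖) ^ 2 ≤
      (∑ k ∈ S, (wt k ^ s)⁻¹) * ∑ k ∈ S, wt k ^ s * ‖fc f k‖ ^ 2 := by
    have := Finset.sum_mul_sq_le_sq_mul_sq S (fun k => (br k ^ s)⁻¹) fun k => br k ^ s * ‖fc f k‖
    have e1 : ∀ k : d → ℤ, (br k ^ s)⁻¹ * (br k ^ s * ‖fc f k‖) = ‖fc f k‖ := fun k => by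
      rw [← mul_assoc, inv_mul_cancel₀ (pow_pos (br_pos k) _).ne', one_mul]
    have e2 : ∀ k : d → ℤ, ((br k ^ s)⁻¹) ^ 2 = (wt k ^ s)⁻¹ := fun k => by
      rw [inv_pow, ← pow_mul, mul_comm s 2, pow_mul, br_sq]
    have e3 : ∀ k : d → ℤ, (br k ^ s * ‖fc f k‖) ^ 2 = wt k ^ s * ‖fc f k‖ ^ 2 := fun k => by
      rw [mul_pow, ← pow_mul, mul_comm s 2, pow_mul, br_sq]
    simp_rw [e1, e2, e3] at this
    exact this
  have h4 : (∑ k ∈ S, (wt k ^ s)⁻¹) ≤ ∑' k : d → ℤ, (wt k ^ s)⁻¹ :=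
    (summable_wt' hs).sum_le_tsum _ fun k _ => inv_nonneg.2 (pow_nonneg (wt_pos k).le _)
  have h5 : ∑ k ∈ S, wt k ^ s * ‖fc f k‖ ^ 2 ≤ nrm s f ^ 2 :=
    sum_le_hasSum S (fun k _ => mul_nonneg (pow_nonneg (wt_pos k).le _) (sq_nonneg _))
      (hasSum_nrm_sq s f)
  have h6 : (0 : ℝ) ≤ ∑' k : d → ℤ, (wt k ^ s)⁻¹ :=
    tsum_nonneg fun k => inv_nonneg.2 (pow_nonneg (wt_pos k).le _)
  refine (pow_le_pow_iff_left₀ (Finset.sum_nonneg fun k _ => norm_nonneg _)
    (mul_nonneg (Real.sqrt_nonneg _) (nrm_nonneg _ _)) two_ne_zero).1 ?_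
  rw [mul_pow, Real.sq_sqrt h6]
  refine h3.trans (mul_le_mul h4 h5 (Finset.sum_nonneg fun k _ =>
    mul_nonneg (pow_nonneg (wt_pos k).le _) (sq_nonneg _)) h6)

/-- iterated partial derivatives -/
def pds : List d → SPer d → SPer d
  | [], f => f
  | j :: l, f => pd j (pds l f)

theorem nrm_pds_le (s : ℕ) (l : List d) (f : SPer d) :
    nrm s (pds l f) ≤ (2 * π) ^ l.length * nrm (s + l.length) f := by
  induction l generalizing s with
  | nil => simp [pds]
  | cons j l ih =>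
    refine (nrm_pd_le s j _).trans ?_
    refine (mul_le_mul_of_nonneg_left (ih (s + 1)) (by positivity)).trans (le_of_eq ?_)
    rw [List.length_cons, pow_succ, show s + 1 + l.length = s + (l.length + 1) by ring]
    ring

theorem sup_pds_le {s : ℕ} (hs : Fintype.card d < 2 * s) (l : List d) :
    ∃ C, 0 ≤ C ∧ ∀ (f : SPer d) (x : d → ℝ), ‖pds l f x‖ ≤ C * nrm (s + l.length) f := by
  obtain ⟨C, hC, h⟩ := sup_le (d := d) hs
  refine ⟨C * (2 * π) ^ l.length, by positivity, fun f x => (h _ x).trans ?_⟩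
  rw [mul_assoc]
  exact mul_le_mul_of_nonneg_left (nrm_pds_le s l f) hC

/-- the finitely supported sequences are in the range of `emb s`, so the range is dense -/
theorem denseRange_emb (s : ℕ) : DenseRange (emb s : SPer d → L2Z d) := by
  classical
  intro x
  have h := lp.hasSum_single (p := 2) (by norm_num) x
  refine mem_closure_of_tendsto h (Eventually.of_forall fun S => ?_)
  refine ⟨∑ k ∈ S, (((br k ^ s : ℝ) : ℂ)⁻¹ * x k) • chS k, ?_⟩
  rw [map_sum]
  refine Finset.sum_congr rfl fun k _ => ?_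
  ext j
  rw [emb_apply, fc_smul, fc_chS, lp.single_apply]
  by_cases hj : j = k
  · subst hj
    have h0 : ((br j ^ s : ℝ) : ℂ) ≠ 0 := by exact_mod_cast (pow_pos (br_pos j) s).ne'
    rw [if_pos rfl, mul_one, ← mul_assoc, mul_inv_cancel₀ h0, one_mul]
    simp
  · rw [if_neg hj, mul_zero, mul_zero]
    simp [Pi.single_apply, hj]

end

end Crest.Agent.R275.Tor812
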