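import Crest.Agent.R275.TorB_812

/-!
# R275 (helper912): completeness of `SPer d` for the whole scale of norms `nrm s`
-/

set_option autoImplicit false
set_option linter.unusedSectionVars false

open MeasureTheory Filter Topology Set Complex
open scoped ContDiff Real ENNReal

namespace Crest.Agent.R275.TorCpl912

open Tor812

noncomputable section

variable {d : Type} [Fintype d]

/-- Fourier coefficients are controlled by every norm of the scale -/
theorem norm_fc_le_nrm (s : ℕ) (f : SPer d) (k : d → ℤ) : ‖fc f k‖ ≤ nrm s f := by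
  have h1 := norm_fc_sq_le 0 f k
  rw [pow_zero, one_mul] at h1
  have h2 : ‖fc f k‖ ≤ nrm 0 f := (pow_le_pow_iff_left₀ (norm_nonneg _) (nrm_nonneg _ _)
    two_ne_zero).1 h1
  exact h2.trans (nrm_mono (Nat.zero_le s) f)

/-- a bound for all finite partial sums is a bound for `nrm` -/
theorem nrm_le_of_sum_le {s : ℕ} {f : SPer d} {C : ℝ} (hC : 0 ≤ C)
    (h : ∀ S : Finset (d → ℤ), ∑ k ∈ S, wt k ^ s * ‖fc f k‖ ^ 2 ≤ C ^ 2) : nrm s f ≤ C := by
  have h1 := hasSum_nrm_sq s f
  have h2 : nrm s f ^ 2 ≤ C ^ 2 := by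
    rw [← h1.tsum_eq]
    exact Real.tsum_le_of_sum_le
      (fun k => mul_nonneg (pow_nonneg (wt_pos k).le _) (sq_nonneg _)) h
  exact (pow_le_pow_iff_left₀ (nrm_nonneg _ _) hC two_ne_zero).1 h2

/-- a sequence which is Cauchy for the norm of order `s` -/
def CauchyN (s : ℕ) (f : ℕ → SPer d) : Prop :=
  ∀ ε > 0, ∃ N, ∀ m ≥ N, ∀ m' ≥ N, nrm s (f m - f m') ≤ ε

theorem CauchyN.cauchySeq_fc {f : ℕ → SPer d} {s : ℕ} (h : CauchyN s f) (k : d → ℤ) :
    CauchySeq (fun m => fc (f m) k) := by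
  rw [Metric.cauchySeq_iff]
  intro ε hε
  obtain ⟨N, hN⟩ := h (ε / 2) (half_pos hε)
  refine ⟨N, fun m hm m' hm' => ?_⟩
  rw [dist_eq_norm, ← fc_sub]
  exact lt_of_le_of_lt ((norm_fc_le_nrm s _ k).trans (hN m hm m' hm')) (half_lt_self hε)

theorem CauchyN.bounded {f : ℕ → SPer d} {s : ℕ} (h : CauchyN s f) :
    ∃ C, 0 ≤ C ∧ ∀ m, nrm s (f m) ≤ C := by
  obtain ⟨N, hN⟩ := h 1 one_pos
  refine ⟨∑ m ∈ Finset.range (N + 1), nrm s (f m) + 1, by
    have : 0 ≤ ∑ m ∈ Finset.range (N + 1), nrm s (f m) := Finset.sum_nonneg fun _ _ => nrm_nonneg _ _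
    linarith, fun m => ?_⟩
  rcases le_or_gt m N with hm | hm
  · have := Finset.single_le_sum (f := fun m => nrm s (f m)) (fun _ _ => nrm_nonneg _ _)
      (Finset.mem_range.2 (Nat.lt_succ_of_le hm))
    linarith
  · have h1 := hN m hm.le N le_rfl
    have h2 : nrm s (f m) ≤ nrm s (f m - f N) + nrm s (f N) := by
      have := nrm_add_le s (f m - f N) (f N)
      rwa [sub_add_cancel] at this
    have h3 := Finset.single_le_sum (f := fun m => nrm s (f m)) (fun _ _ => nrm_nonneg _ _)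
      (Finset.mem_range.2 (Nat.lt_succ_self N))
    linarith

/-- **completeness** of the space of smooth periodic functions for the scale of norms -/
theorem exists_limit {f : ℕ → SPer d} (h : ∀ s, CauchyN s f) :
    ∃ g : SPer d, ∀ s, Tendsto (fun m => nrm s (f m - g)) atTop (𝓝 0) := by
  choose a ha using fun k => cauchySeq_tendsto_of_complete ((h 0).cauchySeq_fc k)
  have hR : Rapid a := by
    intro N
    obtain ⟨C, hC, hb⟩ := (h (2 * N)).bounded
    refine ⟨C, fun k => ?_⟩
    have h1 : ∀ m, wt k ^ N * ‖fc (f m) k‖ ≤ C := by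
      intro m
      have h2 := norm_fc_sq_le (2 * N) (f m) k
      have h3 : (wt k ^ N * ‖fc (f m) k‖) ^ 2 ≤ C ^ 2 := by
        rw [mul_pow, ← pow_mul, mul_comm N 2]
        exact h2.trans (pow_le_pow_left₀ (nrm_nonneg _ _) (hb m) 2)
      exact (pow_le_pow_iff_left₀ (mul_nonneg (pow_nonneg (wt_pos k).le _) (norm_nonneg _)) hC
        two_ne_zero).1 h3
    exact le_of_tendsto ((ha k).norm.const_mul _) (Eventually.of_forall h1)
  refine ⟨syn a hR, fun s => ?_⟩
  rw [Metric.tendsto_atTop]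
  intro ε hε
  obtain ⟨N, hN⟩ := h s (ε / 2) (half_pos hε)
  refine ⟨N, fun m hm => ?_⟩
  rw [dist_zero_right, Real.norm_of_nonneg (nrm_nonneg _ _)]
  refine lt_of_le_of_lt (nrm_le_of_sum_le (half_pos hε).le fun S => ?_) (half_lt_self hε)
  have h1 : Tendsto (fun m' => ∑ k ∈ S, wt k ^ s * ‖fc (f m - f m') k‖ ^ 2) atTop
      (𝓝 (∑ k ∈ S, wt k ^ s * ‖fc (f m - syn a hR) k‖ ^ 2)) := by
    refine tendsto_finsetSum _ fun k _ => ?_
    refine Tendsto.const_mul _ (Tendsto.pow (Tendsto.norm ?_) 2)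
    simp only [fc_sub, fc_syn]
    exact (ha k).const_sub _
  refine le_of_tendsto h1 ?_
  filter_upwards [eventually_ge_atTop N] with m' hm'
  refine (sum_le_hasSum S (fun k _ => mul_nonneg (pow_nonneg (wt_pos k).le _) (sq_nonneg _))
    (hasSum_nrm_sq s _)).trans ?_
  exact pow_le_pow_left₀ (nrm_nonneg _ _) (hN m hm m' hm') 2

/-- convergence in the scale implies pointwise convergence -/
theorem tendsto_apply {f : ℕ → SPer d} {g : SPer d}
    (h : ∀ s, Tendsto (fun m => nrm s (f m - g)) atTop (𝓝 0)) (x : d → ℝ) :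
    Tendsto (fun m => f m x) atTop (𝓝 (g x)) := by
  obtain ⟨C, hC, hb⟩ := sup_le (d := d) (s := Fintype.card d + 1) (by omega)
  rw [tendsto_iff_norm_sub_tendsto_zero]
  refine squeeze_zero (fun m => norm_nonneg _) (fun m => ?_)
    (by simpa using (h (Fintype.card d + 1)).const_mul C)
  exact hb (f m - g) x

/-- uniqueness of limits -/
theorem limit_unique {f : ℕ → SPer d} {g g' : SPer d} {s : ℕ}
    (h : Tendsto (fun m => nrm s (f m - g)) atTop (𝓝 0))
    (h' : Tendsto (fun m => nrm s (f m - g')) atTop (𝓝 0)) : g = g' := by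
  have h1 : nrm s (g - g') ≤ 0 := by
    have h2 : ∀ m, nrm s (g - g') ≤ nrm s (f m - g) + nrm s (f m - g') := by
      intro m
      have := nrm_sub_le s (f m - g') (f m - g)
      have e : f m - g' - (f m - g) = g - g' := by abel
      rw [e] at this
      linarith
    exact ge_of_tendsto' (by simpa using h.add h') h2
  have h2 : nrm s (g - g') = 0 := le_antisymm h1 (nrm_nonneg _ _)
  exact sub_eq_zero.1 (eq_zero_of_nrm h2)

/-- limits and multiplication operators etc.: a linear map bounded in the scale is continuous -/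
theorem tendsto_map {d' : Type} [Fintype d'] {T : SPer d →ₗ[ℂ] SPer d'}
    (hT : ∀ s, ∃ t C, 0 ≤ C ∧ ∀ f, nrm s (T f) ≤ C * nrm t f) {f : ℕ → SPer d} {g : SPer d}
    (h : ∀ s, Tendsto (fun m => nrm s (f m - g)) atTop (𝓝 0)) (s : ℕ) :
    Tendsto (fun m => nrm s (T (f m) - T g)) atTop (𝓝 0) := by
  obtain ⟨t, C, hC, hb⟩ := hT s
  refine squeeze_zero (fun m => nrm_nonneg _ _) (fun m => ?_)
    (by simpa using (h t).const_mul C)
  rw [← map_sub]
  exact hb _

end

end Crest.Agent.R275.TorCpl912
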