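import Crest.Agent.R275.TorC_812
import Crest.Agent.R275.DolGerm_967

/-!
# R275: convolution along a complex coordinate line on the torus scale (helper539)

`conv a κ f (x) = ∫ κ t * f (x - dir a t)` for `κ : ℂ → ℂ` integrable, as a bounded operator of
every order on `SPer (CI n)`: `nrm s (conv a κ f) ≤ (∫ ‖κ‖) * nrm s f`.  With
`κ = 1/(π t)` on `|t| < R` this is the one-variable Cauchy transform (967's `T`) for functions
supported in a small box.
-/

set_option autoImplicit false

open Set Filter Topology Complex MeasureTheory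
open scoped ContDiff Real

namespace Crest.Agent.R275.TorT539

open Crest.Agent.R275.Tor812 Crest.Agent.R275.Geo Crest.Agent.R275.Dol967
open Crest.Agent.R080.CauchyP

noncomputable section

variable {n : ℕ}

/-- the complex line in direction `a`, in the real coordinates -/
def dir (a : Fin n) (t : ℂ) : CI n → ℝ :=
  fun p => if p.1 = a then (if p.2 = 0 then t.re else t.im) else 0

theorem continuous_dir (a : Fin n) : Continuous (dir a : ℂ → CI n → ℝ) := by
  refine continuous_pi fun p => ?_
  unfold dir
  split_ifs <;> fun_prop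

theorem rc_sub_single (a : Fin n) (z : Cn n) (t : ℂ) :
    rc (z - EuclideanSpace.single a t) = rc z - dir a t := by
  funext p
  obtain ⟨b, q⟩ := p
  by_cases h : b = a
  · subst h
    fin_cases q <;> simp [rc, dir]
  · fin_cases q <;> simp [rc, dir, h]

/-- the symbol of the convolution -/
def sym (a : Fin n) (κ : ℂ → ℂ) (k : CI n → ℤ) : ℂ := ∫ t, κ t * ch k (-(dir a t))

theorem norm_sym_le (a : Fin n) (κ : ℂ → ℂ) (k : CI n → ℤ) : ‖sym a κ k‖ ≤ ∫ t, ‖κ t‖ := by
  refine (norm_integral_le_integral_norm _).trans (le_of_eq ?_)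
  refine integral_congr_ae (Eventually.of_forall fun t => ?_)
  simp [norm_ch]

theorem pb_sym (a : Fin n) (κ : ℂ → ℂ) : PB (sym a κ) :=
  ⟨∫ t, ‖κ t‖, 0, integral_nonneg fun _ => norm_nonneg _, fun k => by
    simpa using norm_sym_le a κ k⟩

/-- convolution with `κ` along the complex line `a` -/
def conv (a : Fin n) (κ : ℂ → ℂ) : SPer (CI n) →ₗ[ℂ] SPer (CI n) := mult _ (pb_sym a κ)

theorem fc_conv (a : Fin n) (κ : ℂ → ℂ) (f : SPer (CI n)) (k : CI n → ℤ) :
    fc (conv a κ f) k = sym a κ k * fc f k := fc_mult _ _ _ _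

/-- **the convolution is bounded on every Sobolev norm** -/
theorem nrm_conv_le (s : ℕ) (a : Fin n) (κ : ℂ → ℂ) (f : SPer (CI n)) :
    nrm s (conv a κ f) ≤ (∫ t, ‖κ t‖) * nrm s f := by
  refine nrm_mult_le (a := 0) (b := 0) (pb_sym a κ) (integral_nonneg fun _ => norm_nonneg _)
    (fun k => ?_) s f
  simpa using norm_sym_le a κ k

theorem measurable_ch_dir (a : Fin n) (k : CI n → ℤ) :
    Continuous fun t : ℂ => ch k (-(dir a t)) :=
  (ch_smooth k).continuous.comp (continuous_dir a).neg

/-- **pointwise formula** -/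
theorem conv_apply (a : Fin n) {κ : ℂ → ℂ} (hκ : Integrable κ) (f : SPer (CI n))
    (x : CI n → ℝ) : conv a κ f x = ∫ t, κ t * f (x - dir a t) := by
  have h1 := hasSum_ch (conv a κ f) x
  have hF : ∀ k : CI n → ℤ, Integrable fun t : ℂ => κ t * (fc f k * ch k (x - dir a t)) := by
    intro k
    have hc : Continuous fun t : ℂ => fc f k * ch k (x - dir a t) :=
      continuous_const.mul ((ch_smooth k).continuous.comp (continuous_const.sub (continuous_dir a)))
    refine hκ.mul_bdd (c := ‖fc f k‖) hc.aestronglyMeasurable (Eventually.of_forall fun t => ?_)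
    rw [norm_mul, norm_ch, mul_one]
  have hS : Summable fun k : CI n → ℤ => ∫ t, ‖κ t * (fc f k * ch k (x - dir a t))‖ := by
    have h2 : (fun k : CI n → ℤ => ∫ t, ‖κ t * (fc f k * ch k (x - dir a t))‖) =
        fun k => (∫ t, ‖κ t‖) * ‖fc f k‖ := by
      funext k
      rw [← integral_mul_const]
      refine integral_congr_ae (Eventually.of_forall fun t => ?_)
      simp [norm_ch]
    rw [h2]
    have h3 := summable_fc f 0
    simp only [pow_zero, one_mul] at h3
    exact h3.mul_left _
  have h2 := hasSum_integral_of_summable_integral_norm hF hS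
  have h3 : (fun k : CI n → ℤ => ∫ t, κ t * (fc f k * ch k (x - dir a t))) =
      fun k => fc (conv a κ f) k * ch k x := by
    funext k
    rw [fc_conv, sym]
    rw [mul_assoc, ← integral_mul_const]
    refine integral_congr_ae (Eventually.of_forall fun t => ?_)
    simp only
    rw [sub_eq_add_neg, ch_add]
    ring
  rw [h3] at h2
  have h4 : (fun t : ℂ => ∑' k : CI n → ℤ, κ t * (fc f k * ch k (x - dir a t))) =
      fun t => κ t * f (x - dir a t) := by
    funext t
    rw [tsum_mul_left, (hasSum_ch f (x - dir a t)).tsum_eq]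
  rw [h4] at h2
  exact h1.unique h2

/-! ### the Cauchy kernel -/

/-- the truncated Cauchy kernel `1/(π t)`, `|t| < R` -/
def kR (R : ℝ) : ℂ → ℂ := (Metric.ball (0 : ℂ) R).indicator fun t => 2 * kc t

theorem integrable_kR (R : ℝ) : Integrable (kR R) := by
  unfold kR
  rw [integrable_indicator_iff Metric.isOpen_ball.measurableSet]
  exact ((integrableOn_kc R).mono_set Metric.ball_subset_closedBall).const_mul 2

/-- the truncated Cauchy transform on the torus -/
def TR (a : Fin n) (R : ℝ) : SPer (CI n) →ₗ[ℂ] SPer (CI n) := conv a (kR R)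

theorem nrm_TR_le (s : ℕ) (a : Fin n) (R : ℝ) (f : SPer (CI n)) :
    nrm s (TR a R f) ≤ (∫ t, ‖kR R t‖) * nrm s f := nrm_conv_le s a _ f

theorem TR_apply (a : Fin n) (R : ℝ) (f : SPer (CI n)) (x : CI n → ℝ) :
    TR a R f x = ∫ t in Metric.ball (0 : ℂ) R, 2 * kc t * f (x - dir a t) := by
  rw [TR, conv_apply a (integrable_kR R)]
  rw [← integral_indicator Metric.isOpen_ball.measurableSet]
  refine integral_congr_ae (Eventually.of_forall fun t => ?_)
  by_cases ht : t ∈ Metric.ball (0 : ℂ) R
  · simp [kR, ht]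
  · simp [kR, ht]

/-- on a small box the torus operator is the Cauchy transform `T` of `Dol967` -/
theorem TR_eq_T (a : Fin 2) {R : ℝ} {f : SPer (CI 2)} {φ : Cn 2 → ℂ} {z : Cn 2}
    (h1 : ∀ t : ℂ, ‖t‖ < R → f (rc z - dir a t) = φ (z - EuclideanSpace.single a t))
    (h2 : ∀ t : ℂ, R ≤ ‖t‖ → φ (z - EuclideanSpace.single a t) = 0) :
    TR a R f (rc z) = T a φ z := by
  rw [TR_apply, T, cauchyP, ← integral_const_mul,
    ← integral_indicator Metric.isOpen_ball.measurableSet]
  refine integral_congr_ae (Eventually.of_forall fun t => ?_)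
  by_cases ht : ‖t‖ < R
  · have ht' : t ∈ Metric.ball (0 : ℂ) R := by simpa using ht
    simp only [indicator_of_mem ht', lin_apply]
    rw [h1 t ht]
    ring
  · have ht' : t ∉ Metric.ball (0 : ℂ) R := by simpa using ht
    simp only [indicator_of_notMem ht', lin_apply]
    rw [h2 t (not_lt.1 ht)]
    ring

end

end Crest.Agent.R275.TorT539
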