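import Crest.Agent.R275.Core_144
import Crest.Agent.R275.Sec5_95
import Crest.Agent.R266.SCV

/-!
R275 (S0418), helper468: section 5 in holomorphic cocycle form.  Part A: the closed graph `TT` of
the Čech coboundary on bounded holomorphic cochains over `N`.
-/

set_option autoImplicit false
set_option linter.unusedSectionVars false

open Set Filter Topology Complex
open scoped ENNReal

noncomputable section

namespace Crest.Agent.R275.Tr5

open Crest.Agent.R275.Geo Crest.Agent.R275.Core144 Crest.Agent.R275.Sec495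

section Graph

variable {n : ℕ} {M : Type} [TopologicalSpace M] (A : Atl n M) (h : M → ℝ) (N : Set M)

/-- bounded `0`-cochains -/
abbrev VV := lp (fun _ : A.ι × M => ℂ) ∞
/-- bounded `1`-cochains -/
abbrev WW := lp (fun _ : (A.ι × A.ι) × M => ℂ) ∞

/-- pairs `(f, w)`, `f` holomorphic on `N` and tending to `0` at the small end, `w = δ f` -/
def TT : Submodule ℝ (VV A × WW A) where
  carrier := {p | (∀ i, HolAt A i N (fun x => p.1 (i, x))) ∧
    (∀ ε > 0, ∃ T : ℝ, ∀ i, ∀ x ∈ (A.e i).source, x ∈ N → h x < T → ‖p.1 (i, x)‖ < ε) ∧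
    ∀ i j, ∀ x ∈ (A.e i).source ∩ (A.e j).source, x ∈ N →
      p.2 ((i, j), x) = p.1 (i, x) - p.1 (j, x)}
  add_mem' := by
    rintro p q ⟨h1, h2, h3⟩ ⟨k1, k2, k3⟩
    refine ⟨fun i => ?_, ?_, ?_⟩
    · refine ((h1 i).add (k1 i)).congr (fun x _ _ => ?_)
      simp
    · intro ε hε
      obtain ⟨T, hT⟩ := h2 (ε / 2) (half_pos hε)
      obtain ⟨T', hT'⟩ := k2 (ε / 2) (half_pos hε)
      refine ⟨min T T', fun i x hx hxN hxT => ?_⟩
      have a1 := hT i x hx hxN (lt_of_lt_of_le hxT (min_le_left _ _))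
      have a2 := hT' i x hx hxN (lt_of_lt_of_le hxT (min_le_right _ _))
      have a3 : (p + q).1 (i, x) = p.1 (i, x) + q.1 (i, x) := by simp
      rw [a3]
      exact (norm_add_le _ _).trans_lt (by linarith)
    · intro i j x hx hxN
      have a1 := h3 i j x hx hxN
      have a2 := k3 i j x hx hxN
      simp only [Prod.snd_add, Prod.fst_add, lp.coeFn_add, Pi.add_apply, a1, a2]
      ring
  zero_mem' := by
    refine ⟨fun i => ?_, ?_, ?_⟩
    · exact (holAt_const 0).congr (fun x _ _ => by simp)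
    · intro ε hε
      exact ⟨0, fun i x _ _ _ => by simpa using hε⟩
    · intro i j x _ _
      simp
  smul_mem' := by
    rintro c p ⟨h1, h2, h3⟩
    refine ⟨fun i => ?_, ?_, ?_⟩
    · refine ((h1 i).const_mul (c : ℂ)).congr (fun x _ _ => ?_)
      simp
    · intro ε hε
      obtain ⟨T, hT⟩ := h2 (ε / (|c| + 1)) (by positivity)
      refine ⟨T, fun i x hx hxN hxT => ?_⟩
      have a1 := hT i x hx hxN hxT
      have a3 : (c • p).1 (i, x) = (c : ℂ) * p.1 (i, x) := by simp
      rw [a3, norm_mul, Complex.norm_real, Real.norm_eq_abs]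
      have h0 : (0 : ℝ) < |c| + 1 := by positivity
      calc |c| * ‖p.1 (i, x)‖ ≤ (|c| + 1) * ‖p.1 (i, x)‖ := by gcongr; linarith
        _ < (|c| + 1) * (ε / (|c| + 1)) := by gcongr
        _ = ε := by field_simp
    · intro i j x hx hxN
      have a1 := h3 i j x hx hxN
      simp only [Prod.smul_snd, Prod.smul_fst, lp.coeFn_smul, Pi.smul_apply, a1, real_smul]
      ring

variable {A h N}

theorem mem_TT {p : VV A × WW A} : p ∈ TT A h N ↔ (∀ i, HolAt A i N (fun x => p.1 (i, x))) ∧
    (∀ ε > 0, ∃ T : ℝ, ∀ i, ∀ x ∈ (A.e i).source, x ∈ N → h x < T → ‖p.1 (i, x)‖ < ε) ∧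
    ∀ i j, ∀ x ∈ (A.e i).source ∩ (A.e j).source, x ∈ N →
      p.2 ((i, j), x) = p.1 (i, x) - p.1 (j, x) := Iff.rfl

theorem closed_TT (hN : IsOpen N) : ClosedT (TT A h N) (fun _ : Unit => normSeminorm ℝ (VV A))
    (fun _ : Unit => normSeminorm ℝ (WW A)) := by
  intro f w w0 hT hs hw
  have hs' : Summable (fun n => dist (f n) (f n.succ)) := by
    refine (hs ()).congr (fun n => ?_)
    rw [dist_comm, dist_eq_norm]
    rfl
  obtain ⟨f0, hf0⟩ := cauchySeq_tendsto_of_complete (cauchySeq_of_summable_dist hs')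
  have hf0' : Tendsto (fun n => ‖f n - f0‖) atTop (𝓝 0) := tendsto_iff_norm_sub_tendsto_zero.1 hf0
  have hw0 : Tendsto (fun n => ‖w n - w0‖) atTop (𝓝 0) := hw ()
  refine ⟨f0, ⟨fun i => ?_, ?_, ?_⟩, fun _ => hf0'⟩
  · -- holomorphic
    have hU := isOpen_ti (A := A) (i := i) hN
    refine (Crest.Agent.R266.SCV.analyticOnNhd_of_tendstoLocallyUniformlyOn (φ := atTop)
      (f := fun n z => f n (i, (A.e i).symm z)) hU ?_
      (Eventually.of_forall fun n => (hT n).1 i)).differentiableOn
    refine TendstoUniformlyOn.tendstoLocallyUniformlyOn ?_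
    rw [Metric.tendstoUniformlyOn_iff]
    intro ε hε
    filter_upwards [hf0'.eventually (gt_mem_nhds hε)] with n hn z _
    rw [dist_comm, dist_eq_norm]
    refine lt_of_le_of_lt ?_ hn
    have := lp.norm_apply_le_norm (p := ∞) (by simp) (f n - f0) (i, (A.e i).symm z)
    simpa using this
  · intro ε hε
    obtain ⟨n, hn⟩ := (hf0'.eventually (gt_mem_nhds (half_pos hε))).exists
    obtain ⟨T, hTn⟩ := (hT n).2.1 (ε / 2) (half_pos hε)
    refine ⟨T, fun i x hx hxN hxT => ?_⟩
    have h1 := hTn i x hx hxN hxT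
    have h2 := lp.norm_apply_le_norm (p := ∞) (by simp) (f n - f0) (i, x)
    have h3 : f0 (i, x) = f n (i, x) - (f n - f0 : VV A) (i, x) := by simp
    change ‖f0 (i, x)‖ < ε
    rw [h3]
    refine (norm_sub_le _ _).trans_lt ?_
    change ‖f n (i, x)‖ < ε / 2 at h1
    linarith
  · intro i j x hx hxN
    have h1 : Tendsto (fun n => w n ((i, j), x)) atTop (𝓝 (w0 ((i, j), x))) := by
      rw [tendsto_iff_norm_sub_tendsto_zero]
      refine squeeze_zero (fun _ => norm_nonneg _) (fun n => ?_) hw0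
      have := lp.norm_apply_le_norm (p := ∞) (by simp) (w n - w0) ((i, j), x)
      simpa using this
    have h2 : ∀ k, Tendsto (fun n => f n (k, x)) atTop (𝓝 (f0 (k, x))) := by
      intro k
      rw [tendsto_iff_norm_sub_tendsto_zero]
      refine squeeze_zero (fun _ => norm_nonneg _) (fun n => ?_) hf0'
      have := lp.norm_apply_le_norm (p := ∞) (by simp) (f n - f0) (k, x)
      simpa using this
    have h3 : (fun n => w n ((i, j), x)) = fun n => f n (i, x) - f n (j, x) :=
      funext fun n => (hT n).2.2 i j x hx hxN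
    rw [h3] at h1
    exact tendsto_nhds_unique h1 ((h2 i).sub (h2 j))

end Graph

end Crest.Agent.R275.Tr5
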