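import Crest.Agent.R275.Tr5B_468

/-!
R275 (S0418), helper468: section 5 in holomorphic cocycle form.  Part C: the limit theorem for deep
indices: `E k` has a frame over `N` for all `k < M0`.
-/

set_option autoImplicit false
set_option linter.unusedSectionVars false

open Set Filter Topology Complex
open scoped ENNReal

noncomputable section

namespace Crest.Agent.R275.Tr5

open Crest.Agent.R275.Geo Crest.Agent.R275.Core144 Crest.Agent.R275.Sec495

section Deep

variable {n : ℕ} {M : Type} [TopologicalSpace M] {A : Atl n M} {h : M → ℝ} {N : Set M}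
variable {B : Type*} [DecidableEq B] {S : Data495 B} (O : Ord495 S)

theorem exists_r_bound : ∃ R0 : ℕ, ∀ k, O.r k ≤ R0 := by
  have hper : Function.Periodic O.r (O.b : ℤ) := O.r_per
  have hb : (0 : ℤ) < O.b := by exact_mod_cast O.hb
  refine ⟨(Finset.range O.b).sup (fun j : ℕ => O.r j), fun k => ?_⟩
  have h1 : O.r k = O.r (k % O.b) := by
    have h2 : k = k % O.b + (k / O.b) * O.b := by
      rw [mul_comm]; exact (Int.emod_add_mul_ediv k O.b).symm
    have h3 := (hper.int_mul (k / O.b)) (k % O.b)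
    rw [← h3]
    congr 1
  have h4 : 0 ≤ k % O.b := Int.emod_nonneg _ hb.ne'
  have h5 : k % O.b < O.b := Int.emod_lt_of_pos _ hb
  obtain ⟨j, hj⟩ := Int.eq_ofNat_of_zero_le h4
  rw [h1, hj]
  exact Finset.le_sup (f := fun j : ℕ => O.r j) (Finset.mem_range.2 (by omega))

/-- bounded functions as elements of `ℓ^∞` -/
def mkL {α : Type*} (f : α → ℂ) (C : ℝ) (hf : ∀ a, ‖f a‖ ≤ C) : lp (fun _ : α => ℂ) ∞ :=
  ⟨f, memℓp_infty ⟨C, by rintro _ ⟨a, rfl⟩; exact hf a⟩⟩

@[simp] lemma mkL_apply {α : Type*} (f : α → ℂ) (C : ℝ) (hf : ∀ a, ‖f a‖ ≤ C) (a : α) :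
    mkL f C hf a = f a := rfl

lemma norm_mkL_le {α : Type*} (f : α → ℂ) (C : ℝ) (hf : ∀ a, ‖f a‖ ≤ C) {c : ℝ} (hc : 0 ≤ c)
    (hfc : ∀ a, ‖f a‖ ≤ c) : ‖mkL f C hf‖ ≤ c :=
  lp.norm_le_of_forall_le hc hfc

open Classical in
/-- **deep indices**: if `E k → 1` and `sec k → 1` geometrically, then all `E k`, `k < M0`, have
bounded frames over `N`. -/
theorem frames_deep (hN : IsOpen N) (E : ℤ → LB A) (sec : ℤ → A.ι → M → ℂ) {m : ℤ} {x0 : ℝ}
    (hx0 : 0 < x0) (hx1 : x0 < 1)
    (hm : O.OneParent m ∨ ((∀ K ≤ m, ∃ i < K - 1, O.IsParent i K) ∧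
      ∃ R : ℕ, (∀ k, O.r k ≤ R) ∧ (1 + R) * x0 < 1))
    {C : ℝ} (hC0 : 0 ≤ C)
    (hE : ∀ k ≤ m, ∀ i j, ∀ x ∈ (A.e i).source ∩ (A.e j).source, x ∈ N →
      ‖(E k).g i j x - 1‖ ≤ C * x0 ^ (m - k).toNat)
    (hsec : ∀ k, k + O.r k < m →
      IsHS (E k * (∏ l ∈ Finset.Ioc k (k + O.r k), E l)⁻¹) N (sec k))
    (hS : ∀ k, k + O.r k < m → ∀ i, ∀ x ∈ (A.e i).source, x ∈ N →
      ‖sec k i x - 1‖ ≤ C * x0 ^ (m - k).toNat)
    (hl : ∀ k, k + O.r k < m → ∀ ε > 0, ∃ T : ℝ, ∀ i, ∀ x ∈ (A.e i).source, x ∈ N → h x < T →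
      ‖sec k i x - 1‖ < ε) :
    ∃ t : ℕ, ∀ k < m - t * O.b, E k ∈ FrG A h N := by
  obtain ⟨R0, hR0⟩ := exists_r_bound O
  set δ : ℝ := 1 / (2 * (R0 + 3)) with hδ
  have hδ0 : 0 < δ := by positivity
  have hδ2 : δ ≤ 1 / 2 := by
    rw [hδ]
    apply one_div_le_one_div_of_le (by norm_num)
    have : (0 : ℝ) ≤ R0 := Nat.cast_nonneg _
    linarith
  have hb : 1 ≤ O.b := O.hb
  obtain ⟨t, ht⟩ : ∃ t : ℕ, C * x0 ^ (t * O.b) ≤ δ := by
    have h1 : Tendsto (fun t : ℕ => C * x0 ^ t) atTop (𝓝 (C * 0)) :=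
      (tendsto_pow_atTop_nhds_zero_of_lt_one hx0.le hx1).const_mul C
    rw [mul_zero] at h1
    obtain ⟨t, ht⟩ := (h1.eventually (gt_mem_nhds hδ0)).exists
    refine ⟨t, le_trans ?_ ht.le⟩
    gcongr C * ?_
    exact pow_le_pow_of_le_one hx0.le hx1.le (Nat.le_mul_of_pos_right t hb)
  refine ⟨t, ?_⟩
  set M0 : ℤ := m - t * O.b with hM0
  have hM0m : M0 ≤ m := by
    have : (0 : ℤ) ≤ t * O.b := by positivity
    omega
  -- the geometric bound below `M0`
  have hgeo : ∀ k < M0, C * x0 ^ (m - k).toNat ≤ δ * x0 ^ (M0 - k).toNat := by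
    intro k hk
    have h1 : (m - k).toNat = t * O.b + (M0 - k).toNat := by
      have h2 : m - k = ((t * O.b : ℕ) : ℤ) + (M0 - k) := by rw [hM0]; push_cast; ring
      rw [h2]
      generalize (t * O.b : ℕ) = z
      omega
    rw [h1, pow_add, ← mul_assoc]
    gcongr
  have hgeo1 : ∀ k < M0, C * x0 ^ (m - k).toNat ≤ δ := fun k hk =>
    (hgeo k hk).trans (mul_le_of_le_one_right hδ0.le (pow_le_one₀ hx0.le hx1.le))
  -- cochains
  let wf : ℤ → (A.ι × A.ι) × M → ℂ := fun k p =>
    if k < M0 ∧ p.2 ∈ (A.e p.1.1).source ∩ (A.e p.1.2).source ∧ p.2 ∈ N then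
      log ((E k).g p.1.1 p.1.2 p.2) else 0
  let vf : ℤ → A.ι × M → ℂ := fun k p =>
    if k + O.r k < M0 ∧ p.2 ∈ (A.e p.1).source ∧ p.2 ∈ N then log (sec k p.1 p.2) else 0
  have hwf : ∀ k, ∀ p, ‖wf k p‖ ≤ 3 / 2 * (δ * x0 ^ (M0 - k).toNat) := by
    intro k p
    simp only [wf]
    split_ifs with hp
    · exact (norm_log_le (δ := C * x0 ^ (m - k).toNat) ((hgeo1 k hp.1).trans hδ2)
        (hE k (hp.1.le.trans hM0m) _ _ _ hp.2.1 hp.2.2)).trans
        (mul_le_mul_of_nonneg_left (hgeo k hp.1) (by norm_num))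
    · rw [norm_zero]; positivity
  have hvf : ∀ k, ∀ p, ‖vf k p‖ ≤ 3 / 2 * (δ * x0 ^ (M0 - k).toNat) := by
    intro k p
    simp only [vf]
    split_ifs with hp
    · have hk : k < M0 := by have := O.r_pos k; omega
      exact (norm_log_le (δ := C * x0 ^ (m - k).toNat) ((hgeo1 k hk).trans hδ2)
        (hS k (hp.1.trans_le hM0m) _ _ hp.2.1 hp.2.2)).trans
        (mul_le_mul_of_nonneg_left (hgeo k hk) (by norm_num))
    · rw [norm_zero]; positivity
  have hx1' : ∀ q : ℕ, δ * x0 ^ q ≤ δ := fun q =>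
    mul_le_of_le_one_right hδ0.le (pow_le_one₀ hx0.le hx1.le)
  let a : ℤ → WW A := fun k => mkL (wf k) (3 / 2 * δ) (fun p => (hwf k p).trans
    (mul_le_mul_of_nonneg_left (hx1' _) (by norm_num)))
  let lam : ℤ → VV A := fun k => mkL (vf k) (3 / 2 * δ) (fun p => (hvf k p).trans
    (mul_le_mul_of_nonneg_left (hx1' _) (by norm_num)))
  have hM : O.OneParent M0 ∨ ((∀ K ≤ M0, ∃ i < K - 1, O.IsParent i K) ∧
      ∃ R : ℕ, (∀ k, O.r k ≤ R) ∧ (1 + R) * x0 < 1) := by
    rcases hm with h1 | ⟨h1, h2⟩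
    · exact Or.inl ((O.oneParent_shift_nat t).2 h1)
    · exact Or.inr ⟨fun K hK => h1 K (hK.trans hM0m), h2⟩
  have key := O.primitives (TT A h N) (fun _ : Unit => normSeminorm ℝ (VV A))
    (fun _ : Unit => normSeminorm ℝ (WW A)) (closed_TT hN) hx0 hx1 hM a lam ?_ ?_ ?_
  · obtain ⟨f, hf, -⟩ := key
    intro k hk
    obtain ⟨h1, h2, h3⟩ := hf k hk
    refine ⟨fun i x => if x ∈ (A.e i).source then exp (f k (i, x)) else 0, ⟨?_, ?_, ?_⟩, ?_, ?_, ?_⟩
    · intro i
      refine HolAt.congr (f := fun x => exp (f k (i, x))) ?_ (fun x hx _ => by rw [if_pos hx])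
      exact DifferentiableOn.cexp (h1 i)
    · intro i x hx
      rw [if_neg hx]
    · intro i j x hx hxN
      have h4 := h3 i j x hx hxN
      have h5 : a k ((i, j), x) = log ((E k).g i j x) := by
        simp only [a, mkL_apply, wf]
        rw [if_pos ⟨hk, hx, hxN⟩]
      change a k ((i, j), x) = f k (i, x) - f k (j, x) at h4
      rw [if_pos hx.1, if_pos hx.2]
      have h6 : f k (i, x) = log ((E k).g i j x) + f k (j, x) := by rw [← h5, h4]; ring
      rw [h6, Complex.exp_add, Complex.exp_log ((E k).ne_zero i j x)]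
    · intro i x hx _
      rw [if_pos hx]
      exact Complex.exp_ne_zero _
    · refine ⟨Real.exp ‖f k‖, fun i x hx _ => ?_⟩
      rw [if_pos hx]
      have h4 : ‖f k (i, x)‖ ≤ ‖f k‖ := lp.norm_apply_le_norm (by simp) (f k) (i, x)
      constructor
      · rw [Complex.norm_exp]
        exact Real.exp_le_exp.2 ((Complex.re_le_norm _).trans h4)
      · rw [← Complex.exp_neg, Complex.norm_exp]
        refine Real.exp_le_exp.2 ((Complex.re_le_norm _).trans ?_)
        rwa [norm_neg]
    · refine ⟨1, one_ne_zero, fun ε hε => ?_⟩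
      obtain ⟨T, hT⟩ := h2 (min 1 (ε / 2)) (by positivity)
      refine ⟨T, fun i x hx hxN hxT => ?_⟩
      have h4 := hT i x hx hxN hxT
      change ‖f k (i, x)‖ < min 1 (ε / 2) at h4
      rw [if_pos hx]
      have h5 := Complex.norm_exp_sub_one_le (x := f k (i, x)) (h4.le.trans (min_le_left _ _))
      have h6 := h4.trans_le (min_le_right _ _)
      linarith
  · -- the recursion
    intro k hk
    have hr0 := O.r_pos k
    have hkM : k < M0 := by omega
    have hsk := hsec k (hk.trans_le hM0m)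
    have hnear : ∀ i, ∀ x ∈ (A.e i).source, x ∈ N → ‖sec k i x - 1‖ ≤ δ := fun i x hx hxN =>
      (hS k (hk.trans_le hM0m) i x hx hxN).trans (hgeo1 k hkM)
    have hlam : ∀ i, ∀ x ∈ (A.e i).source, x ∈ N → lam k (i, x) = log (sec k i x) := by
      intro i x hx hxN
      simp only [lam, mkL_apply, vf]
      rw [if_pos ⟨hk, hx, hxN⟩]
    have ha : ∀ l < M0, ∀ i j, ∀ x ∈ (A.e i).source ∩ (A.e j).source, x ∈ N →
        a l ((i, j), x) = log ((E l).g i j x) := by
      intro l hl' i j x hx hxN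
      simp only [a, mkL_apply, wf]
      rw [if_pos ⟨hl', hx, hxN⟩]
    have hEn : ∀ l < M0, ∀ i j, ∀ x ∈ (A.e i).source ∩ (A.e j).source, x ∈ N →
        ‖(E l).g i j x - 1‖ ≤ δ := fun l hl' i j x hx hxN =>
      (hE l (hl'.le.trans hM0m) i j x hx hxN).trans (hgeo1 l hl')
    refine ⟨fun i => ?_, ?_, ?_⟩
    · refine HolAt.congr (f := fun x => log (sec k i x)) ?_ (fun x hx hxN => (hlam i x hx hxN).symm)
      refine DifferentiableOn.clog (hsk.hol i) (fun z hz => ?_)
      exact mem_slitPlane_of_near ((hnear i _ ((A.e i).map_target hz.1) hz.2).trans hδ2)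
    · intro ε hε
      obtain ⟨T, hT⟩ := hl k (hk.trans_le hM0m) (min (1 / 2) (ε / 2)) (by positivity)
      refine ⟨T, fun i x hx hxN hxT => ?_⟩
      have h4 := hT i x hx hxN hxT
      change ‖lam k (i, x)‖ < ε
      rw [hlam i x hx hxN]
      have h5 := norm_log_le (δ := min (1 / 2) (ε / 2)) (min_le_left _ _) h4.le
      have h6 : min (1 / 2 : ℝ) (ε / 2) ≤ ε / 2 := min_le_right _ _
      linarith
    · intro i j x hx hxN
      have hsum : (a k - ∑ l ∈ Finset.Ioc k (k + O.r k), a l : WW A) ((i, j), x) =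
          log ((E k).g i j x) - ∑ l ∈ Finset.Ioc k (k + O.r k), log ((E l).g i j x) := by
        rw [lp.coeFn_sub, Pi.sub_apply, lp.coeFn_sum, Finset.sum_apply, ha k hkM i j x hx hxN]
        congr 1
        refine Finset.sum_congr rfl (fun l hl' => ?_)
        rw [Finset.mem_Ioc] at hl'
        exact ha l (by omega) i j x hx hxN
      change (a k - ∑ l ∈ Finset.Ioc k (k + O.r k), a l : WW A) ((i, j), x) =
        lam k (i, x) - lam k (j, x)
      rw [hsum, hlam i x hx.1 hxN, hlam j x hx.2 hxN]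
      set σ := ∑ l ∈ Finset.Ioc k (k + O.r k), log ((E l).g i j x) with hσ
      have hne : ∀ l, (E l).g i j x ≠ 0 := fun l => (E l).ne_zero i j x
      have hsi : sec k i x ≠ 0 := by
        intro h0
        have := hnear i x hx.1 hxN
        rw [h0, zero_sub, norm_neg, norm_one] at this
        linarith
      have hsj : sec k j x ≠ 0 := by
        intro h0
        have := hnear j x hx.2 hxN
        rw [h0, zero_sub, norm_neg, norm_one] at this
        linarith
      have hexpσ : exp σ = ∏ l ∈ Finset.Ioc k (k + O.r k), (E l).g i j x := by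
        rw [hσ, Complex.exp_sum]
        exact Finset.prod_congr rfl (fun l _ => Complex.exp_log (hne l))
      have htr := hsk.tr i j x hx hxN
      have hg : (E k * (∏ l ∈ Finset.Ioc k (k + O.r k), E l)⁻¹).g i j x =
          (E k).g i j x * (∏ l ∈ Finset.Ioc k (k + O.r k), (E l).g i j x)⁻¹ := by
        rw [LB.mul_g, LB.inv_g]
        congr 2
        have : ∀ s : Finset ℤ, (∏ l ∈ s, E l).g i j x = ∏ l ∈ s, (E l).g i j x := by
          intro s
          induction s using Finset.induction_on with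
          | empty => simp
          | insert b s hb' ih => rw [Finset.prod_insert hb', Finset.prod_insert hb', LB.mul_g, ih]
        exact this _
      rw [hg] at htr
      have hexp : exp (log ((E k).g i j x) - σ - (log (sec k i x) - log (sec k j x))) = 1 := by
        rw [Complex.exp_sub, Complex.exp_sub, Complex.exp_sub, Complex.exp_log (hne k), hexpσ,
          Complex.exp_log hsi, Complex.exp_log hsj]
        have hpne : ∏ l ∈ Finset.Ioc k (k + O.r k), (E l).g i j x ≠ 0 :=
          Finset.prod_ne_zero_iff.2 (fun l _ => hne l)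
        have hgk := hne k
        rw [htr]
        field_simp
      have hsmall : ‖log ((E k).g i j x) - σ - (log (sec k i x) - log (sec k j x))‖ <
          2 * Real.pi := by
        have b1 := norm_log_le hδ2 (hEn k hkM i j x hx hxN)
        have b2 := norm_log_le hδ2 (hnear i x hx.1 hxN)
        have b3 := norm_log_le hδ2 (hnear j x hx.2 hxN)
        have b4 : ‖σ‖ ≤ R0 * (3 / 2 * δ) := by
          rw [hσ]
          refine (norm_sum_le _ _).trans ?_
          refine (Finset.sum_le_card_nsmul _ _ (3 / 2 * δ) (fun l hl' => ?_)).trans ?_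
          · rw [Finset.mem_Ioc] at hl'
            exact norm_log_le hδ2 (hEn l (by omega) i j x hx hxN)
          · rw [nsmul_eq_mul]
            have : (Finset.Ioc k (k + O.r k)).card ≤ R0 := by
              rw [Int.card_Ioc]
              have := hR0 k
              omega
            gcongr
        have b5 : (R0 + 3 : ℝ) * (3 / 2 * δ) = 3 / 4 := by
          rw [hδ]
          field_simp
          norm_num
        have b6 : ‖log ((E k).g i j x) - σ - (log (sec k i x) - log (sec k j x))‖ ≤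
            ‖log ((E k).g i j x)‖ + ‖σ‖ + (‖log (sec k i x)‖ + ‖log (sec k j x)‖) :=
          (norm_sub_le _ _).trans (add_le_add (norm_sub_le _ _) (norm_sub_le _ _))
        have := Real.pi_gt_three
        nlinarith
      have := eq_zero_of_exp_eq_one hexp hsmall
      linear_combination this
  · -- bounds for lam
    intro _
    refine ⟨3 / 2 * δ, fun q => ?_⟩
    change ‖lam (M0 - q)‖ ≤ _
    refine norm_mkL_le _ _ _ (by positivity) (fun p => ?_)
    have h1 := hvf (M0 - q) p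
    have h2 : (M0 - (M0 - (q : ℤ))).toNat = q := by omega
    rw [h2] at h1
    linarith
  · intro _
    refine ⟨3 / 2 * δ, fun q => ?_⟩
    change ‖a (M0 - q)‖ ≤ _
    refine norm_mkL_le _ _ _ (by positivity) (fun p => ?_)
    have h1 := hwf (M0 - q) p
    have h2 : (M0 - (M0 - (q : ℤ))).toNat = q := by omega
    rw [h2] at h1
    linarith

end Deep

end Crest.Agent.R275.Tr5
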