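import Crest.Agent.R275.Tr5C_468

/-!
R275 (S0418), helper468: section 5 in holomorphic cocycle form.  Part D: from deep indices to `m`
(group theory) and extraction of roots.
-/

set_option autoImplicit false
set_option linter.unusedSectionVars false

open Set Filter Topology Complex
open scoped ENNReal

noncomputable section

namespace Crest.Agent.R275.Tr5

open Crest.Agent.R275.Geo Crest.Agent.R275.Core144 Crest.Agent.R275.Sec495

section Comb

variable {B : Type*} [DecidableEq B] {S : Data495 B} (O : Ord495 S)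

/-- if `l` and `l + 1` have two parents, some index `k` ends exactly at `l` -/
theorem exists_end {l i i' : ℤ} (hi : O.IsParent i (l + 1)) (h1 : i < l)
    (hi' : O.IsParent i' l) (h1' : i' < l - 1) : ∃ k < l, k + O.r k = l := by
  obtain ⟨a1, a2⟩ := hi
  obtain ⟨b1, b2⟩ := hi'
  by_cases h : i' = i
  · -- then `l - 1` ends at `l`
    subst h
    refine ⟨l - 1, by omega, ?_⟩
    by_contra hne
    have hr := O.r_pos (l - 1)
    have hp : O.IsParent (l - 1) (l + 1) := ⟨by omega, by omega⟩
    have := O.parent_unique (m := l + 1) ⟨a1, a2⟩ hp (by omega) (by omega)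
    omega
  · -- `i'` ends at `l`
    refine ⟨i', by omega, ?_⟩
    by_contra hne
    have hp : O.IsParent i' (l + 1) := ⟨by omega, by omega⟩
    exact h (O.parent_unique (m := l + 1) hp ⟨a1, a2⟩ (by omega) (by omega))

/-- two parents: all `E l`, `l < m`, lie in `G` -/
theorem two_parent_up {P : Type*} [CommGroup P] (G : Subgroup P) (E : ℤ → P) {m M0 : ℤ}
    (hpar : ∀ K ≤ m, ∃ i < K - 1, O.IsParent i K) (h0 : ∀ k < M0, E k ∈ G)
    (h1 : ∀ k, k + O.r k < m → E k * (∏ l ∈ Finset.Ioc k (k + O.r k), E l)⁻¹ ∈ G) :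
    ∀ l < m, E l ∈ G := by
  intro l hl
  induction hN : (l - M0).toNat using Nat.strong_induction_on generalizing l with
  | _ N ih =>
    have ih' : ∀ l' < l, E l' ∈ G := by
      intro l' hl'
      rcases lt_or_ge l' M0 with h | h
      · exact h0 l' h
      · exact ih (l' - M0).toNat (by omega) l' (by omega) rfl
    rcases lt_or_ge l M0 with h | h
    · exact h0 l h
    · obtain ⟨i, hi1, hi2⟩ := hpar (l + 1) (by omega)
      obtain ⟨i', hi1', hi2'⟩ := hpar l (by omega)
      obtain ⟨k, hk, hkl⟩ := exists_end O hi2 (by omega) hi2' hi1'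
      have h2 := h1 k (by omega)
      rw [hkl] at h2
      have h3 : Finset.Ioc k l = insert l (Finset.Ioc k (l - 1)) := by
        ext z
        simp only [Finset.mem_Ioc, Finset.mem_insert]
        omega
      rw [h3, Finset.prod_insert (by simp)] at h2
      have h4 : ∏ z ∈ Finset.Ioc k (l - 1), E z ∈ G :=
        Subgroup.prod_mem _ (fun z hz => ih' z (by rw [Finset.mem_Ioc] at hz; omega))
      have h5 : E l = (E k * (E l * ∏ z ∈ Finset.Ioc k (l - 1), E z)⁻¹)⁻¹ * E k *
          (∏ z ∈ Finset.Ioc k (l - 1), E z)⁻¹ := by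
        generalize ∏ z ∈ Finset.Ioc k (l - 1), E z = q
        rw [mul_inv_rev, inv_inv]
        have : E l * q * (E k)⁻¹ * E k * q⁻¹ = E l := by group
        rw [this]
      rw [h5]
      exact G.mul_mem (G.mul_mem (G.inv_mem h2) (ih' k hk)) (G.inv_mem h4)

/-- one parent: a power of `E (m - 1)` lies in `G` -/
theorem one_parent_pow {P : Type*} [CommGroup P] (G : Subgroup P) (E : ℤ → P) {m M0 : ℤ}
    (hm : O.OneParent m) (hM : M0 ≤ m) (h0 : ∀ k < M0, E k ∈ G)
    (h1 : ∀ k, k + O.r k < m → E k * (∏ l ∈ Finset.Ioc k (k + O.r k), E l)⁻¹ ∈ G) :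
    ∃ c : ℕ, 1 ≤ c ∧ E (m - 1) ^ c ∈ G := by
  refine ⟨O.M (M0 - 1) (m - 1), O.M_pos_iff.2 (by omega), ?_⟩
  let u : ℤ → Additive (P ⧸ G) := fun k => Additive.ofMul (QuotientGroup.mk (E k))
  have hrec : ∀ k < m - 1, u k = (∑ l ∈ Finset.Ioc k (k + O.r k), u l) + (fun _ => 0 : ℤ → _) k := by
    intro k hk
    have h2 := h1 k (by have := hm.le O hk; omega)
    have h3 : (QuotientGroup.mk (E k) : P ⧸ G) =
        QuotientGroup.mk (∏ l ∈ Finset.Ioc k (k + O.r k), E l) := by
      rw [eq_comm, QuotientGroup.eq, mul_comm]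
      exact h2
    have h4 : u k = Additive.ofMul (∏ l ∈ Finset.Ioc k (k + O.r k),
        (QuotientGroup.mk (E l) : P ⧸ G)) := by
      change Additive.ofMul (QuotientGroup.mk (E k) : P ⧸ G) = _
      rw [h3]
      congr 1
      exact map_prod (QuotientGroup.mk' G) _ _
    rw [h4, add_zero, ofMul_prod]
  have h5 := O.rec_solve (m - 1) (fun k hk => hm.le O hk) u (fun _ => 0) hrec
    (k := M0 - 1) (by omega)
  have h6 : u (M0 - 1) = 0 := by
    change Additive.ofMul (QuotientGroup.mk (E (M0 - 1)) : P ⧸ G) = 0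
    rw [(QuotientGroup.eq_one_iff _).2 (h0 _ (by omega))]
    rfl
  rw [h6] at h5
  simp only [smul_zero, Finset.sum_const_zero, add_zero] at h5
  have h7 : (QuotientGroup.mk (E (m - 1) ^ O.M (M0 - 1) (m - 1)) : P ⧸ G) = 1 := by
    have h8 : Additive.ofMul ((QuotientGroup.mk (E (m - 1)) : P ⧸ G) ^ O.M (M0 - 1) (m - 1)) = 0 := by
      rw [ofMul_pow]
      exact h5.symm
    rw [QuotientGroup.mk_pow]
    exact h8
  exact (QuotientGroup.eq_one_iff _).1 h7

end Comb

/-! ### roots -/

section Root

/-- a continuous function whose power is holomorphic and nonzero is holomorphic -/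
theorem differentiableAt_of_pow {E : Type*} [NormedAddCommGroup E] [NormedSpace ℂ E] {f : E → ℂ}
    {x : E} {c : ℕ} (hc : 1 ≤ c) (hf : ContinuousAt f x) (h0 : f x ≠ 0)
    (hd : DifferentiableAt ℂ (fun y => f y ^ c) x) : DifferentiableAt ℂ f x := by
  have hc0 : (c : ℂ) ≠ 0 := by
    have : c ≠ 0 := by omega
    exact_mod_cast this
  have hcr : (0 : ℝ) < c := by exact_mod_cast hc
  -- local formula
  have hev : ∀ᶠ y in 𝓝 x, f y = f x * exp (1 / c * log (f y ^ c / f x ^ c)) := by
    have h1 : Tendsto (fun y => f y / f x) (𝓝 x) (𝓝 1) := by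
      have := hf.tendsto.div_const (f x)
      rwa [div_self h0] at this
    have h2 : Tendsto (fun y => log (f y / f x)) (𝓝 x) (𝓝 0) := by
      have h3 : ContinuousAt log 1 := continuousAt_clog (by simp [slitPlane])
      have := h3.tendsto.comp h1
      rwa [log_one] at this
    have h4 : ∀ᶠ y in 𝓝 x, ‖log (f y / f x)‖ < Real.pi / c := by
      have := h2.norm
      rw [norm_zero] at this
      exact this.eventually (gt_mem_nhds (by positivity))
    have h5 : ∀ᶠ y in 𝓝 x, f y / f x ≠ 0 := h1.eventually_ne one_ne_zero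
    filter_upwards [h4, h5] with y hy hy0
    have h6 : f y ^ c / f x ^ c = exp (c * log (f y / f x)) := by
      rw [← div_pow, Complex.exp_nat_mul, Complex.exp_log hy0]
    have h7 : ‖(c : ℂ) * log (f y / f x)‖ < Real.pi := by
      rw [norm_mul, Complex.norm_natCast]
      calc (c : ℝ) * ‖log (f y / f x)‖ < c * (Real.pi / c) := by gcongr
        _ = Real.pi := by field_simp
    have h8 : log (exp (c * log (f y / f x))) = c * log (f y / f x) := by
      apply Complex.log_exp
      · have := (abs_le.1 (Complex.abs_im_le_norm ((c : ℂ) * log (f y / f x)))).1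
        linarith
      · have := (abs_le.1 (Complex.abs_im_le_norm ((c : ℂ) * log (f y / f x)))).2
        linarith
    rw [h6, h8, ← mul_assoc, one_div, inv_mul_cancel₀ hc0, one_mul, Complex.exp_log hy0]
    field_simp
  have hd2 : DifferentiableAt ℂ (fun y => f x * exp (1 / c * log (f y ^ c / f x ^ c))) x := by
    refine DifferentiableAt.const_mul (DifferentiableAt.cexp (DifferentiableAt.const_mul ?_ _)) _
    have hd3 : DifferentiableAt ℂ (fun y => f y ^ c / f x ^ c) x := by
      simp only [div_eq_mul_inv]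
      exact hd.mul_const _
    refine DifferentiableAt.clog hd3 ?_
    rw [div_self (pow_ne_zero c h0)]
    simp [slitPlane]
  exact hd2.congr_of_eventuallyEq hev

end Root

end Crest.Agent.R275.Tr5
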