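import Crest.Agent.R275.SolC_352
import Crest.Agent.R275.Wy5B_197

/-!
# R275, block D, leaf (D-T) (helper474): the transports at the two ends and the cut-off frame

* `ml0, ml1, ml2, mf0` : multiplication maps `ZZq gB → ZZq gC`, `g * gB = gC` on overlaps;
* `Mult K h g B C` : the multiplication property of two weighted complexes (rates of 96's `BD` and of
  89's `W_q`): the only analytic input;
* `trL1`, `trS1` : helper352's `TrL1`, `TrS1` for `t u = χ fri u`, `t₁ α = χ fri α`, where `fri` is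
  helper197's inverse frame of a raw cocycle `G` with decaying logarithms, `gC = G⁻¹ gB`;
* `frame` : the frame `e = χ fr`, with `e_mem`, `e_d`, `e_t` of `LData`.
-/

set_option autoImplicit false
set_option linter.unusedSectionVars false

open Set Filter Topology Complex
open scoped ContDiff ComplexConjugate

namespace Crest.Agent.R275.Tri474

open Geo Core144 Fm96 GG89 Q74 Sol352 Wy5197 NAtl938

noncomputable section

variable {M : Type} [TopologicalSpace M] {A : Atl 2 M} {K : A.ι → Set M} {h : M → ℝ}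

/-! ### multiplication maps -/

section mul

variable {g gB gC : A.ι → A.ι → M → ℂ}

/-- multiplication by a section of `g` -/
def ml0 (he : EqOv A (g * gB) gC) {s : A.ι → M → ℂ} (hs : IsZ0 A g univ s) :
    ZZ0 A gB →ₗ[ℂ] ZZ0 A gC where
  toFun u := ⟨Fm96.sm s u, by rw [← ZZ0_congr he]; exact hs.sm' u.2⟩
  map_add' u v := by ext i x; simp [Fm96.sm, mul_add]
  map_smul' c u := by
    ext i x; simp only [Fm96.sm, SetLike.val_smul, Pi.smul_apply, smul_eq_mul,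
      RingHom.id_apply]; ring

/-- multiplication of `(0,1)`-forms by a section of `g` -/
def ml1 (he : EqOv A (g * gB) gC) {s : A.ι → M → ℂ} (hs : IsZ0 A g univ s) :
    ZZ1 A gB →ₗ[ℂ] ZZ1 A gC where
  toFun u := ⟨Fm96.sm1 s u, by rw [← ZZ1_congr he]; exact hs.sm1' u.2⟩
  map_add' u v := by ext i x b; simp [Fm96.sm1, mul_add]
  map_smul' c u := by
    ext i x b; simp only [Fm96.sm1, SetLike.val_smul, Pi.smul_apply, smul_eq_mul,
      RingHom.id_apply]; ring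

/-- multiplication of `(0,2)`-forms by a section of `g` -/
def ml2 (he : EqOv A (g * gB) gC) {s : A.ι → M → ℂ} (hs : IsZ0 A g univ s) :
    ZZ2 A gB →ₗ[ℂ] ZZ2 A gC where
  toFun u := ⟨Fm96.sm s u, by rw [← ZZ2_congr he]; exact hs.sm2' u.2⟩
  map_add' u v := by ext i x; simp [Fm96.sm, mul_add]
  map_smul' c u := by
    ext i x; simp only [Fm96.sm, SetLike.val_smul, Pi.smul_apply, smul_eq_mul,
      RingHom.id_apply]; ring

theorem eqOv_swap (he : EqOv A (g * gB) gC) : EqOv A (gB * g) gC := by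
  rw [mul_comm]; exact he

/-- multiplication of sections by a `(0,1)`-form with values in `g` -/
def mf0 (he : EqOv A (g * gB) gC) {α : A.ι → M → Fin 2 → ℂ} (hα : IsZ1 A g univ α) :
    ZZ0 A gB →ₗ[ℂ] ZZ1 A gC where
  toFun u := ⟨Fm96.sm1 u α, by
    rw [← ZZ1_congr (eqOv_swap he)]; exact IsZ0.sm1' u.2 hα⟩
  map_add' u v := by ext i x b; simp [Fm96.sm1, add_mul]
  map_smul' c u := by
    ext i x b; simp only [Fm96.sm1, SetLike.val_smul, Pi.smul_apply, smul_eq_mul,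
      RingHom.id_apply]; ring

@[simp] theorem coe_ml0 (he : EqOv A (g * gB) gC) {s : A.ι → M → ℂ} (hs : IsZ0 A g univ s)
    (u : ZZ0 A gB) : ((ml0 he hs u : ZZ0 A gC) : A.ι → M → ℂ) = Fm96.sm s u := rfl

@[simp] theorem coe_ml1 (he : EqOv A (g * gB) gC) {s : A.ι → M → ℂ} (hs : IsZ0 A g univ s)
    (u : ZZ1 A gB) : ((ml1 he hs u : ZZ1 A gC) : A.ι → M → Fin 2 → ℂ) = Fm96.sm1 s u := rfl

@[simp] theorem coe_mf0 (he : EqOv A (g * gB) gC) {α : A.ι → M → Fin 2 → ℂ}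
    (hα : IsZ1 A g univ α) (u : ZZ0 A gB) :
    ((mf0 he hα u : ZZ1 A gC) : A.ι → M → Fin 2 → ℂ) = Fm96.sm1 u α := rfl

end mul

/-- **the multiplication property** of two weighted complexes `B`, `C` of sections of `gB`, `gC`,
`g * gB = gC` on overlaps: multiplication by sections and `(0,1)`-forms of `g` whose derivatives are
bounded on the cores (96's `BD p q`: growth rates `p` at the small end, `q` at the large end). -/
structure Mult (K : A.ι → Set M) (h : M → ℝ) (g : A.ι → A.ι → M → ℂ) {gB gC : A.ι → A.ι → M → ℂ}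
    (B : WCx ℂ (ZZ0 A gB) (ZZ1 A gB) (ZZ2 A gB)) (C : WCx ℂ (ZZ0 A gC) (ZZ1 A gC) (ZZ2 A gC)) :
    Prop where
  eq : EqOv A (g * gB) gC
  m0 : ∀ {s : A.ι → M → ℂ} (hs : IsZ0 A g univ s) {p q : ℝ}, BD A K h p q s →
    ∀ {a b : ℝ} {u : ZZ0 A gB}, u ∈ B.W₀ a b → ml0 eq hs u ∈ C.W₀ (a - p) (b + q)
  m1 : ∀ {s : A.ι → M → ℂ} (hs : IsZ0 A g univ s) {p q : ℝ}, BD A K h p q s →
    ∀ {a b : ℝ} {u : ZZ1 A gB}, u ∈ B.W₁ a b → ml1 eq hs u ∈ C.W₁ (a - p) (b + q)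
  m2 : ∀ {s : A.ι → M → ℂ} (hs : IsZ0 A g univ s) {p q : ℝ}, BD A K h p q s →
    ∀ {a b : ℝ} {u : ZZ2 A gB}, u ∈ B.W₂ a b → ml2 eq hs u ∈ C.W₂ (a - p) (b + q)
  f0 : ∀ {α : A.ι → M → Fin 2 → ℂ} (hα : IsZ1 A g univ α) {p q : ℝ}, BD1 A K h p q α →
    ∀ {a b : ℝ} {u : ZZ0 A gB}, u ∈ B.W₀ a b → mf0 eq hα u ∈ C.W₁ (a - p) (b + q)

/-! ### cut-off sections of a bundle with a frame over `N` -/

theorem bd00_of {u : A.ι → M → ℂ} (hw : WB658.WB A id K (fun _ => 1) u) : BD A K h 0 0 u := by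
  have h1 : Fm96.WB A K (fun _ => 1) u := hw
  exact Fm96.WB.mono h1 zero_le_one fun i x _ => by rw [wgt_zero]; norm_num

/-- a cut-off function adapted to the set `N`, and its rates -/
structure Cut (K : A.ι → Set M) (h : M → ℝ) (N : Set M) (ρ p q : ℝ) (χ : M → ℂ) : Prop where
  sm : SmOn A univ χ
  van : ∀ x ∉ N, ∀ᶠ y in 𝓝 x, χ y = 0
  bd : BD A K h p q (fn A χ)
  bd1 : BD1 A K h (p - ρ) (q - ρ) (d0 A (fn A χ))

section cut

variable {P : Part A} {G θ : A.ι → A.ι → M → ℂ} {c : A.ι → A.ι → A.ι → ℤ} {C ρ p q : ℝ}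
  {N : Set M} {χ : M → ℂ}

/-- `c` vanishes over `N` -/
def OffN (A : Atl 2 M) (c : A.ι → A.ι → A.ι → ℤ) (N : Set M) : Prop :=
  ∀ i j k, ∀ x ∈ N, x ∈ (A.e i).source → x ∈ (A.e j).source → x ∈ (A.e k).source → c i j k = 0

/-- the cut-off inverse frame `χ fri` -/
theorem isZ0_cfri (hθ : IsLog A G θ c) (hN : OffN A c N) (hχ : Cut K h N ρ p q χ) :
    IsZ0 A G⁻¹ univ (Fm96.sm (fn A χ) (fri P θ)) :=
  (isZ0_fri hθ hN).cut hχ.sm hχ.van

/-- the cut-off frame `χ fr` -/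
theorem isZ0_cfr (hθ : IsLog A G θ c) (hN : OffN A c N) (hχ : Cut K h N ρ p q χ) :
    IsZ0 A G univ (Fm96.sm (fn A χ) (fr P θ)) :=
  (isZ0_fr hθ hN).cut hχ.sm hχ.van

theorem bd_cfri (U : UG P h K) (hθ : IsLog A G θ c) (hρ : 0 ≤ ρ) (hd : Dec2 A h θ C ρ)
    (hχ : Cut K h N ρ p q χ) : BD A K h p q (Fm96.sm (fn A χ) (fri P θ)) := by
  have h1 := hχ.bd.mul (bd00_of (h := h) (wb_fri U hθ hρ hd))
  simpa using h1

theorem bd_cfr (U : UG P h K) (hθ : IsLog A G θ c) (hρ : 0 ≤ ρ) (hd : Dec2 A h θ C ρ)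
    (hχ : Cut K h N ρ p q χ) : BD A K h p q (Fm96.sm (fn A χ) (fr P θ)) := by
  have h1 := hχ.bd.mul (bd00_of (h := h) (wb_fr U hθ hρ hd))
  simpa using h1

theorem d0_cfri (hθ : IsLog A G θ c) (hχ : SmOn A univ χ) (i : A.ι) (x : M) (b : Fin 2) :
    d0 A (Fm96.sm (fn A χ) (fri P θ)) i x b =
      fri P θ i x * d0 A (fn A χ) i x b - Fm96.sm (fn A χ) (fri P θ) i x * con P θ i x b := by
  by_cases hx : x ∈ (A.e i).source
  · have h1 : SmP A i (fri P θ i) x := by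
      have h1 : SmP A i (fun y => Complex.exp (-(2 * Real.pi * I * lam P θ i y))) x :=
        ((SmP.const (2 * Real.pi * I : ℂ)).mul (smP_lam hθ hx)).neg.exp
      refine h1.congr hx ?_
      filter_upwards [src_nhds hx] with y hy using fri_of_mem hy
    have h2 : SmP A i (fn A χ i) x := (smP_fn hx).2 (hχ i x hx trivial)
    have h3 := d0_fri (P := P) hθ i x b
    rw [d0_of_mem hx] at h3
    rw [d0_of_mem hx, d0_of_mem hx]
    have h4 : A.db i b (Fm96.sm (fn A χ) (fri P θ) i) x = _ := db_mulP b h2 h1 hx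
    rw [h4, h3]
    simp only [Fm96.sm]
    ring
  · simp [d0_of_not_mem hx, Fm96.sm, fri_off hx]

theorem d0_cfr (hθ : IsLog A G θ c) (hχ : SmOn A univ χ) (i : A.ι) (x : M) (b : Fin 2) :
    d0 A (Fm96.sm (fn A χ) (fr P θ)) i x b =
      fr P θ i x * d0 A (fn A χ) i x b + Fm96.sm (fn A χ) (fr P θ) i x * con P θ i x b := by
  by_cases hx : x ∈ (A.e i).source
  · have h1 : SmP A i (fr P θ i) x := by
      have h1 : SmP A i (fun y => Complex.exp (2 * Real.pi * I * lam P θ i y)) x :=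
        ((SmP.const (2 * Real.pi * I : ℂ)).mul (smP_lam hθ hx)).exp
      refine h1.congr hx ?_
      filter_upwards [src_nhds hx] with y hy using fr_of_mem hy
    have h2 : SmP A i (fn A χ i) x := (smP_fn hx).2 (hχ i x hx trivial)
    have h3 := d0_fr (P := P) hθ i x b
    rw [d0_of_mem hx] at h3
    rw [d0_of_mem hx, d0_of_mem hx]
    have h4 : A.db i b (Fm96.sm (fn A χ) (fr P θ) i) x = _ := db_mulP b h2 h1 hx
    rw [h4, h3]
    simp only [Fm96.sm]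
    ring
  · simp [d0_of_not_mem hx, Fm96.sm, fr_off hx]

theorem bd1_con (U : UG P h K) (hθ : IsLog A G θ c) (hd : Dec2 A h θ C ρ) :
    BD1 A K h (-ρ) (-ρ) (con P θ) := fun b => wb_con U hθ hd b

theorem bd1_cfri (U : UG P h K) (hθ : IsLog A G θ c) (hρ : 0 ≤ ρ) (hd : Dec2 A h θ C ρ)
    (hχ : Cut K h N ρ p q χ) :
    BD1 A K h (p - ρ) (q - ρ) (d0 A (Fm96.sm (fn A χ) (fri P θ))) := by
  have h1 := (bd00_of (h := h) (wb_fri U hθ hρ hd)).mul1 hχ.bd1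
  have h2 := (bd_cfri U hθ hρ hd hχ).mul1 (bd1_con U hθ hd)
  rw [zero_add, zero_add] at h1
  rw [← sub_eq_add_neg, ← sub_eq_add_neg] at h2
  have h3 := h1.sub h2
  have h4 : d0 A (Fm96.sm (fn A χ) (fri P θ)) =
      sm1 (fri P θ) (d0 A (fn A χ)) - sm1 (Fm96.sm (fn A χ) (fri P θ)) (con P θ) := by
    funext i x b
    exact d0_cfri hθ hχ.sm i x b
  rw [h4]
  exact h3

theorem bd1_cfr (U : UG P h K) (hθ : IsLog A G θ c) (hρ : 0 ≤ ρ) (hd : Dec2 A h θ C ρ)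
    (hχ : Cut K h N ρ p q χ) :
    BD1 A K h (p - ρ) (q - ρ) (d0 A (Fm96.sm (fn A χ) (fr P θ))) := by
  have h1 := (bd00_of (h := h) (wb_fr U hθ hρ hd)).mul1 hχ.bd1
  have h2 := (bd_cfr U hθ hρ hd hχ).mul1 (bd1_con U hθ hd)
  rw [zero_add, zero_add] at h1
  rw [← sub_eq_add_neg, ← sub_eq_add_neg] at h2
  have h3 := h1.add h2
  have h4 : d0 A (Fm96.sm (fn A χ) (fr P θ)) =
      sm1 (fr P θ) (d0 A (fn A χ)) + sm1 (Fm96.sm (fn A χ) (fr P θ)) (con P θ) := by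
    funext i x b
    exact d0_cfr hθ hχ.sm i x b
  rw [h4]
  exact h3

end cut

/-! ### cut-off functions of the height -/

/-- the cut-off function at the large end: `0` for `h ≤ t0`, `1` for `h ≥ t1` -/
def cl (h : M → ℝ) (t0 t1 : ℝ) : M → ℂ := fun x => 1 - (ct t0 t1 (h x) : ℂ)

/-- the cut-off function at the small end: `1` for `h ≤ t0`, `0` for `h ≥ t1` -/
def cs (h : M → ℝ) (t0 t1 : ℝ) : M → ℂ := fun x => (ct t0 t1 (h x) : ℂ)

theorem cl_zero {t0 t1 : ℝ} (h01 : t0 < t1) {x : M} (hx : h x ≤ t0) : cl h t0 t1 x = 0 := by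
  simp [cl, ct_one h01 hx]

theorem cl_one {t0 t1 : ℝ} (h01 : t0 < t1) {x : M} (hx : t1 ≤ h x) : cl h t0 t1 x = 1 := by
  simp [cl, ct_zero h01 hx]

theorem cs_one {t0 t1 : ℝ} (h01 : t0 < t1) {x : M} (hx : h x ≤ t0) : cs h t0 t1 x = 1 := by
  simp [cs, ct_one h01 hx]

theorem cs_zero {t0 t1 : ℝ} (h01 : t0 < t1) {x : M} (hx : t1 ≤ h x) : cs h t0 t1 x = 0 := by
  simp [cs, ct_zero h01 hx]

/-- a family bounded above the level `T` which vanishes near the points at or below the level -/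
theorem bd_of_high (hK : ∀ i, K i ⊆ (A.e i).source) {a b : ℝ} {u : A.ι → M → ℂ} {T : ℝ}
    (hu : BD A K h a b u) (hz : ∀ i, ∀ x ∈ K i, h x ≤ T → ∀ᶠ y in 𝓝 x, u i y = 0) (a' : ℝ) :
    BD A K h a' b u := by
  obtain ⟨C, hC, h1⟩ := wgt_le_high T a a' b
  have h3 : BD A (fun i => K i ∩ {x | T < h x}) h a' b u :=
    (Fm96.WB.sub_core hu fun i => inter_subset_left).mono hC fun i x hx => h1 _ hx.2.le
  have h2 : Fm96.WB A (fun i => K i ∩ {x | h x ≤ T}) (fun x => wgt a' b (h x)) u :=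
    Fm96.WB.of_zero (fun i x hx => hK i hx.1) (fun x => wgt_pos' _ _ _)
      fun i x hx => hz i x hx.1 hx.2
  refine (Fm96.WB.union (fun x => wgt_pos' _ _ _) h3 h2).sub_core fun i x hx => ?_
  by_cases h4 : h x ≤ T
  · exact Or.inr ⟨hx, h4⟩
  · exact Or.inl ⟨hx, not_le.1 h4⟩

theorem smOn_cl (hh : A.Sm h) (t0 t1 : ℝ) : SmOn A univ (cl h t0 t1) := by
  intro i x hx _
  exact (SmP.const 1).sub (smOn_cf hh t0 t1 i x hx trivial)

theorem smOn_cs (hh : A.Sm h) (t0 t1 : ℝ) : SmOn A univ (cs h t0 t1) := smOn_cf hh t0 t1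

/-- `1 - cf` is bounded at the large end and zero at the small end -/
theorem bd_cl (C : Cor A h K) {t0 t1 : ℝ} (h01 : t0 < t1) (a : ℝ) :
    BD A K h a 0 (fn A (cl h t0 t1)) := by
  have h1 : Fm96.WB A K (fun _ => 1) (fn A (cl h t0 t1)) := by
    have hsm : ContDiff ℝ ∞ (fun t => 1 - (ct t0 t1 t : ℂ)) :=
      contDiff_const.sub (ofRealCLM.contDiff.comp (ct_smooth t0 t1))
    refine C.comp (ρ := fun t => 1 - (ct t0 t1 t : ℂ)) hsm fun k =>
      bounded_iter hsm (t0 := t0) (t1 := t1) (c0 := 0) (c1 := 1) (fun t ht => ?_)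
        (fun t ht => ?_) k
    · simp [ct_one h01 ht.le]
    · simp [ct_zero h01 (le_of_lt ht)]
  have h2 : BD A K h 0 0 (fn A (cl h t0 t1)) :=
    Fm96.WB.mono h1 zero_le_one fun i x _ => by rw [wgt_zero]; norm_num
  refine bd_of_high C.sub h2 (T := t0 - 1) (fun i x hx ht => ?_) a
  filter_upwards [(isOpen_lt C.cont continuous_const).mem_nhds
    (show h x < t0 by linarith)] with y hy
  by_cases hy' : y ∈ (A.e i).source
  · rw [fn_of_mem hy', cl_zero h01 (le_of_lt hy)]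
  · exact fn_of_not_mem hy'

/-- a smooth function, constant below `t0` and above `t1` : its `∂̄` is in all classes -/
theorem bd1_of_const (C : Cor A h K) {χ : M → ℂ} (hχ : SmOn A univ χ) {t0 t1 : ℝ} {c0 c1 : ℂ}
    (h0 : ∀ x, h x ≤ t0 → χ x = c0) (h1 : ∀ x, t1 ≤ h x → χ x = c1) (a b : ℝ) :
    BD1 A K h a b (d0 A (fn A χ)) := by
  intro e
  refine C.slab_supp (S := t0) (T := t1) (fun i x hx => ?_) (fun i x hx => ?_) a b
  · exact (d0_mem IsLC.one isOpen_univ (isZ0_fn hχ)).sm i e x (C.sub i hx) trivial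
  · rcases hx with hx | hx
    · have : d0 A (fn A χ) i x = 0 := by
        refine d0_fn_eq_zero (c := c0) ?_
        filter_upwards [(isOpen_lt C.cont continuous_const).mem_nhds hx] with y hy
        exact h0 y (le_of_lt hy)
      simp [this]
    · have : d0 A (fn A χ) i x = 0 := by
        refine d0_fn_eq_zero (c := c1) ?_
        filter_upwards [(isOpen_lt continuous_const C.cont).mem_nhds hx] with y hy
        exact h1 y (le_of_lt hy)
      simp [this]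

theorem cutL (C : Cor A h K) {T t0 t1 : ℝ} (hT : T < t0) (h01 : t0 < t1) (ρ p : ℝ) :
    Cut K h {x | T < h x} ρ p 0 (cl h t0 t1) where
  sm := smOn_cl C.sm t0 t1
  van x hx := by
    have h1 : h x < t0 := lt_of_le_of_lt (not_lt.1 hx) hT
    filter_upwards [(isOpen_lt C.cont continuous_const).mem_nhds h1] with y hy
    exact cl_zero h01 (le_of_lt hy)
  bd := bd_cl C h01 p
  bd1 := bd1_of_const C (smOn_cl C.sm t0 t1) (t0 := t0) (t1 := t1) (fun x hx => cl_zero h01 hx)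
    (fun x hx => cl_one h01 hx) _ _

theorem cutS (C : Cor A h K) {T t0 t1 : ℝ} (h01 : t0 < t1) (hT : t1 < T) (ρ q : ℝ) :
    Cut K h {x | h x < T} ρ 0 q (cs h t0 t1) where
  sm := smOn_cs C.sm t0 t1
  van x hx := by
    have h1 : t1 < h x := lt_of_lt_of_le hT (not_lt.1 hx)
    filter_upwards [(isOpen_lt continuous_const C.cont).mem_nhds h1] with y hy
    exact cs_zero h01 (le_of_lt hy)
  bd := C.bd_cf h01 q
  bd1 := bd1_of_const C (smOn_cs C.sm t0 t1) (t0 := t0) (t1 := t1) (fun x hx => cs_one h01 hx)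
    (fun x hx => cs_zero h01 hx) _ _

/-! ### the transports -/

section tr

variable {P : Part A} {G θ gB gC : A.ι → A.ι → M → ℂ} {c : A.ι → A.ι → A.ι → ℤ} {Cθ ρ : ℝ}
  {N : Set M} {χ : M → ℂ}
  {B : WCx ℂ (ZZ0 A gB) (ZZ1 A gB) (ZZ2 A gB)} {C : WCx ℂ (ZZ0 A gC) (ZZ1 A gC) (ZZ2 A gC)}

/-- the section `χ fri` of `G⁻¹` is global -/
def TrOK (P : Part A) (G θ : A.ι → A.ι → M → ℂ) (χ : M → ℂ) : Prop :=
  IsZ0 A G⁻¹ univ (Fm96.sm (fn A χ) (fri P θ))

/-- the transport `u ↦ χ fri u` -/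
def tr0 (he : EqOv A (G⁻¹ * gB) gC) (hs : TrOK P G θ χ) : ZZ0 A gB →ₗ[ℂ] ZZ0 A gC := ml0 he hs

/-- the transport in degree one -/
def tr1 (he : EqOv A (G⁻¹ * gB) gC) (hs : TrOK P G θ χ) : ZZ1 A gB →ₗ[ℂ] ZZ1 A gC := ml1 he hs

theorem tr0_apply (he : EqOv A (G⁻¹ * gB) gC) (hs : TrOK P G θ χ) (u : ZZ0 A gB) (i : A.ι) (x : M) :
    ((tr0 he hs u : ZZ0 A gC) : A.ι → M → ℂ) i x = fn A χ i x * fri P θ i x * u.1 i x := rfl

/-- the commutator -/
theorem comm_eq {g : A.ι → A.ι → M → ℂ} (he : EqOv A (g * gB) gC) {s : A.ι → M → ℂ}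
    (hs : IsZ0 A g univ s) (hα : IsZ1 A g univ (d0 A s)) (hgB : IsLC A gB) (hgC : IsLC A gC)
    (u : ZZ0 A gB) : D0 hgC (ml0 he hs u) - ml1 he hs (D0 hgB u) = mf0 he hα u := by
  ext i x b
  change d0 A (Fm96.sm s u.1) i x b - s i x * d0 A u.1 i x b = u.1 i x * d0 A s i x b
  rw [d0_sm hs u.2 i trivial b]
  ring

/-- **the transport at the large end** -/
theorem trL1 (C0 : Cor A h K) (U : UG P h K) (hθ : IsLog A G θ c) (hd : Dec2 A h θ Cθ ρ)
    (hρ : 0 < ρ) {T t0 t1 : ℝ} (hN : OffN A c {x | T < h x}) (hT : T < t0) (h01 : t0 < t1)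
    (hG1 : IsLC A G⁻¹) (hgB : IsLC A gB) (hgC : IsLC A gC)
    (hB : ∀ u, B.d₀ u = D0 hgB u) (hC : ∀ u, C.d₀ u = D0 hgC u)
    (M1 : Mult K h G⁻¹ B C) (M2 : Mult K h G C B) (M3 : Mult K h 1 B B)
    (hs : TrOK P G θ (cl h t0 t1)) :
    TrL1 B C ρ (tr0 M1.eq hs) (tr1 M1.eq hs) where
  pos := hρ
  mem := by
    intro a b a' u hu
    have h1 : tr0 M1.eq hs u ∈ _ := M1.m0 hs (bd_cfri U hθ hρ.le hd (cutL C0 hT h01 ρ (a - a'))) hu
    simpa using h1
  mem₁ := by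
    intro a b a' u hu
    have h1 : tr1 M1.eq hs u ∈ _ := M1.m1 hs (bd_cfri U hθ hρ.le hd (cutL C0 hT h01 ρ (a - a'))) hu
    simpa using h1
  comm := by
    intro a b a' u hu
    have hα : IsZ1 A G⁻¹ univ (d0 A (Fm96.sm (fn A (cl h t0 t1)) (fri P θ))) :=
      d0_mem hG1 isOpen_univ hs
    have h1 := M1.f0 hα (bd1_cfri U hθ hρ.le hd (cutL C0 hT h01 ρ (a - a' + ρ))) hu
    rw [hC, hB]
    have h2 := comm_eq M1.eq hs hα hgB hgC u
    have h3 : C.W₁ (a - (a - a' + ρ - ρ)) (b + (0 - ρ)) = C.W₁ a' (b - ρ) := by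
      congr 1 <;> ring
    rw [h3] at h1
    exact h2 ▸ h1
  back := by
    intro a b a' b' u hu ht
    have hk : IsZ0 A G univ (Fm96.sm (fn A (cl h t1 (t1 + 1))) (fr P θ)) :=
      isZ0_cfr hθ hN (cutL C0 (hT.trans h01) (by linarith) ρ 0)
    have h1 := M2.m0 hk (bd_cfr U hθ hρ.le hd
      (cutL C0 (hT.trans h01) (show t1 < t1 + 1 by linarith) ρ (a' - a))) ht
    have hc : IsZ0 A 1 univ (cf A h t1 (t1 + 1)) := isZ0_cf C0.sm _ _
    have h2 := M3.m0 hc (C0.bd_cf (show t1 < t1 + 1 by linarith) (b' - b)) hu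
    have e1 : B.W₀ (a' - (a' - a)) (b' + 0) = B.W₀ a b' := by congr 1 <;> ring
    have e2 : B.W₀ (a - 0) (b + (b' - b)) = B.W₀ a b' := by congr 1 <;> ring
    rw [e1] at h1
    rw [e2] at h2
    have h3 : u = ml0 M3.eq hc u + ml0 M2.eq hk (tr0 M1.eq hs u) := by
      ext i x
      change u.1 i x = cf A h t1 (t1 + 1) i x * u.1 i x +
        fn A (cl h t1 (t1 + 1)) i x * fr P θ i x *
          (fn A (cl h t0 t1) i x * fri P θ i x * u.1 i x)
      by_cases hx : x ∈ (A.e i).source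
      · rw [cf, fn_of_mem hx, fn_of_mem hx, fn_of_mem hx]
        have h4 := fr_mul_fri (P := P) (θ := θ) hx
        have h5 : cl h t1 (t1 + 1) x * cl h t0 t1 x = cl h t1 (t1 + 1) x := by
          rcases le_total (h x) t1 with h6 | h6
          · rw [cl_zero (by linarith) h6, zero_mul]
          · rw [cl_one h01 h6, mul_one]
        have h6 : (ct t1 (t1 + 1) (h x) : ℂ) = 1 - cl h t1 (t1 + 1) x := by simp [cl]
        rw [h6]
        calc u.1 i x = (1 - cl h t1 (t1 + 1) x) * u.1 i x + cl h t1 (t1 + 1) x * u.1 i x := by ring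
          _ = (1 - cl h t1 (t1 + 1) x) * u.1 i x + (cl h t1 (t1 + 1) x * cl h t0 t1 x) *
              (fr P θ i x * fri P θ i x) * u.1 i x := by rw [h4, h5]; ring
          _ = _ := by ring
      · have := u.2.off i x hx
        simp [this]
    rw [h3]
    exact add_mem h2 h1

/-- **the transport at the small end** -/
theorem trS1 (C0 : Cor A h K) (U : UG P h K) (hθ : IsLog A G θ c) (hd : Dec2 A h θ Cθ ρ)
    (hρ : 0 < ρ) {T t0 t1 : ℝ} (hN : OffN A c {x | h x < T}) (h01 : t0 < t1) (hT : t1 < T)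
    (hG1 : IsLC A G⁻¹) (hgB : IsLC A gB) (hgC : IsLC A gC)
    (hB : ∀ u, B.d₀ u = D0 hgB u) (hC : ∀ u, C.d₀ u = D0 hgC u)
    (M1 : Mult K h G⁻¹ B C) (M2 : Mult K h G C B) (M3 : Mult K h 1 B B)
    (hs : TrOK P G θ (cs h t0 t1)) :
    TrS1 B C ρ (tr0 M1.eq hs) (tr1 M1.eq hs) where
  pos := hρ
  mem := by
    intro a b b' u hu
    have h1 : tr0 M1.eq hs u ∈ _ := M1.m0 hs (bd_cfri U hθ hρ.le hd (cutS C0 h01 hT ρ (b' - b))) hu
    simpa using h1
  mem₁ := by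
    intro a b b' u hu
    have h1 : tr1 M1.eq hs u ∈ _ := M1.m1 hs (bd_cfri U hθ hρ.le hd (cutS C0 h01 hT ρ (b' - b))) hu
    simpa using h1
  comm := by
    intro a b b' u hu
    have hα : IsZ1 A G⁻¹ univ (d0 A (Fm96.sm (fn A (cs h t0 t1)) (fri P θ))) :=
      d0_mem hG1 isOpen_univ hs
    have h1 := M1.f0 hα (bd1_cfri U hθ hρ.le hd (cutS C0 h01 hT ρ (b' - b + ρ))) hu
    rw [hC, hB]
    have h2 := comm_eq M1.eq hs hα hgB hgC u
    have h3 : C.W₁ (a - (0 - ρ)) (b + (b' - b + ρ - ρ)) = C.W₁ (a + ρ) b' := by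
      congr 1 <;> ring
    rw [h3] at h1
    exact h2 ▸ h1
  back := by
    intro a b a' b' u hu ht
    have hk : IsZ0 A G univ (Fm96.sm (fn A (cs h (t0 - 1) t0)) (fr P θ)) :=
      isZ0_cfr hθ hN (cutS C0 (by linarith) (h01.trans hT) ρ 0)
    have h1 := M2.m0 hk (bd_cfr U hθ hρ.le hd
      (cutS C0 (show t0 - 1 < t0 by linarith) (h01.trans hT) ρ (b - b'))) ht
    have hc : IsZ0 A 1 univ (fn A (cl h (t0 - 1) t0)) := isZ0_fn (smOn_cl C0.sm _ _)
    have h2 := M3.m0 hc (bd_cl C0 (show t0 - 1 < t0 by linarith) (a - a')) hu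
    have e1 : B.W₀ (a' - 0) (b' + (b - b')) = B.W₀ a' b := by congr 1 <;> ring
    have e2 : B.W₀ (a - (a - a')) (b + 0) = B.W₀ a' b := by congr 1 <;> ring
    rw [e1] at h1
    rw [e2] at h2
    have h3 : u = ml0 M3.eq hc u + ml0 M2.eq hk (tr0 M1.eq hs u) := by
      ext i x
      change u.1 i x = fn A (cl h (t0 - 1) t0) i x * u.1 i x +
        fn A (cs h (t0 - 1) t0) i x * fr P θ i x *
          (fn A (cs h t0 t1) i x * fri P θ i x * u.1 i x)
      by_cases hx : x ∈ (A.e i).source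
      · rw [fn_of_mem hx, fn_of_mem hx, fn_of_mem hx]
        have h4 := fr_mul_fri (P := P) (θ := θ) hx
        have h5 : cs h (t0 - 1) t0 x * cs h t0 t1 x = cs h (t0 - 1) t0 x := by
          rcases le_total (h x) t0 with h6 | h6
          · rw [cs_one h01 h6, mul_one]
          · rw [cs_zero (by linarith) h6, zero_mul]
        have h6 : cl h (t0 - 1) t0 x = 1 - cs h (t0 - 1) t0 x := rfl
        rw [h6]
        calc u.1 i x = (1 - cs h (t0 - 1) t0 x) * u.1 i x + cs h (t0 - 1) t0 x * u.1 i x := by ring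
          _ = (1 - cs h (t0 - 1) t0 x) * u.1 i x + (cs h (t0 - 1) t0 x * cs h t0 t1 x) *
              (fr P θ i x * fri P θ i x) * u.1 i x := by rw [h4, h5]; ring
          _ = _ := by ring
      · have := u.2.off i x hx
        simp [this]
    rw [h3]
    exact add_mem h2 h1

end tr

/-! ### the frame -/

section frame

variable {P : Part A} {G θ : A.ι → A.ι → M → ℂ} {c : A.ι → A.ι → A.ι → ℤ} {Cθ ρ : ℝ}
  {χ : M → ℂ} {g1 : A.ι → A.ι → M → ℂ}
  {B : WCx ℂ (ZZ0 A G) (ZZ1 A G) (ZZ2 A G)} {O : WCx ℂ (ZZ0 A g1) (ZZ1 A g1) (ZZ2 A g1)}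

/-- the cut-off frame `χ fr` as an element of `ZZ0 A G` -/
def frm (hk : IsZ0 A G univ (Fm96.sm (fn A χ) (fr P θ))) : ZZ0 A G := ⟨_, hk⟩

theorem frm_eq (hk : IsZ0 A G univ (Fm96.sm (fn A χ) (fr P θ))) {one : ZZ0 A g1}
    (hone : ∀ i, ∀ x ∈ (A.e i).source, (one : A.ι → M → ℂ) i x = 1) (he : EqOv A (G * g1) G) :
    ml0 he hk one = frm hk := by
  ext i x
  change fn A χ i x * fr P θ i x * one.1 i x = fn A χ i x * fr P θ i x
  by_cases hx : x ∈ (A.e i).source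
  · rw [hone i x hx, mul_one]
  · rw [fn_of_not_mem hx]; simp

/-- `e ∈ W₀ a b` for `b > 0` -/
theorem frm_mem (C0 : Cor A h K) (U : UG P h K) (hθ : IsLog A G θ c) (hd : Dec2 A h θ Cθ ρ)
    (hρ : 0 < ρ) {T t0 t1 : ℝ} (hT : T < t0) (h01 : t0 < t1) (M2 : Mult K h G O B)
    (hk : IsZ0 A G univ (Fm96.sm (fn A (cl h t0 t1)) (fr P θ))) {one : ZZ0 A g1}
    (hone : ∀ i, ∀ x ∈ (A.e i).source, (one : A.ι → M → ℂ) i x = 1)
    (hm : ∀ a b, a < 0 → 0 < b → one ∈ O.W₀ a b) (a : ℝ) {b : ℝ} (hb : 0 < b) :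
    frm hk ∈ B.W₀ a b := by
  have h1 := M2.m0 hk (bd_cfr U hθ hρ.le hd (cutL C0 hT h01 ρ (-1 - a)))
    (hm (-1) b (by norm_num) hb)
  rw [frm_eq hk hone M2.eq] at h1
  have e1 : B.W₀ (-1 - (-1 - a)) (b + 0) = B.W₀ a b := by congr 1 <;> ring
  rwa [e1] at h1

/-- `∂̄ e ∈ W₁ a b` for `b > -ρ` -/
theorem frm_d (C0 : Cor A h K) (U : UG P h K) (hθ : IsLog A G θ c) (hd : Dec2 A h θ Cθ ρ)
    (hρ : 0 < ρ) {T t0 t1 : ℝ} (hT : T < t0) (h01 : t0 < t1) (hG : IsLC A G)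
    (hB : ∀ u, B.d₀ u = D0 hG u) (M2 : Mult K h G O B)
    (hk : IsZ0 A G univ (Fm96.sm (fn A (cl h t0 t1)) (fr P θ))) {one : ZZ0 A g1}
    (hone : ∀ i, ∀ x ∈ (A.e i).source, (one : A.ι → M → ℂ) i x = 1)
    (hm : ∀ a b, a < 0 → 0 < b → one ∈ O.W₀ a b) (a : ℝ) {b : ℝ} (hb : -ρ < b) :
    B.d₀ (frm hk) ∈ B.W₁ a b := by
  have hα : IsZ1 A G univ (d0 A (Fm96.sm (fn A (cl h t0 t1)) (fr P θ))) :=
    d0_mem hG isOpen_univ hk
  have h1 := M2.f0 hα (bd1_cfr U hθ hρ.le hd (cutL C0 hT h01 ρ (-1 - a + ρ)))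
    (hm (-1) (b + ρ) (by norm_num) (by linarith))
  have e1 : B.W₁ (-1 - (-1 - a + ρ - ρ)) (b + ρ + (0 - ρ)) = B.W₁ a b := by congr 1 <;> ring
  rw [e1] at h1
  have h2 : mf0 M2.eq hα one = B.d₀ (frm hk) := by
    rw [hB]
    ext i x e
    change one.1 i x * d0 A (Fm96.sm (fn A (cl h t0 t1)) (fr P θ)) i x e =
      d0 A (Fm96.sm (fn A (cl h t0 t1)) (fr P θ)) i x e
    by_cases hx : x ∈ (A.e i).source
    · rw [hone i x hx, one_mul]
    · rw [d0_of_not_mem hx]; simp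
  rwa [h2] at h1

/-- a section of the trivial bundle which vanishes off a slab is in all weighted spaces -/
theorem mem_of_slab (C0 : Cor A h K) (hg1 : EqOv A g1 1) (M4 : Mult K h 1 O O) {one : ZZ0 A g1}
    (hone : ∀ i, ∀ x ∈ (A.e i).source, (one : A.ι → M → ℂ) i x = 1)
    (hm : ∀ a b, a < 0 → 0 < b → one ∈ O.W₀ a b) {v : ZZ0 A g1} {S T : ℝ}
    (h0 : ∀ i x, h x < S ∨ T < h x → v.1 i x = 0) (a b : ℝ) : v ∈ O.W₀ a b := by
  have hv : IsZ0 A 1 univ v.1 := (ZZ0_congr hg1).le v.2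
  have h1 := M4.m0 hv (C0.slab_supp (fun i x hx => hv.sm i x (C0.sub i hx) trivial) h0 (-1 - a)
    (b - 1)) (hm (-1) 1 (by norm_num) (by norm_num))
  have e1 : O.W₀ (-1 - (-1 - a)) (1 + (b - 1)) = O.W₀ a b := by congr 1 <;> ring
  rw [e1] at h1
  have h2 : ml0 M4.eq hv one = v := by
    ext i x
    change v.1 i x * one.1 i x = v.1 i x
    by_cases hx : x ∈ (A.e i).source
    · rw [hone i x hx, mul_one]
    · rw [hv.off i x hx, zero_mul]
  rwa [h2] at h1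

/-- the cut-off `χ₀` of the weighted complex is multiplication by a function which is `0` at the
small end and `1` at the large end (used only at `one`) -/
def ChiOne (h : M → ℝ) (O : WCx ℂ (ZZ0 A g1) (ZZ1 A g1) (ZZ2 A g1)) (one : ZZ0 A g1) : Prop :=
  ∃ S T : ℝ, (∀ i x, h x < S → (O.χ₀ one).1 i x = 0) ∧
    ∀ i x, T < h x → (O.χ₀ one).1 i x = one.1 i x

/-- `t e - χ₀ one` is in all weighted spaces -/
theorem frm_t (C0 : Cor A h K) {t0 t1 t0' t1' : ℝ} (h01 : t0 < t1) (h01' : t0' < t1')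
    (hg1 : EqOv A g1 1) (M4 : Mult K h 1 O O)
    (he : EqOv A (G⁻¹ * G) g1) (hs : TrOK P G θ (cl h t0 t1))
    (hk : IsZ0 A G univ (Fm96.sm (fn A (cl h t0' t1')) (fr P θ))) {one : ZZ0 A g1}
    (hone : ∀ i, ∀ x ∈ (A.e i).source, (one : A.ι → M → ℂ) i x = 1)
    (hm : ∀ a b, a < 0 → 0 < b → one ∈ O.W₀ a b) (hχ : ChiOne h O one) (a b : ℝ) :
    tr0 he hs (frm hk) - O.χ₀ one ∈ O.W₀ a b := by
  obtain ⟨S, T, hS, hT⟩ := hχ
  refine mem_of_slab C0 hg1 M4 hone hm (S := min S t0) (T := max T (max t1 t1')) ?_ a b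
  intro i x hx
  change fn A (cl h t0 t1) i x * fri P θ i x * (fn A (cl h t0' t1') i x * fr P θ i x) -
    (O.χ₀ one).1 i x = 0
  by_cases hxs : x ∈ (A.e i).source
  · rw [fn_of_mem hxs, fn_of_mem hxs]
    rcases hx with hx | hx
    · rw [hS i x (lt_of_lt_of_le hx (min_le_left _ _)),
        cl_zero h01 (le_of_lt (lt_of_lt_of_le hx (min_le_right _ _)))]
      simp
    · have h1 : T < h x := lt_of_le_of_lt (le_max_left _ _) hx
      have h2 : t1 < h x := lt_of_le_of_lt ((le_max_left _ _).trans (le_max_right _ _)) hx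
      have h3 : t1' < h x := lt_of_le_of_lt ((le_max_right _ _).trans (le_max_right _ _)) hx
      rw [hT i x h1, hone i x hxs, cl_one h01 h2.le, cl_one h01' h3.le]
      have h4 := fr_mul_fri (P := P) (θ := θ) hxs
      linear_combination h4
  · have h1 : (O.χ₀ one).1 i x = 0 := (O.χ₀ one).2.off i x hxs
    rw [h1, fn_of_not_mem hxs]
    simp

end frame

/-! ### supports of finite classes -/

/-- a class with finite support vanishes near the ends -/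
theorem exists_offN {P : Part A} (U : UG P h K) {c : A.ι → A.ι → A.ι → ℤ} (hc : Fin3 c) :
    ∃ T : ℝ, 0 < T ∧ OffN A c {x | T < h x} ∧ OffN A c {x | h x < -T} := by
  classical
  obtain ⟨W, hW, hosc⟩ := U.osc
  have key : ∀ p : A.ι × A.ι × A.ι, ∃ T : ℝ, 0 ≤ T ∧ ∀ x ∈ (A.e p.1).source, |h x| ≤ T := by
    intro p
    by_cases hne : (A.e p.1).source.Nonempty
    · obtain ⟨y, hy⟩ := hne
      refine ⟨|h y| + W, by positivity, fun x hx => ?_⟩
      have h1 := hosc p.1 x hx y hy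
      have h2 : |h x| ≤ |h x - h y| + |h y| := by
        have := abs_add_le (h x - h y) (h y)
        rwa [sub_add_cancel] at this
      linarith
    · exact ⟨0, le_rfl, fun x hx => absurd ⟨x, hx⟩ hne⟩
  choose T hT0 hT using key
  have hc' : {p : A.ι × A.ι × A.ι | c p.1 p.2.1 p.2.2 ≠ 0}.Finite := hc
  refine ⟨1 + ∑ p ∈ hc'.toFinset, T p, by
    have := Finset.sum_nonneg (s := hc'.toFinset) (f := T) fun p _ => hT0 p
    linarith, ?_, ?_⟩
  all_goals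
    intro i j k x hx hi hj hk
    by_contra h0
    have h1 : (i, j, k) ∈ hc'.toFinset := (Set.Finite.mem_toFinset hc').2 h0
    have h2 := hT (i, j, k) x hi
    have h3 := Finset.single_le_sum (f := T) (fun p _ => hT0 p) h1
    have h4 := abs_le.1 h2
  · have h5 : 1 + ∑ p ∈ hc'.toFinset, T p < h x := hx
    linarith [h4.2]
  · have h5 : h x < -(1 + ∑ p ∈ hc'.toFinset, T p) := hx
    linarith [h4.1]

/-! ### comparison with `V_L` -/

section vcmp

variable {P : Part A} {L : LB A} {θ : A.ι → A.ι → M → ℂ} {c : A.ι → A.ι → A.ι → ℤ} {Cθ ρ : ℝ}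

/-- the cocycle is bounded -/
theorem g_bdd (hθ : IsLog A L.g θ c) (hd : Dec2 A h θ Cθ ρ) (hρ : 0 ≤ ρ) :
    ∃ D : ℝ, 0 ≤ D ∧ ∀ i j, ∀ x ∈ (A.e i).source ∩ (A.e j).source, ‖L.g i j x‖ ≤ D := by
  refine ⟨Real.exp (2 * Real.pi * max Cθ 0), (Real.exp_pos _).le, fun i j x hx => ?_⟩
  rw [← hθ.exp i j x hx, Complex.norm_exp]
  apply Real.exp_le_exp.2
  refine (Complex.re_le_norm _).trans ?_
  have h1 : ‖θ i j x‖ ≤ max Cθ 0 := by
    refine (hd i j x hx).trans ?_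
    have h2 : Real.exp (-ρ * |h x|) ≤ 1 := by
      rw [Real.exp_le_one_iff]
      have := mul_nonneg hρ (abs_nonneg (h x))
      linarith
    calc Cθ * Real.exp (-ρ * |h x|) ≤ max Cθ 0 * Real.exp (-ρ * |h x|) :=
          mul_le_mul_of_nonneg_right (le_max_left _ _) (Real.exp_pos _).le
      _ ≤ max Cθ 0 * 1 := mul_le_mul_of_nonneg_left h2 (le_max_right _ _)
      _ = _ := mul_one _
  rw [norm_mul, norm_mul, norm_mul, Complex.norm_I, Complex.norm_real, Complex.norm_ofNat,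
    Real.norm_of_nonneg Real.pi_pos.le, mul_one]
  exact mul_le_mul_of_nonneg_left h1 (by positivity)

/-- `V_L` is contained in the closed elements of the weighted spaces -/
theorem vcmp_of_mem (U : UG P h K) (F : WFam A K h L) {s : A.ι → M → ℂ} (hs : s ∈ VL h L) :
    ∃ hs : IsZ0 A L.g univ s, F.W.d₀ ⟨s, hs⟩ = 0 ∧
      ∀ a b : ℝ, a < 0 → 0 < b → (⟨s, hs⟩ : ZZ0 A L.g) ∈ F.W.W₀ a b := by
  obtain ⟨h1, h2⟩ := mem_VL.1 hs
  have h3 := (isHS_iff isOpen_univ).1 h1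
  refine ⟨h3.z0, ?_, fun a b ha hb => ?_⟩
  · rw [F.d₀_eq]
    refine Subtype.ext ?_
    funext i x
    exact h3.db i x trivial
  · set ε := min (-a) b / 2 with hε
    have hm : 0 < min (-a) b := lt_min (by linarith) hb
    have hε0 : 0 < ε := by positivity
    have h4 : WB658.WB A id K (fun x => wgt ε ε (h x)) s :=
      U.wb_sec (fun i y hy => h3.holP isOpen_univ hy trivial) (h2 ε hε0)
    have h5 : BD A K h ε ε s := h4
    have h6 := F.s20 (u := ⟨s, h3.z0⟩) (a' := -a) (b' := b) h5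
      (by linarith [min_le_left (-a) b]) (by linarith [min_le_right (-a) b])
    rwa [neg_neg] at h6

/-- closed elements of the weighted spaces of small growth are in `V_L` -/
theorem vcmp_mem (C0 : Cor A h K) (hθ : IsLog A L.g θ c) (hd : Dec2 A h θ Cθ ρ) (hρ : 0 ≤ ρ)
    (F : WFam A K h L) (s : ZZ0 A L.g) (hs : F.W.d₀ s = 0)
    (hm : ∀ a b : ℝ, a < 0 → 0 < b → s ∈ F.W.W₀ a b) : (s : A.ι → M → ℂ) ∈ VL h L := by
  refine mem_VL.2 ⟨(isHS_iff isOpen_univ).2 ⟨s.2, fun i x _ => ?_⟩, fun ε hε => ?_⟩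
  · rw [F.d₀_eq] at hs
    exact congrFun (congrFun (congrArg Subtype.val hs) i) x
  · obtain ⟨D, hD, hg⟩ := g_bdd hθ hd hρ
    obtain ⟨C', hC', hb⟩ := (F.s10 (hm (-ε) ε (by linarith) hε)).sup C0.sub
    refine ⟨D * C', fun i x hx => ?_⟩
    obtain ⟨j, hj⟩ := C0.cov x
    have hxj := C0.sub j hj
    rw [s.2.tr i j x ⟨hx, hxj⟩ trivial, norm_mul]
    calc ‖L.g i j x‖ * ‖s.1 j x‖ ≤ D * (C' * wgt ε ε (h x)) :=
          mul_le_mul (hg i j x ⟨hx, hxj⟩) (hb j x hj) (norm_nonneg _) hD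
      _ = _ := by ring

/-- the limit at the large end -/
theorem vcmp_lim (C0 : Cor A h K) (U : UG P h K) (hd : Dec2 A h θ Cθ ρ)
    (hρ : 0 < ρ) {t0 t1 : ℝ} (h01 : t0 < t1) (F1 : WFam A K h 1)
    (he : EqOv A ((L.g)⁻¹ * L.g) (1 : LB A).g) (hs : TrOK P L.g θ (cl h t0 t1))
    {one : ZZ0 A (1 : LB A).g} (hone : ∀ i, ∀ x ∈ (A.e i).source, (one : A.ι → M → ℂ) i x = 1)
    (hχ : ChiOne h F1.W one) (s : ZZ0 A L.g) (z : ℂ) (hl : LimLg F1.W one (tr0 he hs) s z) :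
    LimL h (s : A.ι → M → ℂ) z := by
  obtain ⟨S, T, -, hT⟩ := hχ
  obtain ⟨b, hb, hm⟩ := hl
  have h0 := hm (-0)
  obtain ⟨C', hC', hsup⟩ := (F1.s10 h0).sup C0.sub
  obtain ⟨D, hD, hfr, -⟩ := fr_sub_le (P := P) U hρ.le hd
  -- the bound on the cores
  set T1 : ℝ := max (max T t1) 0 with hT1
  have key : ∀ i, ∀ x ∈ (A.e i).source, T1 < h x →
      ‖fri P θ i x * s.1 i x - z‖ ≤ C' * Real.exp (b * h x) := by
    intro i x hx hxT
    obtain ⟨j, hj⟩ := C0.cov x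
    have hxj := C0.sub j hj
    have ht1 : t1 ≤ h x := ((le_max_right _ _).trans (le_max_left _ _)).trans hxT.le
    have hTx : T < h x := lt_of_le_of_lt ((le_max_left _ _).trans (le_max_left _ _)) hxT
    have h0x : 0 ≤ h x := (le_max_right _ _).trans hxT.le
    have h1 := hsup j x hj
    have h2 : ((tr0 he hs s - z • F1.W.χ₀ one : ZZ0 A (1 : LB A).g) : A.ι → M → ℂ) j x =
        fri P θ j x * s.1 j x - z := by
      change fn A (cl h t0 t1) j x * fri P θ j x * s.1 j x - z * (F1.W.χ₀ one).1 j x = _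
      rw [hT j x hTx, hone j x hxj, fn_of_mem hxj, cl_one h01 ht1]
      ring
    have h3 : fri P θ i x * s.1 i x = fri P θ j x * s.1 j x := by
      have h4 := (tr0 he hs s).2.tr i j x ⟨hx, hxj⟩ trivial
      change fn A (cl h t0 t1) i x * fri P θ i x * s.1 i x =
        (1 : LB A).g i j x * (fn A (cl h t0 t1) j x * fri P θ j x * s.1 j x) at h4
      rw [fn_of_mem hx, fn_of_mem hxj, cl_one h01 ht1, LB.one_g] at h4
      linear_combination h4
    have h5 : wgt 0 b (h x) = Real.exp (b * h x) := by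
      unfold wgt
      rw [max_eq_left h0x]
      simp
    rw [h2, h5] at h1
    rw [h3]
    exact h1
  intro ε hε
  have hlim : Tendsto (fun t : ℝ => (1 + D) * (C' * Real.exp (b * t)) +
      D * Real.exp (-ρ * t) * ‖z‖) atTop (𝓝 0) := by
    have e1 : Tendsto (fun t : ℝ => Real.exp (b * t)) atTop (𝓝 0) :=
      Real.tendsto_exp_atBot.comp (tendsto_id.const_mul_atTop_of_neg hb)
    have e2 : Tendsto (fun t : ℝ => Real.exp (-ρ * t)) atTop (𝓝 0) :=
      Real.tendsto_exp_atBot.comp (tendsto_id.const_mul_atTop_of_neg (by linarith))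
    have e3 := ((e1.const_mul C').const_mul (1 + D)).add ((e2.const_mul D).mul_const ‖z‖)
    simpa using e3
  obtain ⟨T2, hT2⟩ := eventually_atTop.1 (hlim.eventually (gt_mem_nhds hε))
  refine ⟨max T1 T2, fun i x hx hxT => ?_⟩
  have h1 := key i x hx ((le_max_left _ _).trans_lt hxT)
  have h2 := hT2 (h x) ((le_max_right _ _).trans hxT.le)
  have h0x : 0 ≤ h x := (le_max_right _ _).trans ((le_max_left T1 T2).trans hxT.le)
  have h3 := hfr i x hx
  rw [← exp_eq_wgt, abs_of_nonneg h0x] at h3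
  have h4 : ‖fr P θ i x‖ ≤ 1 + D := by
    have h5 : ‖fr P θ i x‖ ≤ ‖fr P θ i x - 1‖ + ‖(1 : ℂ)‖ := by
      have := norm_add_le (fr P θ i x - 1) 1
      rwa [sub_add_cancel] at this
    have h6 : Real.exp (-ρ * h x) ≤ 1 := by
      rw [Real.exp_le_one_iff]
      have := mul_nonneg hρ.le h0x
      linarith
    have h7 := mul_le_mul_of_nonneg_left h6 hD
    rw [norm_one] at h5
    linarith
  have h5 : s.1 i x - z = fr P θ i x * (fri P θ i x * s.1 i x - z) + (fr P θ i x - 1) * z := by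
    have h6 := fr_mul_fri (P := P) (θ := θ) hx
    linear_combination (-(s.1 i x)) * h6
  change ‖s.1 i x - z‖ < ε
  rw [h5]
  calc ‖fr P θ i x * (fri P θ i x * s.1 i x - z) + (fr P θ i x - 1) * z‖
      ≤ ‖fr P θ i x‖ * ‖fri P θ i x * s.1 i x - z‖ + ‖fr P θ i x - 1‖ * ‖z‖ := by
        refine (norm_add_le _ _).trans ?_
        rw [norm_mul, norm_mul]
    _ ≤ (1 + D) * (C' * Real.exp (b * h x)) + D * Real.exp (-ρ * h x) * ‖z‖ := by
        gcongr
    _ < ε := h2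

end vcmp

/-! ### final form -/

section final

variable {P : Part A} {θ : A.ι → A.ι → M → ℂ} {c : A.ι → A.ι → A.ι → ℤ} {Cθ ρ : ℝ}

/-- **transports between two bundles** `L₁`, `L₂` whose quotient `G = L₁ L₂⁻¹` has decaying
logarithms -/
theorem exists_tr (C0 : Cor A h K) (U : UG P h K) {G L₁ L₂ : LB A} (F₁ : WFam A K h L₁)
    (F₂ : WFam A K h L₂) (hθ : IsLog A G.g θ c) (hd : Dec2 A h θ Cθ ρ) (hρ : 0 < ρ) (hc : Fin3 c)
    (M1 : Mult K h (G⁻¹ : LB A).g F₁.W F₂.W) (M2 : Mult K h G.g F₂.W F₁.W)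
    (M3 : Mult K h 1 F₁.W F₁.W) :
    (∃ (t : ZZ0 A L₁.g →ₗ[ℂ] ZZ0 A L₂.g) (t₁ : ZZ1 A L₁.g →ₗ[ℂ] ZZ1 A L₂.g),
      TrL1 F₁.W F₂.W ρ t t₁) ∧
    ∃ (t : ZZ0 A L₁.g →ₗ[ℂ] ZZ0 A L₂.g) (t₁ : ZZ1 A L₁.g →ₗ[ℂ] ZZ1 A L₂.g),
      TrS1 F₁.W F₂.W ρ t t₁ := by
  obtain ⟨T, hT, hN1, hN2⟩ := exists_offN U hc
  refine ⟨?_, ?_⟩
  · have hs : TrOK P G.g θ (cl h (T + 1) (T + 2)) :=
      isZ0_cfri hθ hN1 (cutL C0 (by linarith) (by linarith) ρ 0)
    exact ⟨_, _, trL1 C0 U hθ hd hρ hN1 (by linarith) (by linarith) (isLC G⁻¹) F₁.hg F₂.hg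
      F₁.d₀_eq F₂.d₀_eq M1 M2 M3 hs⟩
  · have hs : TrOK P G.g θ (cs h (-T - 2) (-T - 1)) :=
      isZ0_cfri hθ hN2 (cutS C0 (by linarith) (by linarith) ρ 0)
    exact ⟨_, _, trS1 C0 U hθ hd hρ hN2 (by linarith) (by linarith) (isLC G⁻¹) F₁.hg F₂.hg
      F₁.d₀_eq F₂.d₀_eq M1 M2 M3 hs⟩

/-- **all the transport data of one bundle** `L` of class `P` -/
theorem exists_tdata (C0 : Cor A h K) (U : UG P h K) {L : LB A} (F : WFam A K h L)
    (F1 : WFam A K h 1) (hθ : IsLog A L.g θ c) (hd : Dec2 A h θ Cθ ρ) (hρ : 0 < ρ) (hc : Fin3 c)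
    (M1 : Mult K h (L⁻¹ : LB A).g F.W F1.W) (M2 : Mult K h L.g F1.W F.W)
    (M3 : Mult K h 1 F.W F.W) (M4 : Mult K h 1 F1.W F1.W) {one : ZZ0 A (1 : LB A).g}
    (hone : ∀ i, ∀ x ∈ (A.e i).source, (one : A.ι → M → ℂ) i x = 1)
    (hm : ∀ a b, a < 0 → 0 < b → one ∈ F1.W.W₀ a b) (hχ : ChiOne h F1.W one) :
    ∃ (tL tS : ZZ0 A L.g →ₗ[ℂ] ZZ0 A (1 : LB A).g) (tL₁ tS₁ : ZZ1 A L.g →ₗ[ℂ] ZZ1 A (1 : LB A).g)
      (e : ZZ0 A L.g),
      TrL1 F.W F1.W ρ tL tL₁ ∧ TrS1 F.W F1.W ρ tS tS₁ ∧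
      (∀ a b, 0 < b → e ∈ F.W.W₀ a b) ∧ (∀ a b, -ρ < b → F.W.d₀ e ∈ F.W.W₁ a b) ∧
      (∀ a b, tL e - F1.W.χ₀ one ∈ F1.W.W₀ a b) ∧ VCmp F F1.W one tL := by
  obtain ⟨T, hT, hN1, hN2⟩ := exists_offN U hc
  have hsL : TrOK P L.g θ (cl h (T + 1) (T + 2)) :=
    isZ0_cfri hθ hN1 (cutL C0 (by linarith) (by linarith) ρ 0)
  have hsS : TrOK P L.g θ (cs h (-T - 2) (-T - 1)) :=
    isZ0_cfri hθ hN2 (cutS C0 (by linarith) (by linarith) ρ 0)
  have hk : IsZ0 A L.g univ (Fm96.sm (fn A (cl h (T + 1) (T + 2))) (fr P θ)) :=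
    isZ0_cfr hθ hN1 (cutL C0 (by linarith) (by linarith) ρ 0)
  refine ⟨tr0 M1.eq hsL, tr0 M1.eq hsS, tr1 M1.eq hsL, tr1 M1.eq hsS, frm hk, ?_, ?_, ?_, ?_, ?_,
    ?_⟩
  · exact trL1 C0 U hθ hd hρ hN1 (by linarith) (by linarith) (isLC L⁻¹) F.hg F1.hg
      F.d₀_eq F1.d₀_eq M1 M2 M3 hsL
  · exact trS1 C0 U hθ hd hρ hN2 (by linarith) (by linarith) (isLC L⁻¹) F.hg F1.hg
      F.d₀_eq F1.d₀_eq M1 M2 M3 hsS
  · intro a b hb
    exact frm_mem C0 U hθ hd hρ (T := T) (by linarith) (by linarith) M2 hk hone hm a hb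
  · intro a b hb
    exact frm_d C0 U hθ hd hρ (T := T) (by linarith) (by linarith) F.hg F.d₀_eq M2 hk hone hm a hb
  · intro a b
    exact frm_t C0 (by linarith) (by linarith) (EqOv.refl 1) M4 M1.eq hsL hk hone hm hχ a b
  · exact
    { of_mem := fun s hs => vcmp_of_mem U F hs
      mem := fun s hs hms => vcmp_mem C0 hθ hd hρ.le F s hs hms
      lim := fun s _ z hl => vcmp_lim C0 U hd hρ (by linarith) F1 M1.eq hsL hone hχ s z hl }

end final

end

end Crest.Agent.R275.Tri474
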