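import Crest.Agent.R275.MulT_474
import Crest.Agent.R275.CutZ_89
import Crest.Agent.R275.YBG_812
import Crest.Agent.R275.SolY_352
import Crest.Agent.R275.Cls_938
import Crest.Agent.R275.Wy5C_197

/-!
# R275, block D (helper474): the transports on the cover (rows `tr`, `V`, `trK` of `YAn`)

For `B : YBase Y` and weighted complexes `F.W = wL (bgeo hL) (hd B) (card_nb B) B.smooth_sm s`
(helper89's complex with the standard cut-off, any height `s`):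

* `mult_Y` : the multiplication property `Mult`, exact rates;
* `one_mem_Y` : `one ∈ W₀ a b` for `a < 0 < b`; `chiOne_Y`;
* `exists_tran` : `∃ T : Tran F F1 one, VCmp F F1.W one T.tL` for `L ∈ PP B.N B.h`;
* `exists_trK` : `∃ ρ t, TrL FD.W FK.W ρ t` for `FD` at `M * L⁻¹`, `FK` at `M` (`M` any bounded bundle).
-/

set_option autoImplicit false
set_option linter.unusedSectionVars false

open Set Filter Topology Complex
open scoped Manifold ContDiff ComplexConjugate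

namespace Crest.Agent.R275.Tri474

open Geo NAtl938 Core144 Fm96 GG89 Q74 Sol352 Lam2130 WY681 WY4193 WCxY89 LauB681 MulW193 Base144
  YBG812 CutZ89 CutY89 Wy5197 Cls938 Crest.AlgGeometry.Surface

noncomputable section

variable {Y : Type} [TopologicalSpace Y] [ChartedSpace C2 Y] [T2Space Y] {B : YBase Y}

/-- the cores, near their reference heights -/
theorem near_Y (B : YBase Y) (i : B.N.sm.ι) (x : Y) (hx : x ∈ tsupport (B.P.ψ i)) :
    |B.h x - (Hts.of_HD (hd B) (card_nb B)).ht i| ≤ (hd B).R := by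
  have h1 : x ∈ tsupport (B.P.χ i) := B.Pt.tsupport_psi_sub i hx
  exact (hd B).near i x h1

/-- **the multiplication property on the cover** -/
theorem mult_Y {L₁ L₂ : LB B.N.sm} (h₁ : L₁ ∈ BG B) (h₂ : L₂ ∈ BG B)
    {F₁ : WFam B.N.sm B.K B.h L₁} {F₂ : WFam B.N.sm B.K B.h L₂} {s₁ s₂ : ℝ}
    (e₁ : F₁.W = wL (bgeo h₁) (hd B) (card_nb B) B.smooth_sm s₁)
    (e₂ : F₂.W = wL (bgeo h₂) (hd B) (card_nb B) B.smooth_sm s₂)
    {g : B.N.sm.ι → B.N.sm.ι → Y → ℂ} (eq : EqOv B.N.sm (g * L₁.g) L₂.g) :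
    Mult B.K B.h g F₁.W F₂.W := by
  rw [e₁, e₂]
  exact mult_WCxY (fun i => Subset.rfl) (near_Y B) _ _ _ _ eq

/-- the constant `1` is in all classes of positive rates -/
theorem one_mem_Y (F1 : WFam B.N.sm B.K B.h 1) {one : ZZ0 B.N.sm (1 : LB B.N.sm).g}
    (hone : ∀ i, ∀ x ∈ (B.N.sm.e i).source, (one : B.N.sm.ι → Y → ℂ) i x = 1) {a b : ℝ}
    (ha : a < 0) (hb : 0 < b) : one ∈ F1.W.W₀ a b := by
  have h1 : Fm96.WB B.N.sm B.K (fun _ => 1) (fn B.N.sm (fun _ : Y => (1 : ℂ))) := by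
    refine B.cor.comp (ρ := fun _ => (1 : ℂ)) contDiff_const fun k => ?_
    exact bounded_iter (c0 := 1) (c1 := 1) contDiff_const (t0 := 0) (t1 := 0)
      (fun _ _ => rfl) (fun _ _ => rfl) k
  have h2 : BD B.N.sm B.K B.h 0 0 (fn B.N.sm (fun _ : Y => (1 : ℂ))) :=
    Fm96.WB.mono h1 zero_le_one fun i x _ => by rw [wgt_zero]; norm_num
  have h3 : (one : B.N.sm.ι → Y → ℂ) = fn B.N.sm (fun _ : Y => (1 : ℂ)) := by
    funext i x
    by_cases hx : x ∈ (B.N.sm.e i).source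
    · rw [hone i x hx, fn_of_mem hx]
    · rw [fn_of_not_mem hx]
      exact one.2.off i x hx
  have h4 : BD B.N.sm B.K B.h 0 0 (one : B.N.sm.ι → Y → ℂ) := by rw [h3]; exact h2
  have h5 := F1.s20 (u := one) (a' := -a) (b' := b) h4 (by linarith) hb
  rwa [neg_neg] at h5

/-- the cut-off of `one` -/
theorem chiOne_Y (h1 : (1 : LB B.N.sm) ∈ BG B) {F1 : WFam B.N.sm B.K B.h 1} {s : ℝ}
    (e₁ : F1.W = wL (bgeo h1) (hd B) (card_nb B) B.smooth_sm s)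
    (one : ZZ0 B.N.sm (1 : LB B.N.sm).g) : ChiOne B.h F1.W one := by
  rw [e₁]
  exact chiOne_of_isMul _ (isMul_thC (bgeo h1) (hd B) (card_nb B) B.smooth_sm s)
    (S := s) (T := s + 1) (fun x hx => theta_zero hx.le) (fun x hx => theta_one hx.le) one

/-- logarithms of the bundles of `PP` -/
theorem log_PP {L : LB B.N.sm} (hL : L ∈ PP B.N B.h) :
    ∃ (θ : B.N.sm.ι → B.N.sm.ι → Y → ℂ) (c : B.N.sm.ι → B.N.sm.ι → B.N.sm.ι → ℤ) (C ρ : ℝ),
      IsLog B.N.sm L.g θ c ∧ Dec2 B.N.sm B.h θ C ρ ∧ 0 < ρ ∧ Fin3 c := by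
  obtain ⟨c, ⟨-, hc⟩, θ, hθ, C, ρ, hρ, hd⟩ := hL
  exact ⟨θ, c, C, ρ, hθ, hd, hρ, hc⟩

/-- **rows `tr` and `V` of `YAn`** -/
theorem exists_tran {L : LB B.N.sm} (hL : L ∈ PP B.N B.h) (hB : L ∈ BG B)
    (hB1 : (1 : LB B.N.sm) ∈ BG B) {F : WFam B.N.sm B.K B.h L} {F1 : WFam B.N.sm B.K B.h 1}
    {s s₁ : ℝ} (e : F.W = wL (bgeo hB) (hd B) (card_nb B) B.smooth_sm s)
    (e₁ : F1.W = wL (bgeo hB1) (hd B) (card_nb B) B.smooth_sm s₁)
    {one : ZZ0 B.N.sm (1 : LB B.N.sm).g}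
    (hone : ∀ i, ∀ x ∈ (B.N.sm.e i).source, (one : B.N.sm.ι → Y → ℂ) i x = 1) :
    ∃ T : Tran F F1 one, VCmp F F1.W one T.tL ∧ 0 < T.ρ := by
  obtain ⟨θ, c, C, ρ, hθ, hdec, hρ, hc⟩ := log_PP hL
  obtain ⟨tL, tS, tL₁, tS₁, e', h1, h2, h3, h4, h5, h6⟩ :=
    exists_tdata B.cor (ug_psi B.Pt) F F1 hθ hdec hρ hc
      (mult_Y hB hB1 e e₁ fun i j x _ => by
        show (L.g i j x)⁻¹ * L.g i j x = 1
        exact inv_mul_cancel₀ (L.ne_zero i j x))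
      (mult_Y hB1 hB e₁ e fun i j x _ => by
        show L.g i j x * 1 = L.g i j x
        exact mul_one _)
      (mult_Y hB hB e e fun i j x _ => by
        show 1 * L.g i j x = L.g i j x
        exact one_mul _)
      (mult_Y hB1 hB1 e₁ e₁ fun i j x _ => by
        show (1 : ℂ) * 1 = 1
        exact one_mul _)
      hone (fun a b ha hb => one_mem_Y F1 hone ha hb) (chiOne_Y hB1 e₁ one)
  exact ⟨⟨ρ, tL, tL₁, tS, tS₁, e', h1, h2, h3, h4, h5⟩, h6, hρ⟩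

/-- **row `trK` of `YAn`** : the transport from `M L⁻¹` to `M` at the large end -/
theorem exists_trK {L M : LB B.N.sm} (hL : L ∈ PP B.N B.h) (hD : M * L⁻¹ ∈ BG B)
    (hM : M ∈ BG B) {FD : WFam B.N.sm B.K B.h (M * L⁻¹)} {FM : WFam B.N.sm B.K B.h M}
    {s s₁ : ℝ} (e : FD.W = wL (bgeo hD) (hd B) (card_nb B) B.smooth_sm s)
    (e₁ : FM.W = wL (bgeo hM) (hd B) (card_nb B) B.smooth_sm s₁) :
    ∃ (ρ : ℝ) (t : ZZ0 B.N.sm (M * L⁻¹).g →ₗ[ℂ] ZZ0 B.N.sm M.g), TrL FD.W FM.W ρ t := by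
  obtain ⟨θ, c, C, ρ, hθ, hdec, hρ, hc⟩ := log_PP ((PP B.N B.h).inv_mem hL)
  obtain ⟨⟨t, t₁, h1⟩, -⟩ := exists_tr (G := L⁻¹) B.cor (ug_psi B.Pt) FD FM hθ hdec hρ hc
    (mult_Y hD hM e e₁ fun i j x _ => by
      show (((L.g i j x)⁻¹)⁻¹) * (M.g i j x * (L.g i j x)⁻¹) = M.g i j x
      rw [inv_inv, mul_left_comm, mul_inv_cancel₀ (L.ne_zero i j x), mul_one])
    (mult_Y hM hD e₁ e fun i j x _ => by
      show (L.g i j x)⁻¹ * M.g i j x = M.g i j x * (L.g i j x)⁻¹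
      exact mul_comm _ _)
    (mult_Y hD hD e e fun i j x _ => by
      show 1 * (M * L⁻¹).g i j x = (M * L⁻¹).g i j x
      exact one_mul _)
  exact ⟨ρ, t, h1.toTrL⟩

end

end Crest.Agent.R275.Tri474
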