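import Crest.Agent.R275.VCalC_131

/-!
# R275, block C (helper131): standard isomorphisms, integrability, line bundles from raw cocycles
-/

set_option autoImplicit false
set_option linter.unusedSectionVars false

open Set Filter Topology Complex
open scoped ContDiff Matrix ComplexConjugate Kronecker

namespace Crest.Agent.R275.VCal131

open Geo Fm96

noncomputable section

variable {n : ℕ} {M : Type} [TopologicalSpace M] {A : Atl n M}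

/-! ### standard isomorphisms -/

section std

variable (E F G : VBun A)

/-- `E ⊗ F ≅ F ⊗ E` -/
def tensorComm : VIso (tensor E F) (tensor F E) :=
  VIso.ofEquiv (tensor E F) (tensor F E) (Equiv.prodComm E.ρ F.ρ) (fun i j x hx => by
    ext ⟨k, k'⟩ ⟨l, l'⟩
    exact mul_comm _ _)

theorem tensorComm_flat : (tensorComm E F).Flat := by
  refine VIso.ofEquiv_flat fun i x hx b => ?_
  ext ⟨k, k'⟩ ⟨l, l'⟩
  show F.a i b x k' l' * (1 : Matrix E.ρ E.ρ ℂ) k l + (1 : Matrix F.ρ F.ρ ℂ) k' l' * E.a i b x k l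
    = E.a i b x k l * (1 : Matrix F.ρ F.ρ ℂ) k' l' + (1 : Matrix E.ρ E.ρ ℂ) k l * F.a i b x k' l'
  ring

/-- `(E ⊗ F) ⊗ G ≅ E ⊗ (F ⊗ G)` -/
def tensorAssoc : VIso (tensor (tensor E F) G) (tensor E (tensor F G)) :=
  VIso.ofEquiv (tensor (tensor E F) G) (tensor E (tensor F G)) (Equiv.prodAssoc E.ρ F.ρ G.ρ)
    (fun i j x hx => by
      ext ⟨⟨k, k'⟩, k''⟩ ⟨⟨l, l'⟩, l''⟩
      exact (mul_assoc _ _ _).symm)

theorem one_prod_apply {ρ σ : Type} [DecidableEq ρ] [DecidableEq σ] (k l : ρ) (k' l' : σ) :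
    (1 : Matrix (ρ × σ) (ρ × σ) ℂ) (k, k') (l, l')
      = (1 : Matrix ρ ρ ℂ) k l * (1 : Matrix σ σ ℂ) k' l' := by
  rw [← Matrix.one_kronecker_one]
  rfl

theorem tensorAssoc_flat : (tensorAssoc E F G).Flat := by
  refine VIso.ofEquiv_flat fun i x hx b => ?_
  ext ⟨⟨k, k'⟩, k''⟩ ⟨⟨l, l'⟩, l''⟩
  show E.a i b x k l * (1 : Matrix (F.ρ × G.ρ) (F.ρ × G.ρ) ℂ) (k', k'') (l', l'')
      + (1 : Matrix E.ρ E.ρ ℂ) k l * (F.a i b x k' l' * (1 : Matrix G.ρ G.ρ ℂ) k'' l''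
        + (1 : Matrix F.ρ F.ρ ℂ) k' l' * G.a i b x k'' l'')
    = (E.a i b x k l * (1 : Matrix F.ρ F.ρ ℂ) k' l'
        + (1 : Matrix E.ρ E.ρ ℂ) k l * F.a i b x k' l') * (1 : Matrix G.ρ G.ρ ℂ) k'' l''
      + (1 : Matrix (E.ρ × F.ρ) (E.ρ × F.ρ) ℂ) (k, k') (l, l') * G.a i b x k'' l''
  rw [one_prod_apply, one_prod_apply]
  ring

/-- `1 ⊗ E ≅ E` -/
def unitTensor : VIso (tensor (triv A Unit) E) E :=
  VIso.ofEquiv (tensor (triv A Unit) E) E (Equiv.punitProd E.ρ) (fun i j x hx => by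
    ext ⟨k, k'⟩ ⟨l, l'⟩
    exact (one_mul _).symm)

theorem unitTensor_flat : (unitTensor E).Flat := by
  refine VIso.ofEquiv_flat fun i x hx b => ?_
  ext ⟨k, k'⟩ ⟨l, l'⟩
  show E.a i b x k' l' = (0 : ℂ) * _ + (1 : ℂ) * E.a i b x k' l'
  ring

/-- `E ⊗ 1 ≅ E` -/
def tensorUnit : VIso (tensor E (triv A Unit)) E :=
  VIso.ofEquiv (tensor E (triv A Unit)) E (Equiv.prodPUnit E.ρ) (fun i j x hx => by
    ext ⟨k, k'⟩ ⟨l, l'⟩
    exact (mul_one _).symm)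

theorem tensorUnit_flat : (tensorUnit E).Flat := by
  refine VIso.ofEquiv_flat fun i x hx b => ?_
  ext ⟨k, k'⟩ ⟨l, l'⟩
  show E.a i b x k l = E.a i b x k l * (1 : ℂ) + _ * (0 : ℂ)
  ring

/-- `E ⊕ F ≅ F ⊕ E` -/
def sumComm : VIso (sum E F) (sum F E) :=
  VIso.ofEquiv (sum E F) (sum F E) (Equiv.sumComm E.ρ F.ρ) (fun i j x hx => by
    ext (k | k) (l | l) <;> rfl)

theorem sumComm_flat : (sumComm E F).Flat := by
  refine VIso.ofEquiv_flat fun i x hx b => ?_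
  ext (k | k) (l | l) <;> rfl

/-- `(E ⊕ F) ⊕ G ≅ E ⊕ (F ⊕ G)` -/
def sumAssoc : VIso (sum (sum E F) G) (sum E (sum F G)) :=
  VIso.ofEquiv (sum (sum E F) G) (sum E (sum F G)) (Equiv.sumAssoc E.ρ F.ρ G.ρ)
    (fun i j x hx => by
      ext ((k | k) | k) ((l | l) | l) <;> rfl)

theorem sumAssoc_flat : (sumAssoc E F G).Flat := by
  refine VIso.ofEquiv_flat fun i x hx b => ?_
  ext ((k | k) | k) ((l | l) | l) <;> rfl

/-- `(E ⊕ F) ⊗ G ≅ (E ⊗ G) ⊕ (F ⊗ G)` -/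
def sumTensor : VIso (tensor (sum E F) G) (sum (tensor E G) (tensor F G)) :=
  VIso.ofEquiv (tensor (sum E F) G) (sum (tensor E G) (tensor F G))
    (Equiv.sumProdDistrib E.ρ F.ρ G.ρ)
    (fun i j x hx => by
      ext ⟨k | k, k'⟩ ⟨l | l, l'⟩
      · rfl
      · exact (zero_mul _).symm
      · exact (zero_mul _).symm
      · rfl)

theorem sumTensor_flat : (sumTensor E F G).Flat := by
  refine VIso.ofEquiv_flat fun i x hx b => ?_
  ext ⟨k | k, k'⟩ ⟨l | l, l'⟩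
  · show E.a i b x k l * (1 : Matrix G.ρ G.ρ ℂ) k' l' + (1 : Matrix E.ρ E.ρ ℂ) k l * G.a i b x k' l'
      = E.a i b x k l * (1 : Matrix G.ρ G.ρ ℂ) k' l'
        + (1 : Matrix (E.ρ ⊕ F.ρ) (E.ρ ⊕ F.ρ) ℂ) (Sum.inl k) (Sum.inl l) * G.a i b x k' l'
    rw [← Matrix.fromBlocks_one]
    rfl
  · show (0 : ℂ) = (0 : ℂ) * (1 : Matrix G.ρ G.ρ ℂ) k' l'
        + (1 : Matrix (E.ρ ⊕ F.ρ) (E.ρ ⊕ F.ρ) ℂ) (Sum.inl k) (Sum.inr l) * G.a i b x k' l'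
    rw [Matrix.one_apply_ne (show (Sum.inl k : E.ρ ⊕ F.ρ) ≠ Sum.inr l by simp)]
    ring
  · show (0 : ℂ) = (0 : ℂ) * (1 : Matrix G.ρ G.ρ ℂ) k' l'
        + (1 : Matrix (E.ρ ⊕ F.ρ) (E.ρ ⊕ F.ρ) ℂ) (Sum.inr k) (Sum.inl l) * G.a i b x k' l'
    rw [Matrix.one_apply_ne (show (Sum.inr k : E.ρ ⊕ F.ρ) ≠ Sum.inl l by simp)]
    ring
  · show F.a i b x k l * (1 : Matrix G.ρ G.ρ ℂ) k' l' + (1 : Matrix F.ρ F.ρ ℂ) k l * G.a i b x k' l'
      = F.a i b x k l * (1 : Matrix G.ρ G.ρ ℂ) k' l'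
        + (1 : Matrix (E.ρ ⊕ F.ρ) (E.ρ ⊕ F.ρ) ℂ) (Sum.inr k) (Sum.inr l) * G.a i b x k' l'
    rw [← Matrix.fromBlocks_one]
    rfl

/-- `E ⊗ (F ⊕ G) ≅ (E ⊗ F) ⊕ (E ⊗ G)` -/
def tensorSum : VIso (tensor E (sum F G)) (sum (tensor E F) (tensor E G)) :=
  (tensorComm E (sum F G)).trans ((sumTensor F G E).trans
    ((tensorComm F E).sumCongr (tensorComm G E)))

theorem tensorSum_flat : (tensorSum E F G).Flat :=
  (tensorComm_flat E (sum F G)).trans ((sumTensor_flat F G E).trans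
    ((tensorComm_flat F E).sumCongr (tensorComm_flat G E)))

/-- `(E ⊗ F)* ≅ E* ⊗ F*` -/
def dualTensor : VIso (dual (tensor E F)) (tensor (dual E) (dual F)) :=
  VIso.ofEquiv (dual (tensor E F)) (tensor (dual E) (dual F)) (Equiv.refl _) (fun i j x hx => by
    ext ⟨k, k'⟩ ⟨l, l'⟩
    rfl)

theorem dualTensor_flat : (dualTensor E F).Flat := by
  refine VIso.ofEquiv_flat fun i x hx b => ?_
  ext ⟨k, k'⟩ ⟨l, l'⟩
  show (-(E.a i b x l k)) * (1 : Matrix F.ρ F.ρ ℂ) k' l'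
      + (1 : Matrix E.ρ E.ρ ℂ) k l * (-(F.a i b x l' k'))
    = -(E.a i b x l k * (1 : Matrix F.ρ F.ρ ℂ) l' k' + (1 : Matrix E.ρ E.ρ ℂ) l k * F.a i b x l' k')
  have h1 : (1 : Matrix F.ρ F.ρ ℂ) k' l' = (1 : Matrix F.ρ F.ρ ℂ) l' k' := by
    rw [← Matrix.transpose_one, Matrix.transpose_apply, Matrix.transpose_one]
  have h2 : (1 : Matrix E.ρ E.ρ ℂ) k l = (1 : Matrix E.ρ E.ρ ℂ) l k := by
    rw [← Matrix.transpose_one, Matrix.transpose_apply, Matrix.transpose_one]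
  rw [h1, h2]
  ring

/-- `(E ⊕ F)* ≅ E* ⊕ F*` -/
def dualSum : VIso (dual (sum E F)) (sum (dual E) (dual F)) :=
  VIso.ofEquiv (dual (sum E F)) (sum (dual E) (dual F)) (Equiv.refl _) (fun i j x hx => by
    ext (k | k) (l | l) <;> rfl)

theorem dualSum_flat : (dualSum E F).Flat := by
  refine VIso.ofEquiv_flat fun i x hx b => ?_
  ext (k | k) (l | l)
  · rfl
  · exact neg_zero.symm
  · exact neg_zero.symm
  · rfl

/-- `E** ≅ E` -/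
def dualDual : VIso (dual (dual E)) E :=
  VIso.ofEquiv (dual (dual E)) E (Equiv.refl _) (fun i j x hx => by ext k l; rfl)

theorem dualDual_flat : (dualDual E).Flat := by
  refine VIso.ofEquiv_flat fun i x hx b => ?_
  ext k l
  exact (neg_neg _).symm

end std

/-! ### integrability -/

/-- the `(0,2)`-curvature vanishes -/
def Integ (E : VBun A) : Prop := ∀ i, ∀ x ∈ (A.e i).source, ∀ b c,
  dbM A i b (E.a i c) x - dbM A i c (E.a i b) x + E.a i b x * E.a i c x - E.a i c x * E.a i b x = 0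

theorem integ_hol {ρ : Type} [Fintype ρ] [DecidableEq ρ] {g : A.ι → A.ι → M → Matrix ρ ρ ℂ}
    {gh : ∀ i j, ∀ x ∈ (A.e i).source ∩ (A.e j).source, ∀ k l, HolP A i (fun y => g i j y k l) x}
    {g1 : ∀ i, ∀ x ∈ (A.e i).source, g i i x = 1}
    {gm : ∀ i j k, ∀ x ∈ (A.e i).source ∩ (A.e j).source ∩ (A.e k).source,
      g i j x * g j k x = g i k x} : Integ (hol ρ g gh g1 gm) := fun i x hx b c => by
  show dbM A i b (fun _ => (0 : Matrix ρ ρ ℂ)) x - dbM A i c (fun _ => (0 : Matrix ρ ρ ℂ)) x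
    + (0 : Matrix ρ ρ ℂ) * (0 : Matrix ρ ρ ℂ) - (0 : Matrix ρ ρ ℂ) * (0 : Matrix ρ ρ ℂ) = 0
  rw [dbM_const, dbM_const]
  simp

theorem integ_triv (ρ : Type) [Fintype ρ] [DecidableEq ρ] : Integ (triv A ρ) := integ_hol

theorem Integ.sum {E F : VBun A} (hE : Integ E) (hF : Integ F) : Integ (sum E F) :=
  fun i x hx b c => by
  show dbM A i b (fun y => Matrix.fromBlocks (E.a i c y) 0 0 (F.a i c y)) x
    - dbM A i c (fun y => Matrix.fromBlocks (E.a i b y) 0 0 (F.a i b y)) x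
    + Matrix.fromBlocks (E.a i b x) 0 0 (F.a i b x) * Matrix.fromBlocks (E.a i c x) 0 0 (F.a i c x)
    - Matrix.fromBlocks (E.a i c x) 0 0 (F.a i c x) * Matrix.fromBlocks (E.a i b x) 0 0 (F.a i b x)
    = 0
  have h0 : ∀ (b : Fin n) (ρ ρ' : Type), dbM A i b (fun _ => (0 : Matrix ρ ρ' ℂ)) x = 0 :=
    fun b ρ ρ' => dbM_const _ _
  rw [dbM_fromBlocks, dbM_fromBlocks]
  simp only [h0, Matrix.fromBlocks_multiply, Matrix.mul_zero, Matrix.zero_mul, add_zero, zero_add]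
  ext (k | k) (l | l)
  · exact congrFun (congrFun (hE i x hx b c) k) l
  · show (0 : ℂ) - 0 + 0 - 0 = 0
    simp
  · show (0 : ℂ) - 0 + 0 - 0 = 0
    simp
  · exact congrFun (congrFun (hF i x hx b c) k) l

theorem Integ.tensor {E F : VBun A} (hE : Integ E) (hF : Integ F) : Integ (tensor E F) :=
  fun i x hx b c => by
  have key' : ∀ b c, dbM A i b (fun y => E.a i c y ⊗ₖ (1 : Matrix F.ρ F.ρ ℂ)
      + (1 : Matrix E.ρ E.ρ ℂ) ⊗ₖ F.a i c y) x = dbM A i b (E.a i c) x ⊗ₖ (1 : Matrix F.ρ F.ρ ℂ)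
        + (1 : Matrix E.ρ E.ρ ℂ) ⊗ₖ dbM A i b (F.a i c) x := by
    intro b c
    rw [dbM_add ((a_msm E hx c).kron (MSm.const 1)) ((MSm.const 1).kron (a_msm F hx c)),
      dbM_kron (a_msm E hx c) (MSm.const 1) hx, dbM_kron (MSm.const 1) (a_msm F hx c) hx,
      dbM_const, dbM_const]
    simp
  show dbM A i b (fun y => E.a i c y ⊗ₖ (1 : Matrix F.ρ F.ρ ℂ)
      + (1 : Matrix E.ρ E.ρ ℂ) ⊗ₖ F.a i c y) x
    - dbM A i c (fun y => E.a i b y ⊗ₖ (1 : Matrix F.ρ F.ρ ℂ)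
      + (1 : Matrix E.ρ E.ρ ℂ) ⊗ₖ F.a i b y) x
    + (E.a i b x ⊗ₖ (1 : Matrix F.ρ F.ρ ℂ) + (1 : Matrix E.ρ E.ρ ℂ) ⊗ₖ F.a i b x)
      * (E.a i c x ⊗ₖ (1 : Matrix F.ρ F.ρ ℂ) + (1 : Matrix E.ρ E.ρ ℂ) ⊗ₖ F.a i c x)
    - (E.a i c x ⊗ₖ (1 : Matrix F.ρ F.ρ ℂ) + (1 : Matrix E.ρ E.ρ ℂ) ⊗ₖ F.a i c x)
      * (E.a i b x ⊗ₖ (1 : Matrix F.ρ F.ρ ℂ) + (1 : Matrix E.ρ E.ρ ℂ) ⊗ₖ F.a i b x) = 0
  rw [key' b c, key' c b]
  simp only [add_mul, mul_add, ← Matrix.mul_kronecker_mul, one_mul, mul_one]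
  have h1 := congrArg (fun m => m ⊗ₖ (1 : Matrix F.ρ F.ρ ℂ)) (hE i x hx b c)
  have h2 := congrArg (fun m => (1 : Matrix E.ρ E.ρ ℂ) ⊗ₖ m) (hF i x hx b c)
  simp only [sub_eq_add_neg, Matrix.add_kronecker, Matrix.kronecker_add, Matrix.zero_kronecker,
    Matrix.kronecker_zero] at h1 h2
  have h3 : ∀ m : Matrix E.ρ E.ρ ℂ, (-m) ⊗ₖ (1 : Matrix F.ρ F.ρ ℂ) = -(m ⊗ₖ 1) := by
    intro m; ext ⟨k, k'⟩ ⟨l, l'⟩; simp
  have h4 : ∀ m : Matrix F.ρ F.ρ ℂ, (1 : Matrix E.ρ E.ρ ℂ) ⊗ₖ (-m) = -(1 ⊗ₖ m) := by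
    intro m; ext ⟨k, k'⟩ ⟨l, l'⟩; simp
  rw [h3, h3] at h1
  rw [h4, h4] at h2
  have h5 := congrArg₂ (· + ·) h1 h2
  simp only [add_zero] at h5
  rw [← h5]
  abel

theorem Integ.dual {E : VBun A} (hE : Integ E) : Integ (dual E) := fun i x hx b c => by
  show dbM A i b (fun y => -(E.a i c y)ᵀ) x - dbM A i c (fun y => -(E.a i b y)ᵀ) x
    + (-(E.a i b x)ᵀ) * (-(E.a i c x)ᵀ) - (-(E.a i c x)ᵀ) * (-(E.a i b x)ᵀ) = 0
  rw [dbM_neg (a_msm E hx c).transpose, dbM_neg (a_msm E hx b).transpose, dbM_transpose,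
    dbM_transpose]
  have h := congrArg Matrix.transpose (hE i x hx b c)
  simp only [Matrix.transpose_sub, Matrix.transpose_add, Matrix.transpose_mul,
    Matrix.transpose_zero] at h
  simp only [Matrix.neg_mul, Matrix.mul_neg, neg_neg]
  rw [← neg_eq_zero, ← h]
  abel

end

end Crest.Agent.R275.VCal131
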