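import Crest.Agent.R275.C1a_509
import Crest.Agent.R275.FmP_96

/-!
# R275, block C (helper131): calculus of smooth vector bundles with a `(0,1)`-connection

* `smOv_iff`, `smAt_iff'`   : pointwise form of smoothness on overlaps;
* `Jm`, `Jm_self`, `Jm_mul`, `det_Jm_ne` : the Jacobian cocycle;
* matrix valued `∂̄` (`dbM`), Leibniz rule;
* operations on `VBun A`: `triv`, `hol` (holomorphic cocycle, `a = 0`), `add`, `mul`, `dual`;
* `VHom`, `VHom.Flat`, `VIso` and the functoriality of the operations.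
-/

set_option autoImplicit false
set_option linter.unusedSectionVars false

open Set Filter Topology Complex
open scoped ContDiff Matrix ComplexConjugate Kronecker

namespace Crest.Agent.R275.VCal131

open Geo Fm96

noncomputable section

variable {n : ℕ} {M : Type} [TopologicalSpace M] {A : Atl n M}

/-! ### smoothness, pointwise -/

theorem smOv_iff {i j : A.ι} {f : M → ℂ} :
    ContDiffOn ℝ ∞ (fun z => f ((A.e i).symm z)) (A.ov i j) ↔
      ∀ x ∈ (A.e i).source ∩ (A.e j).source, SmP A i f x := by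
  constructor
  · intro h x hx
    filter_upwards [(isOpen_ov i j).mem_nhds (mem_ov hx)] with z hz
    exact h.contDiffAt ((isOpen_ov i j).mem_nhds hz)
  · intro h z hz
    have h1 := (h ((A.e i).symm z) ⟨(A.e i).map_target hz.1, hz.2⟩).self_of_nhds
    rw [(A.e i).right_inv hz.1] at h1
    exact h1.contDiffWithinAt

theorem smP_of_smAt {i : A.ι} {f : M → ℂ} (h : A.SmAt i f) {x : M} (hx : x ∈ (A.e i).source) :
    SmP A i f x := smAt_iff.1 h x hx

theorem sm_iff {f : M → ℂ} : A.Sm f ↔ ∀ i, ∀ x ∈ (A.e i).source, SmP A i f x :=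
  ⟨fun h i => smAt_iff.1 (h i), fun h i => smAt_iff.2 (h i)⟩

/-! ### the Jacobian cocycle -/

/-- the Jacobian matrix `∂ z^j_b / ∂ z^i_a` (row `b`, column `a`) -/
def Jm (A : Atl n M) (i j : A.ι) (x : M) : Matrix (Fin n) (Fin n) ℂ := Matrix.of (A.J i j x)

@[simp] theorem Jm_apply (i j : A.ι) (x : M) (b a : Fin n) : Jm A i j x b a = A.J i j x b a := rfl

theorem Jm_self {i : A.ι} {x : M} (hx : x ∈ (A.e i).source) : Jm A i i x = 1 := by
  ext b a
  have h : tr A i i =ᶠ[𝓝 (A.e i x)] id := by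
    filter_upwards [(A.e i).open_target.mem_nhds ((A.e i).map_source hx)] with z hz
    exact (A.e i).right_inv hz
  show (fderiv ℂ (tr A i i) (A.e i x) (EuclideanSpace.single a 1)) b = _
  rw [h.fderiv_eq, fderiv_id]
  simp [Matrix.one_apply, PiLp.single_apply]

theorem Jm_mul {i j k : A.ι} {x : M} (hx : x ∈ (A.e i).source ∩ (A.e j).source)
    (hk : x ∈ (A.e k).source) : Jm A j k x * Jm A i j x = Jm A i k x := by
  ext b a
  have h1 : tr A i k =ᶠ[𝓝 (A.e i x)] fun z => tr A j k (tr A i j z) := by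
    filter_upwards [(isOpen_ov i j).mem_nhds (mem_ov hx)] with z hz
    simp only [tr]
    rw [(A.e j).left_inv hz.2]
  have hd1 : DifferentiableAt ℂ (tr A i j) (A.e i x) := (tr_diff hx).self_of_nhds
  have hd2 : DifferentiableAt ℂ (tr A j k) (tr A i j (A.e i x)) := by
    rw [tr_apply hx.1]; exact (tr_diff ⟨hx.2, hk⟩).self_of_nhds
  have h2 : fderiv ℂ (tr A i k) (A.e i x) =
      (fderiv ℂ (tr A j k) (A.e j x)).comp (fderiv ℂ (tr A i j) (A.e i x)) := by
    rw [h1.fderiv_eq]
    have := fderiv_comp (A.e i x) hd2 hd1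
    rw [tr_apply hx.1] at this
    exact this
  show _ = (fderiv ℂ (tr A i k) (A.e i x) (EuclideanSpace.single a 1)) b
  rw [h2, ContinuousLinearMap.comp_apply, sum_bs (fderiv ℂ (tr A i j) (A.e i x) _), map_sum]
  simp only [WithLp.ofLp_sum, Finset.sum_apply, map_smul, PiLp.smul_apply, smul_eq_mul,
    Matrix.mul_apply]
  refine Finset.sum_congr rfl fun c _ => ?_
  rw [mul_comm]
  rfl

theorem Jm_mul_inv {i j : A.ι} {x : M} (hx : x ∈ (A.e i).source ∩ (A.e j).source) :
    Jm A j i x * Jm A i j x = 1 := by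
  rw [Jm_mul hx hx.1, Jm_self hx.1]

theorem det_Jm_ne {i j : A.ι} {x : M} (hx : x ∈ (A.e i).source ∩ (A.e j).source) :
    (Jm A i j x).det ≠ 0 := by
  have h := congrArg Matrix.det (Jm_mul_inv hx)
  rw [Matrix.det_mul, Matrix.det_one] at h
  exact right_ne_zero_of_mul_eq_one h

theorem sum_conj_J {i j : A.ι} {x : M} (hx : x ∈ (A.e i).source ∩ (A.e j).source) (d b : Fin n) :
    ∑ c, conj (A.J i j x c b) * conj (A.J j i x d c) = if d = b then 1 else 0 := by
  have h := congrFun (congrFun (Jm_mul_inv hx) d) b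
  have h2 := congrArg conj h
  simp only [Matrix.mul_apply, Jm_apply, map_sum, map_mul, Matrix.one_apply] at h2
  have h3 : conj (if d = b then (1 : ℂ) else 0) = if d = b then 1 else 0 := by
    split_ifs <;> simp
  rw [h3] at h2
  rw [← h2]
  exact Finset.sum_congr rfl fun c _ => mul_comm _ _

/-! ### matrix valued `∂̄` -/

section dbM

variable {ρ ρ' ρ'' : Type}

/-- entrywise smoothness near `x` -/
def MSm (A : Atl n M) (i : A.ι) (m : M → Matrix ρ ρ' ℂ) (x : M) : Prop :=
  ∀ k l, SmP A i (fun y => m y k l) x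

/-- entrywise `∂̄_b` -/
def dbM (A : Atl n M) (i : A.ι) (b : Fin n) (m : M → Matrix ρ ρ' ℂ) (x : M) : Matrix ρ ρ' ℂ :=
  Matrix.of fun k l => A.db i b (fun y => m y k l) x

theorem dbM_eq (i : A.ι) (b : Fin n) (m : M → Matrix ρ ρ' ℂ) (x : M) :
    Matrix.of (fun k l => A.db i b (fun y => m y k l) x) = dbM A i b m x := rfl

variable {i j : A.ι} {x : M}

theorem MSm.change {m : M → Matrix ρ ρ' ℂ} (h : MSm A j m x)
    (hx : x ∈ (A.e i).source ∩ (A.e j).source) : MSm A i m x := fun k l => (h k l).change hx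

theorem MSm.congr {m m' : M → Matrix ρ ρ' ℂ} (h : MSm A i m x) (hx : x ∈ (A.e i).source)
    (he : m' =ᶠ[𝓝 x] m) : MSm A i m' x := fun k l =>
  (h k l).congr hx (he.mono fun _ hy => congrFun (congrFun hy k) l)

theorem MSm.const (c : Matrix ρ ρ' ℂ) : MSm A i (fun _ => c) x := fun _ _ => SmP.const _

theorem MSm.add {m m' : M → Matrix ρ ρ' ℂ} (h : MSm A i m x) (h' : MSm A i m' x) :
    MSm A i (fun y => m y + m' y) x := fun k l => (h k l).add (h' k l)

theorem MSm.neg {m : M → Matrix ρ ρ' ℂ} (h : MSm A i m x) :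
    MSm A i (fun y => - m y) x := fun k l => (h k l).neg

theorem MSm.transpose {m : M → Matrix ρ ρ' ℂ} (h : MSm A i m x) :
    MSm A i (fun y => (m y)ᵀ) x := fun k l => h l k

theorem MSm.mul [Fintype ρ'] {m : M → Matrix ρ ρ' ℂ} {m' : M → Matrix ρ' ρ'' ℂ}
    (h : MSm A i m x) (h' : MSm A i m' x) : MSm A i (fun y => m y * m' y) x := fun k l => by
  simp only [Matrix.mul_apply]
  exact SmP.sum fun c _ => (h k c).mul (h' c l)

theorem MSm.kron {σ σ' : Type} {m : M → Matrix ρ ρ' ℂ} {m' : M → Matrix σ σ' ℂ}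
    (h : MSm A i m x) (h' : MSm A i m' x) : MSm A i (fun y => m y ⊗ₖ m' y) x := fun k l => by
  exact (h k.1 l.1).mul (h' k.2 l.2)

theorem MSm.fromBlocks {σ σ' : Type} {a : M → Matrix ρ ρ' ℂ} {b : M → Matrix ρ σ' ℂ}
    {c : M → Matrix σ ρ' ℂ} {d : M → Matrix σ σ' ℂ}
    (ha : MSm A i a x) (hb : MSm A i b x) (hc : MSm A i c x) (hd : MSm A i d x) :
    MSm A i (fun y => Matrix.fromBlocks (a y) (b y) (c y) (d y)) x := by
  rintro (k | k) (l | l)
  · exact ha k l
  · exact hb k l
  · exact hc k l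
  · exact hd k l

theorem SmP.prod {J : Type*} {s : Finset J} {F : J → M → ℂ} (h : ∀ j ∈ s, SmP A i (F j) x) :
    SmP A i (fun y => ∏ j ∈ s, F j y) x := by
  classical
  induction s using Finset.induction_on with
  | empty => simpa using SmP.const (A := A) (i := i) (x := x) 1
  | insert a s ha ih =>
    simp only [Finset.prod_insert ha]
    exact (h a (Finset.mem_insert_self _ _)).mul
      (ih fun j hj => h j (Finset.mem_insert_of_mem hj))

theorem MSm.det [Fintype ρ] [DecidableEq ρ] {m : M → Matrix ρ ρ ℂ} (h : MSm A i m x) :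
    SmP A i (fun y => (m y).det) x := by
  simp only [Matrix.det_apply']
  exact SmP.sum fun σ _ => (SmP.const _).mul (SmP.prod fun k _ => h _ _)

/-- the inverse matrix is smooth where it exists -/
theorem MSm.inv [Fintype ρ] [DecidableEq ρ] {m : M → Matrix ρ ρ ℂ} (h : MSm A i m x)
    (h0 : (m x).det ≠ 0) (hx : x ∈ (A.e i).source) : MSm A i (fun y => (m y)⁻¹) x := by
  intro k l
  have h1 : (fun y => (m y)⁻¹ k l) =
      fun y => ((m y).det)⁻¹ * ((m y).updateRow l (Pi.single k 1)).det := by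
    funext y
    rw [Matrix.inv_def, Matrix.smul_apply, Matrix.adjugate_apply, Ring.inverse_eq_inv',
      smul_eq_mul]
  rw [h1]
  refine (h.det.inv h0 hx).mul ?_
  refine MSm.det (m := fun y => (m y).updateRow l (Pi.single k 1)) fun p q => ?_
  by_cases hp : p = l
  · subst hp
    simp only [Matrix.updateRow_self]
    exact SmP.const _
  · simp only [Matrix.updateRow_ne hp]
    exact h p q

theorem dbM_congr {m m' : M → Matrix ρ ρ' ℂ} (hx : x ∈ (A.e i).source) (he : m' =ᶠ[𝓝 x] m)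
    (b : Fin n) : dbM A i b m' x = dbM A i b m x := by
  ext k l
  exact Fm96.db_congr (f := fun y => m' y k l) (g := fun y => m y k l) hx
    (he.mono fun _ hy => congrFun (congrFun hy k) l)

theorem dbM_const (c : Matrix ρ ρ' ℂ) (b : Fin n) : dbM A i b (fun _ => c) x = 0 := by
  ext k l
  exact db_constP b _

theorem dbM_add {m m' : M → Matrix ρ ρ' ℂ} (h : MSm A i m x) (h' : MSm A i m' x) (b : Fin n) :
    dbM A i b (fun y => m y + m' y) x = dbM A i b m x + dbM A i b m' x := by
  ext k l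
  exact db_addP b (h k l) (h' k l)

theorem dbM_neg {m : M → Matrix ρ ρ' ℂ} (h : MSm A i m x) (b : Fin n) :
    dbM A i b (fun y => - m y) x = - dbM A i b m x := by
  ext k l
  exact db_negP b (h k l)

theorem dbM_transpose (m : M → Matrix ρ ρ' ℂ) (b : Fin n) :
    dbM A i b (fun y => (m y)ᵀ) x = (dbM A i b m x)ᵀ := rfl

theorem dbM_mul [Fintype ρ'] {m : M → Matrix ρ ρ' ℂ} {m' : M → Matrix ρ' ρ'' ℂ}
    (h : MSm A i m x) (h' : MSm A i m' x) (hx : x ∈ (A.e i).source) (b : Fin n) :
    dbM A i b (fun y => m y * m' y) x = dbM A i b m x * m' x + m x * dbM A i b m' x := by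
  ext k l
  simp only [dbM, Matrix.of_apply, Matrix.add_apply, Matrix.mul_apply]
  rw [db_sumP b fun c _ => (h k c).mul (h' c l), ← Finset.sum_add_distrib]
  exact Finset.sum_congr rfl fun c _ =>
    db_mulP (f := fun y => m y k c) (g := fun y => m' y c l) b (h k c) (h' c l) hx

theorem dbM_kron {σ σ' : Type} {m : M → Matrix ρ ρ' ℂ} {m' : M → Matrix σ σ' ℂ}
    (h : MSm A i m x) (h' : MSm A i m' x) (hx : x ∈ (A.e i).source) (b : Fin n) :
    dbM A i b (fun y => m y ⊗ₖ m' y) x = dbM A i b m x ⊗ₖ m' x + m x ⊗ₖ dbM A i b m' x := by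
  ext ⟨k, k'⟩ ⟨l, l'⟩
  simp only [dbM, Matrix.of_apply, Matrix.add_apply, Matrix.kroneckerMap_apply]
  exact db_mulP (f := fun y => m y k l) (g := fun y => m' y k' l') b (h k l) (h' k' l') hx

theorem dbM_fromBlocks {σ σ' : Type} (a : M → Matrix ρ ρ' ℂ) (b : M → Matrix ρ σ' ℂ)
    (c : M → Matrix σ ρ' ℂ) (d : M → Matrix σ σ' ℂ) (e : Fin n) :
    dbM A i e (fun y => Matrix.fromBlocks (a y) (b y) (c y) (d y)) x =
      Matrix.fromBlocks (dbM A i e a x) (dbM A i e b x) (dbM A i e c x) (dbM A i e d x) := by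
  ext (k | k) (l | l) <;>
  simp only [dbM, Matrix.of_apply, Matrix.fromBlocks_apply₁₁, Matrix.fromBlocks_apply₁₂,
    Matrix.fromBlocks_apply₂₁, Matrix.fromBlocks_apply₂₂]

/-- change of charts -/
theorem dbM_chain {m : M → Matrix ρ ρ' ℂ} (h : MSm A j m x)
    (hx : x ∈ (A.e i).source ∩ (A.e j).source) (b : Fin n) :
    dbM A i b m x = ∑ c, conj (A.J i j x c b) • dbM A j c m x := by
  ext k l
  simp only [dbM, Matrix.of_apply, Matrix.sum_apply, Matrix.smul_apply, smul_eq_mul]
  exact db_chain b (h k l) hx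

end dbM

end

end Crest.Agent.R275.VCal131
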