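import Crest.Agent.R275.YBG_812
import Crest.Agent.R275.EcV_938

/-!
# R275, block D (helper812): bounded geometry of `EcV P hc`

* `JO.of_finite`, `JC.of_finite` : data equal to a constant off finitely many pairs / charts.
* `vb_EcV`  : `Fin3 c → VB P (EcV P hc)`, any partition.
* `bgeo_EcV`, `bb_EcV` : on `YBase`.
-/

set_option autoImplicit false
set_option linter.unusedSectionVars false
set_option linter.unusedVariables false

open Set Filter Topology Complex Metric
open scoped Manifold ContDiff Kronecker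

namespace Crest.Agent.R275.CnD812

open Tor812 TorE812 TorF812 TorS666 Geo C1d194 C2812 JB658 C10195

noncomputable section

section General

variable {n : ℕ} {M : Type} [TopologicalSpace M] {A : Atl n M} {P : Part A}
variable {W : Type*} [NormedAddCommGroup W] [NormedSpace ℝ W]

theorem norm_D_const_le {E : Type*} [NormedAddCommGroup E] [NormedSpace ℝ E] (c : W) (k : ℕ)
    (z : E) : ‖iteratedFDeriv ℝ k (fun _ : E => c) z‖ ≤ ‖c‖ := by
  rcases k with _ | k
  · rw [norm_iteratedFDeriv_zero]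
  · rw [iteratedFDeriv_succ_const]
    simp

theorem JO.of_finite {f : A.ι → A.ι → M → W}
    (hsm : ∀ i j, ContDiffOn ℝ ∞ (fun z => f i j ((A.e i).symm z)) (A.ov i j))
    (c₀ : W) {S : Set (A.ι × A.ι)} (hS : S.Finite)
    (h0 : ∀ i j, (i, j) ∉ S → ∀ x ∈ (A.e i).source ∩ (A.e j).source, f i j x = c₀) :
    JO P (fun _ _ => 1) f := by
  classical
  refine ⟨fun t => (hsm t.i t.j).contDiffAt
    ((isOpen_ov t.i t.j).mem_nhds (mem_ov ⟨t.srci, t.srcj⟩)), fun k => ?_⟩
  have hb : ∀ i j, ∃ C : ℝ, 0 ≤ C ∧ ∀ z ∈ A.e i '' (tsupport (P.χ i) ∩ tsupport (P.χ j)),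
      ‖iteratedFDeriv ℝ k (fun z => f i j ((A.e i).symm z)) z‖ ≤ C := by
    intro i j
    refine bdd_D_of_compact (isOpen_ov i j) ?_ ?_ (hsm i j) k
    · exact ((P.χ_cpt i).inter_right (isClosed_tsupport _)).image_of_continuousOn
        ((A.e i).continuousOn.mono (inter_subset_left.trans (P.χ_sub i)))
    · rintro _ ⟨x, hx, rfl⟩
      exact mem_ov ⟨P.χ_sub _ hx.1, P.χ_sub _ hx.2⟩
  choose C hC hCb using hb
  have hs0 : 0 ≤ ∑ p ∈ hS.toFinset, C p.1 p.2 := Finset.sum_nonneg fun p _ => hC _ _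
  refine ⟨(∑ p ∈ hS.toFinset, C p.1 p.2) + ‖c₀‖, by positivity, fun t => ?_⟩
  rw [mul_one]
  by_cases ht : (t.i, t.j) ∈ S
  · have h1 := hCb t.i t.j (A.e t.i t.x) ⟨t.x, ⟨t.memi, t.memj⟩, rfl⟩
    have h2 : C t.i t.j ≤ ∑ p ∈ hS.toFinset, C p.1 p.2 :=
      Finset.single_le_sum (f := fun p : A.ι × A.ι => C p.1 p.2) (fun _ _ => hC _ _)
        (hS.mem_toFinset.2 ht)
    exact h1.trans (h2.trans (le_add_of_nonneg_right (norm_nonneg _)))
  · have e1 : (fun z => f t.i t.j ((A.e t.i).symm z)) =ᶠ[𝓝 (A.e t.i t.x)] fun _ => c₀ := by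
      filter_upwards [(isOpen_ov t.i t.j).mem_nhds (mem_ov ⟨t.srci, t.srcj⟩)] with z hz
      exact h0 _ _ ht _ ⟨(A.e t.i).map_target hz.1, hz.2⟩
    rw [(e1.iteratedFDeriv ℝ k).eq_of_nhds]
    exact (norm_D_const_le c₀ k _).trans (le_add_of_nonneg_left hs0)

theorem JC.of_finite {f : A.ι → M → W} (hsm : ∀ i, A.SmAt i (f i)) (c₀ : W) {S : Set A.ι}
    (hS : S.Finite) (h0 : ∀ i ∉ S, ∀ x ∈ (A.e i).source, f i x = c₀) :
    JC P (fun _ => 1) f := by
  classical
  have h1 : JO P (fun _ _ => 1) fun i j x => if i = j then f i x else c₀ := by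
    refine JO.of_finite (fun i j => ?_) c₀ (S := (fun i => (i, i)) '' S) (hS.image _) ?_
    · split_ifs
      · exact (hsm i).mono fun z hz => hz.1
      · exact contDiffOn_const
    · intro i j hij x hx
      split_ifs with h
      · subst h
        exact h0 i (fun hi => hij ⟨i, hi, rfl⟩) x hx.1
      · rfl
  refine JB.congr (JB.reindex h1 fun t : T1 P => (⟨((t.i, t.i), t.x), ⟨t.mem, t.mem⟩⟩ : T2 P))
    fun t => Filter.Eventually.of_forall fun z => ?_
  show f t.i ((A.e t.i).symm z) = if t.i = t.i then f t.i ((A.e t.i).symm z) else c₀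
  rw [if_pos rfl]

open EcV938 NAtl938 GC293

/-- **the smooth line bundle of a finitely supported class has bounded data** -/
theorem vb_EcV {c : A.ι → A.ι → A.ι → ℤ} (hc : c ∈ Z2 A ℤ) (hf : Fin3 c) :
    VB P (EcV P hc) where
  g k l := by
    refine JO.of_finite (fun i j => (EcV P hc).g_smooth i j k l) 1
      (S := (fun p : A.ι × A.ι × A.ι => (p.2.1, p.2.2)) ''
        {p : A.ι × A.ι × A.ι | c p.1 p.2.1 p.2.2 ≠ 0}) (hf.image _) ?_
    intro i j hij x hx
    show Complex.exp (2 * Real.pi * I * phi P c i j x) = 1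
    rw [phi_zero, mul_zero, Complex.exp_zero]
    intro l _
    by_contra h
    exact hij ⟨(l, i, j), h, rfl⟩
  a b k l := by
    refine JC.of_finite (fun i => (EcV P hc).a_smooth i b k l) 0
      (S := (fun p : A.ι × A.ι × A.ι => p.2.2) ''
        {p : A.ι × A.ι × A.ι | c p.1 p.2.1 p.2.2 ≠ 0}) (hf.image _) ?_
    intro i hi x hx
    show 2 * Real.pi * I * vv P c i b x = 0
    rw [vv_zero hx, mul_zero]
    intro l m _ _
    by_contra h
    exact hi ⟨(m, l, i), h, rfl⟩

end General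

end

end Crest.Agent.R275.CnD812

namespace Crest.Agent.R275.YBG812

open Geo NAtl938 Core144 WB658 Fm96 Base144 C10195 KerV631 WY681 CnD812 Tor812 C1d194 C2812
open Lam2130 LauB681 Fred685 Crest.AlgGeometry.Surface EcV938 GC293

noncomputable section

variable {Y : Type} [TopologicalSpace Y] [ChartedSpace C2 Y] (B : YBase Y)
  {c : B.N.sm.ι → B.N.sm.ι → B.N.sm.ι → ℤ}

/-- bounded geometry of `Λ^{0,*} ⊗ E` for bounded `E` -/
theorem bgeo_vb {E : VBun B.N.sm} (hE : VB B.P E) : BGeo B.P (tw (lam2 B.N.sm) E) :=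
  bgeo_tw_lam2 (pb B) (bn B) hE

theorem bb_vb {E : VBun B.N.sm} (hE : VB B.P E) : BB B.P (tw (lam2 B.N.sm) E) :=
  bb_tw (bb_lam2 (tb B)) hE

/-- **bounded geometry of the smooth line bundle of a class with finite support** -/
theorem bgeo_EcV (hc : c ∈ Z2 B.N.sm ℤ) (hf : Fin3 c) :
    BGeo B.P (tw (lam2 B.N.sm) (EcV B.P hc)) := bgeo_vb B (vb_EcV hc hf)

theorem bb_EcV (hc : c ∈ Z2 B.N.sm ℤ) (hf : Fin3 c) :
    BB B.P (tw (lam2 B.N.sm) (EcV B.P hc)) := bb_vb B (vb_EcV hc hf)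

end

end Crest.Agent.R275.YBG812
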