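import Crest.Agent.R275.CnE_812
import Crest.Agent.R275.WYb_681
import Crest.Agent.R275.C10b_195

/-!
# R275, block D, leaf WY3 (helper812), part 2: bounded geometry

* `JO.of_homog`, `JC.of_homog`, `TB.of_homog`, `PB.of_homog` : invariant data over an atlas with
  finitely many orbits of charts (`Homog` of helper195) are bounded on the cores.
* `bgeo_of_BB` : `PB P`, `BB P B` ⟹ `BGeo P B` (helper681).
* `bgeo_tw_lam2` : `BGeo P (tw (lam2 A) E)` for every `E` with data bounded on the cores.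
* `jc_of_wb`, `jo_of_wb`, `tb_of_trB` : from helper658's `WB`, `TrB`.
-/

set_option autoImplicit false
set_option linter.unusedSectionVars false
set_option linter.unusedVariables false
set_option linter.unusedSimpArgs false

open Filter Topology Set Complex
open scoped ContDiff Real Matrix Kronecker

namespace Crest.Agent.R275.CnD812

open Tor812 TorE812 TorF812 TorS666 Geo C1d194 C2812 JB658 C10195

noncomputable section

variable {n : ℕ} {M : Type} [TopologicalSpace M] {A : Atl n M} {P : Part A}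

/-! ### homogeneous data -/

section Homog

variable {W : Type*} [NormedAddCommGroup W] [NormedSpace ℝ W]

theorem bdd_D_of_compact {E : Type*} [NormedAddCommGroup E] [NormedSpace ℝ E] {U K : Set E}
    (hU : IsOpen U) (hK : IsCompact K) (hKU : K ⊆ U) {f : E → W} (hf : ContDiffOn ℝ ∞ f U)
    (k : ℕ) : ∃ C : ℝ, 0 ≤ C ∧ ∀ z ∈ K, ‖iteratedFDeriv ℝ k f z‖ ≤ C := by
  have h1 : ContinuousOn (iteratedFDerivWithin ℝ k f U) U :=
    hf.continuousOn_iteratedFDerivWithin (by exact_mod_cast le_top) hU.uniqueDiffOn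
  have h2 : ContinuousOn (fun z => ‖iteratedFDeriv ℝ k f z‖) K := by
    refine ContinuousOn.norm (((h1.mono hKU).congr fun z hz => ?_))
    exact (iteratedFDerivWithin_of_isOpen k hU (hKU hz)).symm
  obtain ⟨C, hC⟩ := hK.bddAbove_image h2
  refine ⟨max C 0, le_max_right _ _, fun z hz => (hC ⟨z, hz, rfl⟩).trans (le_max_left _ _)⟩

theorem JO.of_homog {G : Set (Auto A)} (h : Homog P G) {f : A.ι → A.ι → M → W}
    (hsm : ∀ i j, ContDiffOn ℝ ∞ (fun z => f i j ((A.e i).symm z)) (A.ov i j))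
    (hinv : ∀ φ ∈ G, ∀ i j, ∀ x ∈ (A.e i).source ∩ (A.e j).source,
      f (φ.r i) (φ.r j) (φ.p x) = f i j x) : JO P (fun _ _ => 1) f := by
  classical
  refine ⟨fun t => (hsm t.i t.j).contDiffAt
    ((isOpen_ov t.i t.j).mem_nhds (mem_ov ⟨t.srci, t.srcj⟩)), fun k => ?_⟩
  have hb : ∀ i j, ∃ C : ℝ, 0 ≤ C ∧ ∀ z ∈ A.e i '' (tsupport (P.χ i) ∩ tsupport (P.χ j)),
      ‖iteratedFDeriv ℝ k (fun z => f i j ((A.e i).symm z)) z‖ ≤ C := by
    intro i j
    refine bdd_D_of_compact (isOpen_ov i j) ?_ ?_ (hsm i j) k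
    · exact ((P.χ_cpt i).inter_right (isClosed_tsupport _)).image_of_continuousOn
        ((A.e i).continuousOn.mono (inter_subset_left.trans (P.χ_sub i)))
    · rintro _ ⟨x, hx, rfl⟩
      exact mem_ov ⟨P.χ_sub _ hx.1, P.χ_sub _ hx.2⟩
  choose C hC hCb using hb
  obtain ⟨F, hF⟩ := h.orb
  have hs0 : ∀ i, 0 ≤ ∑ j ∈ nbr P i, C i j := fun i => Finset.sum_nonneg fun j _ => hC i j
  refine ⟨∑ i ∈ F, ∑ j ∈ nbr P i, C i j, Finset.sum_nonneg fun i _ => hs0 i, fun t => ?_⟩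
  rw [mul_one]
  obtain ⟨φ, hφ, hiF⟩ := hF t.i ⟨_, t.memi⟩
  have hInv := h.inv φ hφ
  have e1 : (fun z => f t.i t.j ((A.e t.i).symm z)) =ᶠ[𝓝 (A.e t.i t.x)]
      fun z => f (φ.r t.i) (φ.r t.j) ((A.e (φ.r t.i)).symm z) := by
    filter_upwards [(isOpen_ov t.i t.j).mem_nhds (mem_ov ⟨t.srci, t.srcj⟩)] with z hz
    rw [φ.symm_app hz.1, hinv φ hφ _ _ _ ⟨(A.e t.i).map_target hz.1, hz.2⟩]
  rw [(e1.iteratedFDeriv ℝ k).eq_of_nhds]
  have hm : A.e t.i t.x ∈ A.e (φ.r t.i) ''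
      (tsupport (P.χ (φ.r t.i)) ∩ tsupport (P.χ (φ.r t.j))) :=
    ⟨φ.p t.x, ⟨(hInv.tsupp_χ _ _).2 t.memi, (hInv.tsupp_χ _ _).2 t.memj⟩,
      φ.app _ _ t.srci⟩
  refine (hCb _ _ _ hm).trans ?_
  have hj : φ.r t.j ∈ nbr P (φ.r t.i) := (hInv.mem_nbr _ _).2 (mem_nbr_of t.memi t.memj)
  exact (Finset.single_le_sum (f := fun j => C (φ.r t.i) j) (fun _ _ => hC _ _) hj).trans
    (Finset.single_le_sum (f := fun i => ∑ j ∈ nbr P i, C i j) (fun i _ => hs0 i) hiF)

theorem JC.of_homog {G : Set (Auto A)} (h : Homog P G) {f : A.ι → M → W}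
    (hsm : ∀ i, A.SmAt i (f i))
    (hinv : ∀ φ ∈ G, ∀ i, ∀ x ∈ (A.e i).source, f (φ.r i) (φ.p x) = f i x) :
    JC P (fun _ => 1) f := by
  have h1 : JO P (fun _ _ => 1) fun i _ => f i :=
    JO.of_homog h (fun i j => (hsm i).mono fun z hz => hz.1)
      fun φ hφ i j x hx => hinv φ hφ i x hx.1
  exact JB.reindex h1 fun t : T1 P => (⟨((t.i, t.i), t.x), ⟨t.mem, t.mem⟩⟩ : T2 P)

theorem TB.of_homog {G : Set (Auto A)} (h : Homog P G) : TB P := by
  have h1 : JO P (fun _ _ => 1) fun _ j => (A.e j : M → Cn n) :=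
    JO.of_homog h (fun i j => trans_contDiffOn i j) fun φ hφ i j x hx => φ.app j x hx.2
  intro k _
  obtain ⟨C, hC, hb⟩ := h1.bd k
  refine ⟨C, fun t => ?_⟩
  have := hb t
  rwa [mul_one] at this

/-- **bounded geometry of homogeneous partitions** -/
theorem PB.of_homog {G : Set (Auto A)} (h : Homog P G) : PB P where
  tb := TB.of_homog h
  bg := h.bg
  χ := JC.of_homog h (fun i => P.χ_sm i i) fun φ hφ i x _ => (h.inv φ hφ).χ i x
  ψ := JC.of_homog h (fun i => P.ψ_sm i i) fun φ hφ i x _ => (h.inv φ hφ).ψ i x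

theorem PB.of_compact [CompactSpace M] (P : Part A) : PB P := PB.of_homog (homog_of_compact P)

/-- invariant bundles are bounded -/
theorem BB.of_homog {G : Set (Auto A)} (h : Homog P G) {B : FBun A} (hB : ∀ φ ∈ G, InvB B φ) :
    BB P B where
  τ k l := JO.of_homog h (fun i j => B.τ_smooth i j k l)
    fun φ hφ i j x hx => by rw [(hB φ hφ).τ i j x hx]
  α k l := JC.of_homog h (fun i => B.α_smooth i k l)
    fun φ hφ i x hx => by rw [(hB φ hφ).α i x hx]

theorem BB.of_compact [CompactSpace M] (P : Part A) (B : FBun A) : BB P B :=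
  BB.of_homog (homog_of_compact P) (by
    rintro φ rfl; exact ⟨fun _ _ _ _ => rfl, fun _ _ _ => rfl⟩)

end Homog

/-! ### `BGeo` -/

open WY681

theorem nb_eq (P : Part A) (i : A.ι) : RetC666.nb P i = nbr P i := by
  ext j
  rw [RetC666.mem_nb, C10195.mem_nbr, inter_comm]

theorem exists_card_nb (h : BN P) : ∃ D, ∀ i, (RetC666.nb P i).card ≤ D := by
  obtain ⟨D, hD⟩ := h
  exact ⟨D, fun i => by rw [nb_eq]; exact hD i⟩

/-- **bounded geometry of bundles with bounded data** -/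
theorem bgeo_of_BB (hP : PB P) (hN : BN P) {B : FBun A} (hB : BB P B) (hd : ∀ k, B.deg k ≤ n) :
    BGeo P B where
  card := exists_card_nb hN
  deg_le := hd
  pc := UB.of_C10 (ub_psi_chi hP hB)
  dpc := UB.of_C10 (ub_dpsi_chi hP hB)
  pdc := UB.of_C10 (ub_psi_dchi hP hB)

theorem bgeo_tw (hP : PB P) (hN : BN P) {B : FBun A} (hB : BB P B) (hd : ∀ k, B.deg k ≤ n)
    {E : VBun A} (hE : VB P E) : BGeo P (tw B E) :=
  bgeo_of_BB hP hN (bb_tw hB hE) fun k => hd k.1

end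

section Lam2

open Lam2130 WY681

variable {M : Type} [TopologicalSpace M] {A : Atl 2 M} {P : Part A}

theorem deg_lam2_le (k : (lam2 A).κ) : (lam2 A).deg k ≤ 2 := by
  show dg k ≤ 2
  revert k
  intro k
  fin_cases k <;> simp [dg]

theorem bgeo_lam2 (hP : PB P) (hN : BN P) : BGeo P (lam2 A) :=
  bgeo_of_BB hP hN (bb_lam2 hP.tb) deg_lam2_le

/-- **bounded geometry of `Λ^{0,*} ⊗ E`** -/
theorem bgeo_tw_lam2 (hP : PB P) (hN : BN P) {E : VBun A} (hE : VB P E) :
    BGeo P (tw (lam2 A) E) :=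
  bgeo_tw hP hN (bb_lam2 hP.tb) deg_lam2_le hE

end Lam2

end Crest.Agent.R275.CnD812
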