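import Crest.Agent.R275.WYd_681
import Crest.Agent.R275.EulW_130
import Crest.Agent.R275.Bdc_96

/-!
# R275, block D, WY6 (helper635): comparison of homotopies modulo negligible operators

`transfer`, `transfer2` : homotopies modulo negligible operators from one or two models, abstract.
`grF`      : the family `wf h H` is graded in degrees `0, 1, 2` (`n = 2`).
`EndIso`   : isomorphism of two bundles away from a compact set, asymptotically parallel.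
`qhtp_of_endIso` : a homotopy modulo negligible operators for `B'` at `(a,b)` gives one for `B`.
`EndMap`   : isomorphism at one end only.
`qhtp_of_ends'`  : models `B₊` at the large end (acyclic at `(b,b)`) and `B₋` at the small end
(acyclic at `(a,a)`) give a homotopy modulo negligible operators for `B` at `(a,b)`.
-/

set_option autoImplicit false
set_option linter.unusedSectionVars false
set_option linter.unusedVariables false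

open Set Filter Topology Complex
open scoped ContDiff Matrix ComplexConjugate

namespace Crest.Agent.R275.WYf635

open Crest.Agent.R275.Geo Crest.Agent.R275.Tor812 Crest.Agent.R275.C1d194
open Crest.Agent.R275.Fred685 Crest.Agent.R275.C2812 Crest.Agent.R275.Ret666
open Crest.Agent.R275.Core144 Crest.Agent.R275.LauB681 Crest.Agent.R275.WY681

noncomputable section

/-! ### abstract transfer -/

section abs

variable {𝕜 V V' W : Type*} [RCLike 𝕜] [AddCommGroup V] [Module 𝕜 V] [AddCommGroup V']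
  [Module 𝕜 V'] [AddCommGroup W] [Module 𝕜 W]

/-- **transfer of a homotopy modulo negligible operators from a model** -/
theorem transfer {S : Scale 𝕜 V} {S' : Scale 𝕜 V'} {D : V →ₗ[𝕜] V} {D' : V' →ₗ[𝕜] V'}
    {K' : V' →ₗ[𝕜] V'} {K₀ : V →ₗ[𝕜] V} {T : V →ₗ[𝕜] V'} {T' : V' →ₗ[𝕜] V}
    (hK' : QHtp S' D' K') (hK₀ : Op0 S S K₀) (hT : Op0 S S' T) (hT' : Op0 S' S T')
    (hc : Neg S S' (D' ∘ₗ T - T ∘ₗ D)) (hc' : Neg S' S (D ∘ₗ T' - T' ∘ₗ D'))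
    (hR : Neg S S ((D ∘ₗ K₀ + K₀ ∘ₗ D - LinearMap.id) ∘ₗ (LinearMap.id - T' ∘ₗ T))) :
    QHtp S D (T' ∘ₗ K' ∘ₗ T + K₀ ∘ₗ (LinearMap.id - T' ∘ₗ T)) := by
  refine ⟨(hT'.comp (hK'.1.comp hT)).add (hK₀.comp (Op0.id.sub (hT'.comp hT))), ?_⟩
  have key : D ∘ₗ (T' ∘ₗ K' ∘ₗ T + K₀ ∘ₗ (LinearMap.id - T' ∘ₗ T)) +
      (T' ∘ₗ K' ∘ₗ T + K₀ ∘ₗ (LinearMap.id - T' ∘ₗ T)) ∘ₗ D - LinearMap.id =
      (D ∘ₗ T' - T' ∘ₗ D') ∘ₗ (K' ∘ₗ T) +
      T' ∘ₗ ((D' ∘ₗ K' + K' ∘ₗ D' - LinearMap.id) ∘ₗ T) -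
      (T' ∘ₗ K') ∘ₗ (D' ∘ₗ T - T ∘ₗ D) +
      (D ∘ₗ K₀ + K₀ ∘ₗ D - LinearMap.id) ∘ₗ (LinearMap.id - T' ∘ₗ T) +
      K₀ ∘ₗ ((D ∘ₗ T' - T' ∘ₗ D') ∘ₗ T + T' ∘ₗ (D' ∘ₗ T - T ∘ₗ D)) := by
    ext v
    simp only [LinearMap.add_apply, LinearMap.sub_apply, LinearMap.comp_apply,
      LinearMap.id_apply, map_add, map_sub]
    abel
  rw [key]
  refine Neg.add (Neg.add (Neg.sub (Neg.add ?_ ?_) ?_) hR) ?_
  · exact hc'.comp_right (hK'.1.comp hT)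
  · exact (hK'.2.comp_right hT).comp_left hT'
  · exact hc.comp_left (hT'.comp hK'.1)
  · exact ((hc'.comp_right hT).add (hc.comp_left hT')).comp_left hK₀

/-- **transfer of homotopies modulo negligible operators from two models** -/
theorem transfer2 {S : Scale 𝕜 V} {S' : Scale 𝕜 V'} {R : Scale 𝕜 W} {D : V →ₗ[𝕜] V}
    {D' : V' →ₗ[𝕜] V'} {E : W →ₗ[𝕜] W} {K' : V' →ₗ[𝕜] V'} {L : W →ₗ[𝕜] W} {K₀ : V →ₗ[𝕜] V}
    {T : V →ₗ[𝕜] V'} {T' : V' →ₗ[𝕜] V} {U : V →ₗ[𝕜] W} {U' : W →ₗ[𝕜] V}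
    (hK' : QHtp S' D' K') (hL : QHtp R E L) (hK₀ : Op0 S S K₀)
    (hT : Op0 S S' T) (hT' : Op0 S' S T') (hU : Op0 S R U) (hU' : Op0 R S U')
    (hc : Neg S S' (D' ∘ₗ T - T ∘ₗ D)) (hc' : Neg S' S (D ∘ₗ T' - T' ∘ₗ D'))
    (hd : Neg S R (E ∘ₗ U - U ∘ₗ D)) (hd' : Neg R S (D ∘ₗ U' - U' ∘ₗ E))
    (hR : Neg S S ((D ∘ₗ K₀ + K₀ ∘ₗ D - LinearMap.id) ∘ₗ
      (LinearMap.id - T' ∘ₗ T - U' ∘ₗ U))) :
    QHtp S D (T' ∘ₗ K' ∘ₗ T + U' ∘ₗ L ∘ₗ U + K₀ ∘ₗ (LinearMap.id - T' ∘ₗ T - U' ∘ₗ U)) := by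
  refine ⟨((hT'.comp (hK'.1.comp hT)).add (hU'.comp (hL.1.comp hU))).add
    (hK₀.comp ((Op0.id.sub (hT'.comp hT)).sub (hU'.comp hU))), ?_⟩
  have key : D ∘ₗ (T' ∘ₗ K' ∘ₗ T + U' ∘ₗ L ∘ₗ U + K₀ ∘ₗ (LinearMap.id - T' ∘ₗ T - U' ∘ₗ U)) +
      (T' ∘ₗ K' ∘ₗ T + U' ∘ₗ L ∘ₗ U + K₀ ∘ₗ (LinearMap.id - T' ∘ₗ T - U' ∘ₗ U)) ∘ₗ D -
        LinearMap.id =
      ((D ∘ₗ T' - T' ∘ₗ D') ∘ₗ (K' ∘ₗ T) +
      T' ∘ₗ ((D' ∘ₗ K' + K' ∘ₗ D' - LinearMap.id) ∘ₗ T) -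
      (T' ∘ₗ K') ∘ₗ (D' ∘ₗ T - T ∘ₗ D)) +
      ((D ∘ₗ U' - U' ∘ₗ E) ∘ₗ (L ∘ₗ U) +
      U' ∘ₗ ((E ∘ₗ L + L ∘ₗ E - LinearMap.id) ∘ₗ U) -
      (U' ∘ₗ L) ∘ₗ (E ∘ₗ U - U ∘ₗ D)) +
      (D ∘ₗ K₀ + K₀ ∘ₗ D - LinearMap.id) ∘ₗ (LinearMap.id - T' ∘ₗ T - U' ∘ₗ U) +
      K₀ ∘ₗ (((D ∘ₗ T' - T' ∘ₗ D') ∘ₗ T + T' ∘ₗ (D' ∘ₗ T - T ∘ₗ D)) +
        ((D ∘ₗ U' - U' ∘ₗ E) ∘ₗ U + U' ∘ₗ (E ∘ₗ U - U ∘ₗ D))) := by
    ext v
    simp only [LinearMap.add_apply, LinearMap.sub_apply, LinearMap.comp_apply,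
      LinearMap.id_apply, map_add, map_sub]
    abel
  rw [key]
  refine Neg.add (Neg.add (Neg.add (Neg.sub (Neg.add ?_ ?_) ?_) (Neg.sub (Neg.add ?_ ?_) ?_))
    hR) ?_
  · exact hc'.comp_right (hK'.1.comp hT)
  · exact (hK'.2.comp_right hT).comp_left hT'
  · exact hc.comp_left (hT'.comp hK'.1)
  · exact hd'.comp_right (hL.1.comp hU)
  · exact (hL.2.comp_right hU).comp_left hU'
  · exact hd.comp_left (hU'.comp hL.1)
  · exact (((hc'.comp_right hT).add (hc.comp_left hT')).add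
      ((hd'.comp_right hU).add (hd.comp_left hU'))).comp_left hK₀

end abs

/-! ### the same for operators of the ambient modules -/

section gen

variable {𝕜 G G' H : Type*} [RCLike 𝕜] [AddCommGroup G] [Module 𝕜 G] [AddCommGroup G']
  [Module 𝕜 G'] [AddCommGroup H] [Module 𝕜 H] {V : Submodule 𝕜 G} {V' : Submodule 𝕜 G'}
  {W : Submodule 𝕜 H}

/-- the operator `X` of the ambient modules maps `V` to `V'` and is negligible -/
def NegR (S : Scale 𝕜 V) (S' : Scale 𝕜 V') (X : G →ₗ[𝕜] G') : Prop :=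
  ∃ h : ∀ v ∈ V, X v ∈ V', Fred685.Neg S S' (X.restrict h)

/-- the operator `X` of the ambient modules maps `V` to `V'` and is of order zero -/
def OpR (S : Scale 𝕜 V) (S' : Scale 𝕜 V') (X : G →ₗ[𝕜] G') : Prop :=
  ∃ h : ∀ v ∈ V, X v ∈ V', Op0 S S' (X.restrict h)

theorem transferR {S : Scale 𝕜 V} {S' : Scale 𝕜 V'} {D : G →ₗ[𝕜] G} {D' : G' →ₗ[𝕜] G'}
    {T : G →ₗ[𝕜] G'} {T' : G' →ₗ[𝕜] G} {K₀ : G →ₗ[𝕜] G} {K' : V' →ₗ[𝕜] V'}
    (hD : ∀ v ∈ V, D v ∈ V) (hD' : ∀ v ∈ V', D' v ∈ V')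
    (hK' : QHtp S' (D'.restrict hD') K') (hK₀ : OpR S S K₀) (hT : OpR S S' T) (hT' : OpR S' S T')
    (hc : NegR S S' (D' ∘ₗ T - T ∘ₗ D)) (hc' : NegR S' S (D ∘ₗ T' - T' ∘ₗ D'))
    (hR : NegR S S ((D ∘ₗ K₀ + K₀ ∘ₗ D - LinearMap.id) ∘ₗ (LinearMap.id - T' ∘ₗ T))) :
    ∃ K : V →ₗ[𝕜] V, QHtp S (D.restrict hD) K ∧
      ∀ (v : V) (y : V'), (y : G') = T v → (K v : G) = T' (K' y) + K₀ (v - T' (T v)) := by
  obtain ⟨k0, hK₀⟩ := hK₀
  obtain ⟨mT, hT⟩ := hT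
  obtain ⟨mT', hT'⟩ := hT'
  obtain ⟨_, hc⟩ := hc
  obtain ⟨_, hc'⟩ := hc'
  obtain ⟨_, hR⟩ := hR
  refine ⟨_, transfer hK' hK₀ hT hT' hc hc' hR, ?_⟩
  intro v y hy
  have e : T.restrict mT v = y := Subtype.ext hy.symm
  show T' (K' (T.restrict mT v)) + K₀ (v - T' (T v)) = _
  rw [e]

theorem transferR2 {S : Scale 𝕜 V} {S' : Scale 𝕜 V'} {R : Scale 𝕜 W} {D : G →ₗ[𝕜] G}
    {D' : G' →ₗ[𝕜] G'} {E : H →ₗ[𝕜] H} {T : G →ₗ[𝕜] G'} {T' : G' →ₗ[𝕜] G} {U : G →ₗ[𝕜] H}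
    {U' : H →ₗ[𝕜] G} {K₀ : G →ₗ[𝕜] G} {K' : V' →ₗ[𝕜] V'} {L : W →ₗ[𝕜] W}
    (hD : ∀ v ∈ V, D v ∈ V) (hD' : ∀ v ∈ V', D' v ∈ V') (hE : ∀ v ∈ W, E v ∈ W)
    (hK' : QHtp S' (D'.restrict hD') K') (hL : QHtp R (E.restrict hE) L)
    (hK₀ : OpR S S K₀) (hT : OpR S S' T) (hT' : OpR S' S T') (hU : OpR S R U) (hU' : OpR R S U')
    (hc : NegR S S' (D' ∘ₗ T - T ∘ₗ D)) (hc' : NegR S' S (D ∘ₗ T' - T' ∘ₗ D'))
    (hd : NegR S R (E ∘ₗ U - U ∘ₗ D)) (hd' : NegR R S (D ∘ₗ U' - U' ∘ₗ E))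
    (hR : NegR S S ((D ∘ₗ K₀ + K₀ ∘ₗ D - LinearMap.id) ∘ₗ
      (LinearMap.id - T' ∘ₗ T - U' ∘ₗ U))) :
    ∃ K : V →ₗ[𝕜] V, QHtp S (D.restrict hD) K ∧
      ∀ (v : V) (y : V') (z : W), (y : G') = T v → (z : H) = U v →
        (K v : G) = T' (K' y) + U' (L z) + K₀ (v - T' (T v) - U' (U v)) := by
  obtain ⟨k0, hK₀⟩ := hK₀
  obtain ⟨mT, hT⟩ := hT
  obtain ⟨mT', hT'⟩ := hT'
  obtain ⟨mU, hU⟩ := hU
  obtain ⟨mU', hU'⟩ := hU'
  obtain ⟨_, hc⟩ := hc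
  obtain ⟨_, hc'⟩ := hc'
  obtain ⟨_, hd⟩ := hd
  obtain ⟨_, hd'⟩ := hd'
  obtain ⟨_, hR⟩ := hR
  refine ⟨_, transfer2 hK' hL hK₀ hT hT' hU hU' hc hc' hd hd' hR, ?_⟩
  intro v y z hy hz
  have e : T.restrict mT v = y := Subtype.ext hy.symm
  have e' : U.restrict mU v = z := Subtype.ext hz.symm
  show T' (K' (T.restrict mT v)) + U' (L (U.restrict mU v)) + K₀ (v - T' (T v) - U' (U v)) = _
  rw [e, e']

end gen

/-! ### local sizes -/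

section size

variable {n : ℕ} {M : Type} [TopologicalSpace M] {A : Atl n M} {P : Part A} {Q : PNb P}

/-- the weights `w'` are dominated by `w` where `c` does not vanish -/
def WL (c : A.ι → ℝ) (w w' : Wt Q) : Prop := ∃ C : ℝ, 0 ≤ C ∧ ∀ i, c i ≠ 0 → w'.w i ≤ C * w.w i

/-- `c` tends to `0` at infinity -/
def Dec (c : A.ι → ℝ) : Prop := ∀ ε > 0, {i | ε < c i}.Finite

variable {c d : A.ι → ℝ} {w w' : Wt Q}

theorem WL.refl (c : A.ι → ℝ) (w : Wt Q) : WL c w w := ⟨1, zero_le_one, fun i _ => by rw [one_mul]⟩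

theorem WL.mono (h : WL c w w') (hd : ∀ i, c i = 0 → d i = 0) : WL d w w' := by
  obtain ⟨C, hC, h⟩ := h
  exact ⟨C, hC, fun i hi => h i fun h0 => hi (hd i h0)⟩

theorem WL.dom (h : WL c w w') (h0 : ∀ i, 0 ≤ c i) (hb : ∃ L, ∀ i, c i ≤ L) : Dom c w w' := by
  obtain ⟨C, hC, h⟩ := h
  obtain ⟨L, hL⟩ := hb
  refine ⟨C * |L|, by positivity, fun i => ?_⟩
  by_cases hi : c i = 0
  · rw [hi, mul_zero]
    exact mul_nonneg (by positivity) (w.pos i).le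
  · calc w'.w i * c i ≤ (C * w.w i) * |L| :=
          mul_le_mul (h i hi) ((hL i).trans (le_abs_self L)) (h0 i) (mul_nonneg hC (w.pos i).le)
      _ = C * |L| * w.w i := by ring

theorem Dec.bdd (hd : Dec c) : ∃ L, ∀ i, c i ≤ L := by
  classical
  have h1 := hd 1 one_pos
  refine ⟨1 + ∑ i ∈ h1.toFinset, |c i|, fun i => ?_⟩
  by_cases hi : 1 < c i
  · have h2 : |c i| ≤ ∑ i ∈ h1.toFinset, |c i| :=
      Finset.single_le_sum (f := fun i => |c i|) (fun i _ => abs_nonneg _) (h1.mem_toFinset.2 hi)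
    linarith [le_abs_self (c i)]
  · have h2 : 0 ≤ ∑ i ∈ h1.toFinset, |c i| := Finset.sum_nonneg fun i _ => abs_nonneg _
    linarith [not_lt.1 hi]

theorem WL.dec (h : WL c w w') (h0 : ∀ i, 0 ≤ c i) (hd : Dec c) :
    ∀ ε > 0, {i | ε * w.w i < w'.w i * c i}.Finite := by
  intro ε hε
  obtain ⟨C, hC, h⟩ := h
  refine (hd (ε / (C + 1)) (by positivity)).subset fun i hi => ?_
  have hi' : ε * w.w i < w'.w i * c i := hi
  have hw := w.pos i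
  have hc : c i ≠ 0 := by
    intro h1
    rw [h1, mul_zero] at hi'
    nlinarith
  show ε / (C + 1) < c i
  rw [div_lt_iff₀ (by positivity)]
  have h1 : ε * w.w i < (C * w.w i) * c i :=
    hi'.trans_le (mul_le_mul_of_nonneg_right (h i hc) (h0 i))
  have h2 : ε < C * c i := by
    by_contra h3
    push Not at h3
    nlinarith
  nlinarith [h0 i]

theorem Dec.mono_le (hd : Dec c) {L : ℝ} (hL : 0 ≤ L) (h : ∀ i, d i ≤ L * c i) : Dec d := by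
  intro ε hε
  refine (hd (ε / (L + 1)) (by positivity)).subset fun i hi => ?_
  have hi' : ε < d i := hi
  show ε / (L + 1) < c i
  rw [div_lt_iff₀ (by positivity)]
  have h1 := h i
  have h2 : 0 ≤ c i := by
    by_contra h3
    push Not at h3
    nlinarith
  nlinarith

theorem Dec.of_fin (h : {i | c i ≠ 0}.Finite) : Dec c := fun ε hε =>
  h.subset fun i (hi : ε < c i) => (hε.trans hi).ne'

theorem Dec.add (hc : Dec c) (hd : Dec d) : Dec fun i => c i + d i := by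
  intro ε hε
  refine ((hc (ε / 2) (by positivity)).union (hd (ε / 2) (by positivity))).subset fun i hi => ?_
  have hi' : ε < c i + d i := hi
  by_contra h
  rw [Set.mem_union, not_or] at h
  have h1 : ¬ ε / 2 < c i := h.1
  have h2 : ¬ ε / 2 < d i := h.2
  linarith

/-- sums over neighbourhoods -/
theorem Dec.Nr (hd : Dec c) (h0 : ∀ i, 0 ≤ c i) (Q : PNb P) (r : ℕ) :
    Dec fun i => ∑ j ∈ Q.Nr r i, c j := by
  intro ε hε
  have hD : (0 : ℝ) < (Q.D : ℝ) ^ r + 1 := by positivity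
  have h1 := hd (ε / ((Q.D : ℝ) ^ r + 1)) (by positivity)
  refine (h1.biUnion fun j _ => (Q.Nr r j).finite_toSet).subset fun i hi => ?_
  have hi' : ε < ∑ j ∈ Q.Nr r i, c j := hi
  by_contra h2
  have h3 : ∀ j ∈ Q.Nr r i, c j ≤ ε / ((Q.D : ℝ) ^ r + 1) := by
    intro j hj
    by_contra h4
    push Not at h4
    exact h2 (Set.mem_biUnion (show j ∈ {i | ε / ((Q.D : ℝ) ^ r + 1) < c i} from h4)
      (Finset.mem_coe.2 (Q.Nr_symm hj)))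
  have h4 := Finset.sum_le_card_nsmul _ _ _ h3
  rw [nsmul_eq_mul] at h4
  have h5 : ((Q.Nr r i).card : ℝ) ≤ (Q.D : ℝ) ^ r := by exact_mod_cast Q.card_Nr_le r i
  have h6 : ((Q.Nr r i).card : ℝ) * (ε / ((Q.D : ℝ) ^ r + 1)) ≤
      (Q.D : ℝ) ^ r * (ε / ((Q.D : ℝ) ^ r + 1)) :=
    mul_le_mul_of_nonneg_right h5 (by positivity)
  have h7 : (Q.D : ℝ) ^ r * (ε / ((Q.D : ℝ) ^ r + 1)) ≤ ε := by
    rw [← mul_div_assoc, div_le_iff₀ hD]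
    nlinarith
  linarith

/-- `c` vanishes far out at the small end -/
def Lg (H : Hts Q) (c : A.ι → ℝ) : Prop := ∃ R : ℝ, ∀ i, H.ht i < R → c i = 0

/-- `c` vanishes far out at the large end -/
def Sl (H : Hts Q) (c : A.ι → ℝ) : Prop := ∃ R : ℝ, ∀ i, R < H.ht i → c i = 0

theorem Lg.wl {H : Hts Q} (h : Lg H c) (a a' b : ℝ) : WL c (H.wt a b) (H.wt a' b) := by
  obtain ⟨R, h⟩ := h
  obtain ⟨C, hC, h1⟩ := Fm96.wgt_le_high R a a' b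
  refine ⟨C, hC, fun i hi => ?_⟩
  have h2 : R ≤ H.ht i := not_lt.1 fun h3 => hi (h i h3)
  have h3 := h1 _ h2
  rw [Hts.wt_w, Hts.wt_w, ← div_eq_mul_inv, le_div_iff₀ (wgt_pos _ _ _),
    inv_mul_le_iff₀ (wgt_pos _ _ _), mul_comm]
  exact h3

theorem Sl.wl {H : Hts Q} (h : Sl H c) (a b b' : ℝ) : WL c (H.wt a b) (H.wt a b') := by
  obtain ⟨R, h⟩ := h
  obtain ⟨C, hC, h1⟩ := Fm96.wgt_le_low R a b b'
  refine ⟨C, hC, fun i hi => ?_⟩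
  have h2 : H.ht i ≤ R := not_lt.1 fun h3 => hi (h i h3)
  have h3 := h1 _ h2
  rw [Hts.wt_w, Hts.wt_w, ← div_eq_mul_inv, le_div_iff₀ (wgt_pos _ _ _),
    inv_mul_le_iff₀ (wgt_pos _ _ _), mul_comm]
  exact h3

variable {B B' B'' : FBun A}

/-- composition of local operators, without slow variation -/
theorem LE.comp' {e e' : ℕ} {c' : A.ι → ℝ} (hc : ∀ i, 0 ≤ c i) (hc' : ∀ i, 0 ≤ c' i)
    {T' : Sec B' →ₗ[ℂ] Sec B''} {T : Sec B →ₗ[ℂ] Sec B'} (h' : LE Q e' c' T') (h : LE Q e c T) :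
    ∃ r, LE Q (e + e') (fun i => c' i * ∑ j ∈ Q.Nr r i, c j) (T' ∘ₗ T) := by
  obtain ⟨r', h'⟩ := h'
  obtain ⟨r, h⟩ := h
  refine ⟨r', r' + r, fun s => ?_⟩
  obtain ⟨C', hC', h1'⟩ := h' (s + e)
  obtain ⟨C, hC, h1⟩ := h s
  refine ⟨C' * C, by positivity, fun u i => ?_⟩
  have h2 := h1' (T u) i
  rw [add_assoc] at h2
  refine h2.trans ?_
  have h3 : ∀ j ∈ Q.Nr r' i, lv P B' (s + e) (T u) j ≤
      C * c j * ∑ m ∈ Q.Nr (r' + r) i, lv P B s u m := by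
    intro j hj
    refine (h1 u j).trans (mul_le_mul_of_nonneg_left ?_ (mul_nonneg hC (hc j)))
    exact Finset.sum_le_sum_of_subset_of_nonneg (fun m hm => Q.mem_Nr_add hj hm)
      fun m _ _ => lv_nonneg _ _ _
  have h4 := Finset.sum_le_sum h3
  rw [← Finset.sum_mul, ← Finset.mul_sum] at h4
  refine (mul_le_mul_of_nonneg_left h4 (mul_nonneg hC' (hc' i))).trans (le_of_eq ?_)
  ring

end size

/-! ### maps which are isomorphisms at an end -/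

section ends

variable {n : ℕ} {M : Type} [TopologicalSpace M] {A : Atl n M} {P : Part A} {Q : PNb P}
  {B B' B'' : FBun A} {c d c' d' c₀ : A.ι → ℝ} {w w' : Wt Q}

theorem KML_piZ (B : FBun A) (P : Part A) (q : ℤ) (u : Sec B) :
    KML B P (piZ B q u) = piZ B (q + -1) (KML B P u) := by
  rcases lt_trichotomy q 0 with hq | rfl | hq
  · rw [piZ_neg hq, piZ_neg (by omega)]
    exact map_zero _
  · have h1 : piZ B 0 = pqL B 0 := piZ_natCast 0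
    rw [h1, piZ_neg (show (0 : ℤ) + -1 < 0 by norm_num)]
    exact LinearMap.congr_fun (KML_pqL_zero (B := B) P) u
  · obtain ⟨k, hk⟩ := Int.eq_ofNat_of_zero_le (show 0 ≤ q - 1 by omega)
    have h1 : q = ((k + 1 : ℕ) : ℤ) := by push_cast; omega
    have h2 : q + -1 = (k : ℤ) := by omega
    rw [h2, h1, piZ_natCast, piZ_natCast]
    exact LinearMap.congr_fun (KML_pqL (B := B) P k) u

/-- a homogeneous local operator of order `0` and size `c`, whose commutator with `∇` is of order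
`-1` and tends to `0` at infinity -/
structure EndMap (Q : PNb P) (c d : A.ι → ℝ) (T : Sec B →ₗ[ℂ] Sec B') : Prop where
  deg : ∀ q u, T (piZ B q u) = piZ B' q (T u)
  c0 : ∀ i, 0 ≤ c i
  cb : ∃ L, ∀ i, c i ≤ L
  le : LE Q 0 c T
  d0 : ∀ i, 0 ≤ d i
  dec : Dec d
  supp : ∀ i, c i = 0 → d i = 0
  comm : LE Q 1 d (nabL B' ∘ₗ T - T ∘ₗ nabL B)

variable {T : Sec B →ₗ[ℂ] Sec B'} {T' : Sec B' →ₗ[ℂ] Sec B}

theorem EndMap.mem (hT : EndMap Q c d T) (hw : WL c w w') :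
    ∀ u ∈ WSm B w, T u ∈ WSm B' w' := hT.le.mem (hw.dom hT.c0 hT.cb)

theorem EndMap.op0 (hT : EndMap Q c d T) (hw : WL c w w') (h : BGeo P B) (h' : BGeo P B') :
    OpR (sc h w) (sc h' w') T :=
  ⟨hT.mem hw, hT.le.op0 h h' (hw.dom hT.c0 hT.cb) _⟩

theorem EndMap.neg (hT : EndMap Q c d T) (hw : WL c w w') (h : BGeo P B) (h' : BGeo P B') :
    NegR (sc h w) (sc h' w') (nabL B' ∘ₗ T - T ∘ₗ nabL B) := by
  have hd : WL d w w' := hw.mono hT.supp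
  exact ⟨hT.comm.mem (hd.dom hT.d0 hT.dec.bdd), hT.comm.neg' hT.d0 h h'
    (hd.dom hT.d0 hT.dec.bdd) (hd.dec hT.d0 hT.dec) _⟩

theorem KML_opR (h : BGeo P B) (w : Wt Q) : OpR (sc h w) (sc h w) (KML B P) :=
  ⟨(LE.KML Q h).mem (dom_one w), (LE.KML Q h).op0 h h (dom_one w) _⟩

/-- the remainder of the parametrix, composed with an operator tending to `0`, is negligible -/
theorem rem_neg (h : BGeo P B) (w : Wt Q) {X : Sec B →ₗ[ℂ] Sec B} (h0 : ∀ i, 0 ≤ c₀ i)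
    (hd : Dec c₀) (hX : LE Q 0 c₀ X) :
    NegR (sc h w) (sc h w)
      ((nabL B ∘ₗ KML B P + KML B P ∘ₗ nabL B - LinearMap.id) ∘ₗ X) := by
  obtain ⟨r, h1⟩ := LE.comp' h0 (fun _ => zero_le_one) (LE.RML Q h) hX
  have hs0 : ∀ i, 0 ≤ (fun _ => (1 : ℝ)) i * ∑ j ∈ Q.Nr r i, c₀ j := fun i => by
    rw [one_mul]
    exact Finset.sum_nonneg fun j _ => h0 j
  have hsd : Dec fun i => (fun _ => (1 : ℝ)) i * ∑ j ∈ Q.Nr r i, c₀ j :=
    (hd.Nr h0 Q r).mono_le zero_le_one fun i => by rw [one_mul]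
  have hw := WL.refl (fun i => (fun _ => (1 : ℝ)) i * ∑ j ∈ Q.Nr r i, c₀ j) w
  have h3 : (nabL B ∘ₗ KML B P + KML B P ∘ₗ nabL B - LinearMap.id) ∘ₗ X = -(RML B P ∘ₗ X) := by
    rw [nabL_KML]
    refine LinearMap.ext fun u => ?_
    show X u - RML B P (X u) - X u = -(RML B P (X u))
    abel
  rw [h3]
  have h4 : LE Q 1 (fun i => (fun _ => (1 : ℝ)) i * ∑ j ∈ Q.Nr r i, c₀ j) (-(RML B P ∘ₗ X)) :=
    h1.neg
  exact ⟨h4.mem (hw.dom hs0 hsd.bdd), h4.neg' hs0 h h (hw.dom hs0 hsd.bdd) (hw.dec hs0 hsd) _⟩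

/-- **COMPARISON**: `B` and `B'` are isomorphic away from a compact set, asymptotically parallel -/
theorem qhtp_of_endIso (h : BGeo P B) (h' : BGeo P B') (H : Hts Q)
    (hdd : ∀ u, nabL B (nabL B u) = 0) (hdd' : ∀ u, nabL B' (nabL B' u) = 0)
    (hT : EndMap Q c d T) (hT' : EndMap Q c' d' T') (h0 : ∀ i, 0 ≤ c₀ i) (hd₀ : Dec c₀)
    (hI : LE Q 0 c₀ (LinearMap.id - T' ∘ₗ T)) {a b : ℝ}
    (hK : ∃ K' : (wf h' H).V a b →ₗ[ℂ] (wf h' H).V a b,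
      QHtp ((wf h' H).S a b) ((cx h' H hdd').R a b) K' ∧ Hg (-1) K') :
    ∃ K : (wf h H).V a b →ₗ[ℂ] (wf h H).V a b,
      QHtp ((wf h H).S a b) ((cx h H hdd).R a b) K ∧ Hg (-1) K := by
  obtain ⟨K', hK', hg'⟩ := hK
  set w : Wt Q := H.wt (-a) b with hw
  have t1 := WL.refl c w
  have t2 := WL.refl c' w
  obtain ⟨K, hK, hKv⟩ := transferR ((cx h H hdd).maps a b).choose ((cx h' H hdd').maps a b).choose
    hK' (KML_opR h w) (hT.op0 t1 h h') (hT'.op0 t2 h' h) (hT.neg t1 h h') (hT'.neg t2 h' h)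
    (rem_neg h w h0 hd₀ hI)
  refine ⟨K, hK, ?_⟩
  intro q v
  have m := hT.mem t1
  refine Subtype.ext ?_
  rw [hKv _ ⟨T ((wf h H).πR a b q v), m _ ((wf h H).πR a b q v).2⟩ rfl]
  have e1 := congrArg Subtype.val (hg' q ⟨T v, m _ v.2⟩)
  have e2 : (wf h' H).πR a b q ⟨T v, m _ v.2⟩ =
      ⟨T ((wf h H).πR a b q v), m _ ((wf h H).πR a b q v).2⟩ := Subtype.ext (hT.deg q v.1).symm
  rw [e2] at e1
  rw [e1]
  show T' (piZ B' (q + -1) (K' ⟨T v, m _ v.2⟩)) +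
      KML B P (piZ B q v.1 - T' (T (piZ B q v.1))) = piZ B (q + -1) (K v)
  rw [hKv v ⟨T v, m _ v.2⟩ rfl, hT'.deg, hT.deg, hT'.deg, ← map_sub, KML_piZ, map_add]

/-- **MODELS AT THE TWO ENDS** -/
theorem qhtp_of_ends' {Bp Bm : FBun A} (h : BGeo P B) (hp : BGeo P Bp) (hm : BGeo P Bm)
    (H : Hts Q) (hdd : ∀ u, nabL B (nabL B u) = 0) (hddp : ∀ u, nabL Bp (nabL Bp u) = 0)
    (hddm : ∀ u, nabL Bm (nabL Bm u) = 0) {T : Sec B →ₗ[ℂ] Sec Bp} {T' : Sec Bp →ₗ[ℂ] Sec B}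
    {U : Sec B →ₗ[ℂ] Sec Bm} {U' : Sec Bm →ₗ[ℂ] Sec B} {e f e' f' : A.ι → ℝ}
    (hT : EndMap Q c d T) (hT' : EndMap Q c' d' T') (hU : EndMap Q e f U)
    (hU' : EndMap Q e' f' U') (sT : Lg H c) (sT' : Lg H c') (sU : Sl H e) (sU' : Sl H e')
    (h0 : ∀ i, 0 ≤ c₀ i) (hd₀ : Dec c₀)
    (hI : LE Q 0 c₀ (LinearMap.id - T' ∘ₗ T - U' ∘ₗ U)) {a b : ℝ}
    (hEp : EH (cx hp H hddp) b b) (hEm : EH (cx hm H hddm) a a) :
    ∃ K : (wf h H).V a b →ₗ[ℂ] (wf h H).V a b,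
      QHtp ((wf h H).S a b) ((cx h H hdd).R a b) K ∧ Hg (-1) K := by
  obtain ⟨K', hK'⟩ := hEp
  obtain ⟨L, hL⟩ := hEm
  have qK : QHtp ((wf hp H).S b b) ((cx hp H hddp).R b b) K' :=
    EHtp.qhtp ⟨hK'.op, LinearMap.ext fun v => Subtype.ext (hK'.htp v)⟩
  have qL : QHtp ((wf hm H).S a a) ((cx hm H hddm).R a a) L :=
    EHtp.qhtp ⟨hL.op, LinearMap.ext fun v => Subtype.ext (hL.htp v)⟩
  have t1 : WL c (H.wt (-a) b) (H.wt (-b) b) := sT.wl _ _ _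
  have t2 : WL c' (H.wt (-b) b) (H.wt (-a) b) := sT'.wl _ _ _
  have t3 : WL e (H.wt (-a) b) (H.wt (-a) a) := sU.wl _ _ _
  have t4 : WL e' (H.wt (-a) a) (H.wt (-a) b) := sU'.wl _ _ _
  obtain ⟨K, hK, hKv⟩ := transferR2 ((cx h H hdd).maps a b).choose
    ((cx hp H hddp).maps b b).choose ((cx hm H hddm).maps a a).choose qK qL
    (KML_opR h (H.wt (-a) b)) (hT.op0 t1 h hp) (hT'.op0 t2 hp h) (hU.op0 t3 h hm)
    (hU'.op0 t4 hm h) (hT.neg t1 h hp) (hT'.neg t2 hp h) (hU.neg t3 h hm) (hU'.neg t4 hm h)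
    (rem_neg h (H.wt (-a) b) h0 hd₀ hI)
  refine ⟨K, hK, ?_⟩
  intro q v
  have m := hT.mem t1
  have m' := hU.mem t3
  refine Subtype.ext ?_
  rw [hKv _ ⟨T ((wf h H).πR a b q v), m _ ((wf h H).πR a b q v).2⟩
    ⟨U ((wf h H).πR a b q v), m' _ ((wf h H).πR a b q v).2⟩ rfl rfl]
  have e1 := congrArg Subtype.val (hK'.deg q ⟨T v, m _ v.2⟩)
  have e2 : (wf hp H).πR b b q ⟨T v, m _ v.2⟩ =
      ⟨T ((wf h H).πR a b q v), m _ ((wf h H).πR a b q v).2⟩ := Subtype.ext (hT.deg q v.1).symm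
  rw [e2] at e1
  have e3 := congrArg Subtype.val (hL.deg q ⟨U v, m' _ v.2⟩)
  have e4 : (wf hm H).πR a a q ⟨U v, m' _ v.2⟩ =
      ⟨U ((wf h H).πR a b q v), m' _ ((wf h H).πR a b q v).2⟩ := Subtype.ext (hU.deg q v.1).symm
  rw [e4] at e3
  rw [e1, e3]
  show T' (piZ Bp (q + -1) (K' ⟨T v, m _ v.2⟩)) + U' (piZ Bm (q + -1) (L ⟨U v, m' _ v.2⟩)) +
      KML B P (piZ B q v.1 - T' (T (piZ B q v.1)) - U' (U (piZ B q v.1))) =
    piZ B (q + -1) (K v)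
  rw [hKv v ⟨T v, m _ v.2⟩ ⟨U v, m' _ v.2⟩ rfl rfl, hT'.deg, hU'.deg, hT.deg, hU.deg, hT'.deg,
    hU'.deg, ← map_sub, ← map_sub, KML_piZ, map_add, map_add]

end ends

/-! ### the grading in degrees `0, 1, 2` -/

section gr

variable {M : Type} [TopologicalSpace M] {A : Atl 2 M} {P : Part A} {Q : PNb P} {B : FBun A}

/-- **`GrF`** for the family of weighted spaces of a bundle in degrees `0, 1, 2` -/
theorem grF (h : BGeo P B) (H : Hts Q) : EulW130.GrF (wf h H) where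
  idem q v := by
    show piZ B q (piZ B q v) = piZ B q v
    rcases lt_or_ge q 0 with hq | hq
    · rw [piZ_neg hq]; rfl
    · obtain ⟨k, rfl⟩ := Int.eq_ofNat_of_zero_le hq
      rw [piZ_natCast]
      exact LinearMap.congr_fun (pqL_idem (B := B) k) v
  orth q r v hqr := by
    show piZ B q (piZ B r v) = 0
    rcases lt_or_ge q 0 with hq | hq
    · rw [piZ_neg hq]; rfl
    · rcases lt_or_ge r 0 with hr | hr
      · rw [piZ_neg hr]; exact map_zero _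
      · obtain ⟨k, rfl⟩ := Int.eq_ofNat_of_zero_le hq
        obtain ⟨l, rfl⟩ := Int.eq_ofNat_of_zero_le hr
        rw [piZ_natCast, piZ_natCast]
        exact LinearMap.congr_fun (pqL_orth (B := B) (q := k) (r := l)
          fun h => hqr (by rw [h])) v
  sum v := by
    show piZ B 0 v + piZ B 1 v + piZ B 2 v = v
    have h0 : piZ B 0 = pqL B 0 := piZ_natCast 0
    have h1 : piZ B 1 = pqL B 1 := piZ_natCast 1
    have h2 : piZ B 2 = pqL B 2 := piZ_natCast 2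
    rw [h0, h1, h2]
    have ht : topDeg B ≤ 2 := Finset.sup_le fun k _ => h.deg_le k
    have hs := pqL_sum (B := B) ht v
    rw [Finset.sum_range_succ, Finset.sum_range_succ, Finset.sum_range_one] at hs
    exact hs
  op a b q := (LE.piZ Q q).op0 h h (dom_one _) _

end gr

end

end Crest.Agent.R275.WYf635
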