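import Crest.Agent.R275.XN2_194

/-!
# R275, leaf XN (helper194), file 4: push forward along a covering (sum over the fibre)

For `C : Cov A A'`:
* `push v i' x' = ∑ᶠ i over i', v i (sec i x')` = sum over the fibre of `x'`;
* `LF v` : local finiteness; `LF_of_compact`;
* `push_mem`, `push_memC`, `push_add`, `push_smul`, `nab_push`;
* `push_mul_pull`, `pull_push`, `push_of_injOn`;
* `pushF f` : push forward of functions;
* `push_ext`.
-/

set_option autoImplicit false
set_option linter.unusedSectionVars false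

open Set Filter Topology Complex
open scoped ContDiff Matrix ComplexConjugate

namespace Crest.Agent.R275.XN194

open Geo Tor812 TorS666 C1d194

noncomputable section

variable {n : ℕ} {M M' : Type} [TopologicalSpace M] [TopologicalSpace M']

namespace Cov

variable {A : Atl n M} {A' : Atl n M'} (C : Cov A A')

open Classical in
/-- push forward of families: sum over the fibre -/
def push {W : Type} [AddCommMonoid W] (v : A.ι → M → W) : A'.ι → M' → W := fun i' x' =>
  if x' ∈ (A'.e i').source then ∑ᶠ i : {i // C.r i = i'}, v i.1 (C.sec i.1 x') else 0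

/-- push forward of functions: sum over the fibre -/
def pushF {W : Type} [AddCommMonoid W] (f : M → W) : M' → W := fun x' =>
  ∑ᶠ x : {x // C.p x = x'}, f x.1

section basic

variable {W : Type} [AddCommMonoid W]

theorem push_of_mem {v : A.ι → M → W} {i' : A'.ι} {x' : M'} (hx : x' ∈ (A'.e i').source) :
    C.push v i' x' = ∑ᶠ i : {i // C.r i = i'}, v i.1 (C.sec i.1 x') := if_pos hx

theorem push_off {v : A.ι → M → W} {i' : A'.ι} {x' : M'} (hx : x' ∉ (A'.e i').source) :
    C.push v i' x' = 0 := if_neg hx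

/-- the fibre over a point of a chart, indexed by the sheets over the chart -/
def fibEquiv {i' : A'.ι} {x' : M'} (hx : x' ∈ (A'.e i').source) :
    {i // C.r i = i'} ≃ {x // C.p x = x'} := by
  refine Equiv.ofBijective (fun i => ⟨C.sec i.1 x', ?_⟩) ⟨?_, ?_⟩
  · obtain ⟨i, rfl⟩ := i
    exact C.p_sec hx
  · rintro ⟨i, hi⟩ ⟨j, hj⟩ h
    have h1 : C.sec i x' = C.sec j x' := congrArg Subtype.val h
    have h2 : C.sec i x' ∈ (A.e i).source := C.sec_mem (by rw [hi]; exact hx)
    have h3 : C.sec j x' ∈ (A.e j).source := C.sec_mem (by rw [hj]; exact hx)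
    rw [h1] at h2
    exact Subtype.ext (C.uniq i j (hi.trans hj.symm) _ h2 h3)
  · rintro ⟨x, rfl⟩
    obtain ⟨i, hi, h2⟩ := C.lift x i' hx
    exact ⟨⟨i, hi⟩, Subtype.ext (C.sec_p h2)⟩

theorem fibEquiv_apply {i' : A'.ι} {x' : M'} (hx : x' ∈ (A'.e i').source)
    (i : {i // C.r i = i'}) : (C.fibEquiv hx i).1 = C.sec i.1 x' := rfl

theorem sec_mem' {i : A.ι} {i' : A'.ι} (hi : C.r i = i') {x' : M'}
    (hx : x' ∈ (A'.e i').source) : C.sec i x' ∈ (A.e i).source :=
  C.sec_mem (by rw [hi]; exact hx)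

/-- the push forward of `f` times a family, in terms of `pushF` -/
theorem pushF_eq {f : M → W} {i' : A'.ι} {x' : M'} (hx : x' ∈ (A'.e i').source) :
    C.pushF f x' = ∑ᶠ i : {i // C.r i = i'}, f (C.sec i.1 x') := by
  unfold pushF
  rw [← finsum_comp_equiv (C.fibEquiv hx)]
  rfl

/-- the family restricted to the fibre, in the chart `i'` -/
theorem push_eq_fibre {v : A.ι → M → W} {i' : A'.ι} {x' : M'} (hx : x' ∈ (A'.e i').source) :
    C.push v i' x' = ∑ᶠ x : {x // C.p x = x'}, v ((C.fibEquiv hx).symm x).1 x.1 := by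
  rw [C.push_of_mem hx, ← finsum_comp_equiv (C.fibEquiv hx)]
  refine finsum_congr fun i => ?_
  rw [Equiv.symm_apply_apply]
  rfl

theorem mem_of_fib {i' : A'.ι} {x' : M'} (hx : x' ∈ (A'.e i').source) (x : {x // C.p x = x'}) :
    x.1 ∈ (A.e ((C.fibEquiv hx).symm x).1).source := by
  have h := C.fibEquiv_apply hx ((C.fibEquiv hx).symm x)
  rw [Equiv.apply_symm_apply] at h
  rw [h]
  exact C.sec_mem' ((C.fibEquiv hx).symm x).2 hx

end basic

/-! ### local finiteness -/

/-- local finiteness of a family over the base -/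
def LF {W : Type} [Zero W] (v : A.ι → M → W) : Prop :=
  ∀ i', ∀ x' ∈ (A'.e i').source, ∃ U : Set M', IsOpen U ∧ x' ∈ U ∧
    {i | C.r i = i' ∧ ∃ x ∈ (A.e i).source, C.p x ∈ U ∧ v i x ≠ 0}.Finite

section lf

variable {W : Type} [AddCommMonoid W]

theorem LF.add {v w : A.ι → M → W} (hv : C.LF v) (hw : C.LF w) : C.LF (v + w) := by
  intro i' x' hx
  obtain ⟨U, hU, hxU, h1⟩ := hv i' x' hx
  obtain ⟨V, hV, hxV, h2⟩ := hw i' x' hx
  refine ⟨U ∩ V, hU.inter hV, ⟨hxU, hxV⟩, (h1.union h2).subset ?_⟩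
  rintro i ⟨hi, x, hx1, hx2, hx3⟩
  by_cases h : v i x = 0
  · refine Or.inr ⟨hi, x, hx1, hx2.2, fun h' => hx3 ?_⟩
    simp [h, h']
  · exact Or.inl ⟨hi, x, hx1, hx2.1, h⟩

theorem LF.mono {W' : Type} [AddCommMonoid W'] {v : A.ι → M → W} {w : A.ι → M → W'}
    (hv : C.LF v) (h : ∀ i x, w i x ≠ 0 → v i x ≠ 0) : C.LF w := by
  intro i' x' hx
  obtain ⟨U, hU, hxU, h1⟩ := hv i' x' hx
  refine ⟨U, hU, hxU, h1.subset ?_⟩
  rintro i ⟨hi, x, hx1, hx2, hx3⟩
  exact ⟨hi, x, hx1, hx2, h i x hx3⟩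

theorem LF.smul {R : Type} [Monoid R] [DistribMulAction R W] {v : A.ι → M → W} (hv : C.LF v)
    (c : R) : C.LF (c • v) :=
  hv.mono C fun i x h h' => h (by simp [h'])

/-- at a point of a chart only finitely many sheets contribute -/
theorem LF.finite {v : A.ι → M → W} (hv : C.LF v) {i' : A'.ι} {x' : M'}
    (hx : x' ∈ (A'.e i').source) :
    (Function.support fun i : {i // C.r i = i'} => v i.1 (C.sec i.1 x')).Finite := by
  obtain ⟨U, hU, hxU, h1⟩ := hv i' x' hx
  refine Set.Finite.of_finite_image (f := Subtype.val) (h1.subset ?_) Subtype.val_injective.injOn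
  rintro _ ⟨⟨i, hi⟩, h2, rfl⟩
  refine ⟨hi, C.sec i x', C.sec_mem' hi hx, ?_, h2⟩
  rw [C.p_sec (by rw [hi]; exact hx)]
  exact hxU

/-- near a point of a chart, the push forward is a fixed finite sum -/
theorem LF.eventually {v : A.ι → M → W} (hv : C.LF v) {i' : A'.ι} {x' : M'}
    (hx : x' ∈ (A'.e i').source) : ∃ F : Finset {i // C.r i = i'}, ∀ᶠ y' in 𝓝 x',
      (∀ i : {i // C.r i = i'}, i ∉ F → v i.1 (C.sec i.1 y') = 0) ∧
      C.push v i' y' = ∑ i ∈ F, v i.1 (C.sec i.1 y') := by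
  obtain ⟨U, hU, hxU, h1⟩ := hv i' x' hx
  have h2 : {i : {i // C.r i = i'} | ∃ x ∈ (A.e i.1).source, C.p x ∈ U ∧ v i.1 x ≠ 0}.Finite := by
    refine Set.Finite.of_finite_image (f := Subtype.val) (h1.subset ?_)
      Subtype.val_injective.injOn
    rintro _ ⟨⟨i, hi⟩, ⟨x, hx1, hx2, hx3⟩, rfl⟩
    exact ⟨hi, x, hx1, hx2, hx3⟩
  refine ⟨h2.toFinset, ?_⟩
  filter_upwards [(hU.inter (A'.e i').open_source).mem_nhds ⟨hxU, hx⟩] with y' hy'
  have h3 : ∀ i : {i // C.r i = i'}, i ∉ h2.toFinset → v i.1 (C.sec i.1 y') = 0 := by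
    rintro ⟨i, hi⟩ hn
    by_contra hne
    apply hn
    rw [Set.Finite.mem_toFinset]
    refine ⟨C.sec i y', C.sec_mem' hi hy'.2, ?_, hne⟩
    rw [C.p_sec (by rw [hi]; exact hy'.2)]
    exact hy'.1
  refine ⟨h3, ?_⟩
  rw [C.push_of_mem hy'.2]
  refine finsum_eq_sum_of_support_subset _ ?_
  intro i hi
  by_contra hn
  exact hi (h3 i hn)

/-- finiteness of the sheets over a compact subset of a chart meeting a compact set -/
theorem finite_sheets [T2Space M'] {K : Set M} (hK : IsCompact K) {i' : A'.ι} {V : Set M'}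
    (hV : IsCompact V) (hVs : V ⊆ (A'.e i').source) :
    {i | C.r i = i' ∧ ∃ x ∈ (A.e i).source, C.p x ∈ V ∧ x ∈ K}.Finite := by
  have h1 : IsCompact (K ∩ C.p ⁻¹' V) := hK.inter_right (hV.isClosed.preimage C.cont)
  have h2 : K ∩ C.p ⁻¹' V ⊆ ⋃ i : {i // C.r i = i'}, (A.e i.1).source := by
    rintro x ⟨-, hx⟩
    obtain ⟨i, hi, h3⟩ := C.lift x i' (hVs hx)
    exact mem_iUnion.2 ⟨⟨i, hi⟩, h3⟩
  obtain ⟨t, ht⟩ := h1.elim_finite_subcover (fun i : {i // C.r i = i'} => (A.e i.1).source)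
    (fun i => (A.e i.1).open_source) h2
  refine (t.finite_toSet.image Subtype.val).subset ?_
  rintro i ⟨hi, x, hx1, hx2, hx3⟩
  have h4 := ht ⟨hx3, hx2⟩
  simp only [mem_iUnion] at h4
  obtain ⟨j, hj, hxj⟩ := h4
  have h5 : i = j.1 := C.uniq i j.1 (hi.trans j.2.symm) x hx1 hxj
  exact ⟨j, hj, h5.symm⟩

/-- compactly supported families are locally finite -/
theorem LF_of_compact [T2Space M'] {v : A.ι → M → W} {K : Set M} (hK : IsCompact K)
    (h0 : ∀ i, ∀ x ∉ K, v i x = 0) : C.LF v := by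
  intro i' x' hx
  obtain ⟨V, hV, hxV, hVs⟩ : ∃ V : Set M', IsCompact V ∧ V ∈ 𝓝 x' ∧ V ⊆ (A'.e i').source := by
    have h1 : (A'.e i').target ∈ 𝓝 (A'.e i' x') :=
      (A'.e i').open_target.mem_nhds ((A'.e i').map_source hx)
    obtain ⟨L, hL, hLn, hLs⟩ := LocallyCompactSpace.local_compact_nhds _ _ h1
    refine ⟨(A'.e i').symm '' L, hLs.image_of_continuousOn ((A'.e i').continuousOn_symm.mono hLn),
      ?_, ?_⟩
    · have h2 := (A'.e i').symm.map_nhds_eq ((A'.e i').map_source hx)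
      rw [(A'.e i').left_inv hx] at h2
      rw [← h2, mem_map]
      exact mem_of_superset hL (subset_preimage_image _ _)
    · rintro _ ⟨z, hz, rfl⟩
      exact (A'.e i').map_target (hLn hz)
  refine ⟨interior V, isOpen_interior, mem_interior_iff_mem_nhds.2 hxV, ?_⟩
  refine (C.finite_sheets hK hV hVs).subset ?_
  rintro i ⟨hi, x, hx1, hx2, hx3⟩
  refine ⟨hi, x, hx1, interior_subset hx2, ?_⟩
  by_contra hn
  exact hx3 (h0 i x hn)

end lf

section algebra

variable {W : Type} [AddCommGroup W]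

theorem push_add {v w : A.ι → M → W} (hv : C.LF v) (hw : C.LF w) :
    C.push (v + w) = C.push v + C.push w := by
  funext i' x'
  by_cases hx : x' ∈ (A'.e i').source
  · simp only [Pi.add_apply]
    rw [C.push_of_mem hx, C.push_of_mem hx, C.push_of_mem hx,
      ← finsum_add_distrib (hv.finite C hx) (hw.finite C hx)]
    rfl
  · simp [C.push_off hx]

theorem push_smul {v : A.ι → M → W} [Module ℂ W] (c : ℂ) : C.push (c • v) = c • C.push v := by
  funext i' x'
  by_cases hx : x' ∈ (A'.e i').source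
  · simp only [Pi.smul_apply]
    rw [C.push_of_mem hx, C.push_of_mem hx, smul_finsum]
    rfl
  · simp [C.push_off hx]

/-- projection formula: `push (f · pull u) = (pushF f) · u` -/
theorem push_smul_pull {W : Type} [AddCommGroup W] [Module ℂ W] (f : M → ℂ)
    {u : A'.ι → M' → W} {i' : A'.ι} {x' : M'} (hx : x' ∈ (A'.e i').source) :
    C.push (fun i x => f x • C.pull u i x) i' x' = C.pushF f x' • u i' x' := by
  rw [C.push_of_mem hx, C.pushF_eq hx, finsum_smul]
  refine finsum_congr ?_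
  rintro ⟨i, rfl⟩
  rw [C.pull_of_mem (C.sec_mem hx), C.p_sec hx]

/-- projection formula with the function downstairs -/
theorem push_pull_smul {W : Type} [AddCommGroup W] [Module ℂ W] (f : M' → ℂ)
    (v : A.ι → M → W) {i' : A'.ι} {x' : M'} (hx : x' ∈ (A'.e i').source) :
    C.push (fun i x => f (C.p x) • v i x) i' x' = f x' • C.push v i' x' := by
  rw [C.push_of_mem hx, C.push_of_mem hx, smul_finsum]
  refine finsum_congr ?_
  rintro ⟨i, rfl⟩
  rw [C.p_sec hx]

/-- `pull (push v)` at a point is the sum over the fibre -/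
theorem pull_push {v : A.ι → M → W} {i : A.ι} {x : M} (hx : x ∈ (A.e i).source) :
    C.pull (C.push v) i x = ∑ᶠ j : {j // C.r j = C.r i}, v j.1 (C.sec j.1 (C.p x)) := by
  rw [C.pull_of_mem hx, C.push_of_mem (C.src i x hx)]

/-- if no other point of the fibre contributes then `pull (push v) = v` -/
theorem pull_push_of_single {v : A.ι → M → W} {i : A.ι} {x : M} (hx : x ∈ (A.e i).source)
    (h : ∀ j, ∀ y ∈ (A.e j).source, C.p y = C.p x → y ≠ x → v j y = 0) :
    C.pull (C.push v) i x = v i x := by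
  rw [C.pull_push hx, finsum_eq_single _ ⟨i, rfl⟩, C.sec_p hx]
  rintro ⟨j, hj⟩ hne
  have h1 : C.sec j (C.p x) ∈ (A.e j).source := C.sec_mem' hj (C.src i x hx)
  refine h j _ h1 (C.p_sec (by rw [hj]; exact C.src i x hx)) fun he => hne ?_
  rw [he] at h1
  exact Subtype.ext (C.uniq j i hj x h1 hx)

/-- `push (v)` at a point of the chart `r i`, if only one point of the fibre contributes -/
theorem push_of_single {v : A.ι → M → W} {i : A.ι} {x : M} (hx : x ∈ (A.e i).source)
    (h : ∀ j, ∀ y ∈ (A.e j).source, C.p y = C.p x → y ≠ x → v j y = 0) :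
    C.push v (C.r i) (C.p x) = v i x := by
  rw [← C.pull_push_of_single hx h, C.pull_of_mem hx]

/-- `push v` at a point whose fibre does not meet the support -/
theorem push_eq_zero {v : A.ι → M → W} {i' : A'.ι} {x' : M'}
    (h : ∀ j, ∀ y ∈ (A.e j).source, C.p y = x' → v j y = 0) : C.push v i' x' = 0 := by
  by_cases hx : x' ∈ (A'.e i').source
  · rw [C.push_of_mem hx]
    refine (finsum_congr ?_).trans finsum_zero
    rintro ⟨i, rfl⟩
    exact h i _ (C.sec_mem hx) (C.p_sec hx)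
  · exact C.push_off hx

/-- the push forward of a function with at most one contributing point -/
theorem pushF_of_single {f : M → W} {x : M} (h : ∀ y, C.p y = C.p x → y ≠ x → f y = 0) :
    C.pushF f (C.p x) = f x := by
  unfold pushF
  rw [finsum_eq_single _ ⟨x, rfl⟩]
  rintro ⟨y, hy⟩ hne
  exact h y hy fun he => hne (Subtype.ext he)

theorem pushF_eq_zero {f : M → W} {x' : M'} (h : ∀ y, C.p y = x' → f y = 0) :
    C.pushF f x' = 0 := by
  unfold pushF
  refine (finsum_congr ?_).trans finsum_zero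
  rintro ⟨y, hy⟩
  exact h y hy

end algebra

/-! ### sections -/

section sections

variable (B : FBun A')

theorem push_tr {v : A.ι → M → B.κ → ℂ} (hv : v ∈ Sec (C.pullB B)) (hlf : C.LF v) {i' j' : A'.ι}
    {x' : M'} (hx : x' ∈ (A'.e i').source ∩ (A'.e j').source) :
    C.push v i' x' = B.τ i' j' x' *ᵥ C.push v j' x' := by
  rw [C.push_eq_fibre hx.1, C.push_eq_fibre hx.2]
  have hfin : (Function.support fun x : {x // C.p x = x'} =>
      v ((C.fibEquiv hx.2).symm x).1 x.1).Finite := by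
    have h1 := (hlf.finite C hx.2).image (C.fibEquiv hx.2)
    refine h1.subset fun x hxs => ?_
    refine ⟨(C.fibEquiv hx.2).symm x, ?_, Equiv.apply_symm_apply _ _⟩
    have h2 : C.sec ((C.fibEquiv hx.2).symm x).1 x' = x.1 := by
      rw [← C.fibEquiv_apply hx.2, Equiv.apply_symm_apply]
    show v ((C.fibEquiv hx.2).symm x).1 (C.sec ((C.fibEquiv hx.2).symm x).1 x') ≠ 0
    rw [h2]
    exact hxs
  have h3 := (Matrix.mulVecLin (B.τ i' j' x')).toAddMonoidHom.map_finsum hfin
  have h4 : ∀ w : B.κ → ℂ, (Matrix.mulVecLin (B.τ i' j' x')).toAddMonoidHom w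
      = B.τ i' j' x' *ᵥ w := fun w => rfl
  simp only [h4] at h3
  rw [h3]
  refine finsum_congr ?_
  intro x
  have h5 := C.mem_of_fib hx.1 x
  have h6 := C.mem_of_fib hx.2 x
  have h7 := Sec.tr (C.pullB B) hv ⟨h5, h6⟩
  have h8 : C.p x.1 = x' := x.2
  have e1 : C.r ((C.fibEquiv hx.1).symm x).1 = i' := ((C.fibEquiv hx.1).symm x).2
  have e2 : C.r ((C.fibEquiv hx.2).symm x).1 = j' := ((C.fibEquiv hx.2).symm x).2
  have h9 : (C.pullB B).τ ((C.fibEquiv hx.1).symm x).1 ((C.fibEquiv hx.2).symm x).1 x.1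
      = B.τ i' j' x' := by
    show B.τ (C.r _) (C.r _) (C.p x.1) = _
    rw [e1, e2, h8]
  rw [h9] at h7
  exact h7

theorem smAt_sec {W : Type*} [NormedAddCommGroup W] [NormedSpace ℝ W] {i : A.ι} {f : M → W}
    (h : A.SmAt i f) : A'.SmAt (C.r i) (fun x' => f (C.sec i x')) := by
  unfold Atl.SmAt at h ⊢
  rw [C.target] at h
  refine h.congr fun z hz => ?_
  show f (C.sec i _) = _
  rw [C.sec_symm hz]

theorem push_smAt {v : A.ι → M → B.κ → ℂ} (hv : ∀ i k, A.SmAt i (fun x => v i x k))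
    (hlf : C.LF v) (i' : A'.ι) (k : B.κ) : A'.SmAt i' (fun x => C.push v i' x k) := by
  intro z hz
  refine ContDiffAt.contDiffWithinAt ?_
  obtain ⟨F, hF⟩ := hlf.eventually C ((A'.e i').map_target hz)
  have h1 : Tendsto (A'.e i').symm (𝓝 z) (𝓝 ((A'.e i').symm z)) :=
    (A'.e i').symm.continuousAt (x := z) hz
  have h2 : (fun w => C.push v i' ((A'.e i').symm w) k) =ᶠ[𝓝 z]
      fun w => ∑ i ∈ F, v i.1 (C.sec i.1 ((A'.e i').symm w)) k := by
    filter_upwards [h1.eventually hF] with w hw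
    rw [hw.2, Finset.sum_apply]
  refine ContDiffAt.congr_of_eventuallyEq ?_ h2
  refine ContDiffAt.sum fun i _ => ?_
  obtain ⟨i, rfl⟩ := i
  exact (C.smAt_sec (hv i k)).contDiffAt ((A'.e (C.r i)).open_target.mem_nhds hz)

/-- the push forward of a locally finite section is a section -/
theorem push_mem {v : A.ι → M → B.κ → ℂ} (hv : v ∈ Sec (C.pullB B)) (hlf : C.LF v) :
    C.push v ∈ Sec B :=
  ⟨fun i' k => C.push_smAt B hv.1 hlf i' k, fun _ _ hx => C.push_off hx,
    fun _ _ _ hx => C.push_tr B hv hlf hx⟩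

theorem push_memC [T2Space M'] {v : A.ι → M → B.κ → ℂ} (hv : v ∈ SecC (C.pullB B)) :
    C.push v ∈ SecC B := by
  obtain ⟨h1, K, hK, h0⟩ := hv
  refine ⟨C.push_mem B h1 (C.LF_of_compact hK h0), C.p '' K, hK.image C.cont, fun i' x' hx => ?_⟩
  refine C.push_eq_zero fun j y hy hyx => h0 j y fun hyK => hx ⟨y, hyK, hyx⟩

theorem LF_of_secC [T2Space M'] {v : A.ι → M → B.κ → ℂ} (hv : v ∈ SecC (C.pullB B)) : C.LF v := by
  obtain ⟨h1, K, hK, h0⟩ := hv
  exact C.LF_of_compact hK h0

/-- push forward on compactly supported sections -/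
def pushC [T2Space M'] : SecC (C.pullB B) →ₗ[ℂ] SecC B where
  toFun v := ⟨C.push v.1, C.push_memC B v.2⟩
  map_add' v w := Subtype.ext (C.push_add (C.LF_of_secC B v.2) (C.LF_of_secC B w.2))
  map_smul' c v := Subtype.ext (C.push_smul c)

@[simp] theorem pushC_coe [T2Space M'] (v : SecC (C.pullB B)) :
    (C.pushC B v : A'.ι → M' → B.κ → ℂ) = C.push v.1 := rfl

theorem push_isDeg {v : A.ι → M → B.κ → ℂ} {q : ℕ} (hv : IsDeg (C.pullB B) q v) (hlf : C.LF v) :
    IsDeg B q (C.push v) := by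
  intro i' x' k hk
  by_cases hx : x' ∈ (A'.e i').source
  · obtain ⟨F, hF⟩ := hlf.eventually C hx
    rw [hF.self_of_nhds.2, Finset.sum_apply] at hk
    obtain ⟨i, -, hi⟩ := Finset.exists_ne_zero_of_sum_ne_zero hk
    exact hv _ _ k hi
  · rw [C.push_off hx] at hk
    exact absurd rfl hk

theorem dbj_sum {W ι : Type*} [NormedAddCommGroup W] [NormedSpace ℂ W] (s : Finset ι)
    {f : ι → Cn n → W} {z : Cn n} (hf : ∀ i ∈ s, DifferentiableAt ℝ (f i) z) (a : Fin n) :
    dbj a (fun w => ∑ i ∈ s, f i w) z = ∑ i ∈ s, dbj a (f i) z := by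
  have h : fderiv ℝ (fun w => ∑ i ∈ s, f i w) z = ∑ i ∈ s, fderiv ℝ (f i) z :=
    fderiv_fun_sum hf
  simp only [dbj, h, ContinuousLinearMap.sum_apply, Finset.smul_sum, ← Finset.sum_add_distrib]

theorem db_sec {W : Type*} [NormedAddCommGroup W] [NormedSpace ℂ W] {i : A.ι} (f : M → W)
    {x' : M'} (hx : x' ∈ (A'.e (C.r i)).source) (a : Fin n) :
    A'.db (C.r i) a (fun y => f (C.sec i y)) x' = A.db i a f (C.sec i x') := by
  unfold Atl.db
  rw [C.e_sec hx]
  refine dbj_congr ?_ a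
  filter_upwards [(A'.e (C.r i)).open_target.mem_nhds ((A'.e (C.r i)).map_source hx)] with z hz
  rw [C.sec_symm hz]

theorem nab_eq_zero_of {B : FBun A} {v : A.ι → M → B.κ → ℂ} {i : A.ι} {x : M}
    (h : v i =ᶠ[𝓝 x] fun _ => 0) : nab B v i x = 0 := by
  by_cases hx : x ∈ (A.e i).source
  · rw [nab_apply B hx, h.eq_of_nhds, Matrix.mulVec_zero, add_zero]
    refine Finset.sum_eq_zero fun a _ => ?_
    rw [Atl.db_congr hx h a]
    have : A.db i a (fun _ : M => (0 : B.κ → ℂ)) x = 0 := dbj_const _ _ _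
    rw [this, Matrix.mulVec_zero]
  · exact nab_off B hx

theorem LF.nab {v : A.ι → M → B.κ → ℂ} (hlf : C.LF v) : C.LF (nab (C.pullB B) v) := by
  intro i' x' hx
  obtain ⟨U, hU, hxU, h1⟩ := hlf i' x' hx
  refine ⟨U, hU, hxU, h1.subset ?_⟩
  rintro i ⟨hi, x, hx1, hx2, hx3⟩
  refine ⟨hi, ?_⟩
  by_contra hn
  push Not at hn
  apply hx3
  refine nab_eq_zero_of ?_
  filter_upwards [((A.e i).open_source.inter (hU.preimage C.cont)).mem_nhds ⟨hx1, hx2⟩] with y hy
  exact hn y hy.1 hy.2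

/-- push forward commutes with `∇` -/
theorem nab_push {v : A.ι → M → B.κ → ℂ} (hv : v ∈ Sec (C.pullB B)) (hlf : C.LF v) :
    nab B (C.push v) = C.push (nab (C.pullB B) v) := by
  funext i' x'
  by_cases hx : x' ∈ (A'.e i').source
  · obtain ⟨F, hF⟩ := hlf.eventually C hx
    have h1 : C.push v i' =ᶠ[𝓝 x'] fun y => ∑ i ∈ F, v i.1 (C.sec i.1 y) := by
      filter_upwards [hF] with y hy
      exact hy.2
    -- the right hand side is the same finite sum
    have h2 : C.push (nab (C.pullB B) v) i' x' =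
        ∑ i ∈ F, nab (C.pullB B) v i.1 (C.sec i.1 x') := by
      rw [C.push_of_mem hx]
      refine finsum_eq_sum_of_support_subset _ ?_
      rintro i hi
      by_contra hn
      apply hi
      refine nab_eq_zero_of ?_
      obtain ⟨i, rfl⟩ := i
      have hs : C.sec i x' ∈ (A.e i).source := C.sec_mem hx
      have h3 : Tendsto C.p (𝓝 (C.sec i x')) (𝓝 x') := by
        have := C.cont.continuousAt (x := C.sec i x')
        rwa [ContinuousAt, C.p_sec hx] at this
      filter_upwards [h3.eventually hF, (A.e i).open_source.mem_nhds hs] with y hy hys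
      have h4 := hy.1 ⟨i, rfl⟩ (by simpa using hn)
      rwa [C.sec_p hys] at h4
    rw [h2, nab_apply B hx, h1.eq_of_nhds, Matrix.mulVec_sum]
    have h5 : ∀ a, A'.db i' a (C.push v i') x' =
        ∑ i ∈ F, A.db i.1 a (v i.1) (C.sec i.1 x') := by
      intro a
      rw [Atl.db_congr hx h1 a]
      unfold Atl.db
      rw [dbj_sum F (f := fun i z => v i.1 (C.sec i.1 ((A'.e i').symm z)))]
      · refine Finset.sum_congr rfl fun i _ => ?_
        obtain ⟨i, rfl⟩ := i
        exact C.db_sec (v i) hx a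
      · rintro ⟨i, rfl⟩ -
        exact (C.smAt_sec (Sec.smAt' (C.pullB B) hv i)).diffAt hx
    simp only [h5, Matrix.mulVec_sum]
    rw [Finset.sum_comm, ← Finset.sum_add_distrib]
    refine Finset.sum_congr rfl fun i _ => ?_
    obtain ⟨i, rfl⟩ := i
    rw [nab_apply (C.pullB B) (C.sec_mem hx)]
    congr 2
    show B.α (C.r i) x' = B.α (C.r i) (C.p (C.sec i x'))
    rw [C.p_sec hx]
  · rw [nab_off B hx, C.push_off hx]

/-! ### extensions -/

open Classical in
/-- push forward of an amplitude of the chart `i` to the chart `r i` -/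
def pushA {κ κ' : Type} (i : A.ι) (b : M → Matrix κ κ' ℂ) : M' → Matrix κ κ' ℂ := fun x' =>
  if x' ∈ (A'.e (C.r i)).source then b (C.sec i x') else 0

theorem pushA_of_mem {κ κ' : Type} {i : A.ι} {b : M → Matrix κ κ' ℂ} {x' : M'}
    (hx : x' ∈ (A'.e (C.r i)).source) : C.pushA i b x' = b (C.sec i x') := if_pos hx

theorem pushA_off {κ κ' : Type} {i : A.ι} {b : M → Matrix κ κ' ℂ} {x' : M'}
    (hx : x' ∉ (A'.e (C.r i)).source) : C.pushA i b x' = 0 := if_neg hx

theorem pushA_amp [T2Space M'] {κ κ' : Type} {i : A.ι} {b : M → Matrix κ κ' ℂ}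
    (hb : IsAmp A i b) : IsAmp A' (C.r i) (C.pushA i b) := by
  refine isAmp_of (fun k l => ?_) (K := C.p '' tsupport b) (hb.cpt.image C.cont)
    (hb.cpt.image C.cont).isClosed ?_ ?_
  · refine ContDiffOn.congr (C.smAt_sec (hb.sm k l)) fun z hz => ?_
    show C.pushA i b _ k l = b (C.sec i _) k l
    rw [C.pushA_of_mem ((A'.e (C.r i)).map_target hz)]
  · rintro _ ⟨x, hx, rfl⟩
    exact C.src i x (hb.sub hx)
  · intro x' hx'
    by_cases hx : x' ∈ (A'.e (C.r i)).source
    · rw [C.pushA_of_mem hx]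
      refine image_eq_zero_of_notMem_tsupport fun h => hx' ⟨_, h, C.p_sec hx⟩
    · exact C.pushA_off hx

open Classical in
/-- pull back of an amplitude of the chart `r i` to the sheet `i` -/
def pullA {κ κ' : Type} (i : A.ι) (b : M' → Matrix κ κ' ℂ) : M → Matrix κ κ' ℂ := fun x =>
  if x ∈ (A.e i).source then b (C.p x) else 0

theorem pullA_of_mem {κ κ' : Type} {i : A.ι} {b : M' → Matrix κ κ' ℂ} {x : M}
    (hx : x ∈ (A.e i).source) : C.pullA i b x = b (C.p x) := if_pos hx

theorem pullA_off {κ κ' : Type} {i : A.ι} {b : M' → Matrix κ κ' ℂ} {x : M}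
    (hx : x ∉ (A.e i).source) : C.pullA i b x = 0 := if_neg hx

theorem pullA_amp [T2Space M] {κ κ' : Type} {i : A.ι} {b : M' → Matrix κ κ' ℂ}
    (hb : IsAmp A' (C.r i) b) : IsAmp A i (C.pullA i b) := by
  have hK : IsCompact (C.sec i '' tsupport b) :=
    hb.cpt.image_of_continuousOn ((C.sec_contOn i).mono hb.sub)
  refine isAmp_of (fun k l => ?_) hK hK.isClosed ?_ ?_
  · exact C.smAt_of_eq (hb.sm k l) fun y hy => by rw [C.pullA_of_mem hy]
  · rintro _ ⟨x, hx, rfl⟩
    exact C.sec_mem (hb.sub hx)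
  · intro x hx
    by_cases hxs : x ∈ (A.e i).source
    · rw [C.pullA_of_mem hxs]
      refine image_eq_zero_of_notMem_tsupport fun h => hx ⟨_, h, C.sec_p hxs⟩
    · exact C.pullA_off hxs

theorem pushA_pullA {κ κ' : Type} {i : A.ι} {b : M' → Matrix κ κ' ℂ}
    (hb : ∀ x ∉ (A'.e (C.r i)).source, b x = 0) : C.pushA i (C.pullA i b) = b := by
  funext x'
  by_cases hx : x' ∈ (A'.e (C.r i)).source
  · rw [C.pushA_of_mem hx, C.pullA_of_mem (C.sec_mem hx), C.p_sec hx]
  · rw [C.pushA_off hx, hb x' hx]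

theorem pullA_pushA {κ κ' : Type} {i : A.ι} {b : M → Matrix κ κ' ℂ}
    (hb : ∀ x ∉ (A.e i).source, b x = 0) : C.pullA i (C.pushA i b) = b := by
  funext x
  by_cases hx : x ∈ (A.e i).source
  · rw [C.pullA_of_mem hx, C.pushA_of_mem (C.src i x hx), C.sec_p hx]
  · rw [C.pullA_off hx, hb x hx]

theorem rd_sec {i : A.ι} {F : M → ℂ} {F' : M' → ℂ}
    (h : ∀ x' ∈ (A'.e (C.r i)).source, F' x' = F (C.sec i x')) :
    rd A i F = rd A' (C.r i) F' := by
  funext x
  unfold rd
  rw [← C.target]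
  by_cases hx : cc x ∈ (A.e i).target
  · simp only [if_pos hx]
    have hx' : cc x ∈ (A'.e (C.r i)).target := by rw [← C.target]; exact hx
    rw [h _ ((A'.e (C.r i)).map_target hx'), C.sec_symm hx']
  · simp only [if_neg hx]

/-- localisation in the sheet `i` is localisation in the chart `r i` of the section read there -/
theorem loc_sec {κ κ' : Type} [Fintype κ'] {i : A.ι} {a : M → Matrix κ κ' ℂ}
    {a' : M' → Matrix κ κ' ℂ} {v : M → κ' → ℂ} {v' : M' → κ' → ℂ}
    (ha : ∀ x' ∈ (A'.e (C.r i)).source, a' x' = a (C.sec i x'))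
    (hv : ∀ x' ∈ (A'.e (C.r i)).source, v' x' = v (C.sec i x')) (k : κ) :
    loc A i a v k = loc A' (C.r i) a' v' k := by
  have h : rd A i (fun x => (a x *ᵥ v x) k) = rd A' (C.r i) (fun x => (a' x *ᵥ v' x) k) :=
    C.rd_sec fun x' hx' => by rw [ha x' hx', hv x' hx']
  unfold loc
  by_cases hm : perFun (rd A i fun x => (a x *ᵥ v x) k) ∈ SPer (RI n)
  · have hm' : perFun (rd A' (C.r i) fun x => (a' x *ᵥ v' x) k) ∈ SPer (RI n) := h ▸ hm
    rw [dif_pos hm, dif_pos hm']
    exact Subtype.ext (congrArg perFun h)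
  · have hm' : perFun (rd A' (C.r i) fun x => (a' x *ᵥ v' x) k) ∉ SPer (RI n) := h ▸ hm
    rw [dif_neg hm, dif_neg hm']

/-- localisation of a pull back in a sheet -/
theorem loc_pull_eq {κ : Type} {i : A.ι} (a : M' → Matrix κ B.κ ℂ) (u : A'.ι → M' → B.κ → ℂ)
    (k : κ) : loc A i (C.pullA i a) (C.pull u i) k = loc A' (C.r i) a (u (C.r i)) k := by
  refine C.loc_sec (fun x' hx' => ?_) (fun x' hx' => ?_) k
  · rw [C.pullA_of_mem (C.sec_mem hx'), C.p_sec hx']
  · rw [C.pull_of_mem (C.sec_mem hx'), C.p_sec hx']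

/-- **push forward of an extension is an extension** -/
theorem push_ext {κ' : Type} [Fintype κ'] {i : A.ι} (b : M → Matrix B.κ κ' ℂ)
    (f : κ' → SPer (RI n)) :
    C.push (ext (C.pullB B) i b f) = ext B (C.r i) (C.pushA i b) f := by
  funext j' x'
  by_cases hx : x' ∈ (A'.e j').source
  · by_cases hxi : x' ∈ (A'.e (C.r i)).source
    · have hs : C.sec i x' ∈ (A.e i).source := C.sec_mem hxi
      obtain ⟨j, rfl, hj⟩ := C.lift (C.sec i x') j' (by rw [C.p_sec hxi]; exact hx)
      have hp : C.p (C.sec i x') = x' := C.p_sec hxi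
      have h1 := C.push_of_single (v := ext (C.pullB B) i b f) hj ?_
      · rw [hp] at h1
        rw [h1, ext_of_mem (C.pullB B) i hj hs, ext_of_mem B (C.r i) hx hxi, C.pushA_of_mem hxi,
          C.e_sec hxi]
        show B.τ (C.r j) (C.r i) (C.p (C.sec i x')) *ᵥ _ = _
        rw [hp]
      · intro l y hy hyx hne
        by_cases hyi : y ∈ (A.e i).source
        · exfalso
          exact hne (C.inj hyi hs hyx)
        · exact ext_off' (C.pullB B) i hyi b f
    · rw [ext_off' B (C.r i) hxi]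
      refine C.push_eq_zero fun l y hy hyx => ?_
      refine ext_off' (C.pullB B) i (fun hyi => hxi ?_) b f
      rw [← hyx]
      exact C.src i y hyi
  · rw [C.push_off hx, ext_off B (C.r i) hx]

end sections

end Cov

end

end Crest.Agent.R275.XN194
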