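import Crest.Agent.R275.KX_106
import Crest.Agent.R275.INX_945
import Crest.Agent.R275.EBK_151

/-!
# R275 (S0418), block K: constructor of helper151's `XNIn` (helper106)

`xnIn` : the inputs of (EB) on `X_N` from
* the covering data `C' : KCov A Z' (ZMod N)`, `F : KHom C C'`;
* `cm : CMData (liftP C' P) I e` (helper825);
* `G : EFn` with weights `jw (liftP C' P)` and normalisation (helper627);
* LINK (helper894);
* the rank bound (helper865, helper470).
-/

set_option autoImplicit false
set_option linter.unusedSectionVars false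

open Set Filter Topology

namespace Crest.Agent.R275.XNI106

open TopK106 Zig470 Geo Smf798 KR798 SB798 GC293 Core144 ASConv293 KAsm106 KZig106 PDB412 ChiM825
  NEul865 KX106 XN194 NForm945 NGeo151 NTr151 PDY945 WtY945 INX945 EBF151 Loc647 QPb635

noncomputable section

/-- the functional of helper470 from the one of helper945 -/
theorem ev_of_efn {M : Type*} [TopologicalSpace M] {V : Type*} {U : V → Set M} {lab : M → V}
    {w : (Fin 5 → V) → ℝ} (G : EFn M U lab w) : Ev 3 G.E :=
  ⟨G.add, G.congr, G.dl⟩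

variable {M Z Z' : Type} [TopologicalSpace M] [TopologicalSpace Z] [TopologicalSpace Z']
  [T2Space M] [LocallyCompactSpace M] [T2Space Z] [LocallyCompactSpace Z]
  [T2Space Z'] [CompactSpace Z'] {A : Atl 2 M} [Finite A.ι] {N : ℕ}
  {C : KCov A Z ℤ} {C' : KCov A Z' (ZMod N)}

section

variable (hpc : PreC A) (P : Part A) (F : KHom C C') (hφ : ∀ k : ℤ, F.φ k = (k : ZMod N))
  (hN : 1 ≤ N) {I : KIndex (smf C'.lift)} {e : ℤ} (cm : CMData (liftP C' P) I e)
  {lab : Z' → A.ι × ZMod N} (hlab : Lab (UA C'.lift) lab)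
  (G : EFn Z' (fun v : A.ι × ZMod N => C'.sheet v.1 v.2) lab (jw (liftP C' P)))
  (hNrm : Nrm C'.lift G.E) (hlink : Link (liftP C' P) I G.E lab)

include hN cm hlab hNrm hlink in
/-- the periodic form on the nerve of `Y` is the index form of `X_N` -/
theorem INR_eq_bZ {c d : C2 (A.ι × ℤ)} (hc : c ∈ (nerve C hpc).Z2p N)
    (hd : d ∈ (nerve C hpc).Z2p N) :
    (wtY C hpc P).INR N c d = (bZ (liftP C' P) I (dn F hφ hpc c hc) (dn F hφ hpc d hd) : ℤ) := by
  rw [INR_eq_E hpc P F hφ hN G hc hd,
    bZ_eq_IZ cm.good (ev_of_efn G) hNrm hlab hlink (dn F hφ hpc c hc) (dn F hφ hpc d hd),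
    IZ_cast cm.good (ev_of_efn G) hNrm hlab (mem_Z2_iff.1 (dn F hφ hpc c hc).2)
      (mem_Z2_iff.1 (dn F hφ hpc d hd).2)]
  exact congrArg G.E (congrArg₂ (ASZ627.cup 2) (lp_eq_of2 (A := C'.lift) lab _).symm
    (lp_eq_of2 (A := C'.lift) lab _).symm)

/-- **constructor of `XNIn`** -/
def xnIn (he : Rk C'.lift e) : XNIn (wtY C hpc P) N e where
  X := Z'
  C' := C'
  F := F
  hφ := hφ
  part := liftP C' P
  I := I
  cm := cm
  hdual := by
    have : NeZero N := ⟨by omega⟩
    have hfin : Finite C'.lift.ι := inferInstanceAs (Finite (A.ι × ZMod N))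
    exact fun φ hφ' => bZ_dual cm.good (ev_of_efn G) hNrm hlab hlink φ hφ'
  he := fun n v hv hind => he n v hv hind
  hW := fun c hc d hd => INR_eq_bZ hpc P F hφ hN cm hlab G hNrm hlink hc hd

end

/-- version with the Betti numbers; `e` is the Euler characteristic of the nerve -/
theorem rk_lift [ConnectedSpace Z'] [Fintype (A.ι × ZMod N)] (B : BettiQ (UA C'.lift)) :
    Rk C'.lift (EDR890.nerveChi (UA C'.lift) (Finset.univ : Finset (A.ι × ZMod N))) :=
  fun n v hv hind => B.he (ι := A.ι × ZMod N) (fun i => (C'.lift.e i).open_source)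
    (fun x => C'.lift.cover x) n v hv hind

end

end Crest.Agent.R275.XNI106
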