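import Crest.Agent.R275.ZC0_352
import Crest.Agent.R275.ZC1_352

/-! R275, block ZC (helper352), file 2: variation of a local primitive system along singular
1-simplices, singular 1-cocycles, exactness, and the local primitive system of a cocycle. -/

set_option autoImplicit false

open Topology Set Filter

namespace Crest.Agent.R275.ZC352

noncomputable section

instance contractible_Dn (n : ℕ) : ContractibleSpace (Dn n) :=
  (convex_stdSimplex ℝ (Fin (n + 1))).contractibleSpace ⟨_, single_mem_stdSimplex ℝ 0⟩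

theorem convex_locallyPathConnected {E : Type} [NormedAddCommGroup E] [NormedSpace ℝ E]
    {s : Set E} (hs : Convex ℝ s) : LocallyPathConnectedSpace s := by
  refine LocallyPathConnectedSpace.of_bases (p := fun _ (r : ℝ) => 0 < r)
    (s := fun x r => Metric.ball x r) (fun x => Metric.nhds_basis_ball) ?_
  intro x r hr
  have h1 : IsPathConnected (s ∩ Metric.ball (x : E) r) :=
    (hs.inter (convex_ball _ _)).isPathConnected ⟨x, x.2, Metric.mem_ball_self hr⟩
  have h2 : (Subtype.val : s → E) '' Metric.ball x r = s ∩ Metric.ball (x : E) r := by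
    ext y
    constructor
    · rintro ⟨z, hz, rfl⟩
      exact ⟨z.2, hz⟩
    · rintro ⟨hy, hy'⟩
      exact ⟨⟨y, hy⟩, hy', rfl⟩
  rw [← h2] at h1
  exact Topology.IsInducing.subtypeVal.isPathConnected_iff.2 h1

instance locPath_Dn (n : ℕ) : LocallyPathConnectedSpace (Dn n) :=
  convex_locallyPathConnected (convex_stdSimplex ℝ (Fin (n + 1)))

/-- vertices -/
def vx (n : ℕ) (i : Fin (n + 1)) : Dn n := stdSimplex.vertex i

theorem face_vx (n : ℕ) (i : Fin (n + 2)) (j : Fin (n + 1)) :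
    face n i (vx n j) = vx (n + 1) (i.succAbove j) :=
  stdSimplex.map_vertex _ _

theorem Dn0_eq (x y : Dn 0) : x = y := Subsingleton.elim x y

variable {X Y : Type} [TopologicalSpace X] [TopologicalSpace Y] {A : Type} [AddCommGroup A]

/-- the singular simplex of a path -/
def sd {x y : X} (γ : Path x y) : C(Dn 1, X) :=
  γ.toContinuousMap.comp ⟨stdSimplexHomeomorphUnitInterval,
    stdSimplexHomeomorphUnitInterval.continuous⟩

theorem sd_zero {x y : X} (γ : Path x y) : sd γ (vx 1 0) = x := γ.source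

theorem sd_one {x y : X} (γ : Path x y) : sd γ (vx 1 1) = y := γ.target

theorem sd_mem {x y : X} (γ : Path x y) {W : Set X} (h : ∀ t, γ t ∈ W) (t : Dn 1) :
    sd γ t ∈ W := h _

/-- singular one-cocycles with values in an abelian group -/
def IsCoc (φ : C(Dn 1, X) → A) : Prop :=
  ∀ t : C(Dn 2, X), φ (t.comp (face 1 0)) - φ (t.comp (face 1 1)) + φ (t.comp (face 1 2)) = 0

/-- exactness -/
def IsExact (φ : C(Dn 1, X) → A) : Prop :=
  ∃ f : X → A, ∀ σ : C(Dn 1, X), φ σ = f (σ (vx 1 1)) - f (σ (vx 1 0))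

theorem face_1_0_0 : face 1 0 (vx 1 0) = vx 2 1 := face_vx 1 0 0
theorem face_1_0_1 : face 1 0 (vx 1 1) = vx 2 2 := face_vx 1 0 1
theorem face_1_1_0 : face 1 1 (vx 1 0) = vx 2 0 := face_vx 1 1 0
theorem face_1_1_1 : face 1 1 (vx 1 1) = vx 2 2 := face_vx 1 1 1
theorem face_1_2_0 : face 1 2 (vx 1 0) = vx 2 0 := face_vx 1 2 0
theorem face_1_2_1 : face 1 2 (vx 1 1) = vx 2 1 := face_vx 1 2 1

theorem isCoc_of_isExact {φ : C(Dn 1, X) → A} (h : IsExact φ) : IsCoc φ := by
  obtain ⟨f, hf⟩ := h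
  intro t
  rw [hf, hf, hf]
  simp only [ContinuousMap.comp_apply, face_1_0_0, face_1_0_1, face_1_1_0, face_1_1_1, face_1_2_0,
    face_1_2_1]
  abel

namespace LPS

variable (P : LPS X A)

theorem exists_prim_simplex {n : ℕ} (σ : C(Dn n, X)) : ∃ F : Dn n → A, (P.pull σ).IsPrim F := by
  obtain ⟨F, -, hF⟩ := (P.pull σ).exists_isPrim (vx n 0) 0
  exact ⟨F, hF⟩

/-- variation of a local primitive system along a singular 1-simplex -/
def vary (σ : C(Dn 1, X)) : A :=
  (P.exists_prim_simplex σ).choose (vx 1 1) - (P.exists_prim_simplex σ).choose (vx 1 0)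

theorem vary_eq {σ : C(Dn 1, X)} {F : Dn 1 → A} (hF : (P.pull σ).IsPrim F) :
    P.vary σ = F (vx 1 1) - F (vx 1 0) :=
  IsPrim.sub_eq _ (P.exists_prim_simplex σ).choose_spec hF _ _

theorem isCoc_vary : IsCoc P.vary := by
  intro t
  obtain ⟨F, hF⟩ := P.exists_prim_simplex t
  rw [P.vary_eq (σ := t.comp (face 1 0)) (F := fun z => F (face 1 0 z)) (hF.pull _ (face 1 0)),
    P.vary_eq (σ := t.comp (face 1 1)) (F := fun z => F (face 1 1 z)) (hF.pull _ (face 1 1)),
    P.vary_eq (σ := t.comp (face 1 2)) (F := fun z => F (face 1 2 z)) (hF.pull _ (face 1 2))]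
  simp only [face_1_0_0, face_1_0_1, face_1_1_0, face_1_1_1, face_1_2_0, face_1_2_1]
  abel

theorem vary_of_isPrim {F : X → A} (hF : P.IsPrim F) (σ : C(Dn 1, X)) :
    P.vary σ = F (σ (vx 1 1)) - F (σ (vx 1 0)) :=
  P.vary_eq (hF.pull _ σ)

/-- the variation inside one of the open sets -/
theorem vary_of_mem (i : P.ι) (σ : C(Dn 1, X)) (h : ∀ t, σ t ∈ P.U i) :
    P.vary σ = P.h i (σ (vx 1 1)) - P.h i (σ (vx 1 0)) := by
  refine P.vary_eq (F := fun t => P.h i (σ t)) ?_
  apply LPS.isPrim_of_exists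
  intro z
  exact ⟨i, h z, Eventually.of_forall fun w => rfl⟩

theorem vary_pull (f : C(Y, X)) (σ : C(Dn 1, Y)) : (P.pull f).vary σ = P.vary (f.comp σ) := by
  obtain ⟨F, hF⟩ := P.exists_prim_simplex (f.comp σ)
  rw [P.vary_eq hF, (P.pull f).vary_eq (F := F) hF]

theorem vary_map {B : Type} [AddCommGroup B] (f : A →+ B) (σ : C(Dn 1, X)) :
    (P.map f).vary σ = f (P.vary σ) := by
  obtain ⟨F, hF⟩ := P.exists_prim_simplex σ
  rw [P.vary_eq hF, (P.map f).vary_eq (F := fun z => f (F z)) (hF.map _ f), map_sub]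

end LPS

/-! ### integral chains -/

theorem bd_zero_sgl {k : Type} [CommRing k] (σ : C(Dn 1, X)) :
    bd k X 0 (sgl k σ) = sgl k (ContinuousMap.const _ (σ (vx 1 1))) -
      sgl k (ContinuousMap.const _ (σ (vx 1 0))) := by
  rw [bd_sgl]
  have h0 : σ.comp (face 0 0) = ContinuousMap.const _ (σ (vx 1 1)) := by
    ext z
    rw [Dn0_eq z (vx 0 0)]
    change σ (face 0 0 (vx 0 0)) = σ (vx 1 1)
    rw [face_vx]
    rfl
  have h1 : σ.comp (face 0 1) = ContinuousMap.const _ (σ (vx 1 0)) := by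
    ext z
    rw [Dn0_eq z (vx 0 0)]
    change σ (face 0 1 (vx 0 0)) = σ (vx 1 0)
    rw [face_vx]
    rfl
  have h2 : ∑ i : Fin 2, (-1 : ℤ) ^ (i : ℕ) • sgl k (σ.comp (face 0 i)) =
      sgl k (σ.comp (face 0 0)) - sgl k (σ.comp (face 0 1)) := by
    rw [Fin.sum_univ_two]
    simp [sub_eq_add_neg]
  rw [← h0, ← h1]
  exact h2

theorem isCoc_iff {k : Type} [CommRing k] {V : Type} [AddCommGroup V] [Module k V]
    (φ : C(Dn 1, X) → V) :
    IsCoc φ ↔ ∀ c : (SC k X).X 2, liftC (k := k) φ (bd k X 1 c) = 0 := by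
  have key : ∀ t : C(Dn 2, X), liftC (k := k) φ (bd k X 1 (sgl k t)) =
      φ (t.comp (face 1 0)) - φ (t.comp (face 1 1)) + φ (t.comp (face 1 2)) := by
    intro t
    rw [bd_sgl, map_sum]
    have h2 : ∑ i : Fin 3, liftC (k := k) φ ((-1 : ℤ) ^ (i : ℕ) • sgl k (t.comp (face 1 i))) =
        φ (t.comp (face 1 0)) - φ (t.comp (face 1 1)) + φ (t.comp (face 1 2)) := by
      rw [Fin.sum_univ_three]
      simp only [map_zsmul, liftC_sgl]
      simp [sub_eq_add_neg]
    exact h2
  constructor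
  · intro h c
    have h1 : (liftC (k := k) φ).comp (bd k X 1) = 0 := by
      apply chain_ext
      intro t
      rw [LinearMap.comp_apply, key, h t, LinearMap.zero_apply]
    exact LinearMap.congr_fun h1 c
  · intro h t
    rw [← key t]
    exact h _

/-- a cochain which vanishes on cycles is exact -/
theorem isExact_of_cycles (k : Type) [CommRing k] [PathConnectedSpace X] {V : Type}
    [AddCommGroup V] [Module k V] (φ : C(Dn 1, X) → V)
    (h : ∀ c : (SC k X).X 1, bd k X 0 c = 0 → liftC (k := k) φ c = 0) : IsExact φ := by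
  obtain ⟨x₀⟩ : Nonempty X := inferInstance
  let p : ∀ x : X, Path x₀ x := fun x => PathConnectedSpace.somePath x₀ x
  refine ⟨fun x => φ (sd (p x)), fun σ => ?_⟩
  have h1 := h (sgl k (sd (p (σ (vx 1 0)))) + sgl k σ - sgl k (sd (p (σ (vx 1 1))))) (by
    rw [map_sub, map_add, bd_zero_sgl, bd_zero_sgl, bd_zero_sgl]
    simp only [sd_zero, sd_one]
    abel)
  rw [map_sub, map_add, liftC_sgl, liftC_sgl, liftC_sgl, sub_eq_zero] at h1
  change φ σ = φ (sd (p (σ (vx 1 1)))) - φ (sd (p (σ (vx 1 0))))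
  rw [← h1]
  abel

theorem isExact_vanish {k : Type} [CommRing k] {V : Type}
    [AddCommGroup V] [Module k V] {φ : C(Dn 1, X) → V} (h : IsExact φ)
    (c : (SC k X).X 1) (hc : bd k X 0 c = 0) : liftC (k := k) φ c = 0 := by
  obtain ⟨f, hf⟩ := h
  have h1 : liftC (k := k) φ = (liftC (k := k) (fun s : C(Dn 0, X) => f (s (vx 0 0)))).comp
      (bd k X 0) := by
    apply chain_ext
    intro σ
    rw [LinearMap.comp_apply, bd_zero_sgl, map_sub, liftC_sgl, liftC_sgl, liftC_sgl, hf]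
    rfl
  rw [h1, LinearMap.comp_apply, hc, map_zero]

/-- cocycles on contractible spaces are exact -/
theorem isExact_of_contractible [ContractibleSpace X] {φ : C(Dn 1, X) → A} (h : IsCoc φ) :
    IsExact φ := by
  refine isExact_of_cycles ℤ φ fun c hc => ?_
  obtain ⟨e, rfl⟩ := exists_bd_of_contractible (k := ℤ) (n := 0) c hc
  exact (isCoc_iff (k := ℤ) φ).1 h e

/-! ### the local primitive system of a cocycle -/

theorem exists_simplex_joinedIn {W : Set X} {x y : X} (h : JoinedIn W x y) :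
    ∃ σ : C(Dn 1, X), σ (vx 1 0) = x ∧ σ (vx 1 1) = y ∧ ∀ t, σ t ∈ W := by
  obtain ⟨γ, hγ⟩ := h
  exact ⟨sd γ, sd_zero γ, sd_one γ, sd_mem γ hγ⟩

/-- local primitives of a cocycle on a contractible open set -/
theorem exists_prim_on {φ : C(Dn 1, X) → A} (h : IsCoc φ) (U : Set X) (hU : ContractibleSpace U) :
    ∃ f : X → A, ∀ σ : C(Dn 1, X), (∀ t, σ t ∈ U) → φ σ = f (σ (vx 1 1)) - f (σ (vx 1 0)) := by
  classical
  let i : C(U, X) := ⟨Subtype.val, continuous_subtype_val⟩
  have h1 : IsCoc (fun σ : C(Dn 1, U) => φ (i.comp σ)) := fun t => h (i.comp t)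
  obtain ⟨f, hf⟩ := isExact_of_contractible h1
  refine ⟨fun x => if hx : x ∈ U then f ⟨x, hx⟩ else 0, fun σ hσ => ?_⟩
  have h2 := hf ⟨fun t => ⟨σ t, hσ t⟩, σ.continuous.subtype_mk hσ⟩
  simp only [dif_pos (hσ _)]
  exact h2

/-- **The local primitive system of a cocycle.** -/
theorem exists_LPS [LocallyPathConnectedSpace X] (U : X → Set X) (hU : ∀ x, IsOpen (U x))
    (hx : ∀ x, x ∈ U x) (hc : ∀ x, ContractibleSpace (U x)) {φ : C(Dn 1, X) → A} (h : IsCoc φ) :
    ∃ P : LPS X A, P.ι = X ∧ P.U ≍ U ∧ P.vary = φ := by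
  choose f hf using fun x => exists_prim_on h (U x) (hc x)
  let P : LPS X A :=
    { ι := X
      U := U
      isOpen := hU
      cover := fun y => ⟨y, hx y⟩
      h := f
      loc := by
        intro i j z hi hj
        obtain ⟨W, ⟨hW, hWc⟩, hW2⟩ := (path_connected_basis z).mem_iff.1
          (((hU i).inter (hU j)).mem_nhds ⟨hi, hj⟩)
        filter_upwards [hW] with w hw
        obtain ⟨σ, h0, h1, h2⟩ := exists_simplex_joinedIn
          (hWc.joinedIn z (mem_of_mem_nhds hW) w hw)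
        have e1 := hf i σ (fun t => (hW2 (h2 t)).1)
        have e2 := hf j σ (fun t => (hW2 (h2 t)).2)
        rw [h0, h1] at e1 e2
        have e3 := e1.symm.trans e2
        rw [sub_eq_sub_iff_sub_eq_sub] at e3
        exact e3 }
  refine ⟨P, rfl, HEq.rfl, ?_⟩
  funext σ
  have h1 : IsCoc (fun τ : C(Dn 1, Dn 1) => φ (σ.comp τ)) := fun t => h (σ.comp t)
  obtain ⟨H, hH⟩ := isExact_of_contractible h1
  have h2 : (P.pull σ).IsPrim H := by
    intro i z hz
    obtain ⟨W, ⟨hW, hWc⟩, hW2⟩ := (path_connected_basis z).mem_iff.1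
      (((P.pull σ).isOpen i).mem_nhds hz)
    filter_upwards [hW] with w hw
    obtain ⟨τ, h0, h1, h2⟩ := exists_simplex_joinedIn
      (hWc.joinedIn z (mem_of_mem_nhds hW) w hw)
    have e1 := hf i (σ.comp τ) (fun t => hW2 (h2 t))
    have e2 := hH τ
    rw [h0, h1] at e2
    rw [← e2]
    refine e1.trans ?_
    change f i (σ (τ (vx 1 1))) - f i (σ (τ (vx 1 0))) = f i (σ w) - f i (σ z)
    rw [h0, h1]
  rw [P.vary_eq h2]
  exact (hH (ContinuousMap.id _)).symm

end

end Crest.Agent.R275.ZC352
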