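import Crest.Agent.R275.ZC2_352

/-! R275, block ZC (helper352), file 3: rank one. If `H₁(X; ℚ)` has dimension one then there is a
rational cocycle `φ`, not exact over ℝ, such that every real cocycle is a multiple of `φ` modulo
exact ones. -/

set_option autoImplicit false

open Topology Set Filter

namespace Crest.Agent.R275.ZC352

noncomputable section

variable {X : Type} [TopologicalSpace X]

/-- rank one in terms of chains -/
theorem exists_gen_of_finrank (h : Module.finrank ℚ (SH ℚ 1 X) = 1) :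
    ∃ c₀ : (SC ℚ X).X 1, bd ℚ X 0 c₀ = 0 ∧ (¬ ∃ e, bd ℚ X 1 e = c₀) ∧
      ∀ c : (SC ℚ X).X 1, bd ℚ X 0 c = 0 → ∃ (q : ℚ) (e : (SC ℚ X).X 2),
        c = q • c₀ + bd ℚ X 1 e := by
  obtain ⟨v, hv, hspan⟩ := finrank_eq_one_iff'.1 h
  obtain ⟨c₀, hc₀, rfl⟩ := cls_surj (n := 0) v
  refine ⟨c₀, hc₀, fun he => hv ((cls_eq_zero_iff (n := 0) c₀ hc₀).2 he), fun c hc => ?_⟩
  obtain ⟨q, hq⟩ := hspan (cls c hc)
  have h1 : bd ℚ X 0 (q • c₀) = 0 := by rw [map_smul, hc₀, smul_zero]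
  have h2 : bd ℚ X 0 (c - q • c₀) = 0 := by rw [map_sub, hc, h1, sub_zero]
  have h3 : cls (n := 0) (c - q • c₀) h2 = 0 := by
    rw [cls_sub c (q • c₀) hc h1, cls_smul q c₀ hc₀, ← hq, sub_self]
  obtain ⟨e, he⟩ := (cls_eq_zero_iff (n := 0) _ h2).1 h3
  exact ⟨q, e, by rw [he]; abel⟩

/-- **Theorem H1.** -/
theorem exists_cocycle_of_finrank [PathConnectedSpace X]
    (h : Module.finrank ℚ (SH ℚ 1 X) = 1) :
    ∃ φ : C(Dn 1, X) → ℚ, IsCoc φ ∧ ¬ IsExact φ ∧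
      ∀ (V : Type) [AddCommGroup V] [Module ℚ V] (ψ : C(Dn 1, X) → V), IsCoc ψ →
        ∃ (v : V) (f : X → V), ∀ σ, ψ σ = φ σ • v + (f (σ (vx 1 1)) - f (σ (vx 1 0))) := by
  obtain ⟨c₀, hc₀, hne, hall⟩ := exists_gen_of_finrank h
  have h1 : c₀ ∉ LinearMap.range (bd ℚ X 1) := fun ⟨e, he⟩ => hne ⟨e, he⟩
  obtain ⟨L, hL1, hL2⟩ := Submodule.exists_dual_map_eq_bot_of_notMem h1 inferInstance
  have hLB : ∀ e, L (bd ℚ X 1 e) = 0 := by
    intro e
    have : L (bd ℚ X 1 e) ∈ Submodule.map L (LinearMap.range (bd ℚ X 1)) :=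
      Submodule.mem_map_of_mem ⟨e, rfl⟩
    rw [hL2] at this
    exact this
  -- normalise
  let φ : C(Dn 1, X) → ℚ := fun σ => (L c₀)⁻¹ * L (sgl ℚ σ)
  have hφ : liftC (k := ℚ) φ = (L c₀)⁻¹ • L := by
    apply chain_ext
    intro σ
    rw [liftC_sgl]
    rfl
  have hcoc : IsCoc φ := by
    rw [isCoc_iff (k := ℚ)]
    intro c
    rw [hφ, LinearMap.smul_apply, hLB, smul_zero]
  have hc0 : liftC (k := ℚ) φ c₀ = 1 := by
    rw [hφ, LinearMap.smul_apply, smul_eq_mul, inv_mul_cancel₀ hL1]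
  refine ⟨φ, hcoc, ?_, ?_⟩
  · intro hex
    have := isExact_vanish hex c₀ hc₀
    rw [hc0] at this
    exact one_ne_zero this
  · intro V _ _ ψ hψ
    let v := liftC (k := ℚ) ψ c₀
    have h2 : liftC (k := ℚ) (fun σ => ψ σ - φ σ • v) =
        liftC (k := ℚ) ψ - (LinearMap.toSpanSingleton ℚ V v).comp (liftC (k := ℚ) φ) := by
      apply chain_ext
      intro σ
      rw [liftC_sgl, LinearMap.sub_apply, LinearMap.comp_apply, liftC_sgl, liftC_sgl]
      rfl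
    have h3 : IsExact (fun σ => ψ σ - φ σ • v) := by
      refine isExact_of_cycles ℚ _ fun c hc => ?_
      obtain ⟨q, e, rfl⟩ := hall c hc
      rw [h2, LinearMap.sub_apply, LinearMap.comp_apply, map_add, map_add, map_smul, map_smul, hc0,
        (isCoc_iff (k := ℚ) ψ).1 hψ, (isCoc_iff (k := ℚ) φ).1 hcoc]
      simp [v]
    obtain ⟨f, hf⟩ := h3
    refine ⟨v, f, fun σ => ?_⟩
    have h4 : ψ σ - φ σ • v = f (σ (vx 1 1)) - f (σ (vx 1 0)) := hf σ
    rw [← h4, add_sub_cancel]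

end

end Crest.Agent.R275.ZC352
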