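import Crest.Agent.R275.ZC4_352

/-! R275, block ZC (helper352), file 5: cocycles and concatenation of paths, groups of periods,
boundedness of denominators on compact spaces. -/

set_option autoImplicit false

open Topology Set Filter

local notation "I" => unitInterval

namespace Crest.Agent.R275.ZC352

noncomputable section

/-! ### coordinates of faces -/

theorem face_apply (n : ℕ) (i : Fin (n + 2)) (x : Dn n) (j : Fin (n + 2)) :
    face n i x j = ∑ l, if i.succAbove l = j then x l else 0 := by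
  change FunOnFinite.linearMap ℝ ℝ i.succAbove (x : Fin (n + 1) → ℝ) j = _
  rw [FunOnFinite.linearMap_apply_apply, Finset.sum_filter]

theorem face_1_0_coord (x : Dn 1) :
    face 1 0 x 0 = 0 ∧ face 1 0 x 1 = x 0 ∧ face 1 0 x 2 = x 1 := by
  refine ⟨?_, ?_, ?_⟩ <;> rw [face_apply, Fin.sum_univ_two] <;> simp [Fin.succAbove]

theorem face_1_1_coord (x : Dn 1) :
    face 1 1 x 0 = x 0 ∧ face 1 1 x 1 = 0 ∧ face 1 1 x 2 = x 1 := by
  refine ⟨?_, ?_, ?_⟩ <;> rw [face_apply, Fin.sum_univ_two] <;> simp [Fin.succAbove]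

theorem face_1_2_coord (x : Dn 1) :
    face 1 2 x 0 = x 0 ∧ face 1 2 x 1 = x 1 ∧ face 1 2 x 2 = 0 := by
  refine ⟨?_, ?_, ?_⟩ <;> rw [face_apply, Fin.sum_univ_two] <;> simp [Fin.succAbove]

variable {X : Type} [TopologicalSpace X] {A : Type} [AddCommGroup A]

theorem sd_apply {x y : X} (γ : Path x y) (t : Dn 1) (s : I) (h : (s : ℝ) = t 1) :
    sd γ t = γ s := by
  change γ (stdSimplexHomeomorphUnitInterval t) = γ s
  congr 1
  exact Subtype.ext h.symm

/-- a cocycle vanishes on constant simplices -/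
theorem IsCoc.const {φ : C(Dn 1, X) → A} (h : IsCoc φ) (x : X) :
    φ (ContinuousMap.const _ x) = 0 := by
  have h1 := h (ContinuousMap.const _ x)
  have h2 : ∀ i, (ContinuousMap.const (Dn 2) x).comp (face 1 i) = ContinuousMap.const _ x :=
    fun i => rfl
  rw [h2, h2, h2, sub_self, zero_add] at h1
  exact h1

/-- a map from the triangle to the interval -/
def triI (a b : ℝ) (ha : a ∈ I) (hb : b ∈ I) : C(Dn 2, I) :=
  ⟨fun t => ⟨a * t 1 + b * t 2, by
      have h0 := t.2.1 0
      have h1 := t.2.1 1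
      have h2 := t.2.1 2
      have h3 : t 0 + t 1 + t 2 = 1 := by
        have := t.2.2
        rw [Fin.sum_univ_three] at this
        exact this
      change (0 : ℝ) ≤ t 0 at h0
      change (0 : ℝ) ≤ t 1 at h1
      change (0 : ℝ) ≤ t 2 at h2
      constructor
      · have := mul_nonneg ha.1 h1
        have := mul_nonneg hb.1 h2
        linarith
      · have := mul_le_of_le_one_left h1 ha.2
        have := mul_le_of_le_one_left h2 hb.2
        linarith⟩, by
    apply Continuous.subtype_mk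
    have h1 : Continuous fun t : Dn 2 => t 1 := (continuous_apply 1).comp continuous_subtype_val
    have h2 : Continuous fun t : Dn 2 => t 2 := (continuous_apply 2).comp continuous_subtype_val
    exact (continuous_const.mul h1).add (continuous_const.mul h2)⟩

theorem triI_coe (a b : ℝ) (ha : a ∈ I) (hb : b ∈ I) (t : Dn 2) :
    (triI a b ha hb t : ℝ) = a * t 1 + b * t 2 := rfl

theorem Dn1_sum (x : Dn 1) : x 0 + x 1 = 1 := by
  have := x.2.2
  rw [Fin.sum_univ_two] at this
  exact this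

theorem Dn1_nonneg (x : Dn 1) (i : Fin 2) : 0 ≤ x i := x.2.1 i

theorem half_mem : (1 / 2 : ℝ) ∈ I := by constructor <;> norm_num

theorem IsCoc.trans {φ : C(Dn 1, X) → A} (h : IsCoc φ) {x y z : X} (γ : Path x y)
    (γ' : Path y z) : φ (sd (γ.trans γ')) = φ (sd γ) + φ (sd γ') := by
  let t : C(Dn 2, X) := (γ.trans γ').toContinuousMap.comp
    (triI (1 / 2) 1 half_mem unitInterval.one_mem)
  have h1 := h t
  have e0 : t.comp (face 1 0) = sd γ' := by
    ext s
    have hs := face_1_0_coord s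
    have h2 := Dn1_sum s
    have h3 := Dn1_nonneg s 1
    have h4 := Dn1_nonneg s 0
    rw [sd_apply γ' s ⟨s 1, h3, by linarith⟩ rfl]
    change (γ.trans γ') (triI (1 / 2) 1 half_mem unitInterval.one_mem (face 1 0 s)) = _
    rw [Path.trans_apply]
    have h5 : (triI (1 / 2) 1 half_mem unitInterval.one_mem (face 1 0 s) : ℝ) =
        1 / 2 + s 1 / 2 := by
      rw [triI_coe, hs.2.1, hs.2.2]
      linarith
    by_cases h6 : s 1 = 0
    · rw [dif_pos (by rw [h5, h6]; norm_num)]
      have e1 : ∀ u : I, (u : ℝ) = 1 → γ u = y := by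
        intro u hu
        have : u = 1 := Subtype.ext hu
        rw [this, γ.target]
      have e2 : ∀ u : I, (u : ℝ) = 0 → γ' u = y := by
        intro u hu
        have : u = 0 := Subtype.ext hu
        rw [this, γ'.source]
      rw [e1 _ (by change 2 * _ = (1 : ℝ); rw [h5, h6]; norm_num), e2 _ h6]
    · rw [dif_neg (by
        rw [h5, not_le]
        have : 0 < s 1 := lt_of_le_of_ne h3 (Ne.symm h6)
        linarith)]
      congr 1
      apply Subtype.ext
      change 2 * _ - 1 = s 1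
      rw [h5]
      ring
  have e1 : t.comp (face 1 1) = sd (γ.trans γ') := by
    ext s
    have hs := face_1_1_coord s
    rw [sd_apply (γ.trans γ') s _ _]
    · rfl
    · change (triI (1 / 2) 1 half_mem unitInterval.one_mem (face 1 1 s) : ℝ) = s 1
      rw [triI_coe, hs.2.1, hs.2.2]
      ring
  have e2 : t.comp (face 1 2) = sd γ := by
    ext s
    have hs := face_1_2_coord s
    have h2 := Dn1_sum s
    have h3 := Dn1_nonneg s 1
    have h4 := Dn1_nonneg s 0
    rw [sd_apply γ s ⟨s 1, h3, by linarith⟩ rfl]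
    change (γ.trans γ') (triI (1 / 2) 1 half_mem unitInterval.one_mem (face 1 2 s)) = _
    rw [Path.trans_apply]
    have h5 : (triI (1 / 2) 1 half_mem unitInterval.one_mem (face 1 2 s) : ℝ) = s 1 / 2 := by
      rw [triI_coe, hs.2.1, hs.2.2]
      ring
    rw [dif_pos (by rw [h5]; linarith)]
    congr 1
    apply Subtype.ext
    change 2 * _ = s 1
    rw [h5]
    ring
  rw [e0, e1, e2] at h1
  have h7 : φ (sd (γ.trans γ')) = φ (sd γ') + φ (sd γ) := by
    have := sub_eq_zero.1 (show (φ (sd γ') + φ (sd γ)) - φ (sd (γ.trans γ')) = 0 by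
      rw [← h1]; abel)
    exact this.symm
  rw [h7, add_comm]

theorem IsCoc.symm {φ : C(Dn 1, X) → A} (h : IsCoc φ) {x y : X} (γ : Path x y) :
    φ (sd γ.symm) = - φ (sd γ) := by
  let t : C(Dn 2, X) := γ.toContinuousMap.comp
    (triI 1 0 unitInterval.one_mem unitInterval.zero_mem)
  have h1 := h t
  have e0 : t.comp (face 1 0) = sd γ.symm := by
    ext s
    have hs := face_1_0_coord s
    have h2 := Dn1_sum s
    have h3 := Dn1_nonneg s 1
    have h4 := Dn1_nonneg s 0
    rw [sd_apply γ.symm s ⟨s 1, h3, by linarith⟩ rfl]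
    change γ (triI 1 0 unitInterval.one_mem unitInterval.zero_mem (face 1 0 s)) =
      γ (unitInterval.symm _)
    congr 1
    apply Subtype.ext
    rw [triI_coe, hs.2.1, hs.2.2]
    change 1 * s 0 + 0 * s 1 = 1 - s 1
    linarith
  have e1 : t.comp (face 1 1) = ContinuousMap.const _ x := by
    ext s
    have hs := face_1_1_coord s
    change γ (triI 1 0 unitInterval.one_mem unitInterval.zero_mem (face 1 1 s)) = x
    have : triI 1 0 unitInterval.one_mem unitInterval.zero_mem (face 1 1 s) = 0 := by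
      apply Subtype.ext
      rw [triI_coe, hs.2.1, hs.2.2]
      change 1 * 0 + 0 * s 1 = (0 : ℝ)
      ring
    rw [this, γ.source]
  have e2 : t.comp (face 1 2) = sd γ := by
    ext s
    have hs := face_1_2_coord s
    rw [sd_apply γ s _ _]
    · rfl
    · change (triI 1 0 unitInterval.one_mem unitInterval.zero_mem (face 1 2 s) : ℝ) = s 1
      rw [triI_coe, hs.2.1, hs.2.2]
      ring
  rw [e0, e1, e2, h.const, sub_zero] at h1
  exact eq_neg_of_add_eq_zero_left h1

theorem sd_refl (x : X) : sd (Path.refl x) = ContinuousMap.const _ x := rfl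

/-! ### periods -/

/-- group of periods of a cocycle -/
def periods {φ : C(Dn 1, X) → A} (h : IsCoc φ) (x₀ : X) : AddSubgroup A where
  carrier := {a | ∃ γ : Path x₀ x₀, φ (sd γ) = a}
  zero_mem' := ⟨Path.refl x₀, by rw [sd_refl]; exact h.const x₀⟩
  add_mem' := by
    rintro a b ⟨γ, rfl⟩ ⟨γ', rfl⟩
    exact ⟨γ.trans γ', h.trans γ γ'⟩
  neg_mem' := by
    rintro a ⟨γ, rfl⟩
    exact ⟨γ.symm, h.symm γ⟩

theorem mem_periods {φ : C(Dn 1, X) → A} (h : IsCoc φ) (x₀ : X) (a : A) :
    a ∈ periods h x₀ ↔ ∃ γ : Path x₀ x₀, φ (sd γ) = a := Iff.rfl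

/-- path of a simplex -/
def ofSd (σ : C(Dn 1, X)) : Path (σ (vx 1 0)) (σ (vx 1 1)) where
  toFun t := σ (stdSimplexHomeomorphUnitInterval.symm t)
  continuous_toFun := σ.continuous.comp stdSimplexHomeomorphUnitInterval.symm.continuous
  source' := by
    congr 1
    exact (Homeomorph.symm_apply_eq _).2 rfl
  target' := by
    congr 1
    exact (Homeomorph.symm_apply_eq _).2 rfl

theorem sd_ofSd (σ : C(Dn 1, X)) : sd (ofSd σ) = σ := by
  ext t
  change σ (stdSimplexHomeomorphUnitInterval.symm (stdSimplexHomeomorphUnitInterval t)) = σ t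
  rw [Homeomorph.symm_apply_apply]

/-- modulo its periods a cocycle is exact -/
theorem exists_prim_mod_periods [PathConnectedSpace X] {φ : C(Dn 1, X) → A} (h : IsCoc φ)
    (x₀ : X) : ∃ f : X → A, (∀ γ : Path x₀ x₀, f x₀ ∈ periods h x₀) ∧
      ∀ σ : C(Dn 1, X), φ σ - (f (σ (vx 1 1)) - f (σ (vx 1 0))) ∈ periods h x₀ := by
  let p : ∀ x : X, Path x₀ x := fun x => PathConnectedSpace.somePath x₀ x
  refine ⟨fun x => φ (sd (p x)), fun _ => ⟨p x₀, rfl⟩, fun σ => ?_⟩
  refine ⟨((p _).trans (ofSd σ)).trans (p _).symm, ?_⟩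
  rw [h.trans, h.trans, h.symm, sd_ofSd]
  abel

theorem isExact_of_periods_eq_bot [PathConnectedSpace X] {φ : C(Dn 1, X) → A} (h : IsCoc φ)
    (x₀ : X) (hb : periods h x₀ = ⊥) : IsExact φ := by
  obtain ⟨f, -, hf⟩ := exists_prim_mod_periods h x₀
  refine ⟨f, fun σ => ?_⟩
  have := hf σ
  rw [hb, AddSubgroup.mem_bot, sub_eq_zero] at this
  exact this

theorem IsCoc.map {B : Type} [AddCommGroup B] {φ : C(Dn 1, X) → A} (h : IsCoc φ) (f : A →+ B) :
    IsCoc (fun σ => f (φ σ)) := by
  intro t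
  rw [← map_sub, ← map_add, h t, map_zero]

/-! ### bounded denominators -/

theorem exists_common_den {s : Set ℚ} (hs : s.Finite) :
    ∃ D : ℕ, 0 < D ∧ ∀ q ∈ s, ∃ n : ℤ, (D : ℚ) * q = n := by
  classical
  refine ⟨∏ q ∈ hs.toFinset, q.den, Finset.prod_pos fun q _ => q.pos, fun q hq => ?_⟩
  obtain ⟨c, hc⟩ := Finset.dvd_prod_of_mem (fun q : ℚ => q.den) (hs.mem_toFinset.2 hq)
  refine ⟨c * q.num, ?_⟩
  rw [hc]
  push_cast
  have := Rat.mul_den_eq_num q
  calc (q.den : ℚ) * c * q = c * (q * q.den) := by ring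
    _ = c * q.num := by rw [this]

theorem finite_image_of_locallyConstantOn {f : X → ℚ} {K : Set X} (hK : IsCompact K)
    (hf : ∀ x ∈ K, ∀ᶠ y in 𝓝 x, f y = f x) : (f '' K).Finite := by
  refine hK.induction_on (p := fun K => (f '' K).Finite) (by simp) ?_ ?_ ?_
  · intro s t hst ht
    exact ht.subset (image_mono hst)
  · intro s t hs ht
    rw [image_union]
    exact hs.union ht
  · intro x hx
    refine ⟨{y | f y = f x}, mem_nhdsWithin_of_mem_nhds (hf x hx), ?_⟩
    refine (finite_singleton (f x)).subset ?_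
    rintro _ ⟨y, hy, rfl⟩
    exact hy

/-- **bounded denominators** -/
theorem exists_den [CompactSpace X] [T2Space X] (P : LPS X ℚ) :
    ∃ D : ℕ, 0 < D ∧ ∃ G : X → ℚ, ∀ σ : C(Dn 1, X), ∃ n : ℤ,
      (D : ℚ) * (P.vary σ - (G (σ (vx 1 1)) - G (σ (vx 1 0)))) = n := by
  classical
  -- shrink the cover
  choose i hi using P.cover
  have h1 : ∀ x, ∃ V : Set X, IsOpen V ∧ x ∈ V ∧ closure V ⊆ P.U (i x) := by
    intro x
    obtain ⟨V, hV, hVc, hVU⟩ := exists_mem_nhds_isClosed_subset ((P.isOpen (i x)).mem_nhds (hi x))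
    obtain ⟨W, hWV, hW, hxW⟩ := mem_nhds_iff.1 hV
    exact ⟨W, hW, hxW, (closure_minimal hWV hVc).trans hVU⟩
  choose V hV hxV hVU using h1
  obtain ⟨t, ht⟩ := isCompact_univ.elim_finite_subcover V hV (fun x _ => mem_iUnion.2 ⟨x, hxV x⟩)
  have hcov : ∀ x : X, ∃ c ∈ t, x ∈ V c := by
    intro x
    have := ht (mem_univ x)
    simpa using this
  choose c hct hxc using hcov
  -- common denominator
  have hfin : (⋃ a ∈ t, ⋃ b ∈ t, (fun x => P.h (i a) x - P.h (i b) x) ''
      (closure (V a) ∩ closure (V b))).Finite := by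
    refine t.finite_toSet.biUnion fun a _ => t.finite_toSet.biUnion fun b _ => ?_
    refine finite_image_of_locallyConstantOn
      ((isClosed_closure.inter isClosed_closure).isCompact) ?_
    rintro x ⟨hxa, hxb⟩
    exact P.loc (i a) (i b) x (hVU a hxa) (hVU b hxb)
  obtain ⟨D, hD, hDq⟩ := exists_common_den hfin
  refine ⟨D, hD, fun x => P.h (i (c x)) x, fun σ => ?_⟩
  -- work modulo integers
  let Zq : AddSubgroup ℚ := (Int.castAddHom ℚ).range
  let m : ℚ →+ (ℚ ⧸ Zq) := (QuotientAddGroup.mk' Zq).comp (AddMonoidHom.mulLeft (D : ℚ))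
  have hm : ∀ q : ℚ, m q = 0 ↔ ∃ n : ℤ, (D : ℚ) * q = n := by
    intro q
    change (QuotientAddGroup.mk' Zq) ((D : ℚ) * q) = 0 ↔ _
    rw [QuotientAddGroup.mk'_apply, QuotientAddGroup.eq_zero_iff]
    constructor
    · rintro ⟨n, hn⟩
      exact ⟨n, hn.symm⟩
    · rintro ⟨n, hn⟩
      exact ⟨n, hn.symm⟩
  have hprim : (P.map m).IsPrim (fun x => m (P.h (i (c x)) x)) := by
    apply LPS.isPrim_of_exists
    intro z
    refine ⟨i (c z), hVU (c z) (subset_closure (hxc z)), ?_⟩
    filter_upwards [(hV (c z)).mem_nhds (hxc z)] with w hw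
    change m (P.h (i (c w)) w) - m (P.h (i (c z)) z) = m (P.h (i (c z)) w) - m (P.h (i (c z)) z)
    congr 1
    rw [← sub_eq_zero, ← map_sub, hm]
    apply hDq
    simp only [mem_iUnion]
    exact ⟨c w, hct w, c z, hct z, w, ⟨subset_closure (hxc w), subset_closure hw⟩, rfl⟩
  have h2 := (P.map m).vary_of_isPrim hprim σ
  rw [LPS.vary_map] at h2
  rw [← hm, map_sub, map_sub, h2, sub_self]

/-- additive subgroups of `ℚ` with bounded denominators are cyclic -/
theorem exists_zmultiples {H : AddSubgroup ℚ} {D : ℕ} (hD : 0 < D)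
    (h : ∀ q ∈ H, ∃ n : ℤ, (D : ℚ) * q = n) : ∃ r : ℚ, H = AddSubgroup.zmultiples r := by
  have hD' : (D : ℚ) ≠ 0 := by exact_mod_cast hD.ne'
  let f : ℤ →+ ℚ := (AddMonoidHom.mulLeft ((D : ℚ)⁻¹)).comp (Int.castAddHom ℚ)
  have hf : ∀ n : ℤ, f n = (D : ℚ)⁻¹ * n := fun n => rfl
  obtain ⟨a, ha⟩ := Int.subgroup_cyclic (H.comap f)
  refine ⟨f a, ?_⟩
  ext q
  constructor
  · intro hq
    obtain ⟨n, hn⟩ := h q hq
    have h1 : f n = q := by
      rw [hf, ← hn, inv_mul_cancel_left₀ hD']
    have h2 : n ∈ H.comap f := by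
      rw [AddSubgroup.mem_comap, h1]
      exact hq
    rw [ha, ← AddSubgroup.zmultiples_eq_closure] at h2
    obtain ⟨k, hk⟩ := h2
    refine ⟨k, ?_⟩
    have hk' : k • a = n := hk
    change k • f a = q
    rw [← h1, ← hk', map_zsmul]
  · rintro ⟨k, rfl⟩
    change k • f a ∈ H
    apply H.zsmul_mem
    have : a ∈ H.comap f := by
      rw [ha]
      exact AddSubgroup.subset_closure rfl
    exact this

end

end Crest.Agent.R275.ZC352
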