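import Crest.Agent.R275.ZC5_352

/-! R275, block ZC (helper352), file 6: the normalised smooth local primitive system of a compact
connected complex manifold with `dim H₁(X; ℚ) = 1`. -/

set_option autoImplicit false

open Topology Set Filter
open scoped Manifold ContDiff

namespace Crest.Agent.R275.ZC352

noncomputable section

section charts

theorem exists_contractible_nhd (E : Type) [NormedAddCommGroup E] [NormedSpace ℝ E]
    {X : Type} [TopologicalSpace X] [ChartedSpace E X] (x : X) :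
    ∃ U : Set X, IsOpen U ∧ x ∈ U ∧ ContractibleSpace U := by
  let e := chartAt E x
  obtain ⟨r, hr, hb⟩ := Metric.isOpen_iff.1 e.open_target (e x) (mem_chart_target E x)
  let e' := e.symm.restrOpen (Metric.ball (e x) r) Metric.isOpen_ball
  have hs : e'.source = Metric.ball (e x) r := by
    rw [OpenPartialHomeomorph.restrOpen_source]
    exact inter_eq_right.2 hb
  refine ⟨e'.target, e'.open_target, ?_, ?_⟩
  · have h1 : e' (e x) ∈ e'.target := e'.map_source (by
      rw [hs]; exact Metric.mem_ball_self hr)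
    have h2 : e' (e x) = x := e.left_inv (mem_chart_source E x)
    rwa [h2] at h1
  · have h3 : ContractibleSpace (Metric.ball (e x) r) := Metric.contractibleSpace_ball hr
    have h4 : ContractibleSpace e'.source := by rw [hs]; exact h3
    exact e'.toHomeomorphSourceTarget.symm.contractibleSpace

end charts

section main

variable {X : Type} [TopologicalSpace X]

/-- universal property of a real cocycle -/
def IsUniv (φ : C(Dn 1, X) → ℝ) : Prop :=
  ∀ (V : Type) [AddCommGroup V] [Module ℝ V] (ψ : C(Dn 1, X) → V), IsCoc ψ →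
    ∃ (v : V) (f : X → V), ∀ σ, ψ σ = φ σ • v + (f (σ (vx 1 1)) - f (σ (vx 1 0)))

/-- the normalised rational cocycle -/
theorem exists_integral [CompactSpace X] [T2Space X] [PathConnectedSpace X]
    [LocallyPathConnectedSpace X]
    (hc : ∀ x : X, ∃ U : Set X, IsOpen U ∧ x ∈ U ∧ ContractibleSpace U)
    (h : Module.finrank ℚ (SH ℚ 1 X) = 1) :
    ∃ P : LPS X ℝ, (∀ (x₀ : X) (a : ℝ), (∃ γ : Path x₀ x₀, P.vary (sd γ) = a) ↔
      ∃ n : ℤ, (n : ℝ) = a) ∧ IsUniv P.vary := by
  obtain ⟨φ, hφ, hne, huniv⟩ := exists_cocycle_of_finrank h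
  choose U hU hxU hcU using hc
  obtain ⟨P, -, -, hPφ⟩ := exists_LPS U hU hxU hcU hφ
  obtain ⟨D, hD, G, hG⟩ := exists_den P
  have hden : ∀ x₀ : X, ∀ q ∈ periods hφ x₀, ∃ n : ℤ, (D : ℚ) * q = n := by
    rintro x₀ q ⟨γ, rfl⟩
    obtain ⟨n, hn⟩ := hG (sd γ)
    refine ⟨n, ?_⟩
    rw [hPφ, sd_zero, sd_one, sub_self, sub_zero] at hn
    exact hn
  obtain ⟨x₁⟩ : Nonempty X := inferInstance
  obtain ⟨r, hr⟩ := exists_zmultiples hD (hden x₁)
  have hr0 : r ≠ 0 := by
    rintro rfl
    apply hne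
    apply isExact_of_periods_eq_bot hφ x₁
    rw [hr, AddSubgroup.zmultiples_zero_eq_bot]
  -- periods at another base point
  have hper : ∀ x₀ : X, periods hφ x₀ = periods hφ x₁ := by
    have key : ∀ x y : X, periods hφ x ≤ periods hφ y := by
      rintro x y _ ⟨γ, rfl⟩
      let p : Path y x := PathConnectedSpace.somePath y x
      refine ⟨(p.trans γ).trans p.symm, ?_⟩
      rw [hφ.trans, hφ.trans, hφ.symm]
      abel
    intro x₀
    exact le_antisymm (key _ _) (key _ _)
  let m : ℚ →+ ℝ := ((Rat.castHom ℝ).toAddMonoidHom).comp (AddMonoidHom.mulLeft r⁻¹)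
  have hm : ∀ q : ℚ, m q = (r : ℝ)⁻¹ * (q : ℝ) := by
    intro q
    change ((r⁻¹ * q : ℚ) : ℝ) = _
    push_cast
    rfl
  have hr0' : (r : ℝ) ≠ 0 := by exact_mod_cast hr0
  have hPv : ∀ σ, (P.map m).vary σ = (r : ℝ)⁻¹ * (φ σ : ℝ) := by
    intro σ
    rw [LPS.vary_map, hPφ, hm]
  refine ⟨P.map m, fun x₀ a => ?_, ?_⟩
  · constructor
    · rintro ⟨γ, rfl⟩
      have h1 : φ (sd γ) ∈ periods hφ x₀ := ⟨γ, rfl⟩
      rw [hper, hr] at h1
      obtain ⟨n, hn⟩ := h1
      refine ⟨n, ?_⟩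
      have hn' : (n : ℚ) * r = φ (sd γ) := by
        rw [← hn]
        simp
      rw [hPv, ← hn']
      push_cast
      field_simp
    · rintro ⟨n, rfl⟩
      have h1 : n • r ∈ periods hφ x₀ := by
        rw [hper, hr]
        exact ⟨n, rfl⟩
      obtain ⟨γ, hγ⟩ := h1
      refine ⟨γ, ?_⟩
      rw [hPv, hγ]
      push_cast [zsmul_eq_mul]
      field_simp
  · intro V _ _ ψ hψ
    let _ : Module ℚ V := Module.compHom V (algebraMap ℚ ℝ)
    obtain ⟨v, f, hf⟩ := huniv V ψ hψ
    refine ⟨(r : ℝ) • v, f, fun σ => ?_⟩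
    rw [hf σ, hPv]
    congr 1
    change ((φ σ : ℚ) : ℝ) • v = _
    rw [smul_smul]
    congr 1
    field_simp

end main

section manifold

variable {E : Type} [NormedAddCommGroup E] [NormedSpace ℂ E] [FiniteDimensional ℂ E]
  {X : Type} [TopologicalSpace X] [ChartedSpace E X] [IsManifold 𝓘(ℂ, E) 1 X]
  [T2Space X] [CompactSpace X] [ConnectedSpace X]

/-- **The normalised smooth local primitive system.** -/
theorem exists_smooth_LPS (h : Module.finrank ℚ (SH ℚ 1 X) = 1) :
    ∃ P : LPS X ℝ, (∀ i, ∀ x ∈ P.U i, ContMDiffAt 𝓘(ℝ, E) 𝓘(ℝ, ℝ) ∞ (P.h i) x) ∧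
      (∀ (x₀ : X) (a : ℝ), (∃ γ : Path x₀ x₀, P.vary (sd γ) = a) ↔ ∃ n : ℤ, (n : ℝ) = a) ∧
      IsUniv P.vary := by
  have hl : LocallyPathConnectedSpace X := ChartedSpace.locallyPathConnectedSpace E X
  have hp : PathConnectedSpace X := pathConnectedSpace_iff_connectedSpace.2 inferInstance
  have hman : IsManifold 𝓘(ℝ, E) ∞ X := isManifold_real
  have hfd : FiniteDimensional ℝ E := FiniteDimensional.complexToReal E
  obtain ⟨P, hP1, hP2⟩ := exists_integral (X := X)
    (fun x => exists_contractible_nhd E x) h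
  obtain ⟨S, hS⟩ := P.exists_smoothing (E := E)
  refine ⟨P.shift S, hS, fun x₀ a => ?_, ?_⟩
  · rw [← hP1 x₀ a]
    constructor
    · rintro ⟨γ, rfl⟩
      refine ⟨γ, ?_⟩
      rw [LPS.vary_shift, sd_zero, sd_one, sub_self, sub_zero]
    · rintro ⟨γ, rfl⟩
      refine ⟨γ, ?_⟩
      rw [LPS.vary_shift, sd_zero, sd_one, sub_self, sub_zero]
  · intro V _ _ ψ hψ
    obtain ⟨v, f, hf⟩ := hP2 V ψ hψ
    refine ⟨v, fun x => f x + S x • v, fun σ => ?_⟩
    rw [hf σ, LPS.vary_shift]
    beta_reduce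
    module

end manifold

end

end Crest.Agent.R275.ZC352
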