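import Mathlib

/-! R275, block ZC (helper352), file 7: pulling back charted spaces and manifold structures along a
local homeomorphism; fibre products with a local homeomorphism. -/

set_option autoImplicit false
set_option linter.unusedSectionVars false
set_option linter.style.haveILetI false

open Topology Set Filter
open scoped Manifold ContDiff

namespace Crest.Agent.R275.ZC352

noncomputable section

section charted

variable {H : Type} [TopologicalSpace H] {M Y : Type} [TopologicalSpace M] [TopologicalSpace Y]
  [ChartedSpace H M] {p : Y → M}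

/-- a local inverse of a local homeomorphism -/
def lh (hp : IsLocalHomeomorph p) (y : Y) : OpenPartialHomeomorph Y M := (hp y).choose

theorem lh_mem (hp : IsLocalHomeomorph p) (y : Y) : y ∈ (lh hp y).source :=
  (hp y).choose_spec.1

theorem lh_apply (hp : IsLocalHomeomorph p) (y z : Y) : lh hp y z = p z :=
  (congrFun (hp y).choose_spec.2 z).symm

/-- the charts of `Y` -/
@[reducible] def pullCharted (hp : IsLocalHomeomorph p) : ChartedSpace H Y where
  atlas := {e | ∃ y : Y, ∃ c ∈ atlas H M, e = (lh hp y).trans c}
  chartAt y := (lh hp y).trans (chartAt H (p y))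
  mem_chart_source y := by
    rw [OpenPartialHomeomorph.trans_source]
    refine ⟨lh_mem hp y, ?_⟩
    rw [mem_preimage, lh_apply]
    exact mem_chart_source H (p y)
  chart_mem_atlas y := ⟨y, chartAt H (p y), chart_mem_atlas H (p y), rfl⟩

/-- transition maps upstairs are restrictions of transition maps downstairs -/
theorem pull_transition (hp : IsLocalHomeomorph p) (y y' : Y) (c c' : OpenPartialHomeomorph M H) :
    (((lh hp y).trans c).symm.trans ((lh hp y').trans c')) ≈
      (c.symm.trans c').restr (((lh hp y).trans c).symm.trans ((lh hp y').trans c')).source := by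
  refine ⟨?_, ?_⟩
  · rw [OpenPartialHomeomorph.restr_source, (OpenPartialHomeomorph.open_source _).interior_eq]
    apply Eq.symm
    apply inter_eq_right.2
    intro z hz
    have h1 := hz
    simp only [OpenPartialHomeomorph.trans_source, OpenPartialHomeomorph.symm_source,
      OpenPartialHomeomorph.trans_target, mem_inter_iff, mem_preimage,
      OpenPartialHomeomorph.coe_trans_symm, Function.comp_apply] at h1 ⊢
    refine ⟨h1.1.1, ?_⟩
    have h3 := h1.2.2
    rw [lh_apply] at h3
    have h4 : p ((lh hp y).symm (c.symm z)) = c.symm z := by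
      rw [← lh_apply hp y, (lh hp y).right_inv h1.1.2]
    rwa [h4] at h3
  · intro z hz
    simp only [OpenPartialHomeomorph.trans_source, OpenPartialHomeomorph.symm_source,
      OpenPartialHomeomorph.trans_target, mem_inter_iff, mem_preimage,
      OpenPartialHomeomorph.coe_trans_symm, Function.comp_apply] at hz
    change c' (lh hp y' ((lh hp y).symm (c.symm z))) = c' (c.symm z)
    rw [lh_apply, ← lh_apply hp y, (lh hp y).right_inv hz.1.2]

theorem pull_hasGroupoid (hp : IsLocalHomeomorph p) (G : StructureGroupoid H)
    [ClosedUnderRestriction G] [HasGroupoid M G] :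
    @HasGroupoid H _ Y _ (pullCharted hp) G := by
  letI := pullCharted (H := H) hp
  refine ⟨?_⟩
  rintro _ _ ⟨y, c, hc, rfl⟩ ⟨y', c', hc', rfl⟩
  refine G.mem_of_eqOnSource ?_ (pull_transition hp y y' c c')
  exact closedUnderRestriction' (G.compatible hc hc') (OpenPartialHomeomorph.open_source _)

end charted

section manifold

variable {𝕜 : Type} [NontriviallyNormedField 𝕜] {E : Type} [NormedAddCommGroup E]
  [NormedSpace 𝕜 E] {H : Type} [TopologicalSpace H] {I : ModelWithCorners 𝕜 E H}
  {M Y : Type} [TopologicalSpace M] [TopologicalSpace Y] [ChartedSpace H M] {p : Y → M}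
  {n : WithTop ℕ∞}

theorem pull_isManifold (hp : IsLocalHomeomorph p) [IsManifold I n M] :
    @IsManifold 𝕜 _ E _ _ H _ I n Y _ (pullCharted hp) := by
  letI := pullCharted (H := H) hp
  have := pull_hasGroupoid (H := H) hp (contDiffGroupoid n I)
  exact IsManifold.mk' I n Y

variable [IsManifold I n M]

/-- the projection is `C^n` -/
theorem contMDiff_pullProj (hp : IsLocalHomeomorph p) :
    @ContMDiff 𝕜 _ E _ _ H _ I Y _ (pullCharted hp) E _ _ H _ I M _ _ n p := by
  letI := pullCharted (H := H) hp
  haveI := pull_isManifold (I := I) (n := n) hp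
  intro y
  have hc : (lh hp y).trans (chartAt H (p y)) ∈ IsManifold.maximalAtlas I n Y :=
    IsManifold.subset_maximalAtlas ⟨y, chartAt H (p y), chart_mem_atlas H (p y), rfl⟩
  have hc' : chartAt H (p y) ∈ IsManifold.maximalAtlas I n M :=
    IsManifold.chart_mem_maximalAtlas (p y)
  have hy : y ∈ ((lh hp y).trans (chartAt H (p y))).source := mem_chart_source H y
  have h1 : ContMDiffAt I I n ((chartAt H (p y)) ∘ p) y := by
    have h2 := (contMDiffOn_of_mem_maximalAtlas hc).contMDiffAt
      ((OpenPartialHomeomorph.open_source _).mem_nhds hy)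
    refine h2.congr_of_eventuallyEq (Eventually.of_forall fun z => ?_)
    change chartAt H (p y) (p z) = chartAt H (p y) (lh hp y z)
    rw [lh_apply]
  have h3 : ContMDiffAt I I n (chartAt H (p y)).symm (chartAt H (p y) (p y)) :=
    (contMDiffOn_symm_of_mem_maximalAtlas hc').contMDiffAt
      ((OpenPartialHomeomorph.open_target _).mem_nhds (mem_chart_target H (p y)))
  have h4 : ContMDiffAt I I n ((chartAt H (p y)).symm ∘ ((chartAt H (p y)) ∘ p)) y :=
    ContMDiffAt.comp y h3 h1
  refine h4.congr_of_eventuallyEq ?_
  have h5 : ∀ᶠ z in 𝓝 y, p z ∈ (chartAt H (p y)).source :=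
    hp.continuous.continuousAt.eventually
      ((chartAt H (p y)).open_source.mem_nhds (mem_chart_source H (p y)))
  filter_upwards [h5] with z hz
  exact ((chartAt H (p y)).left_inv hz).symm

/-- local sections are `C^n` -/
theorem contMDiffAt_pullSection (hp : IsLocalHomeomorph p) (y : Y) {x : M}
    (hx : x ∈ (lh hp y).target) :
    @ContMDiffAt 𝕜 _ E _ _ H _ I M _ _ E _ _ H _ I Y _ (pullCharted hp) n (lh hp y).symm x := by
  letI := pullCharted (H := H) hp
  haveI := pull_isManifold (I := I) (n := n) hp
  have hc : (lh hp y).trans (chartAt H x) ∈ IsManifold.maximalAtlas I n Y :=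
    IsManifold.subset_maximalAtlas ⟨y, chartAt H x, chart_mem_atlas H x, rfl⟩
  have hc' : chartAt H x ∈ IsManifold.maximalAtlas I n M := IsManifold.chart_mem_maximalAtlas x
  have h1 : ContMDiffAt I I n (chartAt H x) x :=
    (contMDiffOn_of_mem_maximalAtlas hc').contMDiffAt
      ((chartAt H x).open_source.mem_nhds (mem_chart_source H x))
  have h2 : ContMDiffAt I I n ((lh hp y).trans (chartAt H x)).symm (chartAt H x x) := by
    refine (contMDiffOn_symm_of_mem_maximalAtlas hc).contMDiffAt
      ((OpenPartialHomeomorph.open_target _).mem_nhds ?_)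
    rw [OpenPartialHomeomorph.trans_target]
    refine ⟨mem_chart_target H x, ?_⟩
    rw [mem_preimage, (chartAt H x).left_inv (mem_chart_source H x)]
    exact hx
  have h3 : ContMDiffAt I I n (((lh hp y).trans (chartAt H x)).symm ∘ chartAt H x) x :=
    ContMDiffAt.comp x h2 h1
  refine h3.congr_of_eventuallyEq ?_
  filter_upwards [(chartAt H x).open_source.mem_nhds (mem_chart_source H x)] with z hz
  change (lh hp y).symm z = (lh hp y).symm ((chartAt H x).symm (chartAt H x z))
  rw [(chartAt H x).left_inv hz]

variable {E' : Type} [NormedAddCommGroup E'] [NormedSpace 𝕜 E'] {H' : Type} [TopologicalSpace H']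
  {J : ModelWithCorners 𝕜 E' H'} {N : Type} [TopologicalSpace N] [ChartedSpace H' N]

/-- maps into `Y` -/
theorem contMDiffAt_into_pull_iff (hp : IsLocalHomeomorph p) {f : N → Y} {x : N} :
    @ContMDiffAt 𝕜 _ E' _ _ H' _ J N _ _ E _ _ H _ I Y _ (pullCharted hp) n f x ↔
      ContinuousAt f x ∧ ContMDiffAt J I n (p ∘ f) x := by
  letI := pullCharted (H := H) hp
  haveI := pull_isManifold (I := I) (n := n) hp
  constructor
  · intro h
    exact ⟨h.continuousAt, ContMDiffAt.comp x (contMDiff_pullProj hp (f x)) h⟩
  · rintro ⟨hc, h⟩
    have h1 : ContMDiffAt J I n ((lh hp (f x)).symm ∘ (p ∘ f)) x := by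
      refine ContMDiffAt.comp x (contMDiffAt_pullSection hp (f x) ?_) h
      change p (f x) ∈ (lh hp (f x)).target
      rw [← lh_apply hp (f x)]
      exact (lh hp (f x)).map_source (lh_mem hp (f x))
    refine h1.congr_of_eventuallyEq ?_
    have h2 : ∀ᶠ z in 𝓝 x, f z ∈ (lh hp (f x)).source :=
      hc.eventually ((lh hp (f x)).open_source.mem_nhds (lh_mem hp (f x)))
    filter_upwards [h2] with z hz
    change f z = (lh hp (f x)).symm (p (f z))
    rw [← lh_apply hp (f x), (lh hp (f x)).left_inv hz]

end manifold

/-! ### fibre products -/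

section fibre

variable {M T S : Type} [TopologicalSpace M] [TopologicalSpace T] [TopologicalSpace S]
  (u : M → S) (q : T → S)

/-- the fibre product -/
def FP : Type := {z : M × T // u z.1 = q z.2}

instance : TopologicalSpace (FP u q) := inferInstanceAs (TopologicalSpace {z : M × T // _})

namespace FP
variable {u q}

/-- first projection -/
def fst (z : FP u q) : M := z.1.1
/-- second projection -/
def snd (z : FP u q) : T := z.1.2

theorem eq (z : FP u q) : u z.fst = q z.snd := z.2

theorem continuous_fst : Continuous (fst : FP u q → M) :=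
  _root_.continuous_fst.comp continuous_subtype_val
theorem continuous_snd : Continuous (snd : FP u q → T) :=
  _root_.continuous_snd.comp continuous_subtype_val

/-- constructor -/
def mk (x : M) (t : T) (h : u x = q t) : FP u q := ⟨(x, t), h⟩

@[simp] theorem mk_fst (x : M) (t : T) (h : u x = q t) : (mk x t h).fst = x := rfl
@[simp] theorem mk_snd (x : M) (t : T) (h : u x = q t) : (mk x t h).snd = t := rfl

theorem ext {z z' : FP u q} (h1 : z.fst = z'.fst) (h2 : z.snd = z'.snd) : z = z' :=
  Subtype.ext (Prod.ext h1 h2)

theorem continuous_mk {W : Type} [TopologicalSpace W] {f : W → M} {k : W → T}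
    (hf : Continuous f) (hk : Continuous k) (h : ∀ w, u (f w) = q (k w)) :
    Continuous (fun w => mk (f w) (k w) (h w)) :=
  (hf.prodMk hk).subtype_mk _

open Classical in
/-- local inverse of the first projection -/
def loc (hu : Continuous u) (φ : OpenPartialHomeomorph T S) (hφ : ∀ t, q t = φ t)
    (z₀ : FP u q) : OpenPartialHomeomorph (FP u q) M where
  toFun := fst
  invFun x :=
    if h : u x ∈ φ.target then mk x (φ.symm (u x)) (by rw [hφ, φ.right_inv h]) else z₀
  source := snd ⁻¹' φ.source
  target := u ⁻¹' φ.target
  map_source' z hz := by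
    change u z.fst ∈ φ.target
    rw [z.eq, hφ]
    exact φ.map_source hz
  map_target' x hx := by
    have hx' : u x ∈ φ.target := hx
    change (dite _ _ _ : FP u q).snd ∈ φ.source
    rw [dif_pos hx']
    exact φ.map_target hx'
  left_inv' z hz := by
    have hz' : u z.fst ∈ φ.target := by
      rw [z.eq, hφ]
      exact φ.map_source hz
    change (dite _ _ _ : FP u q) = z
    rw [dif_pos hz']
    refine ext rfl ?_
    change φ.symm (u z.fst) = z.snd
    rw [z.eq, hφ, φ.left_inv hz]
  right_inv' x hx := by
    have hx' : u x ∈ φ.target := hx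
    change (dite _ _ _ : FP u q).fst = x
    rw [dif_pos hx']
    rfl
  open_source := φ.open_source.preimage continuous_snd
  open_target := φ.open_target.preimage hu
  continuousOn_toFun := continuous_fst.continuousOn
  continuousOn_invFun := by
    rw [continuousOn_iff_continuous_restrict]
    have h1 : Continuous fun x : (u ⁻¹' φ.target : Set M) =>
        mk (u := u) (q := q) (x : M) (φ.symm (u x))
          (by rw [hφ, φ.right_inv (show u x ∈ φ.target from x.2)]) := by
      refine continuous_mk continuous_subtype_val ?_ _
      have h2 : ContinuousOn (fun x : M => φ.symm (u x)) (u ⁻¹' φ.target) :=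
        φ.continuousOn_symm.comp hu.continuousOn fun x hx => hx
      exact continuousOn_iff_continuous_restrict.1 h2
    refine h1.congr fun x => ?_
    change _ = (dite _ _ _ : FP u q)
    rw [dif_pos (show u x ∈ φ.target from x.2)]

theorem isLocalHomeomorph_fst (hu : Continuous u) (hq : IsLocalHomeomorph q) :
    IsLocalHomeomorph (fst : FP u q → M) := by
  intro z
  obtain ⟨φ, hφ, hφq⟩ := hq z.snd
  exact ⟨loc hu φ (fun t => congrFun hφq t) z, hφ, rfl⟩

theorem t2 [T2Space M] [T2Space T] : T2Space (FP u q) :=
  inferInstanceAs (T2Space {z : M × T // u z.1 = q z.2})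

theorem isClosedEmbedding [T2Space S] (hu : Continuous u) (hq : Continuous q) :
    IsClosedEmbedding (fun z : FP u q => (z.fst, z.snd)) :=
  (isClosed_eq (hu.comp _root_.continuous_fst)
    (hq.comp _root_.continuous_snd)).isClosedEmbedding_subtypeVal

/-- compactness of preimages of compact sets of `T` -/
theorem isCompact_preimage_snd [T2Space S] [CompactSpace M] (hu : Continuous u)
    (hq : Continuous q) {K : Set T} (hK : IsCompact K) :
    IsCompact (snd ⁻¹' K : Set (FP u q)) := by
  have h1 := (isClosedEmbedding (u := u) (q := q) hu hq).isCompact_preimage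
    (isCompact_univ.prod hK)
  convert h1 using 1
  ext z
  simp

end FP

end fibre

end

end Crest.Agent.R275.ZC352
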