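import Crest.Agent.R275.ZC6_352
import Crest.Agent.R275.ZC7_352

/-! R275, block ZC (helper352), file 8: the circle-valued map, the infinite cyclic cover
`Yc u = {(x, r) | u x = r mod 1}`, the deck transformation, connectedness, and primitives of local
primitive systems on the cover. -/

set_option autoImplicit false
set_option linter.unusedSectionVars false

open Topology Set Filter
open scoped Manifold ContDiff

namespace Crest.Agent.R275.ZC352

noncomputable section

/-- the circle `ℝ/ℤ` -/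
abbrev Circ : Type := AddCircle (1 : ℝ)

theorem coe_eq_zero_iff {r : ℝ} : (r : Circ) = 0 ↔ ∃ n : ℤ, (n : ℝ) = r := by
  rw [AddCircle.coe_eq_zero_iff]
  simp

theorem coe_eq_coe_iff {r s : ℝ} : (r : Circ) = (s : Circ) ↔ ∃ n : ℤ, r = s + n := by
  rw [← sub_eq_zero, ← AddCircle.coe_sub, coe_eq_zero_iff]
  constructor
  · rintro ⟨n, hn⟩
    exact ⟨n, by rw [hn]; ring⟩
  · rintro ⟨n, hn⟩
    exact ⟨n, by rw [hn]; ring⟩

theorem exists_coe_eq (c : Circ) : ∃ r : ℝ, (r : Circ) = c := QuotientAddGroup.mk_surjective c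

/-! ### the cover attached to a circle-valued map -/

variable {X : Type} [TopologicalSpace X]

/-- the infinite cyclic cover -/
abbrev Yc (u : X → Circ) : Type := FP u (fun r : ℝ => (r : Circ))

namespace Yc

variable (u : X → Circ)

/-- the projection -/
def pr : Yc u → X := FP.fst

/-- the height -/
def ht : Yc u → ℝ := FP.snd

theorem continuous_pr : Continuous (pr u) := FP.continuous_fst
theorem continuous_ht : Continuous (ht u) := FP.continuous_snd

theorem eq (y : Yc u) : u (pr u y) = (ht u y : Circ) := y.2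

/-- the projection as a bundled map -/
def prC : C(Yc u, X) := ⟨pr u, continuous_pr u⟩

/-- the point `(x, r)` -/
def mk' (x : X) (r : ℝ) (h : u x = (r : Circ)) : Yc u := FP.mk x r h

@[simp] theorem pr_mk (x : X) (r : ℝ) (h : u x = (r : Circ)) : pr u (mk' u x r h) = x := rfl
@[simp] theorem ht_mk (x : X) (r : ℝ) (h : u x = (r : Circ)) : ht u (mk' u x r h) = r := rfl

theorem ext' {y y' : Yc u} (h1 : pr u y = pr u y') (h2 : ht u y = ht u y') : y = y' :=
  FP.ext h1 h2

/-- translation by an integer -/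
def tr (n : ℤ) (y : Yc u) : Yc u := mk' u (pr u y) (ht u y + n) (by
  rw [eq u y, coe_eq_coe_iff]
  exact ⟨-n, by push_cast; ring⟩)

@[simp] theorem pr_tr (n : ℤ) (y : Yc u) : pr u (tr u n y) = pr u y := rfl
@[simp] theorem ht_tr (n : ℤ) (y : Yc u) : ht u (tr u n y) = ht u y + n := rfl

theorem continuous_tr (n : ℤ) : Continuous (tr u n) :=
  FP.continuous_mk (continuous_pr u) ((continuous_ht u).add continuous_const) _

theorem tr_tr (n m : ℤ) (y : Yc u) : tr u n (tr u m y) = tr u (n + m) y := by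
  refine ext' u rfl ?_
  simp only [ht_tr]
  push_cast
  ring

theorem tr_zero (y : Yc u) : tr u 0 y = y := by
  refine ext' u rfl ?_
  simp

/-- the deck transformation `(x, r) ↦ (x, r - 1)` -/
def dk : Yc u ≃ₜ Yc u where
  toFun := tr u (-1)
  invFun := tr u 1
  left_inv y := by
    rw [tr_tr]
    exact tr_zero u y
  right_inv y := by
    rw [tr_tr]
    exact tr_zero u y
  continuous_toFun := continuous_tr u _
  continuous_invFun := continuous_tr u _

@[simp] theorem pr_dk (y : Yc u) : pr u (dk u y) = pr u y := rfl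
theorem ht_dk (y : Yc u) : ht u (dk u y) = ht u y - 1 := by
  change ht u y + ((-1 : ℤ) : ℝ) = ht u y - 1
  push_cast
  ring

@[simp] theorem pr_dk_symm (y : Yc u) : pr u ((dk u).symm y) = pr u y := rfl
theorem ht_dk_symm (y : Yc u) : ht u ((dk u).symm y) = ht u y + 1 := by
  change ht u y + ((1 : ℤ) : ℝ) = ht u y + 1
  push_cast
  ring

theorem dk_iterate (n : ℕ) (y : Yc u) : (dk u)^[n] y = tr u (-n) y := by
  induction n with
  | zero =>
    rw [Function.iterate_zero, id]
    exact (tr_zero u y).symm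
  | succ n ih =>
    rw [Function.iterate_succ_apply', ih]
    change tr u (-1) _ = _
    rw [tr_tr]
    congr 1
    push_cast
    ring

/-- points with the same projection -/
theorem exists_tr {y y' : Yc u} (h : pr u y = pr u y') : ∃ n : ℤ, tr u n y = y' := by
  have h1 : (ht u y' : Circ) = (ht u y : Circ) := by rw [← eq u y', ← eq u y, h]
  obtain ⟨n, hn⟩ := coe_eq_coe_iff.1 h1
  exact ⟨n, ext' u h hn.symm⟩

/-- the fibres are the orbits -/
theorem fibre {y y' : Yc u} (h : pr u y = pr u y') :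
    ∃ n : ℕ, (dk u)^[n] y = y' ∨ (dk u)^[n] y' = y := by
  obtain ⟨n, hn⟩ := exists_tr u h
  obtain ⟨m, rfl | rfl⟩ := n.eq_nat_or_neg
  · refine ⟨m, Or.inr ?_⟩
    rw [dk_iterate, ← hn, tr_tr]
    simp [tr_zero]
  · refine ⟨m, Or.inl ?_⟩
    rw [dk_iterate]
    exact hn

theorem pr_surjective : Function.Surjective (pr u) := by
  intro x
  obtain ⟨r, hr⟩ := exists_coe_eq (u x)
  exact ⟨mk' u x r hr.symm, rfl⟩

theorem isLocalHomeomorph (hu : Continuous u) : IsLocalHomeomorph (pr u) :=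
  FP.isLocalHomeomorph_fst hu (AddCircle.isLocalHomeomorph_coe 1)

instance [T2Space X] : T2Space (Yc u) := FP.t2

/-- slabs are compact -/
theorem isCompact_slab [CompactSpace X] (hu : Continuous u) (a b : ℝ) :
    IsCompact {y : Yc u | a ≤ ht u y ∧ ht u y ≤ b} :=
  FP.isCompact_preimage_snd hu (AddCircle.continuous_mk' (1 : ℝ)) (isCompact_Icc (a := a) (b := b))

end Yc

/-! ### the circle-valued map of a local primitive system -/

section circ

variable [PathConnectedSpace X] (P : LPS X ℝ)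

/-- periods are integers -/
def IntPeriods : Prop := ∀ (x₀ : X) (γ : Path x₀ x₀), ∃ n : ℤ, (n : ℝ) = P.vary (sd γ)

/-- the circle-valued map -/
def circ (x₀ x : X) : Circ := (P.vary (sd (PathConnectedSpace.somePath x₀ x)) : ℝ)

variable {P}

theorem circ_eq (hP : IntPeriods P) {x₀ x : X} (γ : Path x₀ x) :
    circ P x₀ x = (P.vary (sd γ) : ℝ) := by
  obtain ⟨n, hn⟩ := hP x₀ ((PathConnectedSpace.somePath x₀ x).trans γ.symm)
  rw [P.isCoc_vary.trans, P.isCoc_vary.symm] at hn
  unfold circ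
  rw [coe_eq_coe_iff]
  exact ⟨n, by rw [hn]; ring⟩

theorem circ_sub (hP : IntPeriods P) (x₀ : X) (σ : C(Dn 1, X)) :
    circ P x₀ (σ (vx 1 1)) - circ P x₀ (σ (vx 1 0)) = (P.vary σ : ℝ) := by
  rw [circ_eq hP ((PathConnectedSpace.somePath x₀ (σ (vx 1 0))).trans (ofSd σ)),
    circ_eq hP (PathConnectedSpace.somePath x₀ (σ (vx 1 0))), P.isCoc_vary.trans, sd_ofSd,
    ← AddCircle.coe_sub]
  congr 1
  ring

theorem circ_self (hP : IntPeriods P) (x₀ : X) : circ P x₀ x₀ = 0 := by
  rw [circ_eq hP (Path.refl x₀), sd_refl, P.isCoc_vary.const]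
  rfl

variable [LocallyPathConnectedSpace X]

/-- local form of the circle-valued map -/
theorem circ_local (hP : IntPeriods P) (x₀ : X) (i : P.ι) {z : X} (hz : z ∈ P.U i) :
    ∀ᶠ w in 𝓝 z, circ P x₀ w - circ P x₀ z = ((P.h i w - P.h i z : ℝ) : Circ) := by
  obtain ⟨W, ⟨hW, hWc⟩, hW2⟩ := (path_connected_basis z).mem_iff.1 ((P.isOpen i).mem_nhds hz)
  filter_upwards [hW] with w hw
  obtain ⟨σ, h0, h1, h2⟩ := exists_simplex_joinedIn (hWc.joinedIn z (mem_of_mem_nhds hW) w hw)
  have h3 := circ_sub hP x₀ σ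
  rw [P.vary_of_mem i σ (fun t => hW2 (h2 t)), h0, h1] at h3
  exact h3

/-- smooth lifts of a circle-valued map -/
def HasLifts (E : Type) [NormedAddCommGroup E] [NormedSpace ℝ E] {X : Type} [TopologicalSpace X]
    [ChartedSpace E X] (u : X → Circ) : Prop :=
  ∀ x : X, ∀ r : ℝ, (r : Circ) = u x → ∃ (W : Set X) (f : X → ℝ), IsOpen W ∧ x ∈ W ∧ f x = r ∧
    (∀ y ∈ W, (f y : Circ) = u y) ∧ ∀ y ∈ W, ContMDiffAt 𝓘(ℝ, E) 𝓘(ℝ, ℝ) ∞ f y

theorem HasLifts.continuous {E : Type} [NormedAddCommGroup E] [NormedSpace ℝ E] {X : Type}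
    [TopologicalSpace X] [ChartedSpace E X] {u : X → Circ} (h : HasLifts E u) :
    Continuous u := by
  rw [continuous_iff_continuousAt]
  intro x
  obtain ⟨r, hr⟩ := exists_coe_eq (u x)
  obtain ⟨W, f, hW, hx, -, hf, hs⟩ := h x r hr
  have h1 : ContinuousAt (fun y => (f y : Circ)) x :=
    (AddCircle.continuous_mk' (1 : ℝ)).continuousAt.comp (hs x hx).continuousAt
  refine h1.congr ?_
  filter_upwards [hW.mem_nhds hx] with y hy
  exact hf y hy

theorem circ_hasLifts {E : Type} [NormedAddCommGroup E] [NormedSpace ℝ E] [ChartedSpace E X]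
    (hP : IntPeriods P)
    (hs : ∀ i, ∀ x ∈ P.U i, ContMDiffAt 𝓘(ℝ, E) 𝓘(ℝ, ℝ) ∞ (P.h i) x) (x₀ : X) :
    HasLifts E (circ P x₀) := by
  intro x r hr
  obtain ⟨i, hi⟩ := P.cover x
  obtain ⟨W, hW, hWo, hxW⟩ := eventually_nhds_iff.1
    ((circ_local hP x₀ i hi).and ((P.isOpen i).mem_nhds hi))
  refine ⟨W, fun y => P.h i y - P.h i x + r, hWo, hxW, by ring, fun y hy => ?_, fun y hy => ?_⟩
  · have h1 := (hW y hy).1
    rw [sub_eq_iff_eq_add] at h1
    rw [h1, ← hr, ← AddCircle.coe_add]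
  · exact ((hs i y (hW y hy).2).sub contMDiffAt_const).add contMDiffAt_const

/-- lifting a path to the cover -/
theorem exists_lift_path {E : Type} [NormedAddCommGroup E] [NormedSpace ℝ E] [ChartedSpace E X]
    (hP : IntPeriods P)
    (hs : ∀ i, ∀ x ∈ P.U i, ContMDiffAt 𝓘(ℝ, E) 𝓘(ℝ, ℝ) ∞ (P.h i) x) (x₀ : X)
    {x y : X} (γ : Path x y) {r s : ℝ} (hr : circ P x₀ x = (r : Circ))
    (hsy : circ P x₀ y = (s : Circ)) (hrs : s = r + P.vary (sd γ)) :
    Joined (Yc.mk' (circ P x₀) x r hr) (Yc.mk' (circ P x₀) y s hsy) := by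
  obtain ⟨F, hF⟩ := P.exists_prim_simplex (sd γ)
  -- continuity of `F`
  have hFc : Continuous F := by
    rw [continuous_iff_continuousAt]
    intro t
    obtain ⟨i, hi⟩ := (P.pull (sd γ)).cover t
    have h1 : ContinuousAt (fun t' => P.h i (sd γ t') - P.h i (sd γ t) + F t) t := by
      refine ContinuousAt.add (ContinuousAt.sub ?_ continuousAt_const) continuousAt_const
      exact ContinuousAt.comp (f := sd γ) (hs i _ hi).continuousAt (sd γ).continuous.continuousAt
    refine h1.congr ?_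
    filter_upwards [hF i t hi] with t' ht'
    have h2 : F t' - F t = P.h i (sd γ t') - P.h i (sd γ t) := ht'
    linarith
  -- `u ∘ γ` and `F` agree modulo integers up to a constant
  let P' := (P.pull (sd γ)).map (QuotientAddGroup.mk' (AddSubgroup.zmultiples (1 : ℝ)))
  have h1 : P'.IsPrim (fun t => ((F t : ℝ) : Circ)) := hF.map _ _
  have h2 : P'.IsPrim (fun t => circ P x₀ (sd γ t)) := by
    intro i t ht
    have h3 := (sd γ).continuous.continuousAt.eventually
      (circ_local hP x₀ i (show sd γ t ∈ P.U i from ht))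
    filter_upwards [h3] with t' ht'
    rw [ht', AddCircle.coe_sub]
    rfl
  have h4 : ∀ t : Dn 1, circ P x₀ (sd γ t) = ((F t - F (vx 1 0) + r : ℝ) : Circ) := by
    intro t
    have h5 := h2.sub_eq _ h1 (vx 1 0) t
    rw [sd_zero, hr] at h5
    rw [sub_eq_iff_eq_add] at h5
    rw [h5, AddCircle.coe_add, AddCircle.coe_sub]
  let e := stdSimplexHomeomorphUnitInterval.symm
  have e0 : e 0 = vx 1 0 := (Homeomorph.symm_apply_eq _).2 rfl
  have e1 : e 1 = vx 1 1 := (Homeomorph.symm_apply_eq _).2 rfl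
  refine ⟨⟨⟨fun t => Yc.mk' (circ P x₀) (sd γ (e t)) (F (e t) - F (vx 1 0) + r) (h4 (e t)), ?_⟩,
    ?_, ?_⟩⟩
  · refine FP.continuous_mk ((sd γ).continuous.comp e.continuous) ?_ _
    exact ((hFc.comp e.continuous).sub continuous_const).add continuous_const
  · refine Yc.ext' _ ?_ ?_
    · change sd γ (e 0) = x
      rw [e0, sd_zero]
    · change F (e 0) - F (vx 1 0) + r = r
      rw [e0]
      ring
  · refine Yc.ext' _ ?_ ?_
    · change sd γ (e 1) = y
      rw [e1, sd_one]
    · change F (e 1) - F (vx 1 0) + r = s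
      rw [e1, hrs, P.vary_eq hF]
      ring

/-- the cover is path connected -/
theorem pathConnected_Yc {E : Type} [NormedAddCommGroup E] [NormedSpace ℝ E] [ChartedSpace E X]
    (hP : IntPeriods P)
    (hs : ∀ i, ∀ x ∈ P.U i, ContMDiffAt 𝓘(ℝ, E) 𝓘(ℝ, ℝ) ∞ (P.h i) x) (x₀ : X)
    (hone : ∀ n : ℤ, ∃ γ : Path x₀ x₀, P.vary (sd γ) = n) :
    PathConnectedSpace (Yc (circ P x₀)) := by
  have h0 : circ P x₀ x₀ = ((0 : ℝ) : Circ) := circ_self hP x₀
  have key : ∀ y : Yc (circ P x₀), Joined y (Yc.mk' (circ P x₀) x₀ 0 h0) := by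
    intro y
    let γ := PathConnectedSpace.somePath (Yc.pr _ y) x₀
    have h1 : circ P x₀ x₀ = ((Yc.ht _ y + P.vary (sd γ) : ℝ) : Circ) := by
      have h2 := circ_sub hP x₀ (sd γ)
      rw [sd_zero, sd_one, Yc.eq _ y, sub_eq_iff_eq_add] at h2
      rw [h2, AddCircle.coe_add, add_comm]
    have h3 := exists_lift_path (E := E) hP hs x₀ γ (Yc.eq _ y) h1 rfl
    obtain ⟨n, hn⟩ := coe_eq_zero_iff.1 (h1.symm.trans h0)
    obtain ⟨γ', hγ'⟩ := hone (-n)
    have h4 := exists_lift_path (E := E) hP hs x₀ γ' h1 h0 (by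
      rw [hγ', ← hn]
      push_cast
      ring)
    exact h3.trans h4
  exact { nonempty := ⟨Yc.mk' (circ P x₀) x₀ 0 h0⟩
          joined := fun y y' => (key y).trans (key y').symm }

end circ

/-! ### primitives on the cover -/

/-- every local primitive system of `X` has a primitive on the cover, with constant monodromy -/
def UnivPrim (u : X → Circ) : Prop :=
  ∀ (V : Type) [AddCommGroup V] [Module ℝ V] (Q : LPS X V), ∃ (v : V) (F : Yc u → V),
    (Q.pull (Yc.prC u)).IsPrim F ∧ ∀ y, F (Yc.dk u y) = F y - v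

theorem univPrim_circ [PathConnectedSpace X] [LocallyPathConnectedSpace X] {P : LPS X ℝ}
    (hP : IntPeriods P) (hcont : ∀ i, ∀ x ∈ P.U i, ContinuousAt (P.h i) x) (hU : IsUniv P.vary)
    (x₀ : X) : UnivPrim (circ P x₀) := by
  intro V _ _ Q
  obtain ⟨v, f, hf⟩ := hU V Q.vary Q.isCoc_vary
  set u := circ P x₀ with hu
  refine ⟨v, fun y => Yc.ht u y • v + f (Yc.pr u y), ?_, fun y => ?_⟩
  · intro j y hy
    have hy' : Yc.pr u y ∈ Q.U j := hy
    obtain ⟨i, hi⟩ := P.cover (Yc.pr u y)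
    obtain ⟨W, ⟨hW, hWc⟩, hW2⟩ := (path_connected_basis (Yc.pr u y)).mem_iff.1
      (((P.isOpen i).inter (Q.isOpen j)).mem_nhds ⟨hi, hy'⟩)
    have h1 : ∀ᶠ w in 𝓝 y, Yc.pr u w ∈ W := (Yc.continuous_pr u).continuousAt.eventually hW
    have h2 : ∀ᶠ w in 𝓝 y, |Yc.ht u w - Yc.ht u y - (P.h i (Yc.pr u w) - P.h i (Yc.pr u y))| < 1 := by
      have h3 : ContinuousAt (fun w => Yc.ht u w - Yc.ht u y -
          (P.h i (Yc.pr u w) - P.h i (Yc.pr u y))) y := by
        refine ((Yc.continuous_ht u).continuousAt.sub continuousAt_const).sub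
          (ContinuousAt.sub ?_ continuousAt_const)
        exact ContinuousAt.comp (f := Yc.pr u) (hcont i _ hi) (Yc.continuous_pr u).continuousAt
      have h4 : ContinuousAt (fun w => |Yc.ht u w - Yc.ht u y -
          (P.h i (Yc.pr u w) - P.h i (Yc.pr u y))|) y := h3.abs
      refine h4.eventually (gt_mem_nhds ?_)
      simp
    filter_upwards [h1, h2] with w hw hw'
    obtain ⟨σ, h0, h1, h3⟩ := exists_simplex_joinedIn
      (hWc.joinedIn _ (mem_of_mem_nhds hW) _ hw)
    have e1 := P.vary_of_mem i σ (fun t => (hW2 (h3 t)).1)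
    have e2 := Q.vary_of_mem j σ (fun t => (hW2 (h3 t)).2)
    have e3 := circ_sub hP x₀ σ
    rw [h0, h1, ← hu, Yc.eq u w, Yc.eq u y, ← AddCircle.coe_sub, coe_eq_coe_iff] at e3
    obtain ⟨n, hn⟩ := e3
    have e4 : n = 0 := by
      rw [h0, h1] at e1
      rw [hn, e1] at hw'
      have h5 : |(n : ℝ)| < 1 := by
        convert hw' using 2
        ring
      have h6 : |n| < 1 := by exact_mod_cast h5
      exact Int.abs_lt_one_iff.1 h6
    rw [e4, Int.cast_zero, add_zero] at hn
    have e5 := hf σ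
    rw [e2, h0, h1, ← hn] at e5
    change Yc.ht u w • v + f (Yc.pr u w) - (Yc.ht u y • v + f (Yc.pr u y)) =
      Q.h j (Yc.pr u w) - Q.h j (Yc.pr u y)
    rw [e5]
    module
  · change Yc.ht u (Yc.dk u y) • v + f (Yc.pr u y) = Yc.ht u y • v + f (Yc.pr u y) - v
    rw [Yc.ht_dk]
    module

/-! ### the main existence theorem -/

/-- **Existence of the Z-cover.** -/
theorem exists_circle_map {E : Type} [NormedAddCommGroup E] [NormedSpace ℂ E]
    [FiniteDimensional ℂ E] [ChartedSpace E X] [IsManifold 𝓘(ℂ, E) 1 X]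
    [T2Space X] [CompactSpace X] [ConnectedSpace X]
    (h : Module.finrank ℚ (SH ℚ 1 X) = 1) :
    ∃ u : X → Circ, HasLifts E u ∧ Continuous u ∧ PathConnectedSpace (Yc u) ∧ UnivPrim u := by
  have hl : LocallyPathConnectedSpace X := ChartedSpace.locallyPathConnectedSpace E X
  have hp : PathConnectedSpace X := pathConnectedSpace_iff_connectedSpace.2 inferInstance
  obtain ⟨P, hs, hper, hU⟩ := exists_smooth_LPS (E := E) h
  have hP : IntPeriods P := fun x₀ γ => (hper x₀ _).1 ⟨γ, rfl⟩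
  obtain ⟨x₀⟩ : Nonempty X := inferInstance
  have hl := circ_hasLifts (E := E) hP hs x₀
  exact ⟨circ P x₀, hl, hl.continuous,
    pathConnected_Yc (E := E) hP hs x₀ (fun n => (hper x₀ n).2 ⟨n, rfl⟩),
    univPrim_circ hP (fun i x hx => (hs i x hx).continuousAt) hU x₀⟩

end

end Crest.Agent.R275.ZC352
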